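import Vale.Agent.H10.OTDiscStmt

open MeasureTheory Set Filter Topology
open scoped ENNReal NNReal RealInnerProductSpace

namespace Vale.Agent.H10.OT

set_option linter.unusedSectionVars false
set_option linter.unusedVariables false

/-- injective choice from infinite sets -/
lemma exists_injective_choice {X : Type} : ∀ (n : ℕ) (U : Fin n → Set X),
    (∀ i, (U i).Infinite) → ∃ y : Fin n → X, Function.Injective y ∧ ∀ i, y i ∈ U i := by
  intro n
  induction n with
  | zero =>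
    intro U _
    exact ⟨fun i => i.elim0, fun i => i.elim0, fun i => i.elim0⟩
  | succ n ih =>
    intro U hU
    obtain ⟨y', hy', hyU⟩ := ih (fun i => U i.succ) (fun i => hU i.succ)
    obtain ⟨a, ha, ha'⟩ := (hU 0).exists_notMem_finite (Set.finite_range y')
    refine ⟨Fin.cons a y', Fin.cons_injective_iff.2 ⟨ha', hy'⟩, ?_⟩
    intro i
    refine Fin.cases ?_ (fun j => ?_) i
    · exact ha
    · exact hyU j

/-- measurable index of a finite cover -/
lemma exists_index {X : Type} [MeasurableSpace X] {N : ℕ} (hN : 0 < N) (A : Fin N → Set X)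
    (hA : ∀ k, MeasurableSet (A k)) :
    ∃ κ : X → Fin N, Measurable κ ∧ ∀ x, (∃ k, x ∈ A k) → x ∈ A (κ x) := by
  classical
  let p : ℕ → X → Prop := fun k x => (∃ h : k < N, x ∈ A ⟨k, h⟩) ∨ N ≤ k
  let f : ℕ → X → Fin N := fun k _ => if h : k < N then ⟨k, h⟩ else ⟨0, hN⟩
  have hp : ∀ k, MeasurableSet {x | p k x} := by
    intro k
    by_cases h : k < N
    · have : {x | p k x} = A ⟨k, h⟩ := by
        ext x
        constructor
        · rintro (⟨_, hx⟩ | h')
          · exact hx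
          · exact absurd h (not_lt.2 h')
        · intro hx; exact Or.inl ⟨h, hx⟩
      rw [this]
      exact hA _
    · have : {x | p k x} = univ := by
        ext x
        simp only [mem_ofPred_eq, mem_univ, iff_true]
        exact Or.inr (not_lt.1 h)
      rw [this]
      exact MeasurableSet.univ
  have hex : ∀ x, ∃ k, p k x := fun x => ⟨N, Or.inr le_rfl⟩
  have hfm : ∀ k, Measurable (f k) := fun k => measurable_const
  refine ⟨fun x => f (Nat.find (hex x)) x, Measurable.find hfm hp hex, ?_⟩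
  rintro x ⟨k, hk⟩
  have hle : Nat.find (hex x) ≤ k := Nat.find_le (Or.inl ⟨k.2, hk⟩)
  have hlt : Nat.find (hex x) < N := lt_of_le_of_lt hle k.2
  rcases Nat.find_spec (hex x) with ⟨h, hc⟩ | h
  · simp only [f]
    rw [dif_pos h]
    exact hc
  · exact absurd hlt (not_lt.2 h)

variable {V : Type} [NormedAddCommGroup V] [InnerProductSpace ℝ V] [FiniteDimensional ℝ V]
  [MeasurableSpace V] [BorelSpace V]

/-- (1) discretization of a coupling -/
theorem discretize [Nontrivial V] {M : ℝ} (hM : 0 < M) {π : Measure (V × V)}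
    [IsProbabilityMeasure π] (h1 : ∀ᵐ p ∂π, ‖p.1‖ ≤ M) (h2 : ∀ᵐ p ∂π, ‖p.2‖ ≤ M) {δ : ℝ}
    (hδ : 0 < δ) (hδ1 : δ ≤ 1) :
    ∃ (n : ℕ) (m : Fin n → ℝ) (y z : Fin n → V) (κ : V × V → Fin n), (∀ i, 0 < m i) ∧
      ∑ i, m i = 1 ∧ Function.Injective y ∧ Function.Injective z ∧ (∀ i, ‖y i‖ ≤ M + 1) ∧
      (∀ i, ‖z i‖ ≤ M + 1) ∧ Measurable κ ∧ (∀ i, π (κ ⁻¹' {i}) = ENNReal.ofReal (m i)) ∧
      (∀ᵐ p ∂π, ‖p.1 - y (κ p)‖ ≤ δ ∧ ‖p.2 - z (κ p)‖ ≤ δ) := by
  classical
  have hcomp : IsCompact ((Metric.closedBall (0:V) M) ×ˢ (Metric.closedBall (0:V) M)) :=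
    (isCompact_closedBall 0 M).prod (isCompact_closedBall 0 M)
  have hδ2 : 0 < δ / 2 := by positivity
  obtain ⟨t, htB, htfin, htcov⟩ := hcomp.finite_cover_balls hδ2
  have htne : t.Nonempty := by
    by_contra hne
    rw [Set.not_nonempty_iff_eq_empty] at hne
    rw [hne] at htcov
    have : ((0:V), (0:V)) ∈ (Metric.closedBall (0:V) M) ×ˢ (Metric.closedBall (0:V) M) := by
      constructor <;> simp [hM.le]
    have := htcov this
    simp at this
  -- enumerate the centres
  obtain ⟨N, hN, c, hc⟩ : ∃ N : ℕ, 0 < N ∧ ∃ c : Fin N → V × V, range c = t := by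
    have : Fintype t := htfin.fintype
    have htn : Nonempty t := htne.to_subtype
    refine ⟨Fintype.card t, Fintype.card_pos, fun k => ((Fintype.equivFin t).symm k : V × V), ?_⟩
    ext x
    constructor
    · rintro ⟨k, rfl⟩
      exact ((Fintype.equivFin t).symm k).2
    · intro hx
      exact ⟨Fintype.equivFin t ⟨x, hx⟩, by simp⟩
  have hcM : ∀ k, ‖(c k).1‖ ≤ M ∧ ‖(c k).2‖ ≤ M := by
    intro k
    have h3 : c k ∈ t := by rw [← hc]; exact mem_range_self k
    have h4 := htB h3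
    exact ⟨by simpa using h4.1, by simpa using h4.2⟩
  obtain ⟨κ0, hκ0m, hκ0⟩ := exists_index hN (fun k => Metric.ball (c k) (δ / 2))
    (fun k => Metric.isOpen_ball.measurableSet)
  have hae0 : ∀ᵐ p ∂π, p ∈ Metric.ball (c (κ0 p)) (δ / 2) := by
    filter_upwards [h1, h2] with p hp1 hp2
    apply hκ0
    have hpB : p ∈ (Metric.closedBall (0:V) M) ×ˢ (Metric.closedBall (0:V) M) :=
      ⟨by simpa using hp1, by simpa using hp2⟩
    obtain ⟨q, hq, hpq⟩ := mem_iUnion₂.1 (htcov hpB)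
    rw [← hc] at hq
    obtain ⟨k, rfl⟩ := hq
    exact ⟨k, hpq⟩
  -- positive masses
  let I : Type := {k : Fin N // π (κ0 ⁻¹' {k}) ≠ 0}
  have haeI : ∀ᵐ p ∂π, π (κ0 ⁻¹' {κ0 p}) ≠ 0 := by
    rw [ae_iff]
    have hsub : {p | ¬ (π (κ0 ⁻¹' {κ0 p}) ≠ 0)} ⊆
        ⋃ k ∈ {k : Fin N | π (κ0 ⁻¹' {k}) = 0}, κ0 ⁻¹' {k} := by
      intro p hp
      simp only [mem_ofPred_eq, ne_eq, not_not] at hp
      simp only [mem_iUnion]
      exact ⟨κ0 p, hp, rfl⟩
    apply measure_mono_null hsub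
    rw [measure_biUnion_null_iff (Set.to_countable _)]
    intro k hk
    exact hk
  have hIne : Nonempty I := by
    obtain ⟨p, hp⟩ := haeI.exists
    exact ⟨⟨κ0 p, hp⟩⟩
  let e : I ≃ Fin (Fintype.card I) := Fintype.equivFin I
  have hn : 0 < Fintype.card I := Fintype.card_pos
  let g : Fin N → Fin (Fintype.card I) := fun k =>
    if h : π (κ0 ⁻¹' {k}) ≠ 0 then e ⟨k, h⟩ else ⟨0, hn⟩
  have hg : Measurable g := measurable_of_finite g
  let κ : V × V → Fin (Fintype.card I) := fun p => g (κ0 p)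
  have hκ : Measurable κ := hg.comp hκ0m
  have hfibre : ∀ i, π (κ ⁻¹' {i}) = π (κ0 ⁻¹' {(e.symm i).1}) := by
    intro i
    apply measure_congr
    filter_upwards [haeI] with p hp
    apply propext
    show (g (κ0 p) = i) ↔ (κ0 p = (e.symm i).1)
    simp only [g]
    rw [dif_pos hp]
    constructor
    · intro h
      rw [← h, Equiv.symm_apply_apply]
    · intro h
      have : (⟨κ0 p, hp⟩ : I) = e.symm i := Subtype.ext h
      rw [this, Equiv.apply_symm_apply]
  have hmpos : ∀ i, 0 < (π (κ ⁻¹' {i})).toReal := by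
    intro i
    rw [hfibre i]
    exact ENNReal.toReal_pos (e.symm i).2 (measure_ne_top _ _)
  -- sites
  have hinf : ∀ x : V, (Metric.ball x (δ / 2)).Infinite := by
    intro x
    have : NeBot (𝓝[≠] x) := Module.punctured_nhds_neBot ℝ V x
    exact infinite_of_mem_nhds x (Metric.ball_mem_nhds x hδ2)
  obtain ⟨y, hy, hyU⟩ := exists_injective_choice (Fintype.card I)
    (fun i => Metric.ball (c (e.symm i).1).1 (δ / 2)) (fun i => hinf _)
  obtain ⟨z, hz, hzU⟩ := exists_injective_choice (Fintype.card I)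
    (fun i => Metric.ball (c (e.symm i).1).2 (δ / 2)) (fun i => hinf _)
  refine ⟨Fintype.card I, fun i => (π (κ ⁻¹' {i})).toReal, y, z, κ, hmpos, ?_, hy, hz, ?_, ?_, hκ,
    ?_, ?_⟩
  · rw [← ENNReal.toReal_sum (fun i _ => measure_ne_top _ _),
      sum_measure_preimage_singleton Finset.univ (fun i _ => hκ (measurableSet_singleton i))]
    simp
  · intro i
    have h3 := hyU i
    rw [Metric.mem_ball, dist_eq_norm] at h3
    have h4 := (hcM (e.symm i).1).1
    have h5 : ‖y i‖ ≤ ‖y i - (c (e.symm i).1).1‖ + ‖(c (e.symm i).1).1‖ := by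
      have := norm_add_le (y i - (c (e.symm i).1).1) (c (e.symm i).1).1
      rwa [sub_add_cancel] at this
    linarith
  · intro i
    have h3 := hzU i
    rw [Metric.mem_ball, dist_eq_norm] at h3
    have h4 := (hcM (e.symm i).1).2
    have h5 : ‖z i‖ ≤ ‖z i - (c (e.symm i).1).2‖ + ‖(c (e.symm i).1).2‖ := by
      have := norm_add_le (z i - (c (e.symm i).1).2) (c (e.symm i).1).2
      rwa [sub_add_cancel] at this
    linarith
  · intro i
    rw [ENNReal.ofReal_toReal (measure_ne_top _ _)]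
  · filter_upwards [haeI, hae0] with p hp hpb
    have hκp : (e.symm (κ p)).1 = κ0 p := by
      show (e.symm (g (κ0 p))).1 = κ0 p
      simp only [g]
      rw [dif_pos hp, Equiv.symm_apply_apply]
    have hy' := hyU (κ p)
    have hz' := hzU (κ p)
    rw [hκp, Metric.mem_ball, dist_eq_norm] at hy' hz'
    rw [Metric.mem_ball, Prod.dist_eq, max_lt_iff, dist_eq_norm, dist_eq_norm] at hpb
    constructor
    · calc ‖p.1 - y (κ p)‖ = ‖(p.1 - (c (κ0 p)).1) - (y (κ p) - (c (κ0 p)).1)‖ := by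
            congr 1; abel
        _ ≤ ‖p.1 - (c (κ0 p)).1‖ + ‖y (κ p) - (c (κ0 p)).1‖ := norm_sub_le _ _
        _ ≤ δ := by linarith [hpb.1]
    · calc ‖p.2 - z (κ p)‖ = ‖(p.2 - (c (κ0 p)).2) - (z (κ p) - (c (κ0 p)).2)‖ := by
            congr 1; abel
        _ ≤ ‖p.2 - (c (κ0 p)).2‖ + ‖z (κ p) - (c (κ0 p)).2‖ := norm_sub_le _ _
        _ ≤ δ := by linarith [hpb.2]

end Vale.Agent.H10.OT
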