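import Vale.Agent.H10.OTApprox1
import Vale.Agent.H10.OTApprox2

open MeasureTheory Set Filter Topology
open scoped ENNReal NNReal RealInnerProductSpace

namespace Vale.Agent.H10.OT

set_option linter.unusedSectionVars false
set_option linter.unusedVariables false

variable {V : Type} [NormedAddCommGroup V] [InnerProductSpace ℝ V] [FiniteDimensional ℝ V]
  [MeasurableSpace V] [BorelSpace V]

lemma eLp_unif {K : Set V} (hKc : IsCompact K) (hK0 : (volume : Measure V) K ≠ 0)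
    {F : V → V} (hint : IntegrableOn (fun x => ‖F x‖ ^ 2) K) :
    eLpNorm F 2 (unif K) =
      ENNReal.ofReal (Real.sqrt (((volume : Measure V).real K)⁻¹ * ∫ x in K, ‖F x‖ ^ 2)) := by
  have hKfin : (volume : Measure V) K ≠ ∞ := hKc.measure_lt_top.ne
  have hvKpos : 0 < (volume : Measure V).real K := ENNReal.toReal_pos hK0 hKfin
  have hI0 : 0 ≤ ∫ x in K, ‖F x‖ ^ 2 := integral_nonneg (fun x => by positivity)
  rw [eLpNorm_eq_lintegral_rpow_enorm_toReal (by norm_num) (by norm_num)]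
  simp only [ENNReal.toReal_ofNat, ENNReal.rpow_ofNat]
  unfold unif
  rw [lintegral_smul_measure, smul_eq_mul]
  simp_rw [enorm_sq_eq']
  rw [← ofReal_integral_eq_lintegral_ofReal hint (Eventually.of_forall (fun x => by positivity))]
  have e1 : (volume K)⁻¹ = ENNReal.ofReal ((volume : Measure V).real K)⁻¹ := by
    rw [ENNReal.ofReal_inv_of_pos hvKpos, Measure.real, ENNReal.ofReal_toReal hKfin]
  rw [e1, ← ENNReal.ofReal_mul (by positivity), ENNReal.ofReal_rpow_of_nonneg (by positivity)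
    (by norm_num), Real.sqrt_eq_rpow]

lemma map_index {n : ℕ} {X : Type} [MeasurableSpace X] {π : Measure X}
    {κ : X → Fin n} (hκ : Measurable κ) {m : Fin n → ℝ}
    (hm : ∀ i, π (κ ⁻¹' {i}) = ENNReal.ofReal (m i)) (y : Fin n → V) :
    π.map (fun p => y (κ p)) = ∑ i, ENNReal.ofReal (m i) • Measure.dirac (y i) := by
  have hy : Measurable y := measurable_of_finite y
  have h1 : π.map κ = ∑ i, ENNReal.ofReal (m i) • Measure.dirac i := by
    rw [Measure.ext_iff_singleton]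
    intro a
    rw [Measure.map_apply hκ (measurableSet_singleton a), hm, Measure.finsetSum_apply,
      Finset.sum_eq_single a]
    · rw [Measure.smul_apply, Measure.dirac_apply' _ (measurableSet_singleton a)]
      simp
    · intro b _ hb
      rw [Measure.smul_apply, Measure.dirac_apply' _ (measurableSet_singleton a)]
      simp [hb]
    · intro h; exact absurd (Finset.mem_univ _) h
  have h2 : π.map (fun p => y (κ p)) = (π.map κ).map y := by
    rw [Measure.map_map hy hκ]; rfl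
  rw [h2, h1]
  apply Measure.ext
  intro A hA
  rw [Measure.map_apply hy hA, Measure.finsetSum_apply, Measure.finsetSum_apply]
  apply Finset.sum_congr rfl
  intro i _
  rw [Measure.smul_apply, Measure.smul_apply, Measure.dirac_apply' _ (hy hA),
    Measure.dirac_apply' _ hA]
  rfl

lemma sum_index {n : ℕ} {X : Type} [MeasurableSpace X] {π : Measure X} [IsProbabilityMeasure π]
    {κ : X → Fin n} (hκ : Measurable κ) {m : Fin n → ℝ} (hm0 : ∀ i, 0 < m i)
    (hm : ∀ i, π (κ ⁻¹' {i}) = ENNReal.ofReal (m i)) (F : Fin n → ℝ) :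
    ∑ i, m i * F i = ∫ p, F (κ p) ∂π := by
  have hF : Measurable F := measurable_of_finite F
  have hpm : IsProbabilityMeasure (π.map κ) := Measure.isProbabilityMeasure_map hκ.aemeasurable
  rw [← integral_map hκ.aemeasurable hF.aestronglyMeasurable, integral_fintype]
  · apply Finset.sum_congr rfl
    intro i _
    rw [Measure.real, Measure.map_apply hκ (measurableSet_singleton i), hm,
      ENNReal.toReal_ofReal (hm0 i).le, smul_eq_mul]
  · exact Integrable.of_finite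

lemma W2_disc {μ ν : Measure V} {π : Measure (V × V)} [IsProbabilityMeasure π] {δ : ℝ}
    (hδ : 0 ≤ δ) {f g : V × V → V} (hf : Measurable f) (hg : Measurable g)
    (h1 : π.map f = μ) (h2 : π.map g = ν) (hle : ∀ᵐ p ∂π, ‖f p - g p‖ ≤ δ) :
    W2 μ ν ≤ ENNReal.ofReal δ := by
  have hc : IsCoupling μ ν (π.map (fun p => (f p, g p))) := by
    constructor
    · rw [Measure.map_map measurable_fst (hf.prodMk hg)]; exact h1
    · rw [Measure.map_map measurable_snd (hf.prodMk hg)]; exact h2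
  refine (iInf₂_le _ hc).trans ?_
  rw [lintegral_map (by fun_prop) (hf.prodMk hg)]
  have h3 : ∫⁻ p, ‖f p - g p‖ₑ ^ 2 ∂π ≤ ENNReal.ofReal (δ ^ 2) := by
    have h4 : ∀ᵐ p ∂π, ‖f p - g p‖ₑ ^ 2 ≤ ENNReal.ofReal (δ ^ 2) := by
      filter_upwards [hle] with p hp
      rw [enorm_sq_eq']
      exact ENNReal.ofReal_le_ofReal (pow_le_pow_left₀ (norm_nonneg _) hp 2)
    have := lintegral_mono_ae h4
    rwa [lintegral_const, measure_univ, mul_one] at this
  calc (∫⁻ p, ‖f p - g p‖ₑ ^ 2 ∂π) ^ (1 / 2 : ℝ) ≤ (ENNReal.ofReal (δ ^ 2)) ^ (1 / 2 : ℝ) :=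
        ENNReal.rpow_le_rpow h3 (by norm_num)
    _ = ENNReal.ofReal δ := by
        rw [ENNReal.ofReal_rpow_of_nonneg (by positivity) (by norm_num), ← Real.sqrt_eq_rpow,
          Real.sqrt_sq hδ]

lemma disc_prob {n : ℕ} {m : Fin n → ℝ} (hm0 : ∀ i, 0 < m i) (hm1 : ∑ i, m i = 1)
    (y : Fin n → V) :
    IsProbabilityMeasure (∑ i, ENNReal.ofReal (m i) • Measure.dirac (y i) : Measure V) := by
  constructor
  rw [Measure.finsetSum_apply]
  simp only [Measure.smul_apply, measure_univ, smul_eq_mul, mul_one]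
  rw [← ENNReal.ofReal_sum_of_nonneg (fun i _ => (hm0 i).le), hm1, ENNReal.ofReal_one]

lemma disc_supp {n : ℕ} {m : Fin n → ℝ} {y : Fin n → V} {M : ℝ} (hy : ∀ i, ‖y i‖ ≤ M) :
    (∑ i, ENNReal.ofReal (m i) • Measure.dirac (y i) : Measure V)
      (Metric.closedBall (0:V) M)ᶜ = 0 := by
  rw [Measure.finsetSum_apply]
  apply Finset.sum_eq_zero
  intro i _
  rw [Measure.smul_apply, Measure.dirac_apply' _ Metric.isClosed_closedBall.measurableSet.compl,
    indicator_of_notMem]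
  · simp
  · simp [hy i]

/-- one discretization step -/
lemma disc_step [Nontrivial V] {K : Set V} (hKc : IsCompact K)
    (hK0 : (volume : Measure V) K ≠ 0) {M : ℝ} (hMpos : 0 < M)
    {CD : ℝ} (hCD0 : 0 ≤ CD)
    (hCD : ∀ (n : ℕ) (y z : Fin n → V), Function.Injective y → Function.Injective z →
      (∀ i, ‖y i‖ ≤ M + 1) → (∀ i, ‖z i‖ ≤ M + 1) → ∀ a : Fin n → ℝ, (∀ i, 0 < a i) →
      ∀ ψ φ : Fin n → ℝ, (∀ i, (volume : Measure V).real (cell K y ψ i) = a i) →
      (∀ i, (volume : Measure V).real (cell K z φ i) = a i) →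
      ∀ T S : V → V, Measurable T → Measurable S →
      (∀ x ∈ K, ∃ i, x ∈ cell K y ψ i ∧ T x = y i) →
      (∀ x ∈ K, ∃ i, x ∈ cell K z φ i ∧ S x = z i) →
      ∀ r : ℝ, 0 < r → ∑ i, a i * ‖y i - z i‖ ^ 2 ≤ r ^ 3 →
      ∫ x in K, ‖T x - S x‖ ^ 2 ≤ CD * r)
    {C4 : ℝ≥0} (hC4 : Stable K (Metric.closedBall (0:V) (M + 1)) (1 / 4) C4)
    {μ ν : Measure V} [IsProbabilityMeasure μ] [IsProbabilityMeasure ν]
    (hμM : ∀ᵐ y ∂μ, ‖y‖ ≤ M) (hνM : ∀ᵐ y ∂ν, ‖y‖ ≤ M)
    {T S : V → V} (hTo : IsOTMap (unif K) μ T) (hSo : IsOTMap (unif K) ν S)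
    {π : Measure (V × V)} (hπ : IsCoupling μ ν π) {ω : ℝ} (hω0 : 0 ≤ ω)
    (hω : (∫⁻ p, ‖p.1 - p.2‖ₑ ^ 2 ∂π) ^ (1 / 2 : ℝ) = ENNReal.ofReal ω)
    {δ : ℝ} (hδ : 0 < δ) (hδ1 : δ ≤ 1) :
    eLpNorm (fun x => T x - S x) 2 (unif K) ≤ ENNReal.ofReal
      (2 * C4 * δ ^ (1 / 4 : ℝ) + Real.sqrt (CD / (volume : Measure V).real K) *
        ((volume : Measure V).real K * (ω ^ 2 + δ * (8 * M + 4))) ^ (1 / 6 : ℝ)) := by
  obtain ⟨hπ1, hπ2⟩ := hπ
  have hprob : IsProbabilityMeasure π := by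
    constructor
    have : π univ = (π.map Prod.fst) univ := by
      rw [Measure.map_apply measurable_fst MeasurableSet.univ]; rfl
    rw [this, hπ1, measure_univ]
  have hb1 : ∀ᵐ p ∂π, ‖p.1‖ ≤ M := by
    rw [← hπ1, ae_map_iff measurable_fst.aemeasurable
      (measurableSet_le measurable_norm measurable_const)] at hμM
    exact hμM
  have hb2 : ∀ᵐ p ∂π, ‖p.2‖ ≤ M := by
    rw [← hπ2, ae_map_iff measurable_snd.aemeasurable
      (measurableSet_le measurable_norm measurable_const)] at hνM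
    exact hνM
  have hKfin : (volume : Measure V) K ≠ ∞ := hKc.measure_lt_top.ne
  set vK := (volume : Measure V).real K with hvK
  have hvKpos : 0 < vK := ENNReal.toReal_pos hK0 hKfin
  obtain ⟨n, m, y, z, κ, hm0, hm1, hy, hz, hyM, hzM, hκ, hκm, hκδ⟩ :=
    discretize hMpos hb1 hb2 hδ hδ1
  have hn : NeZero n := by
    constructor
    rintro rfl
    simp at hm1
  have hYm : MeasurableSet (Metric.closedBall (0:V) (M + 1)) :=
    Metric.isClosed_closedBall.measurableSet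
  -- masses of the cells
  set a : Fin n → ℝ := fun i => m i * vK with ha
  have ha0 : ∀ i, 0 < a i := fun i => mul_pos (hm0 i) hvKpos
  have hasum : ∑ i, a i = ∫ x in K, (1 : ℝ) := by
    rw [ha, ← Finset.sum_mul, hm1, one_mul, setIntegral_const, smul_eq_mul, mul_one]
  obtain ⟨ψ, hψ⟩ := exists_cells hKc (f := fun _ => (1:ℝ)) measurable_const
    (fun _ => zero_le_one) (fun _ => by norm_num) hy ha0 hasum
  obtain ⟨φ, hφ⟩ := exists_cells hKc (f := fun _ => (1:ℝ)) measurable_const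
    (fun _ => zero_le_one) (fun _ => by norm_num) hz ha0 hasum
  have hψ' : ∀ i, (volume : Measure V).real (cell K y ψ i) = a i := by
    intro i
    have := hψ i
    rwa [setIntegral_const, smul_eq_mul, mul_one] at this
  have hφ' : ∀ i, (volume : Measure V).real (cell K z φ i) = a i := by
    intro i
    have := hφ i
    rwa [setIntegral_const, smul_eq_mul, mul_one] at this
  obtain ⟨Td, hTd, hTdc⟩ := exists_cellMap hKc y ψ
  obtain ⟨Sd, hSd, hSdc⟩ := exists_cellMap hKc z φ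
  have hTdo := isOTMap_cells hKc hK0 hy hm0 hm1 hψ' hTd hTdc
  have hSdo := isOTMap_cells hKc hK0 hz hm0 hm1 hφ' hSd hSdc
  have hμd := disc_prob hm0 hm1 y
  have hνd := disc_prob hm0 hm1 z
  have hymeas : Measurable (fun p : V × V => y (κ p)) := (measurable_of_finite y).comp hκ
  have hzmeas : Measurable (fun p : V × V => z (κ p)) := (measurable_of_finite z).comp hκ
  -- comparison of T and Td
  have hμY : μ (Metric.closedBall (0:V) (M + 1))ᶜ = 0 := by
    have h : ∀ᵐ y ∂μ, y ∈ Metric.closedBall (0:V) (M + 1) := by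
      filter_upwards [hμM] with y hy
      simp only [Metric.mem_closedBall, dist_zero_right]
      linarith
    exact mem_ae_iff.1 h
  have hνY : ν (Metric.closedBall (0:V) (M + 1))ᶜ = 0 := by
    have h : ∀ᵐ y ∂ν, y ∈ Metric.closedBall (0:V) (M + 1) := by
      filter_upwards [hνM] with y hy
      simp only [Metric.mem_closedBall, dist_zero_right]
      linarith
    exact mem_ae_iff.1 h
  have hδ4 : (ENNReal.ofReal δ) ^ (1 / 4 : ℝ) = ENNReal.ofReal (δ ^ (1 / 4 : ℝ)) :=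
    ENNReal.ofReal_rpow_of_nonneg hδ.le (by norm_num)
  have hTT : eLpNorm (fun x => T x - Td x) 2 (unif K) ≤
      ENNReal.ofReal (C4 * δ ^ (1 / 4 : ℝ)) := by
    refine (hC4 μ _ inferInstance hμd hμY (disc_supp hyM) T Td hTo hTdo).trans ?_
    rw [ENNReal.ofReal_mul (by positivity), ← hδ4, ENNReal.ofReal_coe_nnreal]
    gcongr
    exact W2_disc hδ.le measurable_fst hymeas hπ1 (map_index hκ hκm y)
      (by filter_upwards [hκδ] with p hp using hp.1)
  have hSS : eLpNorm (fun x => S x - Sd x) 2 (unif K) ≤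
      ENNReal.ofReal (C4 * δ ^ (1 / 4 : ℝ)) := by
    refine (hC4 ν _ inferInstance hνd hνY (disc_supp hzM) S Sd hSo hSdo).trans ?_
    rw [ENNReal.ofReal_mul (by positivity), ← hδ4, ENNReal.ofReal_coe_nnreal]
    gcongr
    exact W2_disc hδ.le measurable_snd hzmeas hπ2 (map_index hκ hκm z)
      (by filter_upwards [hκδ] with p hp using hp.2)
  -- cost of the discretized problem
  have hcost : ∫ p, ‖p.1 - p.2‖ ^ 2 ∂π = ω ^ 2 := by
    have h3 : ∫⁻ p, ‖p.1 - p.2‖ₑ ^ 2 ∂π = ENNReal.ofReal (ω ^ 2) := by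
      have h4 : ((∫⁻ p, ‖p.1 - p.2‖ₑ ^ 2 ∂π) ^ (1 / 2 : ℝ)) ^ (2 : ℝ) =
          (ENNReal.ofReal ω) ^ (2 : ℝ) := by rw [hω]
      rw [← ENNReal.rpow_mul, ENNReal.ofReal_rpow_of_nonneg hω0 (by norm_num)] at h4
      norm_num at h4
      exact h4
    rw [integral_eq_lintegral_of_nonneg_ae (Eventually.of_forall (fun p => by positivity))
      (by fun_prop)]
    simp_rw [← enorm_sq_eq']
    rw [h3, ENNReal.toReal_ofReal (by positivity)]
  have hint1 : Integrable (fun p : V × V => ‖p.1 - p.2‖ ^ 2) π := by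
    apply Integrable.of_bound (by fun_prop) ((2 * M) ^ 2)
    filter_upwards [hb1, hb2] with p q1 q2
    rw [Real.norm_eq_abs, abs_of_nonneg (by positivity)]
    have := norm_sub_le p.1 p.2
    exact pow_le_pow_left₀ (norm_nonneg _) (by linarith) 2
  have hdcost : ∑ i, a i * ‖y i - z i‖ ^ 2 ≤ vK * (ω ^ 2 + δ * (8 * M + 4)) := by
    have h3 : ∑ i, a i * ‖y i - z i‖ ^ 2 = vK * ∑ i, m i * ‖y i - z i‖ ^ 2 := by
      rw [Finset.mul_sum]
      apply Finset.sum_congr rfl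
      intro i _
      simp only [ha]; ring
    rw [h3, sum_index hκ hm0 hκm (fun i => ‖y i - z i‖ ^ 2)]
    apply mul_le_mul_of_nonneg_left _ hvKpos.le
    have h4 : ∀ᵐ p ∂π, ‖y (κ p) - z (κ p)‖ ^ 2 ≤ ‖p.1 - p.2‖ ^ 2 + δ * (8 * M + 4) := by
      filter_upwards [hκδ, hb1, hb2] with p hp q1 q2
      have h5 : ‖y (κ p) - z (κ p)‖ ≤ ‖p.1 - p.2‖ + 2 * δ := by
        calc ‖y (κ p) - z (κ p)‖ = ‖(p.1 - p.2) - (p.1 - y (κ p)) + (p.2 - z (κ p))‖ := by
              congr 1; abel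
          _ ≤ ‖(p.1 - p.2) - (p.1 - y (κ p))‖ + ‖p.2 - z (κ p)‖ := norm_add_le _ _
          _ ≤ ‖p.1 - p.2‖ + ‖p.1 - y (κ p)‖ + ‖p.2 - z (κ p)‖ := by
              gcongr; exact norm_sub_le _ _
          _ ≤ ‖p.1 - p.2‖ + 2 * δ := by linarith [hp.1, hp.2]
      have h6 : ‖p.1 - p.2‖ ≤ 2 * M := by
        have := norm_sub_le p.1 p.2
        linarith
      have h7 : ‖y (κ p) - z (κ p)‖ ^ 2 ≤ (‖p.1 - p.2‖ + 2 * δ) ^ 2 :=
        pow_le_pow_left₀ (norm_nonneg _) h5 2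
      nlinarith [norm_nonneg (p.1 - p.2), mul_le_mul_of_nonneg_left h6 hδ.le]
    have h8 : Integrable (fun p : V × V => ‖p.1 - p.2‖ ^ 2 + δ * (8 * M + 4)) π :=
      hint1.add (integrable_const _)
    have h9 : Integrable (fun p : V × V => ‖y (κ p) - z (κ p)‖ ^ 2) π := by
      apply Integrable.mono' h8 ((hymeas.sub hzmeas).norm.pow_const 2).aestronglyMeasurable
      filter_upwards [h4] with p hp
      rw [Real.norm_eq_abs, abs_of_nonneg (by positivity)]
      exact hp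
    calc ∫ p, ‖y (κ p) - z (κ p)‖ ^ 2 ∂π ≤ ∫ p, (‖p.1 - p.2‖ ^ 2 + δ * (8 * M + 4)) ∂π :=
          integral_mono_ae h9 h8 h4
      _ = ω ^ 2 + δ * (8 * M + 4) := by
          rw [integral_add hint1 (integrable_const _), hcost, integral_const]
          simp
  set ρ : ℝ := vK * (ω ^ 2 + δ * (8 * M + 4)) with hρ
  have hρpos : 0 < ρ := by positivity
  have hr3 : (ρ ^ (1 / 3 : ℝ)) ^ 3 = ρ := by
    rw [← Real.rpow_natCast, ← Real.rpow_mul hρpos.le]
    norm_num
  have hmainint := hCD n y z hy hz hyM hzM a ha0 ψ φ hψ' hφ' Td Sd hTd hSd hTdc hSdc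
    (ρ ^ (1 / 3 : ℝ)) (by positivity) (by rw [hr3]; exact hdcost)
  have hTdM : ∀ x ∈ K, ‖Td x‖ ≤ M + 1 := by
    intro x hx
    obtain ⟨i, -, hi⟩ := hTdc x hx
    rw [hi]; exact hyM i
  have hSdM : ∀ x ∈ K, ‖Sd x‖ ≤ M + 1 := by
    intro x hx
    obtain ⟨i, -, hi⟩ := hSdc x hx
    rw [hi]; exact hzM i
  have hfinK : IsFiniteMeasure ((volume : Measure V).restrict K) :=
    ⟨by rw [Measure.restrict_apply_univ]; exact hKc.measure_lt_top⟩
  have hTSint : IntegrableOn (fun x => ‖Td x - Sd x‖ ^ 2) K := by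
    apply int_bdd ((hTd.sub hSd).norm.pow_const 2).aestronglyMeasurable (C := (2 * (M + 1)) ^ 2)
    filter_upwards [ae_restrict_mem hKc.isClosed.measurableSet] with x hx
    rw [Real.norm_eq_abs, abs_of_nonneg (by positivity)]
    have h3 := norm_sub_le (Td x) (Sd x)
    have h4 : ‖Td x - Sd x‖ ≤ 2 * (M + 1) := by linarith [hTdM x hx, hSdM x hx]
    exact pow_le_pow_left₀ (norm_nonneg _) h4 2
  have hTS : eLpNorm (fun x => Td x - Sd x) 2 (unif K) ≤
      ENNReal.ofReal (Real.sqrt (CD / vK) * ρ ^ (1 / 6 : ℝ)) := by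
    rw [eLp_unif hKc hK0 hTSint]
    apply ENNReal.ofReal_le_ofReal
    calc Real.sqrt (vK⁻¹ * ∫ x in K, ‖Td x - Sd x‖ ^ 2)
        ≤ Real.sqrt (vK⁻¹ * (CD * ρ ^ (1 / 3 : ℝ))) := by
          apply Real.sqrt_le_sqrt
          gcongr
      _ = Real.sqrt (CD / vK * ρ ^ (1 / 3 : ℝ)) := by congr 1; ring
      _ = Real.sqrt (CD / vK) * Real.sqrt (ρ ^ (1 / 3 : ℝ)) := Real.sqrt_mul (by positivity) _
      _ = Real.sqrt (CD / vK) * ρ ^ (1 / 6 : ℝ) := by
          rw [Real.sqrt_eq_rpow (ρ ^ (1 / 3 : ℝ)), ← Real.rpow_mul hρpos.le]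
          norm_num
  -- triangle inequality
  have hdecomp : (fun x => T x - S x) =
      (fun x => T x - Td x) + ((fun x => Td x - Sd x) + (fun x => Sd x - S x)) := by
    funext x
    simp only [Pi.add_apply]
    abel
  have hSS' : eLpNorm (fun x => Sd x - S x) 2 (unif K) ≤
      ENNReal.ofReal (C4 * δ ^ (1 / 4 : ℝ)) := by
    have := eLpNorm_sub_comm Sd S 2 (unif K)
    calc eLpNorm (fun x => Sd x - S x) 2 (unif K) = eLpNorm (S - Sd) 2 (unif K) := this
      _ ≤ _ := hSS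
  rw [hdecomp]
  have m1 : AEStronglyMeasurable (fun x => T x - Td x) (unif K) :=
    (hTo.1.sub hTd).aestronglyMeasurable
  have m2 : AEStronglyMeasurable (fun x => Td x - Sd x) (unif K) :=
    (hTd.sub hSd).aestronglyMeasurable
  have m3 : AEStronglyMeasurable (fun x => Sd x - S x) (unif K) :=
    (hSd.sub hSo.1).aestronglyMeasurable
  calc eLpNorm ((fun x => T x - Td x) + ((fun x => Td x - Sd x) + (fun x => Sd x - S x))) 2
        (unif K)
      ≤ eLpNorm (fun x => T x - Td x) 2 (unif K) +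
        eLpNorm ((fun x => Td x - Sd x) + (fun x => Sd x - S x)) 2 (unif K) :=
        eLpNorm_add_le m1 (m2.add m3) (by norm_num)
    _ ≤ eLpNorm (fun x => T x - Td x) 2 (unif K) +
        (eLpNorm (fun x => Td x - Sd x) 2 (unif K) + eLpNorm (fun x => Sd x - S x) 2 (unif K)) := by
        gcongr
        exact eLpNorm_add_le m2 m3 (by norm_num)
    _ ≤ ENNReal.ofReal (C4 * δ ^ (1 / 4 : ℝ)) +
        (ENNReal.ofReal (Real.sqrt (CD / vK) * ρ ^ (1 / 6 : ℝ)) +
          ENNReal.ofReal (C4 * δ ^ (1 / 4 : ℝ))) := by gcongr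
    _ = _ := by
        rw [← ENNReal.ofReal_add (by positivity) (by positivity),
          ← ENNReal.ofReal_add (by positivity) (by positivity)]
        congr 1
        ring

/-- (4) assembly -/
theorem stable_third_of_disc [Nontrivial V] {K : Set V} (hKc : IsCompact K) (hKconv : Convex ℝ K)
    (hKi : (interior K).Nonempty) {Y : Set V} (hY : IsCompact Y)
    (hD : ∀ M : ℝ, 0 < M → DiscStab K M) :
    ∃ C : ℝ≥0, Stable K Y (1 / 3) C := by
  have hK0 : volume K ≠ 0 := by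
    have h1 : 0 < volume (interior K) := isOpen_interior.measure_pos volume hKi
    exact (lt_of_lt_of_le h1 (measure_mono interior_subset)).ne'
  have hKfin : volume K ≠ ∞ := hKc.measure_lt_top.ne
  obtain ⟨M, hMpos, hM⟩ := hY.isBounded.exists_pos_norm_le
  obtain ⟨CD, hCD0, hCD⟩ := hD (M + 1) (by positivity)
  obtain ⟨C4, hC4⟩ := stable_quarter hKc hKconv hKi (isCompact_closedBall (0:V) (M + 1))
  set vK := (volume : Measure V).real K with hvK
  have hvKpos : 0 < vK := ENNReal.toReal_pos hK0 hKfin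
  set C' : ℝ := Real.sqrt (CD / vK) * vK ^ (1 / 6 : ℝ) with hC'
  have hC'0 : 0 ≤ C' := by positivity
  set C3 : ℝ≥0 := ⟨C' + 1, by positivity⟩ with hC3
  refine ⟨C3, ?_⟩
  intro μ ν hμp hνp hμY hνY T S hTo hSo
  have hμM : ∀ᵐ y ∂μ, ‖y‖ ≤ M := by
    have : ∀ᵐ y ∂μ, y ∈ Y := by
      rw [ae_iff]; exact hμY
    filter_upwards [this] with y hy using hM y hy
  have hνM : ∀ᵐ y ∂ν, ‖y‖ ≤ M := by
    have : ∀ᵐ y ∂ν, y ∈ Y := by
      rw [ae_iff]; exact hνY
    filter_upwards [this] with y hy using hM y hy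
  set X := eLpNorm (fun x => T x - S x) 2 (unif K) with hX
  -- main estimate for a coupling
  have hmain : ∀ π : Measure (V × V), IsCoupling μ ν π →
      X ≤ C3 * ((∫⁻ p, ‖p.1 - p.2‖ₑ ^ 2 ∂π) ^ (1 / 2 : ℝ)) ^ (1 / 3 : ℝ) := by
    intro π hπ
    obtain ⟨ω, hω0, hωe, -⟩ := couple_bound hμM hνM (le_refl (0:ℝ)) (χ := fun _ => 0)
      (fun y z => by simp) continuous_const hπ
    have hstep : ∀ δ : ℝ, 0 < δ → δ ≤ 1 → X ≤ ENNReal.ofReal
        (2 * C4 * δ ^ (1 / 4 : ℝ) + Real.sqrt (CD / vK) *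
          (vK * (ω ^ 2 + δ * (8 * M + 4))) ^ (1 / 6 : ℝ)) := fun δ hδ hδ1 =>
      disc_step hKc hK0 hMpos hCD0 hCD hC4 hμM hνM hTo hSo hπ hω0 hωe hδ hδ1
    have hlim : Tendsto (fun δ : ℝ => ENNReal.ofReal
        (2 * C4 * δ ^ (1 / 4 : ℝ) + Real.sqrt (CD / vK) *
          (vK * (ω ^ 2 + δ * (8 * M + 4))) ^ (1 / 6 : ℝ))) (𝓝[>] 0)
        (𝓝 (ENNReal.ofReal (C' * ω ^ (1 / 3 : ℝ)))) := by
      have h1 : ContinuousAt (fun δ : ℝ => 2 * C4 * δ ^ (1 / 4 : ℝ) + Real.sqrt (CD / vK) *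
          (vK * (ω ^ 2 + δ * (8 * M + 4))) ^ (1 / 6 : ℝ)) 0 := by
        apply ContinuousAt.add
        · exact (Real.continuousAt_rpow_const 0 _ (Or.inr (by norm_num))).const_mul _
        · apply ContinuousAt.const_mul
          apply ContinuousAt.rpow_const (by fun_prop)
          right; norm_num
      have h2 : (2 * C4 * (0:ℝ) ^ (1 / 4 : ℝ) + Real.sqrt (CD / vK) *
          (vK * (ω ^ 2 + 0 * (8 * M + 4))) ^ (1 / 6 : ℝ)) = C' * ω ^ (1 / 3 : ℝ) := by
        rw [Real.zero_rpow (by norm_num), mul_zero, zero_add, zero_mul, add_zero,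
          Real.mul_rpow hvKpos.le (by positivity), ← Real.rpow_natCast ω 2, ← Real.rpow_mul hω0,
          hC', mul_assoc]
        norm_num
      have h3 := h1.tendsto
      rw [h2] at h3
      exact ((ENNReal.continuous_ofReal.tendsto _).comp h3).mono_left nhdsWithin_le_nhds
    have hle : X ≤ ENNReal.ofReal (C' * ω ^ (1 / 3 : ℝ)) := by
      apply ge_of_tendsto hlim
      have : Ioc (0:ℝ) 1 ∈ 𝓝[>] (0:ℝ) := Ioc_mem_nhdsGT one_pos
      filter_upwards [this] with δ hδ using hstep δ hδ.1 hδ.2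
    rw [hωe, ENNReal.ofReal_rpow_of_nonneg hω0 (by norm_num)]
    refine hle.trans ?_
    rw [ENNReal.ofReal_mul hC'0]
    gcongr
    rw [ENNReal.ofReal_le_iff_le_toReal (by simp), ENNReal.coe_toReal, hC3]
    show C' ≤ C' + 1
    linarith
  -- pass to the infimum
  have hC3pos : (C3 : ℝ≥0∞) ≠ 0 := by
    rw [Ne, ENNReal.coe_eq_zero, hC3]
    intro h
    have h8 : C' + 1 = 0 := congrArg NNReal.toReal h
    linarith
  have hdiv : (X / C3) ^ (3 : ℝ) ≤ W2 μ ν := by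
    unfold W2
    apply le_iInf₂
    intro π hπ
    have h1 := hmain π hπ
    have h2 : X / C3 ≤ ((∫⁻ p, ‖p.1 - p.2‖ₑ ^ 2 ∂π) ^ (1 / 2 : ℝ)) ^ (1 / 3 : ℝ) := by
      rw [ENNReal.div_le_iff hC3pos ENNReal.coe_ne_top, mul_comm]; exact h1
    calc (X / C3) ^ (3 : ℝ) ≤
        (((∫⁻ p, ‖p.1 - p.2‖ₑ ^ 2 ∂π) ^ (1 / 2 : ℝ)) ^ (1 / 3 : ℝ)) ^ (3 : ℝ) :=
          ENNReal.rpow_le_rpow h2 (by norm_num)
      _ = (∫⁻ p, ‖p.1 - p.2‖ₑ ^ 2 ∂π) ^ (1 / 2 : ℝ) := by
          rw [← ENNReal.rpow_mul]; norm_num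
  have h3 : X / C3 ≤ (W2 μ ν) ^ (1 / 3 : ℝ) := by
    calc X / C3 = ((X / C3) ^ (3 : ℝ)) ^ (1 / 3 : ℝ) := by rw [← ENNReal.rpow_mul]; norm_num
      _ ≤ _ := ENNReal.rpow_le_rpow hdiv (by norm_num)
  rw [ENNReal.div_le_iff hC3pos ENNReal.coe_ne_top, mul_comm] at h3
  exact h3

end Vale.Agent.H10.OT
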