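import Vale.Agent.H10.OTDiscStmt

open MeasureTheory Set
open scoped ENNReal NNReal RealInnerProductSpace

namespace Vale.Agent.H10.OT

set_option linter.unusedSectionVars false
set_option linter.unusedVariables false

variable {V : Type} [NormedAddCommGroup V] [InnerProductSpace ℝ V] [FiniteDimensional ℝ V]
  [MeasurableSpace V] [BorelSpace V]

/-- (2) measurable selection of the cell -/
theorem exists_cellMap {n : ℕ} [NeZero n] {K : Set V} (hK : IsCompact K) (y : Fin n → V)
    (ψ : Fin n → ℝ) :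
    ∃ T : V → V, Measurable T ∧ ∀ x ∈ K, ∃ i, x ∈ cell K y ψ i ∧ T x = y i := by
  classical
  let p : ℕ → V → Prop := fun k x => ∃ h : k < n, x ∈ cell univ y ψ ⟨k, h⟩
  let f : ℕ → V → V := fun k _ => if h : k < n then y ⟨k, h⟩ else 0
  have hp : ∀ k, MeasurableSet {x | p k x} := by
    intro k
    by_cases h : k < n
    · have : {x | p k x} = cell univ y ψ ⟨k, h⟩ := by
        ext x
        constructor
        · rintro ⟨_, hx⟩; exact hx
        · intro hx; exact ⟨h, hx⟩
      rw [this]
      exact (cell_isClosed isClosed_univ y ψ _).measurableSet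
    · have : {x | p k x} = ∅ := by
        ext x
        simp only [mem_ofPred_eq, mem_empty_iff_false, iff_false]
        rintro ⟨h', _⟩
        exact h h'
      rw [this]
      exact MeasurableSet.empty
  have hex : ∀ x, ∃ k, p k x := by
    intro x
    obtain ⟨i, hi⟩ := cell_cover y ψ (mem_univ x)
    exact ⟨i, i.2, hi⟩
  have hfm : ∀ k, Measurable (f k) := fun k => measurable_const
  refine ⟨fun x => f (Nat.find (hex x)) x, Measurable.find hfm hp hex, ?_⟩
  intro x hx
  obtain ⟨h, hc⟩ := Nat.find_spec (hex x)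
  refine ⟨⟨Nat.find (hex x), h⟩, ⟨hx, hc.2⟩, ?_⟩
  simp only [f]
  rw [dif_pos h]

/-- volume of the fibres of a cell map -/
lemma vol_fibre {n : ℕ} {K : Set V} (hK : IsCompact K)
    {y : Fin n → V} (hy : Function.Injective y) {ψ : Fin n → ℝ}
    {T : V → V} (hT : Measurable T) (hTc : ∀ x ∈ K, ∃ i, x ∈ cell K y ψ i ∧ T x = y i)
    (i : Fin n) :
    (volume : Measure V) (T ⁻¹' {y i} ∩ K) = (volume : Measure V) (cell K y ψ i) := by
  have h1 : T ⁻¹' {y i} ∩ K ⊆ cell K y ψ i := by
    rintro x ⟨hx1, hx2⟩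
    obtain ⟨j, hj, hTj⟩ := hTc x hx2
    have h2 : T x = y i := hx1
    have : j = i := hy (hTj.symm.trans h2)
    rw [← this]; exact hj
  apply le_antisymm (measure_mono h1)
  have h2 : cell K y ψ i ⊆ (T ⁻¹' {y i} ∩ K) ∪
      ⋃ j ∈ {j : Fin n | i ≠ j}, (cell K y ψ i ∩ cell K y ψ j) := by
    intro x hx
    obtain ⟨j, hj, hTj⟩ := hTc x hx.1
    by_cases hij : i = j
    · left
      subst hij
      exact ⟨hTj, hx.1⟩
    · right
      simp only [mem_iUnion]
      exact ⟨j, hij, hx, hj⟩
  have h3 : (volume : Measure V) (⋃ j ∈ {j : Fin n | i ≠ j}, (cell K y ψ i ∩ cell K y ψ j)) = 0 := by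
    rw [measure_biUnion_null_iff (Set.to_countable _)]
    intro j hj
    exact cell_inter_null K hy ψ hj
  calc (volume : Measure V) (cell K y ψ i) ≤ _ := measure_mono h2
    _ ≤ (volume : Measure V) (T ⁻¹' {y i} ∩ K) + _ := measure_union_le _ _
    _ = _ := by rw [h3, add_zero]

/-- law of a cell map -/
lemma map_cellMap {n : ℕ} {K : Set V} (hK : IsCompact K)
    (hK0 : (volume : Measure V) K ≠ 0)
    {y : Fin n → V} (hy : Function.Injective y) {m : Fin n → ℝ} (hm : ∀ i, 0 < m i)
    {ψ : Fin n → ℝ}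
    (hψ : ∀ i, (volume : Measure V).real (cell K y ψ i) = m i * (volume : Measure V).real K)
    {T : V → V} (hT : Measurable T) (hTc : ∀ x ∈ K, ∃ i, x ∈ cell K y ψ i ∧ T x = y i) :
    (unif K).map T = ∑ i, ENNReal.ofReal (m i) • Measure.dirac (y i) := by
  have hKt : (volume : Measure V) K ≠ ∞ := hK.measure_lt_top.ne
  have hcellt : ∀ i, (volume : Measure V) (cell K y ψ i) ≠ ∞ := fun i =>
    ne_top_of_le_ne_top hKt (measure_mono cell_subset)
  have hvol : ∀ i, (volume : Measure V) (cell K y ψ i) =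
      ENNReal.ofReal (m i) * (volume : Measure V) K := by
    intro i
    have := hψ i
    rw [Measure.real, Measure.real] at this
    rw [← ENNReal.ofReal_toReal (hcellt i), this, ENNReal.ofReal_mul (hm i).le,
      ENNReal.ofReal_toReal hKt]
  apply Measure.ext
  intro A hA
  rw [Measure.map_apply hT hA]
  unfold unif
  rw [Measure.smul_apply, Measure.restrict_apply (hT hA), smul_eq_mul, Measure.finsetSum_apply]
  have hU : T ⁻¹' A ∩ K = ⋃ i, (T ⁻¹' A ∩ (T ⁻¹' {y i} ∩ K)) := by
    ext x
    simp only [mem_inter_iff, mem_iUnion]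
    constructor
    · rintro ⟨h1, h2⟩
      obtain ⟨j, hj, hTj⟩ := hTc x h2
      exact ⟨j, h1, hTj, h2⟩
    · rintro ⟨i, h1, -, h2⟩
      exact ⟨h1, h2⟩
  have hdis : Pairwise (Function.onFun Disjoint (fun i => (T ⁻¹' A ∩ (T ⁻¹' {y i} ∩ K)))) := by
    intro i j hij
    rw [Function.onFun, Set.disjoint_left]
    rintro x ⟨-, h1, -⟩ ⟨-, h2, -⟩
    have h1' : T x = y i := h1
    have h2' : T x = y j := h2
    exact hij (hy (h1'.symm.trans h2'))
  have hmeas : ∀ i, MeasurableSet (T ⁻¹' A ∩ (T ⁻¹' {y i} ∩ K)) := fun i =>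
    (hT hA).inter ((hT (measurableSet_singleton _)).inter hK.isClosed.measurableSet)
  rw [hU, measure_iUnion hdis hmeas, tsum_fintype, Finset.mul_sum]
  apply Finset.sum_congr rfl
  intro i _
  rw [Measure.smul_apply, smul_eq_mul, Measure.dirac_apply' _ hA]
  by_cases hi : y i ∈ A
  · rw [indicator_of_mem hi]
    have : T ⁻¹' A ∩ (T ⁻¹' {y i} ∩ K) = T ⁻¹' {y i} ∩ K := by
      apply inter_eq_right.2
      rintro x ⟨h1, -⟩
      have h1' : T x = y i := h1
      show T x ∈ A
      rw [h1']; exact hi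
    rw [this, vol_fibre hK hy hT hTc, hvol, mul_comm, mul_assoc, ENNReal.mul_inv_cancel hK0 hKt]
    rfl
  · rw [indicator_of_notMem hi]
    have : T ⁻¹' A ∩ (T ⁻¹' {y i} ∩ K) = ∅ := by
      ext x
      simp only [mem_inter_iff, mem_preimage, mem_singleton_iff, mem_empty_iff_false, iff_false]
      rintro ⟨h1, h2, -⟩
      rw [h2] at h1
      exact hi h1
    rw [this, measure_empty, mul_zero, mul_zero]

/-- (3) the cell map is an optimal transport map -/
theorem isOTMap_cells {n : ℕ} [NeZero n] {K : Set V} (hK : IsCompact K)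
    (hK0 : (volume : Measure V) K ≠ 0)
    {y : Fin n → V} (hy : Function.Injective y) {m : Fin n → ℝ} (hm : ∀ i, 0 < m i)
    (hm1 : ∑ i, m i = 1) {ψ : Fin n → ℝ}
    (hψ : ∀ i, (volume : Measure V).real (cell K y ψ i) = m i * (volume : Measure V).real K)
    {T : V → V} (hT : Measurable T) (hTc : ∀ x ∈ K, ∃ i, x ∈ cell K y ψ i ∧ T x = y i) :
    IsOTMap (unif K) (∑ i, ENNReal.ofReal (m i) • Measure.dirac (y i)) T := by
  classical
  have hKt : (volume : Measure V) K ≠ ∞ := hK.measure_lt_top.ne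
  have hlaw := map_cellMap hK hK0 hy hm hψ hT hTc
  refine ⟨hT, hlaw, ?_⟩
  intro S hS hSlaw
  have hfinρ : IsFiniteMeasure (unif K) := by
    constructor
    unfold unif
    rw [Measure.smul_apply, Measure.restrict_apply_univ, smul_eq_mul,
      ENNReal.inv_mul_cancel hK0 hKt]
    exact ENNReal.one_lt_top
  have haeK : ∀ᵐ x ∂(unif K), x ∈ K := by
    unfold unif
    apply Measure.ae_smul_measure
    exact ae_restrict_mem hK.isClosed.measurableSet
  -- the set of sites
  have hrange : MeasurableSet (range y) := (Set.finite_range y).measurableSet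
  have hSae : ∀ᵐ x ∂(unif K), S x ∈ range y := by
    have h1 : ((unif K).map S) (range y)ᶜ = 0 := by
      rw [hSlaw, Measure.finsetSum_apply]
      apply Finset.sum_eq_zero
      intro i _
      rw [Measure.smul_apply, Measure.dirac_apply' _ hrange.compl, indicator_of_notMem]
      · simp
      · simp
    rw [Measure.map_apply hS hrange.compl] at h1
    exact h1
  -- the dual potential
  let b : V → ℝ := fun v => ∑ j, if v = y j then ψ j else 0
  have hb : Measurable b := by
    apply Finset.measurable_sum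
    intro j _
    exact Measurable.ite (measurableSet_singleton _) measurable_const measurable_const
  have hby : ∀ j, b (y j) = ψ j := by
    intro j
    simp only [b]
    rw [Finset.sum_eq_single j]
    · rw [if_pos rfl]
    · intro k _ hk
      rw [if_neg (fun h => hk (hy h).symm)]
    · intro h; exact absurd (Finset.mem_univ _) h
  let G : V → ℝ := fun v => ‖v‖ ^ 2 - 2 * b v
  have hG : Measurable G := (measurable_norm.pow_const 2).sub (hb.const_mul 2)
  -- boundedness of `G` on the range of `y`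
  obtain ⟨B, hB⟩ : ∃ B, ∀ v ∈ range y, |G v| ≤ B := by
    obtain ⟨B, hB⟩ := ((Set.finite_range y).image (fun v => |G v|)).bddAbove
    exact ⟨B, fun v hv => hB (mem_image_of_mem _ hv)⟩
  have hTae : ∀ᵐ x ∂(unif K), T x ∈ range y := by
    filter_upwards [haeK] with x hx
    obtain ⟨i, -, hi⟩ := hTc x hx
    exact ⟨i, hi.symm⟩
  have hGT : Integrable (fun x => G (T x)) (unif K) := by
    apply Integrable.of_bound (hG.comp hT).aestronglyMeasurable B
    filter_upwards [hTae] with x hx using hB _ hx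
  have hGS : Integrable (fun x => G (S x)) (unif K) := by
    apply Integrable.of_bound (hG.comp hS).aestronglyMeasurable B
    filter_upwards [hSae] with x hx using hB _ hx
  let Q : V → ℝ := fun x => ‖x‖ ^ 2 - 2 * Phi y ψ x
  have hQc : Continuous Q := (continuous_norm.pow 2).sub ((continuous_Phi y ψ).const_mul 2 |>.comp
    continuous_id)
  obtain ⟨B', hB'⟩ := hK.exists_bound_of_continuousOn hQc.continuousOn
  have hQ : Integrable Q (unif K) := by
    apply Integrable.of_bound hQc.aestronglyMeasurable B'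
    filter_upwards [haeK] with x hx using hB' x hx
  have hGeq : ∫ x, G (T x) ∂(unif K) = ∫ x, G (S x) ∂(unif K) := by
    rw [← integral_map hT.aemeasurable hG.aestronglyMeasurable,
      ← integral_map hS.aemeasurable hG.aestronglyMeasurable, hlaw, hSlaw]
  have hTpt : ∀ᵐ x ∂(unif K), ‖x - T x‖ ^ 2 = Q x + G (T x) := by
    filter_upwards [haeK] with x hx
    obtain ⟨i, hi, hTi⟩ := hTc x hx
    have h1 : Phi y ψ x = ⟪x, y i⟫ - ψ i := le_antisymm (Phi_le (fun j => hi.2 j))
      (aff_le_Phi y ψ x i)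
    simp only [Q, G]
    rw [hTi, hby, h1, norm_sub_sq_real]
    ring
  have hSpt : ∀ᵐ x ∂(unif K), Q x + G (S x) ≤ ‖x - S x‖ ^ 2 := by
    filter_upwards [hSae] with x hx
    obtain ⟨j, hj⟩ := hx
    have h1 : ⟪x, y j⟫ - ψ j ≤ Phi y ψ x := aff_le_Phi y ψ x j
    simp only [Q, G]
    rw [← hj, hby, norm_sub_sq_real]
    linarith
  have hTint : Integrable (fun x => ‖x - T x‖ ^ 2) (unif K) :=
    (hQ.add hGT).congr (by filter_upwards [hTpt] with x hx using hx.symm)
  by_cases hSint : Integrable (fun x => ‖x - S x‖ ^ 2) (unif K)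
  · have h1 : ∫ x, ‖x - T x‖ ^ 2 ∂(unif K) ≤ ∫ x, ‖x - S x‖ ^ 2 ∂(unif K) := by
      rw [integral_congr_ae hTpt, integral_add hQ hGT, hGeq, ← integral_add hQ hGS]
      exact integral_mono_ae (hQ.add hGS) hSint hSpt
    simp_rw [enorm_sq_eq']
    rw [← ofReal_integral_eq_lintegral_ofReal hTint
      (Filter.Eventually.of_forall (fun x => by positivity)),
      ← ofReal_integral_eq_lintegral_ofReal hSint
      (Filter.Eventually.of_forall (fun x => by positivity))]
    exact ENNReal.ofReal_le_ofReal h1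
  · have h2 : ∫⁻ x, ‖x - S x‖ₑ ^ 2 ∂(unif K) = ∞ := by
      by_contra hne
      apply hSint
      refine ⟨((measurable_id.sub hS).norm.pow_const 2).aestronglyMeasurable, ?_⟩
      rw [HasFiniteIntegral]
      have : ∀ x, ‖(‖x - S x‖ ^ 2 : ℝ)‖ₑ = ‖x - S x‖ₑ ^ 2 := by
        intro x
        rw [enorm_sq_eq', Real.enorm_eq_ofReal (by positivity)]
      simp_rw [this]
      exact lt_top_iff_ne_top.2 hne
    rw [h2]
    exact le_top

end Vale.Agent.H10.OT
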