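import Vale.Agent.H10.OTPLV

open MeasureTheory Set Metric
open scoped ENNReal NNReal RealInnerProductSpace

namespace Vale.Agent.H10.OT

set_option linter.unusedSectionVars false
set_option linter.unusedVariables false

variable {V : Type} [NormedAddCommGroup V] [InnerProductSpace ℝ V] [FiniteDimensional ℝ V]
  [MeasurableSpace V] [BorelSpace V]

/-- the concave weight -/
noncomputable def qf (R : ℝ) (x : V) : ℝ := (R ^ 2 - ‖x‖ ^ 2) / 2

lemma qf_cont (R : ℝ) : Continuous (qf R : V → ℝ) := by unfold qf; fun_prop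

lemma qf_nonneg {R : ℝ} {x : V} (hx : ‖x‖ ≤ R) : 0 ≤ qf R x := by
  unfold qf
  have := norm_nonneg x
  nlinarith

lemma qf_le {R : ℝ} (x : V) : qf R x ≤ R ^ 2 / 2 := by
  unfold qf
  have := norm_nonneg x
  nlinarith

lemma qf_mid (R : ℝ) (x x' : V) :
    qf R ((1 / 2 : ℝ) • (x + x')) = qf R x / 2 + qf R x' / 2 + ‖x - x'‖ ^ 2 / 8 := by
  unfold qf
  rw [norm_smul, mul_pow, norm_add_sq_real, norm_sub_sq_real]
  norm_num
  ring

/-- average over a set -/
noncomputable def av {F : Type} [NormedAddCommGroup F] [NormedSpace ℝ F] (A : Set V) (g : V → F) :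
    F := ((volume : Measure V).real A)⁻¹ • ∫ x in A, g x

lemma av_smul {F : Type} [NormedAddCommGroup F] [NormedSpace ℝ F] {A : Set V}
    (hA : 0 < (volume : Measure V).real A) (g : V → F) :
    (volume : Measure V).real A • av A g = ∫ x in A, g x := by
  unfold av
  rw [smul_smul, mul_inv_cancel₀ hA.ne', one_smul]

lemma norm_av_le {F : Type} [NormedAddCommGroup F] [NormedSpace ℝ F] {A : Set V}
    (hAc : IsCompact A) (hA : 0 < (volume : Measure V).real A) {g : V → F} {C : ℝ}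
    (hg : ∀ x ∈ A, ‖g x‖ ≤ C) : ‖av A g‖ ≤ C := by
  unfold av
  rw [norm_smul, norm_inv, Real.norm_eq_abs, abs_of_pos hA]
  rw [inv_mul_le_iff₀ hA, mul_comm]
  exact norm_setIntegral_le_of_norm_le_const hAc.measure_lt_top hg

lemma int_affine {A : Set V} (hA : IsCompact A) (hvA : 0 < (volume : Measure V).real A)
    (R c k c0 : ℝ) (d : V) :
    ∫ x in A, (((c + qf R x) + k * ⟪d, x⟫) + c0) =
      (volume : Measure V).real A *
        (c + av A (qf R) + k * ⟪d, av A (fun x : V => x)⟫ + c0) := by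
  have iq : IntegrableOn (qf R : V → ℝ) A := (qf_cont R).continuousOn.integrableOn_compact hA
  have ix : IntegrableOn (fun x : V => x) A := continuous_id.continuousOn.integrableOn_compact hA
  have ic : ∀ c : ℝ, IntegrableOn (fun _ : V => c) A := fun c =>
    continuous_const.continuousOn.integrableOn_compact hA
  have i1 : IntegrableOn (fun x : V => c + qf R x) A := (ic _).add iq
  have i2 : IntegrableOn (fun x : V => k * ⟪d, x⟫) A :=
    (by fun_prop : Continuous fun x : V => k * ⟪d, x⟫).continuousOn.integrableOn_compact hA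
  have i3 : IntegrableOn (fun x : V => (c + qf R x) + k * ⟪d, x⟫) A := i1.add i2
  rw [integral_add i3 (ic c0), integral_add i1 i2, integral_add (ic c) iq, integral_const_mul,
    integral_inner ix, ← av_smul hvA (fun x : V => x), ← av_smul hvA (qf R),
    setIntegral_const, setIntegral_const]
  simp only [smul_eq_mul]
  rw [real_inner_smul_right]
  ring

/-- single cell estimate -/
lemma bary_one {A B D : Set V} (hA : IsCompact A) (hB : IsCompact B) (hD : IsCompact D) {R : ℝ}
    (hRA : ∀ x ∈ A, ‖x‖ ≤ R) (hRB : ∀ x ∈ B, ‖x‖ ≤ R) (hRD : ∀ x ∈ D, ‖x‖ ≤ R)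
    (hmid : ∀ x ∈ A, ∀ x' ∈ B, (1 / 2 : ℝ) • (x + x') ∈ D)
    (hvA : 0 < (volume : Measure V).real A) (hvB : 0 < (volume : Measure V).real B) {s : ℝ}
    (hs0 : 0 ≤ s) (hsA : s ≤ (volume : Measure V).real A) (hsB : s ≤ (volume : Measure V).real B) :
    s ≤ (volume : Measure V).real D ∧
    s * (3 * R ^ 2 + (av A (qf R) + av B (qf R)) / 2
        + ‖av A (fun x : V => x) - av B (fun x : V => x)‖ ^ 2 / 4) ≤
      (∫ x in D, (3 * R ^ 2 + qf R x)) +
        ‖av A (fun x : V => x) - av B (fun x : V => x)‖ ^ 2 / 8 * (volume : Measure V).real D := by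
  have hvD0 : 0 ≤ (volume : Measure V).real D := measureReal_nonneg
  have key1 := pl_real hA hB hD (α := fun _ => (1:ℝ)) (β := fun _ => 1) (w := fun _ => 1)
    continuous_const continuous_const continuous_const (fun _ _ => zero_le_one)
    (fun _ _ => zero_le_one) (fun _ _ => zero_le_one)
    (fun x hx x' hx' => ⟨hmid x hx x' hx', by norm_num⟩)
  simp only [integral_const, measureReal_restrict_apply_univ, smul_eq_mul, mul_one] at key1
  have hsq : s ^ 2 ≤ (volume : Measure V).real A * (volume : Measure V).real B := by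
    rw [sq]; gcongr
  refine ⟨by nlinarith [abs_le_abs_of_nonneg hs0 hsA], ?_⟩
  set a := (volume : Measure V).real A with ha
  set b := (volume : Measure V).real B with hb
  set p := av A (fun x : V => x) with hp
  set p' := av B (fun x : V => x) with hp'
  set d := p - p' with hd
  set Q := av A (qf R) with hQ
  set Q' := av B (qf R) with hQ'
  have hR0 : 0 ≤ R := by
    have hne : A.Nonempty := by
      by_contra hcon
      rw [not_nonempty_iff_eq_empty] at hcon
      rw [ha, hcon] at hvA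
      simp at hvA
    obtain ⟨x, hx⟩ := hne
    exact (norm_nonneg x).trans (hRA x hx)
  have hpn : ‖p‖ ≤ R := norm_av_le hA hvA hRA
  have hpn' : ‖p'‖ ≤ R := norm_av_le hB hvB hRB
  have hdn : ‖d‖ ≤ 2 * R := (norm_sub_le _ _).trans (by linarith)
  have hqn : ∀ x : V, ‖x‖ ≤ R → ‖qf R x‖ ≤ R ^ 2 / 2 := by
    intro x hx
    rw [Real.norm_eq_abs, abs_of_nonneg (qf_nonneg hx)]
    exact qf_le x
  have hQn : |Q| ≤ R ^ 2 / 2 := norm_av_le hA hvA (fun x hx => hqn x (hRA x hx))
  have hQn' : |Q'| ≤ R ^ 2 / 2 := norm_av_le hB hvB (fun x hx => hqn x (hRB x hx))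
  have hQ0 : 0 ≤ Q := by
    have : 0 ≤ ∫ x in A, qf R x := setIntegral_nonneg hA.measurableSet
      (fun x hx => qf_nonneg (hRA x hx))
    exact smul_nonneg (inv_nonneg.2 hvA.le) this
  have hQ0' : 0 ≤ Q' := by
    have : 0 ≤ ∫ x in B, qf R x := setIntegral_nonneg hB.measurableSet
      (fun x hx => qf_nonneg (hRB x hx))
    exact smul_nonneg (inv_nonneg.2 hvB.le) this
  have hQle := (abs_le.1 hQn).2
  have hQle' := (abs_le.1 hQn').2
  set c0 : ℝ := (Q' - Q - ⟪d, p + p'⟫ / 2) / 2 with hc0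
  have hin : |⟪d, p + p'⟫| ≤ 4 * R ^ 2 := by
    have h1 := abs_real_inner_le_norm d (p + p')
    have h2 : ‖p + p'‖ ≤ 2 * R := (norm_add_le _ _).trans (by linarith)
    nlinarith [norm_nonneg d, norm_nonneg (p + p')]
  have hinl := (abs_le.1 hin).1
  have hinr := (abs_le.1 hin).2
  have hdx : ∀ x : V, ‖x‖ ≤ R → |⟪d, x⟫| ≤ 2 * R ^ 2 := by
    intro x hx
    have h1 := abs_real_inner_le_norm d x
    nlinarith [norm_nonneg d, norm_nonneg x]
  have key := pl_real hA hB hD
    (α := fun x => ((3 * R ^ 2 + qf R x) + (1 / 2 : ℝ) * ⟪d, x⟫) + c0)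
    (β := fun x => ((3 * R ^ 2 + qf R x) + (-(1 / 2) : ℝ) * ⟪d, x⟫) + -c0)
    (w := fun x => (3 * R ^ 2 + qf R x) + ‖d‖ ^ 2 / 8)
    (by have := qf_cont (V := V) R; fun_prop) (by have := qf_cont (V := V) R; fun_prop)
    (by have := qf_cont (V := V) R; fun_prop) ?_ ?_ ?_ ?_
  · -- compute the integrals
    have e0 : ‖d‖ ^ 2 = ⟪d, p⟫ - ⟪d, p'⟫ := by
      rw [← inner_sub_right, ← hd, real_inner_self_eq_norm_sq]
    have e1 : ∫ x in A, (((3 * R ^ 2 + qf R x) + (1 / 2 : ℝ) * ⟪d, x⟫) + c0) =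
        a * (3 * R ^ 2 + (Q + Q') / 2 + ‖d‖ ^ 2 / 4) := by
      rw [int_affine hA hvA, ← hp, ← hQ, ← ha, e0, hc0, inner_add_right]
      ring
    have e2 : ∫ x in B, (((3 * R ^ 2 + qf R x) + (-(1 / 2) : ℝ) * ⟪d, x⟫) + -c0) =
        b * (3 * R ^ 2 + (Q + Q') / 2 + ‖d‖ ^ 2 / 4) := by
      rw [int_affine hB hvB, ← hp', ← hQ', ← hb, e0, hc0, inner_add_right]
      ring
    have e3 : ∫ x in D, ((3 * R ^ 2 + qf R x) + ‖d‖ ^ 2 / 8) =
        (∫ x in D, (3 * R ^ 2 + qf R x)) + ‖d‖ ^ 2 / 8 * (volume : Measure V).real D := by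
      have j1 : IntegrableOn (fun x : V => 3 * R ^ 2 + qf R x) D :=
        (by have := qf_cont (V := V) R; fun_prop :
          Continuous fun x : V => 3 * R ^ 2 + qf R x).continuousOn.integrableOn_compact hD
      have j2 : IntegrableOn (fun x : V => ‖d‖ ^ 2 / 8) D :=
        continuous_const.continuousOn.integrableOn_compact hD
      rw [integral_add j1 j2, setIntegral_const, smul_eq_mul]
      ring
    rw [e1, e2, e3] at key
    set W := (∫ x in D, (3 * R ^ 2 + qf R x)) + ‖d‖ ^ 2 / 8 * (volume : Measure V).real D with hW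
    have hW0 : 0 ≤ W := by
      have : 0 ≤ ∫ x in D, (3 * R ^ 2 + qf R x) := setIntegral_nonneg hD.measurableSet
        (fun x hx => by have := qf_nonneg (hRD x hx); positivity)
      positivity
    set A0 := 3 * R ^ 2 + (Q + Q') / 2 + ‖d‖ ^ 2 / 4 with hA0
    have hA00 : 0 ≤ A0 := by positivity
    apply abs_le_of_sq_le_sq' _ hW0 |>.2
    calc (s * A0) ^ 2 = s ^ 2 * A0 ^ 2 := by ring
      _ ≤ (a * b) * A0 ^ 2 := by gcongr
      _ = (a * A0) * (b * A0) := by ring
      _ ≤ W ^ 2 := key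
  · intro x hx
    have h1 := (abs_le.1 (hdx x (hRA x hx))).1
    have h2 := qf_nonneg (hRA x hx)
    simp only [hc0]
    nlinarith [sq_nonneg R]
  · intro x hx
    have h1 := (abs_le.1 (hdx x (hRB x hx))).2
    have h2 := qf_nonneg (hRB x hx)
    simp only [hc0]
    nlinarith [sq_nonneg R]
  · intro x hx
    have h2 := qf_nonneg (hRD x hx)
    positivity
  · intro x hx x' hx'
    refine ⟨hmid x hx x' hx', ?_⟩
    rw [qf_mid]
    have h1 : ⟪d, x⟫ - ⟪d, x'⟫ ≤ ‖d‖ * ‖x - x'‖ := by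
      rw [← inner_sub_right]; exact real_inner_le_norm _ _
    nlinarith [sq_nonneg (‖d‖ - ‖x - x'‖)]

end Vale.Agent.H10.OT
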