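import Vale.Agent.H10.OTBary

open MeasureTheory Set Metric
open scoped ENNReal NNReal RealInnerProductSpace

namespace Vale.Agent.H10.OT

set_option linter.unusedSectionVars false
set_option linter.unusedVariables false

variable {V : Type} [NormedAddCommGroup V] [InnerProductSpace ℝ V] [FiniteDimensional ℝ V]
  [MeasurableSpace V] [BorelSpace V]

lemma young_aux {η a d X t : ℝ} (hη : 0 < η) (ha : 0 < a) :
    a * d * X ≤ a * d ^ 2 / (2 * η) + η / 2 * (a * X ^ 2) := by
  have h1 : a * d ^ 2 / (2 * η) + η / 2 * (a * X ^ 2) - a * d * X =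
      a / (2 * η) * (d - η * X) ^ 2 := by field_simp; ring
  have h2 : 0 ≤ a / (2 * η) * (d - η * X) ^ 2 := by positivity
  linarith

lemma young_aux2 {η a E X t : ℝ} (hη : 0 < η) (ha : 0 < a) (hE : E ^ 2 ≤ a * t) :
    E * X ≤ t / (2 * η) + η / 2 * (a * X ^ 2) := by
  have h1 : E ^ 2 / (a * (2 * η)) + η / 2 * (a * X ^ 2) - E * X =
      1 / (2 * η * a) * (E - η * a * X) ^ 2 := by field_simp; ring
  have h2 : 0 ≤ 1 / (2 * η * a) * (E - η * a * X) ^ 2 := by positivity
  have h3 : E ^ 2 / (a * (2 * η)) ≤ t / (2 * η) := by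
    rw [div_le_div_iff₀ (by positivity) (by positivity)]
    nlinarith
  linarith

theorem bary_sum {ι : Type} [Fintype ι] [Nonempty ι] {K : Set V} (hKc : IsCompact K)
    (hKconv : Convex ℝ K) {R : ℝ} (hR : ∀ x ∈ K, ‖x‖ ≤ R) {y : ι → V}
    (hy : Function.Injective y) {ψ ψ' : ι → ℝ} {a : ι → ℝ} (ha : ∀ i, 0 < a i) {f : V → ℝ}
    (hf : Measurable f) (hf0 : ∀ x, 0 ≤ f x) (hf2 : ∀ x, f x ≤ 2)
    (h1 : ∀ i, (volume : Measure V).real (cell K y ψ i) = a i)
    (h2 : ∀ i, ∫ x in cell K y ψ' i, f x = a i) (ξ : ι → V) {η : ℝ} (hη : 0 < η) :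
    ∑ i, ⟪(∫ x in cell K y ψ' i, f x • x) - ∫ x in cell K y ψ i, x, ξ i⟫ ≤
      34 * R ^ 2 / η * (∫ x in K, |f x - 1|) + η * ∑ i, a i * ‖ξ i‖ ^ 2 := by
  classical
  set A : ι → Set V := cell K y ψ with hAdef
  set B : ι → Set V := cell K y ψ' with hBdef
  set D : ι → Set V := cell K y (fun j => (ψ j + ψ' j) / 2) with hDdef
  have hAc : ∀ i, IsCompact (A i) := fun i =>
    hKc.of_isClosed_subset (cell_isClosed hKc.isClosed y ψ i) cell_subset
  have hBc : ∀ i, IsCompact (B i) := fun i =>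
    hKc.of_isClosed_subset (cell_isClosed hKc.isClosed y ψ' i) cell_subset
  have hDc : ∀ i, IsCompact (D i) := fun i =>
    hKc.of_isClosed_subset (cell_isClosed hKc.isClosed y _ i) cell_subset
  have hRA : ∀ i, ∀ x ∈ A i, ‖x‖ ≤ R := fun i x hx => hR x hx.1
  have hRB : ∀ i, ∀ x ∈ B i, ‖x‖ ≤ R := fun i x hx => hR x hx.1
  have hRD : ∀ i, ∀ x ∈ D i, ‖x‖ ≤ R := fun i x hx => hR x hx.1
  have hR0 : 0 ≤ R := by
    have hne : (A (Classical.arbitrary ι)).Nonempty := by
      by_contra hcon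
      rw [not_nonempty_iff_eq_empty] at hcon
      have := h1 (Classical.arbitrary ι)
      rw [hcon] at this
      simp at this
      have h5 := ha (Classical.arbitrary ι)
      linarith
    obtain ⟨x, hx⟩ := hne
    exact (norm_nonneg x).trans (hRA _ x hx)
  -- integrability
  have hfK : ∀ S : Set V, IsCompact S → IntegrableOn f S := by
    intro S hS
    have : IsFiniteMeasure ((volume : Measure V).restrict S) :=
      ⟨by rw [Measure.restrict_apply_univ]; exact hS.measure_lt_top⟩
    exact int_bdd hf.aestronglyMeasurable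
      (C := 2) (Filter.Eventually.of_forall fun x => by
        rw [Real.norm_eq_abs, abs_of_nonneg (hf0 x)]; exact hf2 x)
  have hf1K : ∀ S : Set V, IsCompact S → IntegrableOn (fun x => |f x - 1|) S := by
    intro S hS
    have : IsFiniteMeasure ((volume : Measure V).restrict S) :=
      ⟨by rw [Measure.restrict_apply_univ]; exact hS.measure_lt_top⟩
    exact ((hfK S hS).sub (integrable_const 1)).abs
  have hfxK : ∀ S : Set V, IsCompact S → IntegrableOn (fun x => f x • x) S := by
    intro S hS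
    have : IsFiniteMeasure ((volume : Measure V).restrict S) :=
      ⟨by rw [Measure.restrict_apply_univ]; exact hS.measure_lt_top⟩
    obtain ⟨C, hC⟩ := hS.isBounded.exists_norm_le
    exact int_bdd (hf.smul measurable_id).aestronglyMeasurable
      (C := 2 * C) (by
        filter_upwards [ae_restrict_mem hS.measurableSet] with x hx
        show ‖f x • x‖ ≤ _
        rw [norm_smul, Real.norm_eq_abs, abs_of_nonneg (hf0 x)]
        exact mul_le_mul (hf2 x) (hC x hx) (norm_nonneg _) (by norm_num))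
  have hxK : ∀ S : Set V, IsCompact S → IntegrableOn (fun x : V => x) S := fun S hS =>
    continuous_id.continuousOn.integrableOn_compact hS
  have hqK : ∀ S : Set V, IsCompact S → IntegrableOn (qf R : V → ℝ) S := fun S hS =>
    (qf_cont R).continuousOn.integrableOn_compact hS
  have hcK : ∀ (c : ℝ) (S : Set V), IsCompact S → IntegrableOn (fun _ : V => c) S :=
    fun c S hS => continuous_const.continuousOn.integrableOn_compact hS
  -- numbers
  set a' : ι → ℝ := fun i => (volume : Measure V).real (B i) with ha'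
  set τ : ι → ℝ := fun i => ∫ x in B i, |f x - 1| with hτ
  have hτ0 : ∀ i, 0 ≤ τ i := fun i => integral_nonneg fun x => abs_nonneg _
  have hτsum : ∑ i, τ i = ∫ x in K, |f x - 1| := sum_cells hKc hy ψ' (hf1K K hKc)
  have hdiff : ∀ i, |a i - a' i| ≤ τ i := by
    intro i
    have e : a i - a' i = ∫ x in B i, (f x - 1) := by
      rw [integral_sub (hfK _ (hBc i)) (hcK 1 _ (hBc i)), h2 i, setIntegral_const]
      simp [ha']
    rw [e]
    exact abs_integral_le_integral_abs
  have ha2 : ∀ i, a i ≤ 2 * a' i := by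
    intro i
    rw [← h2 i]
    calc ∫ x in B i, f x ≤ ∫ x in B i, (2:ℝ) := by
          apply setIntegral_mono (hfK _ (hBc i)) (hcK 2 _ (hBc i))
          intro x; exact hf2 x
      _ = 2 * a' i := by rw [setIntegral_const, smul_eq_mul, mul_comm]
  have ha'pos : ∀ i, 0 < a' i := fun i => by have := ha i; have := ha2 i; linarith
  set s : ι → ℝ := fun i => min (a i) (a' i) with hs
  have hs0 : ∀ i, 0 ≤ s i := fun i => le_min (ha i).le (ha'pos i).le
  have hsa : ∀ i, a i / 2 ≤ s i := by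
    intro i
    apply le_min
    · linarith [ha i]
    · linarith [ha2 i]
  have hs1 : ∀ i, a i - τ i ≤ s i := by
    intro i
    have := abs_le.1 (hdiff i)
    apply le_min
    · linarith [hτ0 i]
    · linarith [this.2]
  have hs2 : ∀ i, a' i - τ i ≤ s i := by
    intro i
    have := abs_le.1 (hdiff i)
    apply le_min
    · linarith [this.1]
    · linarith [hτ0 i]
  set p : ι → V := fun i => av (A i) (fun x : V => x) with hp
  set p' : ι → V := fun i => av (B i) (fun x : V => x) with hp'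
  set Q : ι → ℝ := fun i => av (A i) (qf R) with hQ
  set Q' : ι → ℝ := fun i => av (B i) (qf R) with hQ'
  have hvA : ∀ i, 0 < (volume : Measure V).real (A i) := fun i => by rw [h1 i]; exact ha i
  have hpn : ∀ i, ‖p i‖ ≤ R := fun i => norm_av_le (hAc i) (hvA i) (hRA i)
  have hpn' : ∀ i, ‖p' i‖ ≤ R := fun i => norm_av_le (hBc i) (ha'pos i) (hRB i)
  have hqn : ∀ x : V, ‖x‖ ≤ R → ‖qf R x‖ ≤ R ^ 2 / 2 := by
    intro x hx
    rw [Real.norm_eq_abs, abs_of_nonneg (qf_nonneg hx)]
    exact qf_le x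
  have hQle : ∀ i, Q i ≤ R ^ 2 / 2 := fun i =>
    (le_abs_self _).trans (norm_av_le (hAc i) (hvA i) (fun x hx => hqn x (hRA i x hx)))
  have hQle' : ∀ i, Q' i ≤ R ^ 2 / 2 := fun i =>
    (le_abs_self _).trans (norm_av_le (hBc i) (ha'pos i) (fun x hx => hqn x (hRB i x hx)))
  have hQ0 : ∀ i, 0 ≤ Q i := fun i => smul_nonneg (inv_nonneg.2 (hvA i).le)
    (setIntegral_nonneg (hAc i).measurableSet fun x hx => qf_nonneg (hRA i x hx))
  have hQ0' : ∀ i, 0 ≤ Q' i := fun i => smul_nonneg (inv_nonneg.2 (ha'pos i).le)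
    (setIntegral_nonneg (hBc i).measurableSet fun x hx => qf_nonneg (hRB i x hx))
  have haQ : ∀ i, a i * Q i = ∫ x in A i, qf R x := by
    intro i
    have := av_smul (hvA i) (qf R : V → ℝ)
    rw [h1 i] at this
    exact this
  have haQ' : ∀ i, a' i * Q' i = ∫ x in B i, qf R x := fun i => av_smul (ha'pos i) (qf R : V → ℝ)
  set dd : ι → ℝ := fun i => ‖p i - p' i‖ with hdd
  have hdd0 : ∀ i, 0 ≤ dd i := fun i => norm_nonneg _
  have hddR : ∀ i, dd i ^ 2 ≤ 4 * R ^ 2 := by
    intro i
    have h3 : dd i ≤ 2 * R := (norm_sub_le _ _).trans (by linarith [hpn i, hpn' i])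
    nlinarith [hdd0 i]
  have hone : ∀ i, s i ≤ (volume : Measure V).real (D i) ∧
      s i * (3 * R ^ 2 + (Q i + Q' i) / 2 + dd i ^ 2 / 4) ≤
      (∫ x in D i, (3 * R ^ 2 + qf R x)) + dd i ^ 2 / 8 * (volume : Measure V).real (D i) := by
    intro i
    exact bary_one (hAc i) (hBc i) (hDc i) (hRA i) (hRB i) (hRD i)
      (fun x hx x' hx' => cell_mid hKconv hx hx') (hvA i) (ha'pos i) (hs0 i)
      ((min_le_left _ _).trans (h1 i).ge) (min_le_right _ _)
  -- sums
  have hvol : ∀ ψ'' : ι → ℝ, ∑ i, (volume : Measure V).real (cell K y ψ'' i) =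
      (volume : Measure V).real K := by
    intro ψ''
    have := sum_cells hKc hy ψ'' (hcK 1 K hKc)
    simpa using this
  have hsumA : ∑ i, a i = (volume : Measure V).real K := by
    rw [← hvol ψ]; exact Finset.sum_congr rfl fun i _ => (h1 i).symm
  have hsumD : ∑ i, (volume : Measure V).real (D i) = (volume : Measure V).real K := hvol _
  have hsumQ : ∑ i, ∫ x in A i, qf R x = ∫ x in K, qf R x := sum_cells hKc hy ψ (hqK K hKc)
  have hsumQ' : ∑ i, ∫ x in B i, qf R x = ∫ x in K, qf R x := sum_cells hKc hy ψ' (hqK K hKc)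
  have hsumW : ∑ i, ∫ x in D i, (3 * R ^ 2 + qf R x) =
      3 * R ^ 2 * (volume : Measure V).real K + ∫ x in K, qf R x := by
    have hg : IntegrableOn (fun x : V => 3 * R ^ 2 + qf R x) K :=
      (hcK (3 * R ^ 2) K hKc).add (hqK K hKc)
    rw [hDdef, sum_cells hKc hy _ hg,
      integral_add (hcK _ K hKc) (hqK K hKc), setIntegral_const, smul_eq_mul]
    ring
  -- pointwise inequality to be summed
  have hpt : ∀ i, 3 * R ^ 2 * s i + (∫ x in A i, qf R x) / 2 + (∫ x in B i, qf R x) / 2
      - R ^ 2 / 2 * τ i + s i * dd i ^ 2 / 4 ≤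
      (∫ x in D i, (3 * R ^ 2 + qf R x)) + s i * dd i ^ 2 / 8
        + R ^ 2 / 2 * ((volume : Measure V).real (D i) - s i) := by
    intro i
    obtain ⟨hi1, hi2⟩ := hone i
    have g1 : a i * Q i - τ i * Q i ≤ s i * Q i := by
      have := mul_le_mul_of_nonneg_right (hs1 i) (hQ0 i); linarith
    have g2 : a' i * Q' i - τ i * Q' i ≤ s i * Q' i := by
      have := mul_le_mul_of_nonneg_right (hs2 i) (hQ0' i); linarith
    have g3 : τ i * Q i ≤ τ i * (R ^ 2 / 2) := mul_le_mul_of_nonneg_left (hQle i) (hτ0 i)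
    have g4 : τ i * Q' i ≤ τ i * (R ^ 2 / 2) := mul_le_mul_of_nonneg_left (hQle' i) (hτ0 i)
    have g5 : dd i ^ 2 / 8 * ((volume : Measure V).real (D i) - s i) ≤
        R ^ 2 / 2 * ((volume : Measure V).real (D i) - s i) := by
      apply mul_le_mul_of_nonneg_right _ (by linarith)
      linarith [hddR i]
    rw [← haQ i, ← haQ' i]
    nlinarith
  have hS := Finset.sum_le_sum (fun i (_ : i ∈ Finset.univ) => hpt i)
  simp only [Finset.sum_add_distrib, Finset.sum_sub_distrib, ← Finset.mul_sum,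
    ← Finset.sum_div] at hS
  rw [hsumQ, hsumQ', hsumW, hsumD] at hS
  set T := ∑ i, τ i with hT
  set Sd := ∑ i, s i * dd i ^ 2 with hSd
  set Ss := ∑ i, s i with hSs
  have hSs1 : (volume : Measure V).real K - T ≤ Ss := by
    rw [← hsumA, hT, hSs, ← Finset.sum_sub_distrib]
    exact Finset.sum_le_sum fun i _ => hs1 i
  have hSd1 : Sd ≤ 32 * R ^ 2 * T := by nlinarith [sq_nonneg R]
  have hAd : ∑ i, a i * dd i ^ 2 ≤ 64 * R ^ 2 * T := by
    have : ∑ i, a i * dd i ^ 2 ≤ 2 * Sd := by
      rw [hSd, Finset.mul_sum]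
      apply Finset.sum_le_sum
      intro i _
      have := mul_le_mul_of_nonneg_right (hsa i) (sq_nonneg (dd i))
      linarith
    linarith
  -- final estimate, term by term
  have hterm : ∀ i, ⟪(∫ x in B i, f x • x) - ∫ x in A i, x, ξ i⟫ ≤
      (a i * dd i ^ 2) / (2 * η) + 4 * R ^ 2 * τ i / (2 * η) + η * (a i * ‖ξ i‖ ^ 2) := by
    intro i
    set E := (∫ x in B i, f x • x) - a i • p' i with hE
    have hAx : ∫ x in A i, x = a i • p i := by
      have := av_smul (hvA i) (fun x : V => x)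
      rw [h1 i] at this
      exact this.symm
    have e1 : (∫ x in B i, f x • x) - ∫ x in A i, x = a i • (p' i - p i) + E := by
      rw [hAx, hE, smul_sub]; abel
    have hEn1 : ‖E‖ ≤ 2 * R * a i := by
      have g1 : ‖∫ x in B i, f x • x‖ ≤ R * a i := by
        calc ‖∫ x in B i, f x • x‖ ≤ ∫ x in B i, ‖f x • x‖ := norm_integral_le_integral_norm _
          _ ≤ ∫ x in B i, R * f x := by
            apply setIntegral_mono_on (hfxK _ (hBc i)).norm ((hfK _ (hBc i)).const_mul R)
              (hBc i).measurableSet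
            intro x hx
            rw [norm_smul, Real.norm_eq_abs, abs_of_nonneg (hf0 x), mul_comm]
            exact mul_le_mul_of_nonneg_right (hRB i x hx) (hf0 x)
          _ = R * a i := by rw [integral_const_mul, h2 i]
      calc ‖E‖ ≤ ‖∫ x in B i, f x • x‖ + ‖a i • p' i‖ := norm_sub_le _ _
        _ ≤ R * a i + a i * R := by
          rw [norm_smul, Real.norm_eq_abs, abs_of_pos (ha i)]
          exact add_le_add g1 (mul_le_mul_of_nonneg_left (hpn' i) (ha i).le)
        _ = 2 * R * a i := by ring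
    have hEn2 : ‖E‖ ≤ 2 * R * τ i := by
      have e2 : E = (∫ x in B i, (f x - 1) • x) + (a' i - a i) • p' i := by
        have e3 : ∫ x in B i, (f x - 1) • x = (∫ x in B i, f x • x) - a' i • p' i := by
          rw [hp', ha', av_smul (ha'pos i), ← integral_sub (hfxK _ (hBc i)) (hxK _ (hBc i))]
          congr 1
          ext x
          rw [sub_smul, one_smul]
        rw [e3, hE, sub_smul]; abel
      have g1 : ‖∫ x in B i, (f x - 1) • x‖ ≤ R * τ i := by
        calc ‖∫ x in B i, (f x - 1) • x‖ ≤ ∫ x in B i, ‖(f x - 1) • x‖ :=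
              norm_integral_le_integral_norm _
          _ ≤ ∫ x in B i, R * |f x - 1| := by
            apply setIntegral_mono_on _ ((hf1K _ (hBc i)).const_mul R) (hBc i).measurableSet
            · intro x hx
              rw [norm_smul, Real.norm_eq_abs, mul_comm]
              exact mul_le_mul_of_nonneg_right (hRB i x hx) (abs_nonneg _)
            · have := ((hfxK _ (hBc i)).sub (hxK _ (hBc i))).norm
              refine this.congr (Filter.Eventually.of_forall fun x => ?_)
              simp only [Pi.sub_apply]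
              rw [sub_smul, one_smul]
          _ = R * τ i := integral_const_mul _ _
      rw [e2]
      calc ‖(∫ x in B i, (f x - 1) • x) + (a' i - a i) • p' i‖
          ≤ ‖∫ x in B i, (f x - 1) • x‖ + ‖(a' i - a i) • p' i‖ := norm_add_le _ _
        _ ≤ R * τ i + τ i * R := by
          rw [norm_smul, Real.norm_eq_abs, abs_sub_comm]
          exact add_le_add g1 (mul_le_mul (hdiff i) (hpn' i) (norm_nonneg _) (hτ0 i))
        _ = 2 * R * τ i := by ring
    have hEsq : ‖E‖ ^ 2 ≤ a i * (4 * R ^ 2 * τ i) := by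
      calc ‖E‖ ^ 2 = ‖E‖ * ‖E‖ := sq _
        _ ≤ (2 * R * a i) * (2 * R * τ i) := by
          apply mul_le_mul hEn1 hEn2 (norm_nonneg _)
          have := ha i; positivity
        _ = a i * (4 * R ^ 2 * τ i) := by ring
    rw [e1, inner_add_left, real_inner_smul_left]
    have g1 : ⟪p' i - p i, ξ i⟫ ≤ dd i * ‖ξ i‖ := by
      have := real_inner_le_norm (p' i - p i) (ξ i)
      rwa [norm_sub_rev] at this
    have g2 : ⟪E, ξ i⟫ ≤ ‖E‖ * ‖ξ i‖ := real_inner_le_norm _ _
    have g3 := young_aux (t := 0) (d := dd i) (X := ‖ξ i‖) hη (ha i)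
    have g4 := young_aux2 (X := ‖ξ i‖) hη (ha i) hEsq
    have g5 : a i * ⟪p' i - p i, ξ i⟫ ≤ a i * (dd i * ‖ξ i‖) :=
      mul_le_mul_of_nonneg_left g1 (ha i).le
    linarith
  calc ∑ i, ⟪(∫ x in B i, f x • x) - ∫ x in A i, x, ξ i⟫
      ≤ ∑ i, ((a i * dd i ^ 2) / (2 * η) + 4 * R ^ 2 * τ i / (2 * η) + η * (a i * ‖ξ i‖ ^ 2)) :=
        Finset.sum_le_sum fun i _ => hterm i
    _ = (∑ i, a i * dd i ^ 2) / (2 * η) + 4 * R ^ 2 * T / (2 * η)
        + η * ∑ i, a i * ‖ξ i‖ ^ 2 := by
        simp only [Finset.sum_add_distrib, ← Finset.mul_sum, ← Finset.sum_div]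
        rw [hT]
    _ ≤ (64 * R ^ 2 * T) / (2 * η) + 4 * R ^ 2 * T / (2 * η) + η * ∑ i, a i * ‖ξ i‖ ^ 2 := by
        gcongr
    _ = 34 * R ^ 2 / η * (∫ x in K, |f x - 1|) + η * ∑ i, a i * ‖ξ i‖ ^ 2 := by
        rw [← hτsum]; field_simp; ring

end Vale.Agent.H10.OT
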