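import Vale.Agent.H10.OTCellDefs

open MeasureTheory Set
open scoped ENNReal NNReal RealInnerProductSpace

namespace Vale.Agent.H10.OT

set_option linter.unusedSectionVars false
set_option linter.unusedVariables false

variable {V : Type} [NormedAddCommGroup V] [InnerProductSpace ℝ V] [FiniteDimensional ℝ V]
  [MeasurableSpace V] [BorelSpace V]

lemma hyperplane_null {w : V} (hw : w ≠ 0) (c : ℝ) :
    (volume : Measure V) {x | ⟪x, w⟫ = c} = 0 := by
  by_cases hne : ∃ x0, ⟪x0, w⟫ = c
  · obtain ⟨x0, hx0⟩ := hne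
    have h1 : {x : V | ⟪x, w⟫ = c} ⊆
        ((AffineSubspace.mk' x0 (LinearMap.ker (innerₛₗ ℝ w)) : AffineSubspace ℝ V) : Set V) := by
      intro x hx
      simp only [mem_setOf_eq] at hx
      rw [SetLike.mem_coe, AffineSubspace.mem_mk', LinearMap.mem_ker, vsub_eq_sub]
      show ⟪w, x - x0⟫ = 0
      rw [inner_sub_right, real_inner_comm, real_inner_comm x0 w, hx, hx0, sub_self]
    refine measure_mono_null h1 (Measure.addHaar_affineSubspace _ _ ?_)
    intro htop
    have : x0 + w ∈ (AffineSubspace.mk' x0 (LinearMap.ker (innerₛₗ ℝ w)) : AffineSubspace ℝ V) := by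
      rw [htop]; trivial
    rw [AffineSubspace.mem_mk', LinearMap.mem_ker, vsub_eq_sub, add_sub_cancel_left] at this
    exact hw (inner_self_eq_zero.1 (show ⟪w, w⟫ = 0 from this))
  · have : {x : V | ⟪x, w⟫ = c} = ∅ := by
      ext x; simp only [mem_setOf_eq, mem_empty_iff_false, iff_false]
      intro h; exact hne ⟨x, h⟩
    rw [this, measure_empty]

theorem cell_inter_null {ι : Type} (K : Set V) {y : ι → V} (hy : Function.Injective y) (ψ : ι → ℝ)
    {i j : ι} (hij : i ≠ j) : (volume : Measure V) (cell K y ψ i ∩ cell K y ψ j) = 0 := by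
  refine measure_mono_null ?_ (hyperplane_null (w := y i - y j) ?_ (ψ i - ψ j))
  · rintro x ⟨hi, hj⟩
    have h1 := hi.2 j
    have h2 := hj.2 i
    show ⟪x, y i - y j⟫ = ψ i - ψ j
    rw [inner_sub_right]
    linarith
  · exact sub_ne_zero.2 (fun h => hij (hy h))

/-- cells partition `K` up to null sets -/
lemma sum_cells {F : Type} [NormedAddCommGroup F] [NormedSpace ℝ F] {ι : Type} [Fintype ι]
    [Nonempty ι] {K : Set V} (hK : IsCompact K) {y : ι → V} (hy : Function.Injective y)
    (ψ : ι → ℝ) {g : V → F} (hg : IntegrableOn g K) :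
    ∑ i, ∫ x in cell K y ψ i, g x = ∫ x in K, g x := by
  have hU : (⋃ i, cell K y ψ i) = K := by
    apply Subset.antisymm
    · exact iUnion_subset fun i => cell_subset
    · intro x hx
      obtain ⟨i, hi⟩ := cell_cover y ψ hx
      exact mem_iUnion.2 ⟨i, hi⟩
  have h := integral_iUnion_ae (μ := (volume : Measure V)) (f := g) (s := cell K y ψ)
    (fun i => (cell_isClosed hK.isClosed y ψ i).measurableSet.nullMeasurableSet)
    (fun i j hij => cell_inter_null K hy ψ hij) (by rw [hU]; exact hg)
  rw [hU, tsum_fintype] at h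
  exact h.symm

end Vale.Agent.H10.OT
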