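import Vale.Agent.H10.OTPerm

open MeasureTheory Set
open scoped ENNReal NNReal RealInnerProductSpace

namespace Vale.Agent.H10.OT

set_option linter.unusedSectionVars false
set_option linter.unusedVariables false

variable {V : Type} [NormedAddCommGroup V] [InnerProductSpace ℝ V]

/-- closed Laguerre cell of the site `y i` with weight `ψ i` inside `K` -/
def cell {ι : Type} (K : Set V) (y : ι → V) (ψ : ι → ℝ) (i : ι) : Set V :=
  {x | x ∈ K ∧ ∀ j, ⟪x, y j⟫ - ψ j ≤ ⟪x, y i⟫ - ψ i}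

lemma cell_subset {ι : Type} {K : Set V} {y : ι → V} {ψ : ι → ℝ} {i : ι} :
    cell K y ψ i ⊆ K := fun _ hx => hx.1

lemma cell_isClosed {ι : Type} {K : Set V} (hK : IsClosed K) (y : ι → V) (ψ : ι → ℝ) (i : ι) :
    IsClosed (cell K y ψ i) := by
  have : cell K y ψ i = K ∩ ⋂ j, {x : V | ⟪x, y j⟫ - ψ j ≤ ⟪x, y i⟫ - ψ i} := by
    ext x; simp [cell]
  rw [this]
  refine hK.inter (isClosed_iInter fun j => isClosed_le ?_ ?_) <;> fun_prop

lemma cell_cover {ι : Type} [Finite ι] [Nonempty ι] {K : Set V} (y : ι → V) (ψ : ι → ℝ) {x : V}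
    (hx : x ∈ K) : ∃ i, x ∈ cell K y ψ i := by
  obtain ⟨i, hi⟩ := Finite.exists_max (fun j => ⟪x, y j⟫ - ψ j)
  exact ⟨i, hx, hi⟩

/-- midpoints of cells are in the cells of the midpoint weights -/
lemma cell_mid {ι : Type} {K : Set V} (hK : Convex ℝ K) {y : ι → V} {ψ ψ' : ι → ℝ} {i : ι}
    {x x' : V} (hx : x ∈ cell K y ψ i) (hx' : x' ∈ cell K y ψ' i) :
    (1 / 2 : ℝ) • (x + x') ∈ cell K y (fun j => (ψ j + ψ' j) / 2) i := by
  refine ⟨?_, ?_⟩
  · have := hK hx.1 hx'.1 (by norm_num : (0:ℝ) ≤ 1 / 2) (by norm_num : (0:ℝ) ≤ 1 / 2) (by norm_num)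
    rwa [← smul_add] at this
  · intro j
    have h1 := hx.2 j
    have h2 := hx'.2 j
    simp only [real_inner_smul_left, inner_add_left]
    linarith

end Vale.Agent.H10.OT
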