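import Vale.Agent.H10.OTCellBase

open MeasureTheory Set Filter Topology
open scoped ENNReal NNReal RealInnerProductSpace

set_option linter.unusedSectionVars false

namespace Vale.Agent.H10.OT

variable {V : Type} [NormedAddCommGroup V] [InnerProductSpace ℝ V] [FiniteDimensional ℝ V]
  [MeasurableSpace V] [BorelSpace V]

section phi

variable {ι : Type} [Fintype ι] [Nonempty ι]

/-- affine pieces -/
noncomputable def aff (y : ι → V) (ψ : ι → ℝ) (x : V) (i : ι) : ℝ := ⟪x, y i⟫ - ψ i

/-- the upper envelope -/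
noncomputable def Phi (y : ι → V) (ψ : ι → ℝ) (x : V) : ℝ :=
  Finset.univ.sup' Finset.univ_nonempty (aff y ψ x)

omit [FiniteDimensional ℝ V] [MeasurableSpace V] [BorelSpace V] in
lemma aff_le_Phi (y : ι → V) (ψ : ι → ℝ) (x : V) (i : ι) : aff y ψ x i ≤ Phi y ψ x :=
  Finset.le_sup' (aff y ψ x) (Finset.mem_univ i)

omit [FiniteDimensional ℝ V] [MeasurableSpace V] [BorelSpace V] in
lemma Phi_le {y : ι → V} {ψ : ι → ℝ} {x : V} {c : ℝ} (h : ∀ i, aff y ψ x i ≤ c) :
    Phi y ψ x ≤ c :=
  Finset.sup'_le _ _ (fun i _ => h i)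

omit [FiniteDimensional ℝ V] [MeasurableSpace V] [BorelSpace V] in
lemma exists_Phi (y : ι → V) (ψ : ι → ℝ) (x : V) : ∃ i, Phi y ψ x = aff y ψ x i := by
  obtain ⟨i, _, hi⟩ := Finset.exists_mem_eq_sup' Finset.univ_nonempty (aff y ψ x)
  exact ⟨i, hi⟩

omit [FiniteDimensional ℝ V] [MeasurableSpace V] [BorelSpace V] in
lemma Phi_lip_le (y : ι → V) (ψ ψ' : ι → ℝ) (x : V) :
    Phi y ψ x ≤ Phi y ψ' x + ‖ψ - ψ'‖ := by
  apply Phi_le
  intro i
  have h1 := aff_le_Phi y ψ' x i
  have h2 : |(ψ - ψ') i| ≤ ‖ψ - ψ'‖ := norm_le_pi_norm (ψ - ψ') i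
  rw [Pi.sub_apply] at h2
  have h3 := (abs_le.1 h2).1
  unfold aff at h1 ⊢
  linarith

omit [FiniteDimensional ℝ V] [MeasurableSpace V] [BorelSpace V] in
lemma Phi_lip (y : ι → V) (ψ ψ' : ι → ℝ) (x : V) :
    |Phi y ψ x - Phi y ψ' x| ≤ ‖ψ - ψ'‖ := by
  have h1 := Phi_lip_le y ψ ψ' x
  have h2 := Phi_lip_le y ψ' ψ x
  rw [norm_sub_rev] at h2
  rw [abs_le]
  constructor <;> linarith

omit [FiniteDimensional ℝ V] [MeasurableSpace V] [BorelSpace V] in
lemma continuous_Phi (y : ι → V) (ψ : ι → ℝ) : Continuous (Phi y ψ) := by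
  unfold Phi
  apply Continuous.finset_sup'_apply
  intro i _
  unfold aff
  fun_prop

omit [FiniteDimensional ℝ V] [MeasurableSpace V] [BorelSpace V] in
lemma Phi_shift (y : ι → V) (ψ : ι → ℝ) (c : ℝ) (x : V) :
    Phi y (fun i => ψ i - c) x = Phi y ψ x + c := by
  apply le_antisymm
  · apply Phi_le
    intro i
    have := aff_le_Phi y ψ x i
    unfold aff at this ⊢
    linarith
  · obtain ⟨i, hi⟩ := exists_Phi y ψ x
    have := aff_le_Phi y (fun i => ψ i - c) x i
    rw [hi]
    unfold aff at this ⊢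
    linarith

variable {K : Set V} {f : V → ℝ}

lemma integrable_mul_of_continuous (hK : IsCompact K) (hf : Measurable f) (hf0 : ∀ x, 0 ≤ f x)
    (hf2 : ∀ x, f x ≤ 2) {g : V → ℝ} (hg : Continuous g) :
    IntegrableOn (fun x => f x * g x) K volume := by
  have h1 : IntegrableOn g K volume := hg.continuousOn.integrableOn_compact hK
  apply Integrable.mono' (g := fun x => 2 * ‖g x‖) (h1.norm.const_mul 2)
  · exact (hf.mul hg.measurable).aestronglyMeasurable
  · filter_upwards with x
    rw [norm_mul, Real.norm_eq_abs, abs_of_nonneg (hf0 x)]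
    exact mul_le_mul_of_nonneg_right (hf2 x) (norm_nonneg _)

/-- the dual functional -/
noncomputable def Jfun (K : Set V) (f : V → ℝ) (y : ι → V) (a : ι → ℝ) (ψ : ι → ℝ) : ℝ :=
  (∫ x in K, f x * Phi y ψ x) + ∑ i, a i * ψ i

lemma integrableOn_f (hK : IsCompact K) (hf : Measurable f) (hf0 : ∀ x, 0 ≤ f x)
    (hf2 : ∀ x, f x ≤ 2) : IntegrableOn f K volume := by
  have := integrable_mul_of_continuous hK hf hf0 hf2 (g := fun _ => (1 : ℝ)) continuous_const
  simpa using this

lemma integral_Phi_lip (hK : IsCompact K) (hf : Measurable f) (hf0 : ∀ x, 0 ≤ f x)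
    (hf2 : ∀ x, f x ≤ 2) (y : ι → V) (ψ ψ' : ι → ℝ) :
    |(∫ x in K, f x * Phi y ψ x) - ∫ x in K, f x * Phi y ψ' x| ≤
      (∫ x in K, f x) * ‖ψ - ψ'‖ := by
  have i1 := integrable_mul_of_continuous hK hf hf0 hf2 (continuous_Phi y ψ)
  have i2 := integrable_mul_of_continuous hK hf hf0 hf2 (continuous_Phi y ψ')
  rw [← integral_sub i1 i2, ← integral_mul_const]
  rw [← Real.norm_eq_abs]
  apply norm_integral_le_of_norm_le ((integrableOn_f hK hf hf0 hf2).mul_const _)
  filter_upwards with x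
  rw [← mul_sub, norm_mul, Real.norm_eq_abs, Real.norm_eq_abs, abs_of_nonneg (hf0 x)]
  exact mul_le_mul_of_nonneg_left (Phi_lip y ψ ψ' x) (hf0 x)

lemma continuous_Jfun (hK : IsCompact K) (hf : Measurable f) (hf0 : ∀ x, 0 ≤ f x)
    (hf2 : ∀ x, f x ≤ 2) (y : ι → V) (a : ι → ℝ) : Continuous (Jfun K f y a) := by
  unfold Jfun
  apply Continuous.add
  · have hS : 0 ≤ ∫ x in K, f x := integral_nonneg hf0
    have : LipschitzWith (∫ x in K, f x).toNNReal (fun ψ : ι → ℝ => ∫ x in K, f x * Phi y ψ x) := by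
      apply LipschitzWith.of_dist_le_mul
      intro ψ ψ'
      rw [Real.dist_eq, dist_eq_norm, Real.coe_toNNReal _ hS]
      exact integral_Phi_lip hK hf hf0 hf2 y ψ ψ'
    exact this.continuous
  · fun_prop

lemma Jfun_shift (hK : IsCompact K) (hf : Measurable f) (hf0 : ∀ x, 0 ≤ f x)
    (hf2 : ∀ x, f x ≤ 2) (y : ι → V) {a : ι → ℝ} (hsum : ∑ i, a i = ∫ x in K, f x)
    (ψ : ι → ℝ) (c : ℝ) : Jfun K f y a (fun i => ψ i - c) = Jfun K f y a ψ := by
  unfold Jfun
  have h1 : (∫ x in K, f x * Phi y (fun i => ψ i - c) x) =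
      (∫ x in K, f x * Phi y ψ x) + (∫ x in K, f x) * c := by
    rw [← integral_mul_const, ← integral_add
      (integrable_mul_of_continuous hK hf hf0 hf2 (continuous_Phi y ψ))
      ((integrableOn_f hK hf hf0 hf2).mul_const _)]
    apply integral_congr_ae
    filter_upwards with x
    rw [Phi_shift]
    ring
  rw [h1, ← hsum]
  simp only [mul_sub, Finset.sum_sub_distrib, ← Finset.sum_mul]
  ring

lemma exists_min (hK : IsCompact K) (hf : Measurable f) (hf0 : ∀ x, 0 ≤ f x)
    (hf2 : ∀ x, f x ≤ 2) (y : ι → V) {a : ι → ℝ} (ha : ∀ i, 0 < a i)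
    (hsum : ∑ i, a i = ∫ x in K, f x) :
    ∃ ψ : ι → ℝ, ∀ ψ', Jfun K f y a ψ ≤ Jfun K f y a ψ' := by
  -- bound of the inner products
  obtain ⟨M, hM⟩ : ∃ M, ∀ x ∈ K, ∀ i, |⟪x, y i⟫| ≤ M := by
    have hb : ∀ i, ∃ M, ∀ x ∈ K, |⟪x, y i⟫| ≤ M := by
      intro i
      obtain ⟨M, hM⟩ := hK.exists_bound_of_continuousOn
        (f := fun x => ⟪x, y i⟫) (by fun_prop)
      exact ⟨M, fun x hx => hM x hx⟩
    choose M hM using hb
    refine ⟨∑ i, |M i|, fun x hx i => ?_⟩
    calc |⟪x, y i⟫| ≤ M i := hM i x hx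
      _ ≤ |M i| := le_abs_self _
      _ ≤ ∑ i, |M i| := Finset.single_le_sum (f := fun i => |M i|)
          (fun _ _ => abs_nonneg _) (Finset.mem_univ i)
  set M' : ℝ := max M 0 with hM'
  have hM0 : 0 ≤ M' := le_max_right _ _
  have hMb : ∀ x ∈ K, ∀ i, |⟪x, y i⟫| ≤ M' := fun x hx i => (hM x hx i).trans (le_max_left _ _)
  set S : ℝ := ∫ x in K, f x with hS
  have hS0 : 0 ≤ S := integral_nonneg hf0
  -- minimal mass
  obtain ⟨i0, hi0⟩ := Finite.exists_min a
  set α := a i0 with hα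
  have hαpos : 0 < α := ha i0
  set B : ℝ := 2 * M' * S / α with hB
  have hB0 : 0 ≤ B := by positivity
  obtain ⟨ψ, hψ, hmin⟩ := (isCompact_Icc (a := (0 : ι → ℝ)) (b := fun _ => B)).exists_isMinOn
    ⟨0, le_rfl, fun _ => hB0⟩ (continuous_Jfun hK hf hf0 hf2 y a).continuousOn
  refine ⟨ψ, fun ψ' => ?_⟩
  -- normalise ψ'
  obtain ⟨k, hk⟩ := Finite.exists_min ψ'
  set η : ι → ℝ := fun i => ψ' i - ψ' k with hη
  have hη0 : ∀ i, 0 ≤ η i := fun i => by rw [hη]; linarith [hk i]
  rw [← Jfun_shift hK hf hf0 hf2 y hsum ψ' (ψ' k)]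
  by_cases hbox : ∀ i, η i ≤ B
  · exact hmin ⟨hη0, hbox⟩
  · push Not at hbox
    obtain ⟨j, hj⟩ := hbox
    have h0 : Jfun K f y a ψ ≤ Jfun K f y a 0 := hmin ⟨le_rfl, fun _ => hB0⟩
    have h1 : Jfun K f y a 0 ≤ M' * S := by
      unfold Jfun
      simp only [Pi.zero_apply, mul_zero, Finset.sum_const_zero, add_zero]
      rw [hS, ← integral_const_mul]
      apply setIntegral_mono_on
        (integrable_mul_of_continuous hK hf hf0 hf2 (continuous_Phi y 0))
        ((integrableOn_f hK hf hf0 hf2).const_mul _) hK.isClosed.measurableSet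
      intro x hx
      rw [mul_comm]
      apply mul_le_mul_of_nonneg_right _ (hf0 x)
      apply Phi_le
      intro i
      unfold aff
      simp only [Pi.zero_apply, sub_zero]
      exact (abs_le.1 (hMb x hx i)).2
    have h2 : -(M' * S) ≤ ∫ x in K, f x * Phi y η x := by
      rw [hS, ← neg_mul, ← integral_const_mul]
      apply setIntegral_mono_on ((integrableOn_f hK hf hf0 hf2).const_mul _)
        (integrable_mul_of_continuous hK hf hf0 hf2 (continuous_Phi y η))
        hK.isClosed.measurableSet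
      intro x hx
      rw [mul_comm]
      apply mul_le_mul_of_nonneg_left _ (hf0 x)
      have h3 := aff_le_Phi y η x k
      unfold aff at h3
      have h4 : η k = 0 := by simp [hη]
      rw [h4, sub_zero] at h3
      exact (abs_le.1 (hMb x hx k)).1.trans h3
    have h3 : α * B ≤ ∑ i, a i * η i := by
      calc α * B ≤ a j * η j := mul_le_mul (hi0 j) hj.le hB0 (ha j).le
        _ ≤ ∑ i, a i * η i := Finset.single_le_sum (f := fun i => a i * η i)
            (fun i _ => mul_nonneg (ha i).le (hη0 i)) (Finset.mem_univ j)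
    have h4 : α * B = 2 * M' * S := by
      rw [hB]; field_simp
    have h5 : M' * S ≤ Jfun K f y a η := by
      unfold Jfun
      linarith
    exact h0.trans (h1.trans h5)

/-- enlarged cells -/
def ecell (K : Set V) (y : ι → V) (ψ : ι → ℝ) (i : ι) (ε : ℝ) : Set V :=
  {x | x ∈ K ∧ Phi y ψ x - aff y ψ x i < ε}

lemma measurableSet_ecell (hK : IsCompact K) (y : ι → V) (ψ : ι → ℝ) (i : ι) (ε : ℝ) :
    MeasurableSet (ecell K y ψ i ε) := by
  have h1 : Continuous (fun x => Phi y ψ x - aff y ψ x i) := by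
    apply (continuous_Phi y ψ).sub
    unfold aff
    fun_prop
  have h2 : IsOpen {x | Phi y ψ x - aff y ψ x i < ε} := isOpen_lt h1 continuous_const
  exact hK.isClosed.measurableSet.inter h2.measurableSet

lemma ecell_mass [DecidableEq ι] (hK : IsCompact K) (hf : Measurable f) (hf0 : ∀ x, 0 ≤ f x)
    (hf2 : ∀ x, f x ≤ 2) (y : ι → V) {a : ι → ℝ} {ψ : ι → ℝ}
    (hψ : ∀ ψ', Jfun K f y a ψ ≤ Jfun K f y a ψ') (i : ι) {ε : ℝ} (hε : 0 < ε) :
    a i ≤ ∫ x in ecell K y ψ i ε, f x := by
  set ψ' : ι → ℝ := Function.update ψ i (ψ i - ε) with hψ'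
  have h1 := hψ ψ'
  unfold Jfun at h1
  have h2 : ∑ j, a j * ψ' j = (∑ j, a j * ψ j) - ε * a i := by
    have : ∀ j, a j * ψ' j = a j * ψ j - (if j = i then ε * a i else 0) := by
      intro j
      by_cases hj : j = i
      · subst hj
        simp only [hψ', Function.update_self, if_true]
        ring
      · simp only [hψ', Function.update_of_ne hj, if_neg hj, sub_zero]
    simp only [this, Finset.sum_sub_distrib, Finset.sum_ite_eq', Finset.mem_univ, if_true]
  have hpt : ∀ x ∈ K, f x * Phi y ψ' x ≤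
      f x * Phi y ψ x + ε * (ecell K y ψ i ε).indicator f x := by
    intro x hx
    by_cases hxe : x ∈ ecell K y ψ i ε
    · rw [indicator_of_mem hxe]
      have h3 : Phi y ψ' x ≤ Phi y ψ x + ε := by
        apply Phi_le
        intro j
        have h4 := aff_le_Phi y ψ x j
        by_cases hj : j = i
        · subst hj
          unfold aff at h4 ⊢
          simp only [hψ', Function.update_self]
          linarith
        · unfold aff at h4 ⊢
          simp only [hψ', Function.update_of_ne hj]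
          linarith
      have := mul_le_mul_of_nonneg_left h3 (hf0 x)
      linarith
    · rw [indicator_of_notMem hxe, mul_zero, add_zero]
      apply mul_le_mul_of_nonneg_left _ (hf0 x)
      apply Phi_le
      intro j
      have h4 := aff_le_Phi y ψ x j
      by_cases hj : j = i
      · subst hj
        have h5 : ε ≤ Phi y ψ x - aff y ψ x j := by
          by_contra hcon
          push Not at hcon
          exact hxe ⟨hx, hcon⟩
        unfold aff at h5 ⊢
        simp only [hψ', Function.update_self]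
        linarith
      · unfold aff at h4 ⊢
        simp only [hψ', Function.update_of_ne hj]
        linarith
  have hme := measurableSet_ecell hK y ψ i ε
  have hsub : ecell K y ψ i ε ⊆ K := fun x hx => hx.1
  have hint : IntegrableOn ((ecell K y ψ i ε).indicator f) K volume :=
    (integrableOn_f hK hf hf0 hf2).indicator hme
  have h3 : (∫ x in K, f x * Phi y ψ' x) ≤
      (∫ x in K, f x * Phi y ψ x) + ε * ∫ x in ecell K y ψ i ε, f x := by
    have h4 : (∫ x in ecell K y ψ i ε, f x) = ∫ x in K, (ecell K y ψ i ε).indicator f x := by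
      rw [setIntegral_indicator hme, inter_eq_right.2 hsub]
    rw [h4, ← integral_const_mul, ← integral_add
      (integrable_mul_of_continuous hK hf hf0 hf2 (continuous_Phi y ψ)) (hint.const_mul ε)]
    exact setIntegral_mono_on
      (integrable_mul_of_continuous hK hf hf0 hf2 (continuous_Phi y ψ'))
      ((integrable_mul_of_continuous hK hf hf0 hf2 (continuous_Phi y ψ)).add
        (hint.const_mul ε)) hK.isClosed.measurableSet hpt
  have h6 : ε * a i ≤ ε * ∫ x in ecell K y ψ i ε, f x := by linarith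
  exact le_of_mul_le_mul_left h6 hε

omit [FiniteDimensional ℝ V] [MeasurableSpace V] [BorelSpace V] in
lemma cell_eq_iInter (K : Set V) (y : ι → V) (ψ : ι → ℝ) (i : ι) :
    cell K y ψ i = ⋂ n : ℕ, ecell K y ψ i (1 / ((n : ℝ) + 1)) := by
  ext x
  simp only [mem_iInter]
  constructor
  · rintro ⟨hx, h⟩ n
    refine ⟨hx, ?_⟩
    have h1 : Phi y ψ x ≤ aff y ψ x i := Phi_le (fun j => h j)
    have : (0 : ℝ) < 1 / ((n : ℝ) + 1) := by positivity
    linarith
  · intro h
    refine ⟨(h 0).1, fun j => ?_⟩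
    have h1 := aff_le_Phi y ψ x j
    have h2 : Phi y ψ x ≤ aff y ψ x i := by
      by_contra hcon
      push Not at hcon
      obtain ⟨n, hn⟩ := exists_nat_one_div_lt (sub_pos.2 hcon)
      have := (h n).2
      linarith
    exact h1.trans h2

lemma measurableSet_cell (hK : IsCompact K) (y : ι → V) (ψ : ι → ℝ) (i : ι) :
    MeasurableSet (cell K y ψ i) := by
  rw [cell_eq_iInter]
  exact MeasurableSet.iInter (fun n => measurableSet_ecell hK y ψ i _)

lemma cell_mass_ge (hK : IsCompact K) (hf : Measurable f) (hf0 : ∀ x, 0 ≤ f x)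
    (hf2 : ∀ x, f x ≤ 2) (y : ι → V) {a : ι → ℝ} {ψ : ι → ℝ}
    (hψ : ∀ ψ', Jfun K f y a ψ ≤ Jfun K f y a ψ') (i : ι) :
    a i ≤ ∫ x in cell K y ψ i, f x := by
  classical
  have hanti : Antitone (fun n : ℕ => ecell K y ψ i (1 / ((n : ℝ) + 1))) := by
    intro m n hmn x hx
    refine ⟨hx.1, hx.2.trans_le ?_⟩
    apply one_div_le_one_div_of_le (by positivity)
    have : (m : ℝ) ≤ n := by exact_mod_cast hmn
    linarith
  have hlim := tendsto_setIntegral_of_antitone (μ := (volume : Measure V)) (f := f)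
    (fun n : ℕ => measurableSet_ecell hK y ψ i (1 / ((n : ℝ) + 1))) hanti
    ⟨0, (integrableOn_f hK hf hf0 hf2).mono_set (fun x hx => hx.1)⟩
  rw [← cell_eq_iInter] at hlim
  exact ge_of_tendsto' hlim (fun n => ecell_mass hK hf hf0 hf2 y hψ i (by positivity))

lemma sum_cell_le (hK : IsCompact K) (hf : Measurable f) (hf0 : ∀ x, 0 ≤ f x)
    (hf2 : ∀ x, f x ≤ 2) {y : ι → V} (hy : Function.Injective y) (ψ : ι → ℝ) :
    ∑ i, (∫ x in cell K y ψ i, f x) ≤ ∫ x in K, f x := by
  classical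
  have hsub : ∀ i, cell K y ψ i ⊆ K := fun i x hx => hx.1
  have hfK := integrableOn_f hK hf hf0 hf2
  have h1 : ∀ i, (∫ x in cell K y ψ i, f x) = ∫ x in K, (cell K y ψ i).indicator f x := by
    intro i
    rw [setIntegral_indicator (measurableSet_cell hK y ψ i), inter_eq_right.2 (hsub i)]
  simp only [h1]
  rw [← integral_finsetSum _ (fun i _ => hfK.indicator (measurableSet_cell hK y ψ i))]
  have hnull : ∀ᵐ x ∂(volume.restrict K : Measure V), ∀ i j, i ≠ j →
      ¬ (x ∈ cell K y ψ i ∩ cell K y ψ j) := by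
    apply ae_restrict_of_ae
    rw [ae_all_iff]
    intro i
    rw [ae_all_iff]
    intro j
    by_cases hij : i = j
    · simp [hij]
    · have := cell_inter_null K hy ψ hij
      have h2 := measure_eq_zero_iff_ae_notMem.1 this
      filter_upwards [h2] with x hx _
      exact hx
  apply integral_mono_ae (integrable_finsetSum _ (fun i _ =>
    hfK.indicator (measurableSet_cell hK y ψ i))) hfK
  filter_upwards [hnull] with x hx
  by_cases hex : ∃ i, x ∈ cell K y ψ i
  · obtain ⟨i, hi⟩ := hex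
    show ∑ j, (cell K y ψ j).indicator f x ≤ f x
    rw [Finset.sum_eq_single i]
    · rw [indicator_of_mem hi]
    · intro j _ hji
      apply indicator_of_notMem
      intro hj
      exact hx j i hji ⟨hj, hi⟩
    · intro h; exact absurd (Finset.mem_univ i) h
  · push Not at hex
    show ∑ j, (cell K y ψ j).indicator f x ≤ f x
    rw [Finset.sum_eq_zero (fun j _ => indicator_of_notMem (hex j) f)]
    exact hf0 x

end phi

theorem exists_cells {ι : Type} [Fintype ι] {K : Set V} (hK : IsCompact K)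
    {f : V → ℝ} (hf : Measurable f) (hf0 : ∀ x, 0 ≤ f x) (hf2 : ∀ x, f x ≤ 2)
    {y : ι → V} (hy : Function.Injective y) {a : ι → ℝ} (ha : ∀ i, 0 < a i)
    (hsum : ∑ i, a i = ∫ x in K, f x) :
    ∃ ψ : ι → ℝ, ∀ i, ∫ x in cell K y ψ i, f x = a i := by
  rcases isEmpty_or_nonempty ι with hι | hι
  · exact ⟨fun _ => 0, fun i => hι.elim i⟩
  obtain ⟨ψ, hψ⟩ := exists_min hK hf hf0 hf2 y ha hsum
  refine ⟨ψ, fun i => ?_⟩
  have hge := fun j => cell_mass_ge hK hf hf0 hf2 y hψ j
  have hle := sum_cell_le hK hf hf0 hf2 hy ψ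
  rw [← hsum] at hle
  have heq : ∑ j, (∫ x in cell K y ψ j, f x) = ∑ j, a j :=
    le_antisymm hle (Finset.sum_le_sum (fun j _ => hge j))
  have := (Finset.sum_eq_sum_iff_of_le (fun j _ => hge j)).1 heq.symm i (Finset.mem_univ i)
  exact this.symm

end Vale.Agent.H10.OT
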