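import Vale.Agent.H10.OTPerm

open MeasureTheory Set Metric Filter
open scoped ENNReal NNReal RealInnerProductSpace Topology

namespace Vale.Agent.H10.OT

set_option linter.unusedSectionVars false
set_option linter.unusedVariables false

variable {V : Type} [NormedAddCommGroup V] [InnerProductSpace ℝ V] [FiniteDimensional ℝ V]
  [MeasurableSpace V] [BorelSpace V]

/-- the good set: interior points, where `T` is bounded by `M`, and Lebesgue points -/
def goodSet (K : Set V) (T : V → V) (M : ℝ) : Set V :=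
  {x | x ∈ interior K ∧ ‖T x‖ ≤ M ∧ ∀ m : ℕ, ∀ w : ℝ → V,
    (∀ᶠ δ in 𝓝[>] (0:ℝ), x ∈ closedBall (w δ) (m * δ)) →
      Tendsto (fun δ => ⨍ y in closedBall (w δ) δ, K.indicator T y) (𝓝[>] (0:ℝ)) (𝓝 (T x))}

lemma goodSet_ae {K : Set V} (hKc : IsCompact K) (hKconv : Convex ℝ K) {T : V → V}
    (hT : Measurable T) {M : ℝ}
    (hTM : ∀ᵐ x ∂(volume : Measure V).restrict K, ‖T x‖ ≤ M) :
    ∀ᵐ x ∂(volume : Measure V).restrict K, x ∈ goodSet K T M := by
  have hfin : IsFiniteMeasure ((volume : Measure V).restrict K) :=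
    ⟨by rw [Measure.restrict_apply_univ]; exact hKc.measure_lt_top⟩
  have hint : Integrable (K.indicator T) volume := by
    rw [integrable_indicator_iff hKc.measurableSet]
    exact int_bdd hT.aestronglyMeasurable hTM
  have h1 : ∀ᵐ x ∂(volume : Measure V), ∀ m : ℕ, ∀ w : ℝ → V,
      (∀ᶠ δ in 𝓝[>] (0:ℝ), x ∈ closedBall (w δ) (m * δ)) →
      Tendsto (fun δ => ⨍ y in closedBall (w δ) δ, K.indicator T y) (𝓝[>] (0:ℝ))
        (𝓝 (K.indicator T x)) := by
    rw [ae_all_iff]
    intro m
    filter_upwards [IsUnifLocDoublingMeasure.ae_tendsto_average (μ := (volume : Measure V))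
      hint.locallyIntegrable (m : ℝ)] with x hx w hw
    exact hx w id tendsto_id hw
  have h2 : ∀ᵐ x ∂(volume : Measure V).restrict K, x ∈ interior K := by
    have h3 : volume (frontier K) = 0 := hKconv.addHaar_frontier volume
    have h4 : ∀ᵐ x ∂(volume : Measure V).restrict K, x ∉ frontier K :=
      ae_restrict_of_ae (measure_eq_zero_iff_ae_notMem.1 h3)
    filter_upwards [h4, ae_restrict_mem hKc.measurableSet] with x hx hxK
    by_contra hcon
    apply hx
    rw [hKc.isClosed.frontier_eq]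
    exact ⟨hxK, hcon⟩
  filter_upwards [ae_restrict_of_ae h1, h2, hTM] with x hx hxi hxM
  refine ⟨hxi, hxM, ?_⟩
  intro m w hw
  have := hx m w hw
  rwa [indicator_of_mem (interior_subset hxi)] at this

lemma cyclic_of_opt [Nontrivial V] {K : Set V} (hKc : IsCompact K) (hK0 : volume K ≠ 0) {T : V → V}
    (hT : Measurable T) {M : ℝ}
    (hTM : ∀ᵐ x ∂(volume : Measure V).restrict K, ‖T x‖ ≤ M)
    (hopt : IsOTMap (unif K) ((unif K).map T) T)
    {m : ℕ} (σ : Equiv.Perm (Fin m)) (x : Fin m → V) (hx : ∀ i, x i ∈ goodSet K T M) :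
    ∑ j, ⟪x (σ j) - x j, T (x j)⟫ ≤ 0 := by
  obtain ⟨e, he⟩ := exists_norm_eq V (zero_le_one)
  set c : ℝ → Fin m → V := fun δ i => x i + (3 * δ * (i : ℕ)) • e with hc
  have hcx : ∀ δ : ℝ, 0 < δ → ∀ i, ‖x i - c δ i‖ ≤ 3 * m * δ := by
    intro δ hδ i
    simp only [hc]
    have : x i - (x i + (3 * δ * (i : ℕ)) • e) = -((3 * δ * (i : ℕ)) • e) := by abel
    rw [this, norm_neg, norm_smul, he, mul_one, Real.norm_eq_abs, abs_of_nonneg (by positivity)]
    have hi : ((i : ℕ) : ℝ) ≤ m := by exact_mod_cast i.2.le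
    nlinarith
  -- disjointness
  have hdis : ∀ᶠ δ in 𝓝[>] (0:ℝ), Pairwise (Function.onFun Disjoint fun i => closedBall (c δ i) δ) := by
    have h1 : ∀ i j, ∀ᶠ δ in 𝓝[>] (0:ℝ), i ≠ j → Disjoint (closedBall (c δ i) δ) (closedBall (c δ j) δ) := by
      intro i j
      by_cases hij : i = j
      · exact Eventually.of_forall (fun δ h => absurd hij h)
      by_cases hxx : x i = x j
      · filter_upwards [self_mem_nhdsWithin] with δ hδ _
        have hδ' : 0 < δ := hδ
        apply closedBall_disjoint_closedBall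
        rw [dist_eq_norm]
        simp only [hc, hxx]
        have : x j + (3 * δ * (i : ℕ)) • e - (x j + (3 * δ * (j : ℕ)) • e)
          = (3 * δ * (((i : ℕ) : ℝ) - ((j : ℕ) : ℝ))) • e := by
          rw [add_sub_add_left_eq_sub, ← sub_smul]; congr 1; ring
        rw [this, norm_smul, he, mul_one, Real.norm_eq_abs, abs_mul, abs_of_pos (by positivity)]
        have h2 : (1 : ℝ) ≤ |((i : ℕ) : ℝ) - ((j : ℕ) : ℝ)| := by
          have h3 : (((i : ℕ) : ℤ) - ((j : ℕ) : ℤ)) ≠ 0 := by
            intro h; apply hij; ext; omega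
          have h4 := Int.one_le_abs h3
          have h5 : (1 : ℝ) ≤ ((|((i : ℕ) : ℤ) - ((j : ℕ) : ℤ)| : ℤ) : ℝ) := by exact_mod_cast h4
          rw [Int.cast_abs] at h5
          push_cast at h5
          exact h5
        nlinarith
      · have hpos : 0 < ‖x i - x j‖ / (6 * m + 3) := by
          have : 0 < ‖x i - x j‖ := norm_pos_iff.2 (sub_ne_zero.2 hxx)
          positivity
        have hIoo : Ioo (0:ℝ) (‖x i - x j‖ / (6 * m + 3)) ∈ 𝓝[>] (0:ℝ) :=
          Ioo_mem_nhdsGT hpos
        filter_upwards [hIoo] with δ hδ _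
        apply closedBall_disjoint_closedBall
        rw [dist_eq_norm]
        have h1 := hcx δ hδ.1 i
        have h2 := hcx δ hδ.1 j
        have h3 : ‖x i - x j‖ ≤ ‖x i - c δ i‖ + ‖c δ i - c δ j‖ + ‖x j - c δ j‖ := by
          have : x i - x j = (x i - c δ i) + (c δ i - c δ j) - (x j - c δ j) := by abel
          calc ‖x i - x j‖ = ‖(x i - c δ i) + (c δ i - c δ j) - (x j - c δ j)‖ := by rw [← this]
            _ ≤ ‖(x i - c δ i) + (c δ i - c δ j)‖ + ‖x j - c δ j‖ := norm_sub_le _ _
            _ ≤ _ := by gcongr; exact norm_add_le _ _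
        have h4 : δ * (6 * m + 3) < ‖x i - x j‖ := by
          have := hδ.2
          rwa [lt_div_iff₀ (by positivity)] at this
        nlinarith [hδ.1]
    have h2 : ∀ᶠ δ in 𝓝[>] (0:ℝ), ∀ i j, i ≠ j →
        Disjoint (closedBall (c δ i) δ) (closedBall (c δ j) δ) := by
      rw [eventually_all]; intro i; rw [eventually_all]; intro j; exact h1 i j
    filter_upwards [h2] with δ hδ i j hij using hδ i j hij
  -- inclusion
  have hinc : ∀ᶠ δ in 𝓝[>] (0:ℝ), ∀ i, closedBall (c δ i) δ ⊆ K := by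
    rw [eventually_all]
    intro i
    obtain ⟨r, hr, hrK⟩ := Metric.isOpen_iff.1 isOpen_interior _ (hx i).1
    have hpos : 0 < r / (3 * m + 2) := by positivity
    filter_upwards [Ioo_mem_nhdsGT hpos] with δ hδ
    intro w hw
    apply interior_subset
    apply hrK
    rw [mem_closedBall, dist_eq_norm] at hw
    rw [mem_ball, dist_eq_norm]
    have h1 := hcx δ hδ.1 i
    have h3 : w - x i = (w - c δ i) - (x i - c δ i) := by abel
    rw [h3]
    have h4 : δ * (3 * m + 2) < r := by
      have := hδ.2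
      rwa [lt_div_iff₀ (by positivity)] at this
    have h5 := norm_sub_le (w - c δ i) (x i - c δ i)
    nlinarith [hδ.1]
  -- inequality for small δ
  have hineq : ∀ᶠ δ in 𝓝[>] (0:ℝ),
      ∑ j, ⟪c δ (σ j) - c δ j, ⨍ y in closedBall (c δ j) δ, K.indicator T y⟫ ≤ 0 := by
    filter_upwards [hdis, hinc, self_mem_nhdsWithin] with δ h1 h2 h3
    have h4 := perm_ineq hKc hK0 hT hTM hopt (c δ) δ σ h1 h2
    have h5 : ∀ j, ⟪c δ (σ j) - c δ j, ⨍ y in closedBall (c δ j) δ, K.indicator T y⟫
        = ((volume : Measure V).real (closedBall 0 δ))⁻¹ *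
          ⟪c δ (σ j) - c δ j, ∫ y in closedBall (c δ j) δ, T y⟫ := by
      intro j
      rw [setAverage_eq, inner_smul_right]
      congr 2
      · unfold Measure.real
        rw [Measure.addHaar_closedBall_center]
      · exact setIntegral_congr_fun isClosed_closedBall.measurableSet
          (fun y hy => indicator_of_mem (h2 j hy) T)
    rw [Finset.sum_congr rfl (fun j _ => h5 j), ← Finset.mul_sum]
    exact mul_nonpos_of_nonneg_of_nonpos (by positivity) h4
  -- limit
  have hlim : Tendsto (fun δ => ∑ j, ⟪c δ (σ j) - c δ j,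
      ⨍ y in closedBall (c δ j) δ, K.indicator T y⟫) (𝓝[>] (0:ℝ))
      (𝓝 (∑ j, ⟪x (σ j) - x j, T (x j)⟫)) := by
    have hc0 : ∀ i, Tendsto (fun δ => c δ i) (𝓝[>] (0:ℝ)) (𝓝 (x i)) := by
      intro i
      have h1 : Continuous (fun δ : ℝ => x i + (3 * δ * (i : ℕ)) • e) := by fun_prop
      have h2 := (h1.tendsto 0).mono_left (nhdsWithin_le_nhds (s := Ioi (0:ℝ)))
      simpa [hc] using h2
    apply tendsto_finsetSum
    intro j _
    apply Tendsto.inner ((hc0 (σ j)).sub (hc0 j))
    apply (hx j).2.2 (3 * m) (fun δ => c δ j)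
    filter_upwards [self_mem_nhdsWithin] with δ hδ
    rw [mem_closedBall, dist_eq_norm]
    have := hcx δ hδ j
    push_cast
    exact this
  exact le_of_tendsto hlim hineq

end Vale.Agent.H10.OT
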