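import Mathlib

open MeasureTheory Set
open scoped ENNReal NNReal

namespace Vale.Agent.H10.OT

/-- The uniform probability measure `|K|⁻¹ 1_K dx` on a set `K` (with respect to `volume`). -/
noncomputable def unif {V : Type} [MeasureSpace V] (K : Set V) : Measure V :=
  (volume K)⁻¹ • volume.restrict K

/-- `π` is a coupling of `μ` and `ν`. -/
def IsCoupling {V : Type} [MeasurableSpace V] (μ ν : Measure V) (π : Measure (V × V)) : Prop :=
  π.map Prod.fst = μ ∧ π.map Prod.snd = ν

/-- The quadratic Wasserstein distance. -/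
noncomputable def W2 {V : Type} [NormedAddCommGroup V] [MeasurableSpace V]
    (μ ν : Measure V) : ℝ≥0∞ :=
  ⨅ (π : Measure (V × V)) (_ : IsCoupling μ ν π), (∫⁻ p, ‖p.1 - p.2‖ₑ ^ 2 ∂π) ^ (1 / 2 : ℝ)

/-- `T` is a quadratic optimal transport map from `ρ` to `μ`: it is Borel, pushes `ρ` to `μ`,
and minimizes the quadratic cost among all Borel maps pushing `ρ` to `μ`. -/
def IsOTMap {V : Type} [NormedAddCommGroup V] [MeasurableSpace V]
    (ρ μ : Measure V) (T : V → V) : Prop :=
  Measurable T ∧ ρ.map T = μ ∧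
    ∀ S : V → V, Measurable S → ρ.map S = μ →
      ∫⁻ x, ‖x - T x‖ₑ ^ 2 ∂ρ ≤ ∫⁻ x, ‖x - S x‖ₑ ^ 2 ∂ρ

/-- The stability estimate with exponent `α` and constant `C` for the uniform source on `K` and all
probability targets supported in `Y`. -/
def Stable {V : Type} [NormedAddCommGroup V] [MeasureSpace V]
    (K Y : Set V) (α : ℝ) (C : ℝ≥0) : Prop :=
  ∀ μ ν : Measure V, IsProbabilityMeasure μ → IsProbabilityMeasure ν → μ Yᶜ = 0 → ν Yᶜ = 0 →
    ∀ T S : V → V, IsOTMap (unif K) μ T → IsOTMap (unif K) ν S →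
      eLpNorm (fun x => T x - S x) 2 (unif K) ≤ C * W2 μ ν ^ α

/-- `α ∈ (0,1]` is an admissible stability exponent in dimension `d`. -/
def Admissible (d : ℕ) (α : ℝ) : Prop :=
  (0 < α ∧ α ≤ 1) ∧
  ∀ K : Set (EuclideanSpace ℝ (Fin d)), IsCompact K → Convex ℝ K → (interior K).Nonempty →
  ∀ Y : Set (EuclideanSpace ℝ (Fin d)), IsCompact Y → Y.Nonempty → ∃ C : ℝ≥0, Stable K Y α C

/-- The critical exponent `α*_d`, the supremum of the admissible exponents. -/
noncomputable def alphaStar (d : ℕ) : ℝ := sSup {α : ℝ | Admissible d α}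

end Vale.Agent.H10.OT
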