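import Vale.Agent.H10.OTShift

open MeasureTheory Set Metric Filter
open scoped ENNReal NNReal RealInnerProductSpace Topology

namespace Vale.Agent.H10.OT

set_option linter.unusedSectionVars false
set_option linter.unusedVariables false

variable {V : Type} [NormedAddCommGroup V] [InnerProductSpace ℝ V] [FiniteDimensional ℝ V]
  [MeasurableSpace V] [BorelSpace V]

/-- two-map facts: potentials for a pair of optimal maps -/
lemma pair_facts [Nontrivial V] {K : Set V} (hKc : IsCompact K) (hKconv : Convex ℝ K)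
    (hK0 : volume K ≠ 0) {R : ℝ} (hR : ∀ x ∈ K, ‖x‖ ≤ R)
    {T S : V → V} (hT : Measurable T) (hS : Measurable S) {M : ℝ}
    (hTM : ∀ᵐ x ∂(volume : Measure V).restrict K, ‖T x‖ ≤ M)
    (hSM : ∀ᵐ x ∂(volume : Measure V).restrict K, ‖S x‖ ≤ M)
    (hTo : IsOTMap (unif K) ((unif K).map T) T) (hSo : IsOTMap (unif K) ((unif K).map S) S) :
    ∃ (χ : V → ℝ) (G : Set V), (∀ y z, |χ y - χ z| ≤ 2 * R * ‖y - z‖) ∧
      (∀ᵐ x ∂(volume : Measure V).restrict K, x ∈ G) ∧
      (∀ x ∈ G, ∀ x' ∈ G, ⟪S x - T x', x' - x⟫ ≤ χ (T x) - χ (S x)) ∧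
      (∀ x ∈ G, ∀ x' ∈ G, 0 ≤ ⟪T x' - T x, x' - x⟫) := by
  have hGT := goodSet_ae hKc hKconv hT hTM
  have hGS := goodSet_ae hKc hKconv hS hSM
  have hG : ∀ᵐ x ∂(volume : Measure V).restrict K, x ∈ goodSet K T M ∩ goodSet K S M := by
    filter_upwards [hGT, hGS] with x h1 h2 using ⟨h1, h2⟩
  have hne : ∃ x0, x0 ∈ goodSet K T M ∩ goodSet K S M := by
    have : NeBot (ae ((volume : Measure V).restrict K)) := by
      rw [ae_neBot]
      intro h
      apply hK0
      rw [← Measure.restrict_apply_univ, h]; rfl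
    exact hG.exists
  obtain ⟨x0, hx0⟩ := hne
  have hRT : ∀ x ∈ goodSet K T M, ‖x‖ ≤ R := fun x hx => hR x (interior_subset hx.1)
  have hRS : ∀ x ∈ goodSet K S M, ‖x‖ ≤ R := fun x hx => hR x (interior_subset hx.1)
  obtain ⟨a, ha1, ha2⟩ := rockafellar hRT x0 hx0.1
    (fun m σ x hx => cyclic_of_opt hKc hK0 hT hTM hTo σ x hx)
  obtain ⟨b, hb1, hb2⟩ := rockafellar hRS x0 hx0.2
    (fun m σ x hx => cyclic_of_opt hKc hK0 hS hSM hSo σ x hx)
  refine ⟨fun y => b y - a y, goodSet K T M ∩ goodSet K S M, ?_, hG, ?_, ?_⟩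
  · intro y z
    have h1 := ha1 y z
    have h2 := hb1 y z
    have : (b y - a y) - (b z - a z) = (b y - b z) - (a y - a z) := by ring
    rw [this]
    calc |(b y - b z) - (a y - a z)| ≤ |b y - b z| + |a y - a z| := abs_sub _ _
      _ ≤ _ := by linarith
  · intro x hx x' hx'
    have h1 := ha2 x' hx'.1 (S x)
    have h2 := ha2 x hx.1 (T x')
    have h3 := hb2 x hx.2 (T x)
    have h4 : ⟪S x - T x', x' - x⟫ = ⟪S x - T x', x'⟫ + ⟪T x' - T x, x⟫ + ⟪T x - S x, x⟫ := by
      simp only [inner_sub_left, inner_sub_right]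
      ring
    simp only
    rw [h4]; linarith
  · intro x hx x' hx'
    have h1 := ha2 x' hx'.1 (T x)
    have h2 := ha2 x hx.1 (T x')
    have h4 : ⟪T x' - T x, x' - x⟫ = -⟪T x - T x', x'⟫ - ⟪T x' - T x, x⟫ := by
      simp only [inner_sub_left, inner_sub_right]
      ring
    rw [h4]; linarith

/-- `L¹` bound for the difference of the two maps. -/
lemma l1_bound {K : Set V} (hKc : IsCompact K) {κ : ℝ} (hκ0 : 0 ≤ κ)
    (hκ : ∀ v : V, (volume : Measure V).real (K \ {x | x + v ∈ K}) ≤ κ * ‖v‖)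
    {T S : V → V} (hT : Measurable T) (hS : Measurable S) {M : ℝ} (hM : 0 ≤ M)
    (hTM : ∀ᵐ x ∂(volume : Measure V).restrict K, ‖T x‖ ≤ M)
    (hSM : ∀ᵐ x ∂(volume : Measure V).restrict K, ‖S x‖ ≤ M)
    {χ : V → ℝ} (hχ : Continuous χ)
    {G : Set V} (hG : ∀ᵐ x ∂(volume : Measure V).restrict K, x ∈ G)
    (hgap : ∀ x ∈ G, ∀ x' ∈ G, ⟪S x - T x', x' - x⟫ ≤ χ (T x) - χ (S x))
    (hmono : ∀ x ∈ G, ∀ x' ∈ G, 0 ≤ ⟪T x' - T x, x' - x⟫)
    (hgi : IntegrableOn (fun x => χ (T x) - χ (S x)) K)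
    {h : ℝ} (hh : 0 < h) :
    ∫ x in K, ‖S x - T x‖ ≤ (Module.finrank ℝ V) *
      (2 * ((∫ x in K, (χ (T x) - χ (S x))) / h + 4 * M * κ * h)) := by
  have hfinK : IsFiniteMeasure ((volume : Measure V).restrict K) :=
    ⟨by rw [Measure.restrict_apply_univ]; exact hKc.measure_lt_top⟩
  set bs := stdOrthonormalBasis ℝ V with hbs
  have hSTM : ∀ᵐ x ∂(volume : Measure V).restrict K, ‖S x - T x‖ ≤ 2 * M := by
    filter_upwards [hTM, hSM] with x h1 h2
    have := norm_sub_le (S x) (T x)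
    linarith
  have hint : ∀ e : V, ‖e‖ = 1 → IntegrableOn (fun x => max 0 ⟪e, S x - T x⟫) K := by
    intro e he
    apply int_bdd (C := 2 * M)
      (measurable_const.max (measurable_const.inner (hS.sub hT))).aestronglyMeasurable
    filter_upwards [hSTM] with x h1
    rw [Real.norm_eq_abs, abs_of_nonneg (le_max_left _ _)]
    apply max_le (by linarith)
    calc ⟪e, S x - T x⟫ ≤ ‖e‖ * ‖S x - T x‖ := real_inner_le_norm _ _
      _ ≤ 2 * M := by rw [he, one_mul]; exact h1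
  have habs : ∀ e : V, ‖e‖ = 1 → ∫ x in K, |⟪e, S x - T x⟫| ≤
      2 * ((∫ x in K, (χ (T x) - χ (S x))) / h + 4 * M * κ * h) := by
    intro e he
    have he' : ‖-e‖ = 1 := by rw [norm_neg, he]
    have h1 := dplus hKc hκ0 hκ hT hS hM hTM hSM hχ hG hgap hmono hgi he hh
    have h2 := dplus hKc hκ0 hκ hT hS hM hTM hSM hχ hG hgap hmono hgi he' hh
    have h3 : ∀ x, |⟪e, S x - T x⟫| = max 0 ⟪e, S x - T x⟫ + max 0 ⟪-e, S x - T x⟫ := by
      intro x
      rw [inner_neg_left]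
      rcases le_total 0 ⟪e, S x - T x⟫ with h | h
      · rw [abs_of_nonneg h, max_eq_right h, max_eq_left (by linarith)]; ring
      · rw [abs_of_nonpos h, max_eq_left h, max_eq_right (by linarith)]; ring
    simp_rw [h3]
    rw [integral_add (hint e he) (hint (-e) he')]
    linarith
  have hle : ∀ x, ‖S x - T x‖ ≤ ∑ i, |⟪bs i, S x - T x⟫| := by
    intro x
    calc ‖S x - T x‖ = ‖∑ i, ⟪bs i, S x - T x⟫ • bs i‖ := by rw [bs.sum_repr']
      _ ≤ ∑ i, ‖⟪bs i, S x - T x⟫ • bs i‖ := norm_sum_le _ _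
      _ = ∑ i, |⟪bs i, S x - T x⟫| := by
        apply Finset.sum_congr rfl
        intro i _
        rw [norm_smul, bs.norm_eq_one, mul_one, Real.norm_eq_abs]
  have hinti : ∀ i, IntegrableOn (fun x => |⟪bs i, S x - T x⟫|) K := by
    intro i
    apply int_bdd (C := 2 * M)
      (measurable_const.inner (hS.sub hT)).abs.aestronglyMeasurable
    filter_upwards [hSTM] with x h1
    rw [Real.norm_eq_abs, abs_abs, ← Real.norm_eq_abs]
    calc ‖⟪bs i, S x - T x⟫‖ ≤ ‖bs i‖ * ‖S x - T x‖ := norm_inner_le_norm _ _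
      _ ≤ 2 * M := by rw [bs.norm_eq_one, one_mul]; exact h1
  calc ∫ x in K, ‖S x - T x‖ ≤ ∫ x in K, ∑ i, |⟪bs i, S x - T x⟫| := by
        apply integral_mono_ae
        · exact int_bdd (hS.sub hT).norm.aestronglyMeasurable
            (by filter_upwards [hSTM] with x h1; rw [norm_norm]; exact h1)
        · exact integrable_finsetSum _ (fun i _ => hinti i)
        · exact Eventually.of_forall hle
    _ = ∑ i, ∫ x in K, |⟪bs i, S x - T x⟫| := integral_finsetSum _ (fun i _ => hinti i)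
    _ ≤ ∑ _i : Fin (Module.finrank ℝ V),
        2 * ((∫ x in K, (χ (T x) - χ (S x))) / h + 4 * M * κ * h) := by
        apply Finset.sum_le_sum
        intro i _
        exact habs _ (bs.norm_eq_one i)
    _ = _ := by rw [Finset.sum_const, Finset.card_univ, Fintype.card_fin, nsmul_eq_mul]


/-- optimization in `h` -/
lemma opt_h {D C ω : ℝ} (hC : 0 ≤ C) (hω : 0 ≤ ω) (h : ∀ h : ℝ, 0 < h → D ≤ C * (ω / h + h)) :
    D ≤ 2 * C * Real.sqrt ω := by
  rcases eq_or_lt_of_le hω with h0 | h0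
  · subst h0
    simp only [Real.sqrt_zero, mul_zero]
    by_contra hcon
    push Not at hcon
    rcases eq_or_lt_of_le hC with hC0 | hC0
    · have := h 1 one_pos
      rw [← hC0] at this
      linarith
    · have h1 := h (D / (2 * C)) (by positivity)
      have h2 : C * (0 / (D / (2 * C)) + D / (2 * C)) = D / 2 := by field_simp; ring
      rw [h2] at h1
      linarith
  · have h1 := h (Real.sqrt ω) (Real.sqrt_pos.2 h0)
    rw [Real.div_sqrt] at h1
    linarith

lemma couple_bound {μ ν : Measure V} [IsProbabilityMeasure μ] [IsProbabilityMeasure ν]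
    {M : ℝ} (hμ : ∀ᵐ y ∂μ, ‖y‖ ≤ M) (hν : ∀ᵐ y ∂ν, ‖y‖ ≤ M) {χ : V → ℝ} {L : ℝ} (hL : 0 ≤ L)
    (hχL : ∀ y z, |χ y - χ z| ≤ L * ‖y - z‖) (hχc : Continuous χ)
    {π : Measure (V × V)} (hπ : IsCoupling μ ν π) :
    ∃ ω : ℝ, 0 ≤ ω ∧ (∫⁻ p, ‖p.1 - p.2‖ₑ ^ 2 ∂π) ^ (1 / 2 : ℝ) = ENNReal.ofReal ω ∧
      (∫ y, χ y ∂μ) - (∫ y, χ y ∂ν) ≤ L * ω := by
  obtain ⟨h1, h2⟩ := hπ
  have hprob : IsProbabilityMeasure π := by
    constructor
    have : π univ = (π.map Prod.fst) univ := by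
      rw [Measure.map_apply measurable_fst MeasurableSet.univ]; rfl
    rw [this, h1, measure_univ]
  have hb1 : ∀ᵐ p ∂π, ‖p.1‖ ≤ M := by
    rw [← h1, ae_map_iff measurable_fst.aemeasurable
      (measurableSet_le measurable_norm measurable_const)] at hμ
    exact hμ
  have hb2 : ∀ᵐ p ∂π, ‖p.2‖ ≤ M := by
    rw [← h2, ae_map_iff measurable_snd.aemeasurable
      (measurableSet_le measurable_norm measurable_const)] at hν
    exact hν
  have hfin : ∫⁻ p, ‖p.1 - p.2‖ₑ ^ 2 ∂π ≠ ∞ := by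
    have hle : ∀ᵐ p ∂π, ‖p.1 - p.2‖ₑ ^ 2 ≤ ENNReal.ofReal ((2 * M) ^ 2) := by
      filter_upwards [hb1, hb2] with p q1 q2
      rw [enorm_sq_eq']
      apply ENNReal.ofReal_le_ofReal
      have := norm_sub_le p.1 p.2
      have h3 := norm_nonneg (p.1 - p.2)
      nlinarith
    have := lintegral_mono_ae hle
    rw [lintegral_const, measure_univ, mul_one] at this
    exact (lt_of_le_of_lt this ENNReal.ofReal_lt_top).ne
  set W := (∫⁻ p, ‖p.1 - p.2‖ₑ ^ 2 ∂π) ^ (1 / 2 : ℝ) with hW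
  have hWfin : W ≠ ∞ := ENNReal.rpow_ne_top_of_nonneg (by norm_num) hfin
  refine ⟨W.toReal, ENNReal.toReal_nonneg, (ENNReal.ofReal_toReal hWfin).symm, ?_⟩
  have hm : AEStronglyMeasurable (fun p : V × V => p.1 - p.2) π := by fun_prop
  have hint : Integrable (fun p : V × V => ‖p.1 - p.2‖) π := by
    apply Integrable.of_bound hm.norm (2 * M)
    filter_upwards [hb1, hb2] with p q1 q2
    rw [norm_norm]
    have := norm_sub_le p.1 p.2
    linarith
  have hL1 : ∫ p, ‖p.1 - p.2‖ ∂π ≤ W.toReal := by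
    have h5 := eLpNorm_le_eLpNorm_of_exponent_le (p := 1) (q := 2) (by norm_num) hm
    rw [eLpNorm_one_eq_lintegral_enorm,
      eLpNorm_eq_lintegral_rpow_enorm_toReal (by norm_num) (by norm_num)] at h5
    simp only [ENNReal.toReal_ofNat, ENNReal.rpow_ofNat] at h5
    rw [integral_norm_eq_lintegral_enorm hm]
    exact ENNReal.toReal_mono hWfin h5
  have hχi1 : Integrable (fun p : V × V => χ p.1) π := by
    apply Integrable.of_bound (hχc.comp continuous_fst).aestronglyMeasurable (|χ 0| + L * M)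
    filter_upwards [hb1] with p q1
    have := hχL p.1 0
    rw [sub_zero] at this
    rw [Real.norm_eq_abs]
    have h6 : |χ p.1| ≤ |χ p.1 - χ 0| + |χ 0| := by
      have := abs_add_le (χ p.1 - χ 0) (χ 0); simpa using this
    have h7 : L * ‖p.1‖ ≤ L * M := by gcongr
    show |χ p.1| ≤ _
    linarith
  have hχi2 : Integrable (fun p : V × V => χ p.2) π := by
    apply Integrable.of_bound (hχc.comp continuous_snd).aestronglyMeasurable (|χ 0| + L * M)
    filter_upwards [hb2] with p q1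
    have := hχL p.2 0
    rw [sub_zero] at this
    rw [Real.norm_eq_abs]
    have h6 : |χ p.2| ≤ |χ p.2 - χ 0| + |χ 0| := by
      have := abs_add_le (χ p.2 - χ 0) (χ 0); simpa using this
    have h7 : L * ‖p.2‖ ≤ L * M := by gcongr
    show |χ p.2| ≤ _
    linarith
  have e1 : ∫ y, χ y ∂μ = ∫ p, χ p.1 ∂π := by
    rw [← h1, integral_map measurable_fst.aemeasurable hχc.aestronglyMeasurable]
  have e2 : ∫ y, χ y ∂ν = ∫ p, χ p.2 ∂π := by
    rw [← h2, integral_map measurable_snd.aemeasurable hχc.aestronglyMeasurable]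
  rw [e1, e2, ← integral_sub hχi1 hχi2]
  calc ∫ p, (χ p.1 - χ p.2) ∂π ≤ ∫ p, L * ‖p.1 - p.2‖ ∂π := by
        apply integral_mono (hχi1.sub hχi2) (hint.const_mul L)
        intro p
        exact (le_abs_self _).trans (hχL p.1 p.2)
    _ = L * ∫ p, ‖p.1 - p.2‖ ∂π := integral_const_mul _ _
    _ ≤ L * W.toReal := by gcongr

/-- Stability with exponent `1/4`. -/
theorem stable_quarter [Nontrivial V] {K : Set V} (hKc : IsCompact K) (hKconv : Convex ℝ K)
    (hKi : (interior K).Nonempty) {Y : Set V} (hY : IsCompact Y) :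
    ∃ C : ℝ≥0, Stable K Y (1 / 4) C := by
  have hK0 : volume K ≠ 0 := by
    have h1 : 0 < volume (interior K) := isOpen_interior.measure_pos volume hKi
    exact (lt_of_lt_of_le h1 (measure_mono interior_subset)).ne'
  have hKfin : volume K ≠ ∞ := hKc.measure_lt_top.ne
  obtain ⟨R, hRpos, hR⟩ := hKc.isBounded.exists_pos_norm_le
  obtain ⟨M, hMpos, hM⟩ := hY.isBounded.exists_pos_norm_le
  obtain ⟨κ, hκ0, hκ⟩ := shift_vol hKc hKconv hKi
  set n : ℝ := (Module.finrank ℝ V : ℝ) with hn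
  set vK := (volume : Measure V).real K with hvK
  have hvKpos : 0 < vK := ENNReal.toReal_pos hK0 hKfin
  set C1 : ℝ := n * 2 * (vK * (2 * R) + 4 * M * κ) with hC1
  have hC1nn : 0 ≤ C1 := by positivity
  set C2 : ℝ := vK⁻¹ * (2 * M * (2 * C1)) with hC2
  have hC2nn : 0 ≤ C2 := by positivity
  set C3 : ℝ≥0 := ⟨Real.sqrt C2 + 1, by positivity⟩ with hC3
  refine ⟨C3, ?_⟩
  intro μ ν hμp hνp hμY hνY T S hTo hSo
  have hT := hTo.1
  have hS := hSo.1
  have hc0 : (volume K)⁻¹ ≠ 0 := ENNReal.inv_ne_zero.2 hKfin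
  have hfinK : IsFiniteMeasure ((volume : Measure V).restrict K) :=
    ⟨by rw [Measure.restrict_apply_univ]; exact hKc.measure_lt_top⟩
  have hμM : ∀ᵐ y ∂μ, ‖y‖ ≤ M := by
    have : ∀ᵐ y ∂μ, y ∈ Y := by
      rw [ae_iff]; exact hμY
    filter_upwards [this] with y hy using hM y hy
  have hνM : ∀ᵐ y ∂ν, ‖y‖ ≤ M := by
    have : ∀ᵐ y ∂ν, y ∈ Y := by
      rw [ae_iff]; exact hνY
    filter_upwards [this] with y hy using hM y hy
  have hTM : ∀ᵐ x ∂(volume : Measure V).restrict K, ‖T x‖ ≤ M := by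
    have h1 := hμM
    rw [← hTo.2.1, ae_map_iff hT.aemeasurable (measurableSet_le measurable_norm measurable_const)]
      at h1
    unfold unif at h1
    rwa [Measure.ae_ennreal_smul_measure_eq hc0] at h1
  have hSM : ∀ᵐ x ∂(volume : Measure V).restrict K, ‖S x‖ ≤ M := by
    have h1 := hνM
    rw [← hSo.2.1, ae_map_iff hS.aemeasurable (measurableSet_le measurable_norm measurable_const)]
      at h1
    unfold unif at h1
    rwa [Measure.ae_ennreal_smul_measure_eq hc0] at h1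
  have hTo' : IsOTMap (unif K) ((unif K).map T) T := by rw [hTo.2.1]; exact hTo
  have hSo' : IsOTMap (unif K) ((unif K).map S) S := by rw [hSo.2.1]; exact hSo
  obtain ⟨χ, G, hχL, hG, hgap, hmono⟩ :=
    pair_facts hKc hKconv hK0 hR hT hS hTM hSM hTo' hSo'
  have hχc : Continuous χ := by
    have : LipschitzWith (Real.toNNReal (2 * R)) χ := by
      apply LipschitzWith.of_dist_le_mul
      intro y z
      rw [Real.dist_eq, dist_eq_norm, Real.coe_toNNReal _ (by positivity)]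
      exact hχL y z
    exact this.continuous
  have hbd : ∀ y : V, ‖y‖ ≤ M → ‖χ y‖ ≤ |χ 0| + 2 * R * M := by
    intro y hy
    have := hχL y 0
    rw [sub_zero] at this
    rw [Real.norm_eq_abs]
    have h6 : |χ y| ≤ |χ y - χ 0| + |χ 0| := by
      have := abs_add_le (χ y - χ 0) (χ 0); simpa using this
    have h7 : 2 * R * ‖y‖ ≤ 2 * R * M := by gcongr
    linarith
  have hχT : IntegrableOn (fun x => χ (T x)) K := by
    apply int_bdd (hχc.measurable.comp hT).aestronglyMeasurable (C := |χ 0| + 2 * R * M)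
    filter_upwards [hTM] with x hx using hbd _ hx
  have hχS : IntegrableOn (fun x => χ (S x)) K := by
    apply int_bdd (hχc.measurable.comp hS).aestronglyMeasurable (C := |χ 0| + 2 * R * M)
    filter_upwards [hSM] with x hx using hbd _ hx
  have hgi : IntegrableOn (fun x => χ (T x) - χ (S x)) K := hχT.sub hχS
  -- relation between integrals over K and the targets
  have hrel : ∀ F : V → V, Measurable F → ∀ ξ : Measure V, (unif K).map F = ξ →
      ∫ x in K, χ (F x) = vK * ∫ y, χ y ∂ξ := by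
    intro F hF ξ hξ
    rw [← hξ, integral_map hF.aemeasurable hχc.aestronglyMeasurable]
    unfold unif
    rw [integral_smul_measure, smul_eq_mul, ENNReal.toReal_inv, ← mul_assoc]
    have : vK * ((volume K).toReal)⁻¹ = 1 := mul_inv_cancel₀ hvKpos.ne'
    rw [this, one_mul]
  -- main estimate for a coupling
  have hmain : ∀ π : Measure (V × V), IsCoupling μ ν π →
      eLpNorm (fun x => T x - S x) 2 (unif K) ≤
        C3 * ((∫⁻ p, ‖p.1 - p.2‖ₑ ^ 2 ∂π) ^ (1 / 2 : ℝ)) ^ (1 / 4 : ℝ) := by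
    intro π hπ
    obtain ⟨ω, hω0, hωe, hωle⟩ := couple_bound hμM hνM (by positivity : (0:ℝ) ≤ 2 * R) hχL hχc hπ
    have hg : ∫ x in K, (χ (T x) - χ (S x)) ≤ vK * (2 * R * ω) := by
      rw [integral_sub hχT hχS, hrel T hT μ hTo.2.1, hrel S hS ν hSo.2.1, ← mul_sub]
      gcongr
    have hD : ∫ x in K, ‖S x - T x‖ ≤ 2 * C1 * Real.sqrt ω := by
      apply opt_h hC1nn hω0
      intro h hh
      refine (l1_bound hKc hκ0 hκ hT hS hMpos.le hTM hSM hχc hG hgap hmono hgi hh).trans ?_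
      have h1 : (∫ x in K, (χ (T x) - χ (S x))) / h ≤ vK * (2 * R * ω) / h := by gcongr
      have hnn : 0 ≤ n := by positivity
      have h2 : n * (2 * ((∫ x in K, (χ (T x) - χ (S x))) / h + 4 * M * κ * h))
          ≤ n * (2 * (vK * (2 * R * ω) / h + 4 * M * κ * h)) := by gcongr
      refine h2.trans ?_
      rw [hC1]
      have h3 : 0 ≤ ω / h := by positivity
      have h4 : vK * (2 * R * ω) / h = vK * (2 * R) * (ω / h) := by ring
      rw [h4]
      have h5 : 0 ≤ vK * (2 * R) * h := by positivity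
      have h6 : 0 ≤ 4 * M * κ * (ω / h) := by positivity
      have h7 : n * 2 * (vK * (2 * R) + 4 * M * κ) * (ω / h + h)
        = n * (2 * (vK * (2 * R) * (ω / h) + 4 * M * κ * h))
          + n * 2 * (vK * (2 * R) * h + 4 * M * κ * (ω / h)) := by ring
      rw [h7]
      have h8 : 0 ≤ n * 2 * (vK * (2 * R) * h + 4 * M * κ * (ω / h)) := by positivity
      linarith
    have hTSM : ∀ᵐ x ∂(volume : Measure V).restrict K, ‖T x - S x‖ ≤ 2 * M := by
      filter_upwards [hTM, hSM] with x h1 h2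
      have := norm_sub_le (T x) (S x)
      linarith
    have hsq : IntegrableOn (fun x => ‖T x - S x‖ ^ 2) K := by
      apply int_bdd ((hT.sub hS).norm.pow_const 2).aestronglyMeasurable (C := (2 * M) ^ 2)
      filter_upwards [hTSM] with x h1
      rw [Real.norm_eq_abs, abs_of_nonneg (by positivity)]
      exact pow_le_pow_left₀ (norm_nonneg _) h1 2
    have hn1 : IntegrableOn (fun x => ‖S x - T x‖) K := by
      apply int_bdd ((hS.sub hT).norm).aestronglyMeasurable (C := 2 * M)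
      filter_upwards [hTSM] with x h1
      rw [norm_norm]
      show ‖S x - T x‖ ≤ _
      rw [norm_sub_rev]; exact h1
    have hL2 : ∫ x in K, ‖T x - S x‖ ^ 2 ≤ 2 * M * (2 * C1 * Real.sqrt ω) := by
      calc ∫ x in K, ‖T x - S x‖ ^ 2 ≤ ∫ x in K, 2 * M * ‖S x - T x‖ := by
            apply integral_mono_ae hsq (hn1.const_mul _)
            filter_upwards [hTSM] with x h1
            rw [norm_sub_rev (S x), sq]
            gcongr
        _ = 2 * M * ∫ x in K, ‖S x - T x‖ := integral_const_mul _ _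
        _ ≤ _ := by gcongr
    have hfinal : eLpNorm (fun x => T x - S x) 2 (unif K) ≤
        ENNReal.ofReal (Real.sqrt C2 * ω ^ (1 / 4 : ℝ)) := by
      rw [eLpNorm_eq_lintegral_rpow_enorm_toReal (by norm_num) (by norm_num)]
      simp only [ENNReal.toReal_ofNat, ENNReal.rpow_ofNat]
      unfold unif
      rw [lintegral_smul_measure, smul_eq_mul]
      simp_rw [enorm_sq_eq']
      rw [← ofReal_integral_eq_lintegral_ofReal hsq (Eventually.of_forall (fun x => by positivity))]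
      have e1 : (volume K)⁻¹ = ENNReal.ofReal vK⁻¹ := by
        rw [ENNReal.ofReal_inv_of_pos hvKpos, hvK, Measure.real, ENNReal.ofReal_toReal hKfin]
      rw [e1, ← ENNReal.ofReal_mul (by positivity)]
      have h1 : vK⁻¹ * ∫ x in K, ‖T x - S x‖ ^ 2 ≤ C2 * Real.sqrt ω := by
        calc vK⁻¹ * ∫ x in K, ‖T x - S x‖ ^ 2 ≤ vK⁻¹ * (2 * M * (2 * C1 * Real.sqrt ω)) := by
              gcongr
          _ = C2 * Real.sqrt ω := by rw [hC2]; ring
      calc (ENNReal.ofReal (vK⁻¹ * ∫ x in K, ‖T x - S x‖ ^ 2)) ^ (1 / 2 : ℝ)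
          ≤ (ENNReal.ofReal (C2 * Real.sqrt ω)) ^ (1 / 2 : ℝ) := by
            apply ENNReal.rpow_le_rpow _ (by norm_num)
            exact ENNReal.ofReal_le_ofReal h1
        _ = ENNReal.ofReal ((C2 * Real.sqrt ω) ^ (1 / 2 : ℝ)) := by
            rw [ENNReal.ofReal_rpow_of_nonneg (by positivity) (by norm_num)]
        _ = ENNReal.ofReal (Real.sqrt C2 * ω ^ (1 / 4 : ℝ)) := by
            congr 1
            rw [Real.mul_rpow hC2nn (Real.sqrt_nonneg _), ← Real.sqrt_eq_rpow, Real.sqrt_eq_rpow ω,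
              ← Real.rpow_mul hω0]
            norm_num
    rw [hωe, ENNReal.ofReal_rpow_of_nonneg hω0 (by norm_num)]
    refine hfinal.trans ?_
    rw [ENNReal.ofReal_mul (Real.sqrt_nonneg _)]
    gcongr
    rw [ENNReal.ofReal_le_iff_le_toReal (by simp), ENNReal.coe_toReal, hC3]
    show Real.sqrt C2 ≤ Real.sqrt C2 + 1
    linarith
  -- pass to the infimum
  have hC3pos : (C3 : ℝ≥0∞) ≠ 0 := by
    rw [Ne, ENNReal.coe_eq_zero, hC3]
    intro h
    have h8 : Real.sqrt C2 + 1 = 0 := congrArg NNReal.toReal h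
    have h9 := Real.sqrt_nonneg C2
    linarith
  set X := eLpNorm (fun x => T x - S x) 2 (unif K) with hX
  have hdiv : (X / C3) ^ (4 : ℝ) ≤ W2 μ ν := by
    unfold W2
    apply le_iInf₂
    intro π hπ
    have h1 := hmain π hπ
    have h2 : X / C3 ≤ ((∫⁻ p, ‖p.1 - p.2‖ₑ ^ 2 ∂π) ^ (1 / 2 : ℝ)) ^ (1 / 4 : ℝ) := by
      rw [ENNReal.div_le_iff hC3pos ENNReal.coe_ne_top, mul_comm]; exact h1
    calc (X / C3) ^ (4 : ℝ) ≤
        (((∫⁻ p, ‖p.1 - p.2‖ₑ ^ 2 ∂π) ^ (1 / 2 : ℝ)) ^ (1 / 4 : ℝ)) ^ (4 : ℝ) :=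
          ENNReal.rpow_le_rpow h2 (by norm_num)
      _ = (∫⁻ p, ‖p.1 - p.2‖ₑ ^ 2 ∂π) ^ (1 / 2 : ℝ) := by
          rw [← ENNReal.rpow_mul]; norm_num
  have h3 : X / C3 ≤ (W2 μ ν) ^ (1 / 4 : ℝ) := by
    calc X / C3 = ((X / C3) ^ (4 : ℝ)) ^ (1 / 4 : ℝ) := by rw [← ENNReal.rpow_mul]; norm_num
      _ ≤ _ := ENNReal.rpow_le_rpow hdiv (by norm_num)
  rw [ENNReal.div_le_iff hC3pos ENNReal.coe_ne_top, mul_comm] at h3
  exact h3

end Vale.Agent.H10.OT
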