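import Vale.Agent.H10.OTCells
import Vale.Agent.H10.OTLower

open MeasureTheory Set
open scoped ENNReal NNReal RealInnerProductSpace

namespace Vale.Agent.H10.OT

/-- The discrete stability statement (to be proved in `OTDisc.lean`). -/
def DiscStab {V : Type} [NormedAddCommGroup V] [InnerProductSpace ℝ V] [FiniteDimensional ℝ V]
    [MeasurableSpace V] [BorelSpace V] (K : Set V) (M : ℝ) : Prop :=
  ∃ C : ℝ, 0 ≤ C ∧ ∀ (n : ℕ) (y z : Fin n → V), Function.Injective y → Function.Injective z →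
    (∀ i, ‖y i‖ ≤ M) → (∀ i, ‖z i‖ ≤ M) → ∀ a : Fin n → ℝ, (∀ i, 0 < a i) →
    ∀ ψ φ : Fin n → ℝ, (∀ i, (volume : Measure V).real (cell K y ψ i) = a i) →
    (∀ i, (volume : Measure V).real (cell K z φ i) = a i) →
    ∀ T S : V → V, Measurable T → Measurable S →
    (∀ x ∈ K, ∃ i, x ∈ cell K y ψ i ∧ T x = y i) →
    (∀ x ∈ K, ∃ i, x ∈ cell K z φ i ∧ S x = z i) →
    ∀ r : ℝ, 0 < r → ∑ i, a i * ‖y i - z i‖ ^ 2 ≤ r ^ 3 →
    ∫ x in K, ‖T x - S x‖ ^ 2 ≤ C * r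

end Vale.Agent.H10.OT
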