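import Vale.Agent.H10.OTSlope
import Vale.Agent.H10.OTDiscStmt

open MeasureTheory Set Metric Filter
open scoped ENNReal NNReal RealInnerProductSpace

namespace Vale.Agent.H10.OT

set_option linter.unusedSectionVars false
set_option linter.unusedVariables false

variable {V : Type} [NormedAddCommGroup V] [InnerProductSpace ℝ V] [FiniteDimensional ℝ V]
  [MeasurableSpace V] [BorelSpace V]

lemma shift_diff {K : Set V} (hKc : IsCompact K) {κ : ℝ} (hκ0 : 0 ≤ κ)
    (hκ : ∀ v : V, (volume : Measure V).real (K \ {x | x + v ∈ K}) ≤ κ * ‖v‖)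
    {F : V → ℝ} (hF : Measurable F) {M : ℝ} (hM : 0 ≤ M) (hFM : ∀ x ∈ K, |F x| ≤ M) (v : V) :
    IntegrableOn (fun x => F (x + v) - F x) (K ∩ {x | x + v ∈ K}) ∧
    ∫ x in K ∩ {x | x + v ∈ K}, (F (x + v) - F x) ≤ 2 * M * (κ * ‖v‖) := by
  have hKm := hKc.measurableSet
  have hKfin : volume K ≠ ∞ := hKc.measure_lt_top.ne
  set A : Set V := {x | x + v ∈ K} with hA
  set B : Set V := {x | x + (-v) ∈ K} with hB
  have hAm : MeasurableSet A := (measurable_id.add_const v) hKm
  have hBm : MeasurableSet B := (measurable_id.add_const (-v)) hKm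
  have hvA : (volume : Measure V).real (K \ A) ≤ κ * ‖v‖ := hκ v
  have hvB : (volume : Measure V).real (K \ B) ≤ κ * ‖v‖ := by
    have := hκ (-v); rw [norm_neg] at this; exact this
  have hfinK : IsFiniteMeasure ((volume : Measure V).restrict K) :=
    ⟨by rw [Measure.restrict_apply_univ]; exact hKc.measure_lt_top⟩
  have hfM : ∀ᵐ x ∂(volume : Measure V).restrict K, ‖F x‖ ≤ M := by
    filter_upwards [ae_restrict_mem hKm] with x hx using hFM x hx
  have hfi : IntegrableOn F K := int_bdd hF.aestronglyMeasurable hfM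
  have hmp := measurePreserving_add_right (volume : Measure V) v
  have hpre : (fun x => x + v) ⁻¹' (K ∩ B) = K ∩ A := by
    ext x
    simp only [mem_preimage, mem_inter_iff, hA, hB, mem_ofPred_eq, add_neg_cancel_right]
    tauto
  have hshift : ∫ x in K ∩ A, F (x + v) = ∫ x in K ∩ B, F x := by
    rw [← hmp.setIntegral_preimage_emb (measurableEmbedding_addRight _) F (K ∩ B), hpre]
  have hshifti : IntegrableOn (fun x => F (x + v)) (K ∩ A) := by
    have := (hmp.integrableOn_comp_preimage (measurableEmbedding_addRight _)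
      (f := F) (s := K ∩ B)).2 (hfi.mono_set inter_subset_left)
    rw [hpre] at this
    exact this
  have hsubA : K ∩ A ⊆ K := inter_subset_left
  refine ⟨hshifti.sub (hfi.mono_set hsubA), ?_⟩
  rw [integral_sub hshifti (hfi.mono_set hsubA), hshift]
  have i3 : ∫ x in K, F x = (∫ x in K ∩ A, F x) + (∫ x in K \ A, F x) :=
    (integral_inter_add_sdiff hAm hfi).symm
  have i4 : ∫ x in K, F x = (∫ x in K ∩ B, F x) + (∫ x in K \ B, F x) :=
    (integral_inter_add_sdiff hBm hfi).symm
  have b1 : ‖∫ x in K \ A, F x‖ ≤ M * (volume : Measure V).real (K \ A) := by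
    apply norm_setIntegral_le_of_norm_le_const_ae
    · exact (measure_ne_top_of_subset sdiff_subset hKfin).lt_top
    · exact ae_restrict_of_ae_restrict_of_subset sdiff_subset hfM
  have b2 : ‖∫ x in K \ B, F x‖ ≤ M * (volume : Measure V).real (K \ B) := by
    apply norm_setIntegral_le_of_norm_le_const_ae
    · exact (measure_ne_top_of_subset sdiff_subset hKfin).lt_top
    · exact ae_restrict_of_ae_restrict_of_subset sdiff_subset hfM
  rw [Real.norm_eq_abs] at b1 b2
  have c1 := (abs_le.1 b1).2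
  have c2 := (abs_le.1 b2).1
  have k1 : M * (volume : Measure V).real (K \ A) ≤ M * (κ * ‖v‖) := by gcongr
  have k2 : M * (volume : Measure V).real (K \ B) ≤ M * (κ * ‖v‖) := by gcongr
  nlinarith

lemma cell_mono {ι : Type} {K : Set V} {y : ι → V} {ψ : ι → ℝ} {T : V → V}
    (hT : ∀ x ∈ K, ∃ i, x ∈ cell K y ψ i ∧ T x = y i) {x x' : V} (hx : x ∈ K) (hx' : x' ∈ K) :
    0 ≤ ⟪x' - x, T x' - T x⟫ := by
  obtain ⟨i, hi, hTi⟩ := hT x hx
  obtain ⟨j, hj, hTj⟩ := hT x' hx'
  rw [hTi, hTj]
  have h1 := hi.2 j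
  have h2 := hj.2 i
  simp only [inner_sub_left, inner_sub_right]
  linarith

lemma cell_ae {ι : Type} [Fintype ι] {K : Set V} {y : ι → V} (hy : Function.Injective y)
    {ψ : ι → ℝ} {T : V → V} (hK : IsCompact K)
    (hT : ∀ x ∈ K, ∃ i, x ∈ cell K y ψ i ∧ T x = y i) (i : ι) :
    ∀ᵐ x ∂(volume : Measure V).restrict (cell K y ψ i), T x = y i := by
  have h1 : ∀ᵐ x ∂(volume : Measure V), ∀ j, j ≠ i → x ∉ cell K y ψ i ∩ cell K y ψ j := by
    rw [ae_all_iff]
    intro j
    by_cases hj : j = i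
    · exact Eventually.of_forall fun x h => absurd hj h
    · have := cell_inter_null K hy ψ (i := i) (j := j) (fun h => hj h.symm)
      rw [measure_eq_zero_iff_ae_notMem] at this
      filter_upwards [this] with x hx _ using hx
  rw [ae_restrict_iff' (cell_isClosed hK.isClosed y ψ i).measurableSet]
  filter_upwards [h1] with x hx hxi
  obtain ⟨j, hj, hTj⟩ := hT x hxi.1
  by_cases hji : j = i
  · rw [hTj, hji]
  · exact absurd ⟨hxi, hj⟩ (hx j hji)

/-- the fractional shift density -/
noncomputable def dens (θ : V → ℝ) (v : V) (x : V) : ℝ := 1 - θ x + θ (x - v)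

/-- change of variables for the shifted part -/
lemma shift_mass {K : Set V} {θ : V → ℝ} {v : V} (hθ : ∀ x, θ x ≠ 0 → x ∈ K ∧ x + v ∈ K)
    (g : V → ℝ) : ∫ x in K, θ (x - v) * g x = ∫ x in K, θ x * g (x + v) := by
  have h1 : ∫ x in K, θ (x - v) * g x = ∫ x, θ (x - v) * g x := by
    apply setIntegral_eq_integral_of_forall_compl_eq_zero
    intro x hx
    by_cases h : θ (x - v) = 0
    · rw [h, zero_mul]
    · have := (hθ _ h).2
      rw [sub_add_cancel] at this
      exact absurd this hx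
  have h2 : ∫ x in K, θ x * g (x + v) = ∫ x, θ x * g (x + v) := by
    apply setIntegral_eq_integral_of_forall_compl_eq_zero
    intro x hx
    by_cases h : θ x = 0
    · rw [h, zero_mul]
    · exact absurd (hθ _ h).1 hx
  rw [h1, h2]
  have h3 := integral_sub_right_eq_self (μ := (volume : Measure V)) (fun x => θ x * g (x + v)) v
  rw [← h3]
  congr 1
  ext x
  rw [sub_add_cancel]

theorem disc_core {K : Set V} (hKc : IsCompact K) (hKconv : Convex ℝ K) {R : ℝ}
    (hR : ∀ x ∈ K, ‖x‖ ≤ R) {M : ℝ} (hM : 0 < M)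
    {ι : Type} [Fintype ι] [Nonempty ι] {y z : ι → V} (hy : Function.Injective y)
    (hz : Function.Injective z)
    {a : ι → ℝ} (ha : ∀ i, 0 < a i) {ψ φ : ι → ℝ}
    (h0 : ∀ i, (volume : Measure V).real (cell K y ψ i) = a i)
    (h1 : ∀ i, (volume : Measure V).real (cell K z φ i) = a i)
    {T S : V → V} (hT : Measurable T) (hS : Measurable S)
    (hTM : ∀ x ∈ K, ‖T x‖ ≤ M) (hSM : ∀ x ∈ K, ‖S x‖ ≤ M)
    (hTc : ∀ x ∈ K, ∃ i, x ∈ cell K y ψ i ∧ T x = y i)
    (hSc : ∀ x ∈ K, ∃ i, x ∈ cell K z φ i ∧ S x = z i)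
    {r : ℝ} (hr : 0 < r) (hr3 : ∑ i, a i * ‖z i - y i‖ ^ 2 ≤ r ^ 3) {e : V} (he : ‖e‖ = 1)
    {θ : V → ℝ} (hθm : Measurable θ) (hθ0 : ∀ x, 0 ≤ θ x) (hθ1 : ∀ x, θ x ≤ 1)
    (hθK : ∀ x, θ x ≠ 0 → x ∈ K ∧ x + r • e ∈ K) :
    ∫ x in K, θ x * (⟪e, S x⟫ - ⟪e, T (x + r • e)⟫) ≤
      34 * R ^ 2 * (∫ x in K, |θ (x - r • e) - θ x|) + r := by
  set v : V := r • e with hv
  have hKm := hKc.measurableSet
  have hfinK : IsFiniteMeasure ((volume : Measure V).restrict K) :=
    ⟨by rw [Measure.restrict_apply_univ]; exact hKc.measure_lt_top⟩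
  set f : V → ℝ := dens θ v with hf
  have hθvm : Measurable (fun x => θ (x - v)) := hθm.comp (measurable_id.sub_const v)
  have hfm : Measurable f := (measurable_const.sub hθm).add hθvm
  have hf0 : ∀ x, 0 ≤ f x := fun x => by
    have := hθ1 x; have := hθ0 (x - v); simp only [hf, dens]; linarith
  have hf2 : ∀ x, f x ≤ 2 := fun x => by
    have := hθ0 x; have := hθ1 (x - v); simp only [hf, dens]; linarith
  have one_meas : Measurable (fun _ : V => (1:ℝ)) := measurable_const
  have one0 : ∀ x : V, (0:ℝ) ≤ (fun _ : V => (1:ℝ)) x := fun _ => zero_le_one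
  have one2 : ∀ x : V, (fun _ : V => (1:ℝ)) x ≤ 2 := fun _ => by norm_num
  -- integrability of products with theta
  have hθi : ∀ g : V → ℝ, IntegrableOn g K → IntegrableOn (fun x => θ x * g x) K := by
    intro g hg
    refine Integrable.mono' hg.norm (hθm.aestronglyMeasurable.mul hg.aestronglyMeasurable) ?_
    filter_upwards with x
    rw [norm_mul, Real.norm_eq_abs, abs_of_nonneg (hθ0 x)]
    exact mul_le_of_le_one_left (norm_nonneg _) (hθ1 x)
  have hθvi : ∀ g : V → ℝ, IntegrableOn g K → IntegrableOn (fun x => θ (x - v) * g x) K := by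
    intro g hg
    refine Integrable.mono' hg.norm (hθvm.aestronglyMeasurable.mul hg.aestronglyMeasurable) ?_
    filter_upwards with x
    rw [norm_mul, Real.norm_eq_abs, abs_of_nonneg (hθ0 _)]
    exact mul_le_of_le_one_left (norm_nonneg _) (hθ1 _)
  -- integral against f
  have hfint : ∀ g : V → ℝ, Continuous g →
      ∫ x in K, f x * g x = (∫ x in K, g x) + ∫ x in K, θ x * (g (x + v) - g x) := by
    intro g hg
    have hgi : IntegrableOn g K := hg.continuousOn.integrableOn_compact hKc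
    have hgi' : IntegrableOn (fun x => g (x + v)) K :=
      (by fun_prop : Continuous fun x => g (x + v)).continuousOn.integrableOn_compact hKc
    have e1 : ∀ x, f x * g x = (g x - θ x * g x) + θ (x - v) * g x := by
      intro x; simp only [hf, dens]; ring
    have e2 : ∀ x, θ x * (g (x + v) - g x) = θ x * g (x + v) - θ x * g x := fun x => by ring
    simp_rw [e1, e2]
    have hgs : IntegrableOn (fun x => g x - θ x * g x) K := hgi.sub (hθi g hgi)
    rw [integral_add hgs (hθvi g hgi), integral_sub hgi (hθi g hgi),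
      integral_sub (hθi _ hgi') (hθi g hgi), shift_mass hθK]
    ring
  have h0' : ∀ i, ∫ x in cell K y ψ i, (fun _ : V => (1:ℝ)) x = a i := by
    intro i
    rw [setIntegral_const, smul_eq_mul, mul_one]; exact h0 i
  have h1' : ∀ i, ∫ x in cell K z φ i, (fun _ : V => (1:ℝ)) x = a i := by
    intro i
    rw [setIntegral_const, smul_eq_mul, mul_one]; exact h1 i
  have hsum1 : ∑ i, a i = ∫ x in K, (1:ℝ) := by
    rw [← sum_cells hKc hy ψ (integrableOn_f hKc one_meas one0 one2)]
    exact Finset.sum_congr rfl fun i _ => (h0' i).symm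
  have hsumf : ∑ i, a i = ∫ x in K, f x := by
    have := hfint (fun _ => 1) continuous_const
    simp only [mul_one, sub_self, mul_zero, integral_zero, add_zero] at this
    rw [this, hsum1]
  obtain ⟨ψf, hψf⟩ := exists_cells hKc hfm hf0 hf2 hy ha hsumf
  obtain ⟨φf, hφf⟩ := exists_cells hKc hfm hf0 hf2 hz ha hsumf
  have hmix := mixed_le hKc hKconv hR hfm hf0 hf2 hy hz ha h0 h1 hψf hφf
    (η := 1 / r) (by positivity)
  have hτ : ∫ x in K, |f x - 1| = ∫ x in K, |θ (x - v) - θ x| := by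
    congr 1
    ext x
    congr 1
    simp only [hf, dens]; ring
  have hrhs : 34 * R ^ 2 / (1 / r) * (∫ x in K, |f x - 1|)
      + 1 / r * ∑ i, a i * ‖z i - y i‖ ^ 2 ≤
      34 * R ^ 2 * r * (∫ x in K, |θ (x - v) - θ x|) + r ^ 2 := by
    rw [hτ]
    have e1 : 34 * R ^ 2 / (1 / r) = 34 * R ^ 2 * r := by field_simp
    have e2 : 1 / r * ∑ i, a i * ‖z i - y i‖ ^ 2 ≤ r ^ 2 := by
      calc 1 / r * ∑ i, a i * ‖z i - y i‖ ^ 2 ≤ 1 / r * r ^ 3 := by gcongr
        _ = r ^ 2 := by field_simp
    rw [e1]; linarith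
  -- the four values
  have v1 := tval_eq hKc hfm hf0 hf2 hz hφf
  have v2 := tval_le hKc hfm hf0 hf2 hy hψf y ψ
  have v3 := tval_eq hKc one_meas one0 one2 hy h0'
  rw [hfint _ (continuous_Phi z φf)] at v1
  rw [hfint _ (continuous_Phi y ψ)] at v2
  simp only [one_mul] at v3
  -- bounds with T and S
  have hTi : IntegrableOn (fun x => ⟪e, T (x + v)⟫) (K ∩ {x | x + v ∈ K}) ∧
      True := by
    refine ⟨?_, trivial⟩
    have hfin : IsFiniteMeasure ((volume : Measure V).restrict (K ∩ {x | x + v ∈ K})) :=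
      ⟨by rw [Measure.restrict_apply_univ]
          exact (measure_mono inter_subset_left).trans_lt hKc.measure_lt_top⟩
    apply int_bdd (C := M)
      (measurable_const.inner (hT.comp (measurable_id.add_const v))).aestronglyMeasurable
    filter_upwards [ae_restrict_mem (hKm.inter ((measurable_id.add_const v) hKm))] with x hx
    calc ‖⟪e, T (x + v)⟫‖ ≤ ‖e‖ * ‖T (x + v)‖ := norm_inner_le_norm _ _
      _ ≤ M := by rw [he, one_mul]; exact hTM _ hx.2
  have hTθi : IntegrableOn (fun x => θ x * ⟪e, T (x + v)⟫) K := by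
    apply int_bdd (C := M)
      (hθm.mul (measurable_const.inner (hT.comp (measurable_id.add_const v)))).aestronglyMeasurable
    filter_upwards with x
    by_cases h : θ x = 0
    · show ‖θ x * ⟪e, T (x + v)⟫‖ ≤ M
      rw [h, zero_mul, norm_zero]; exact hM.le
    · show ‖θ x * ⟪e, T (x + v)⟫‖ ≤ M
      rw [norm_mul, Real.norm_eq_abs, abs_of_nonneg (hθ0 x)]
      calc θ x * ‖⟪e, T (x + v)⟫‖ ≤ 1 * (‖e‖ * ‖T (x + v)‖) := by
            apply mul_le_mul (hθ1 x) (norm_inner_le_norm _ _) (norm_nonneg _) zero_le_one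
        _ ≤ M := by rw [he, one_mul, one_mul]; exact hTM _ (hθK x h).2
  have hSi : IntegrableOn (fun x => ⟪e, S x⟫) K := by
    apply int_bdd (C := M) (measurable_const.inner hS).aestronglyMeasurable
    filter_upwards [ae_restrict_mem hKm] with x hx
    calc ‖⟪e, S x⟫‖ ≤ ‖e‖ * ‖S x‖ := norm_inner_le_norm _ _
      _ ≤ M := by rw [he, one_mul]; exact hSM _ hx
  have hSθi : IntegrableOn (fun x => θ x * ⟪e, S x⟫) K := hθi _ hSi
  have w2 : ∫ x in K, θ x * (Phi y ψ (x + v) - Phi y ψ x) ≤
      r * ∫ x in K, θ x * ⟪e, T (x + v)⟫ := by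
    rw [← integral_const_mul]
    apply setIntegral_mono_on _ (hTθi.const_mul r) hKm
    · intro x hx
      by_cases h : θ x = 0
      · rw [h]; simp
      · obtain ⟨_, hxv⟩ := hθK x h
        obtain ⟨j, hj, hTj⟩ := hTc _ hxv
        have g1 : Phi y ψ (x + v) = ⟪x + v, y j⟫ - ψ j :=
          le_antisymm (Phi_le fun k => hj.2 k) (aff_le_Phi y ψ (x + v) j)
        have g2 := aff_le_Phi y ψ x j
        unfold aff at g2
        have g3 : Phi y ψ (x + v) - Phi y ψ x ≤ r * ⟪e, T (x + v)⟫ := by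
          rw [g1, hTj, inner_add_left, hv, real_inner_smul_left]
          linarith
        calc θ x * (Phi y ψ (x + v) - Phi y ψ x) ≤ θ x * (r * ⟪e, T (x + v)⟫) :=
              mul_le_mul_of_nonneg_left g3 (hθ0 x)
          _ = r * (θ x * ⟪e, T (x + v)⟫) := by ring
    · apply hθi
      have hc := continuous_Phi y ψ
      exact (by fun_prop : Continuous fun x => Phi y ψ (x + v) - Phi y ψ x).continuousOn.integrableOn_compact hKc
  have w1 : tval K z φ (fun _ => 1) z + r * ∫ x in K, θ x * ⟪e, S x⟫ ≤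
      ((∫ x in K, Phi z φf x) + ∫ x in K, θ x * (Phi z φf (x + v) - Phi z φf x))
        + ∑ i, a i * φf i := by
    have hc := continuous_Phi z φf
    have hPi : IntegrableOn (fun x => Phi z φf x) K := hc.continuousOn.integrableOn_compact hKc
    have hPd : IntegrableOn (fun x => θ x * (Phi z φf (x + v) - Phi z φf x)) K :=
      hθi _ ((by fun_prop : Continuous fun x => Phi z φf (x + v) - Phi z φf x).continuousOn.integrableOn_compact hKc)
    have hPs : IntegrableOn (fun x => Phi z φf x + θ x * (Phi z φf (x + v) - Phi z φf x)) K :=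
      hPi.add hPd
    rw [← integral_add hPi hPd, ← sum_cells hKc hz φ hPs,
      ← sum_cells hKc hz φ hSθi, Finset.mul_sum]
    unfold tval
    rw [← Finset.sum_add_distrib, ← Finset.sum_add_distrib]
    apply Finset.sum_le_sum
    intro i _
    have hAm := cell_meas hKc z φ i
    have hAK : cell K z φ i ⊆ K := cell_subset
    have j1 : IntegrableOn (fun x : V => (1:ℝ) * ⟪x, z i⟫) (cell K z φ i) :=
      (by fun_prop : Continuous fun x : V => (1:ℝ) * ⟪x, z i⟫).continuousOn.integrableOn_compact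
        (cell_compact hKc z φ i)
    have j2 : IntegrableOn (fun x => r * (θ x * ⟪e, S x⟫)) (cell K z φ i) :=
      (hSθi.mono_set hAK).const_mul r
    have j3 : IntegrableOn (fun x => Phi z φf x + θ x * (Phi z φf (x + v) - Phi z φf x))
        (cell K z φ i) := (hPi.add hPd).mono_set hAK
    have j4 : IntegrableOn (fun _ : V => φf i) (cell K z φ i) :=
      continuous_const.continuousOn.integrableOn_compact (cell_compact hKc z φ i)
    have e3 : a i * φf i = ∫ x in cell K z φ i, φf i := by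
      rw [setIntegral_const, smul_eq_mul, h1 i]
    rw [← integral_const_mul, ← integral_add j1 j2, e3, ← integral_add j3 j4]
    apply setIntegral_mono_ae_restrict (j1.add j2) (j3.add j4)
    filter_upwards [cell_ae hz hKc hSc i] with x hx
    show 1 * ⟪x, z i⟫ + r * (θ x * ⟪e, S x⟫) ≤
      Phi z φf x + θ x * (Phi z φf (x + v) - Phi z φf x) + φf i
    rw [hx]
    have g1 := aff_le_Phi z φf x i
    have g2 := aff_le_Phi z φf (x + v) i
    unfold aff at g1 g2
    rw [inner_add_left, hv, real_inner_smul_left] at g2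
    rw [← hv] at g2
    have k1 := mul_le_mul_of_nonneg_left g2 (hθ0 x)
    have k2 := mul_le_mul_of_nonneg_left g1 (sub_nonneg.2 (hθ1 x))
    nlinarith
  have e4 : ∫ x in K, θ x * (⟪e, S x⟫ - ⟪e, T (x + v)⟫) =
      (∫ x in K, θ x * ⟪e, S x⟫) - ∫ x in K, θ x * ⟪e, T (x + v)⟫ := by
    rw [← integral_sub hSθi hTθi]
    congr 1
    ext x
    ring
  rw [e4]
  have fin : r * ((∫ x in K, θ x * ⟪e, S x⟫) - ∫ x in K, θ x * ⟪e, T (x + v)⟫) ≤
      r * (34 * R ^ 2 * (∫ x in K, |θ (x - v) - θ x|) + r) := by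
    nlinarith
  exact le_of_mul_le_mul_left fin hr

end Vale.Agent.H10.OT
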