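import Vale.Agent.H10.OTDisc

open MeasureTheory Set Metric Filter
open scoped ENNReal NNReal RealInnerProductSpace

namespace Vale.Agent.H10.OT

set_option linter.unusedSectionVars false
set_option linter.unusedVariables false

variable {V : Type} [NormedAddCommGroup V] [InnerProductSpace ℝ V] [FiniteDimensional ℝ V]
  [MeasurableSpace V] [BorelSpace V]

theorem disc_dir {K : Set V} (hKc : IsCompact K) (hKconv : Convex ℝ K) {R : ℝ}
    (hR : ∀ x ∈ K, ‖x‖ ≤ R) {κ : ℝ} (hκ0 : 0 ≤ κ)
    (hκ : ∀ v : V, (volume : Measure V).real (K \ {x | x + v ∈ K}) ≤ κ * ‖v‖)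
    {M : ℝ} (hM : 0 < M)
    {ι : Type} [Fintype ι] [Nonempty ι] {y z : ι → V} (hy : Function.Injective y)
    (hz : Function.Injective z)
    {a : ι → ℝ} (ha : ∀ i, 0 < a i) {ψ φ : ι → ℝ}
    (h0 : ∀ i, (volume : Measure V).real (cell K y ψ i) = a i)
    (h1 : ∀ i, (volume : Measure V).real (cell K z φ i) = a i)
    {T S : V → V} (hT : Measurable T) (hS : Measurable S)
    (hTM : ∀ x ∈ K, ‖T x‖ ≤ M) (hSM : ∀ x ∈ K, ‖S x‖ ≤ M)
    (hTc : ∀ x ∈ K, ∃ i, x ∈ cell K y ψ i ∧ T x = y i)
    (hSc : ∀ x ∈ K, ∃ i, x ∈ cell K z φ i ∧ S x = z i)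
    {r : ℝ} (hr : 0 < r) (hr3 : ∑ i, a i * ‖z i - y i‖ ^ 2 ≤ r ^ 3) {e : V} (he : ‖e‖ = 1) :
    ∫ x in K, (max 0 ⟪e, S x - T x⟫) ^ 2 ≤
      (272 * M * R ^ 2 * κ + 2 * M + 8 * M ^ 2 * κ) * r := by
  set v : V := r • e with hv
  have hvn : ‖v‖ = r := by rw [hv, norm_smul, he, mul_one, Real.norm_eq_abs, abs_of_pos hr]
  have hKm := hKc.measurableSet
  have hKfin : volume K ≠ ∞ := hKc.measure_lt_top.ne
  have hfinK : IsFiniteMeasure ((volume : Measure V).restrict K) :=
    ⟨by rw [Measure.restrict_apply_univ]; exact hKc.measure_lt_top⟩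
  set A : Set V := {x | x + v ∈ K} with hA
  set B : Set V := {x | x + (-v) ∈ K} with hB
  have hAm : MeasurableSet A := (measurable_id.add_const v) hKm
  have hBm : MeasurableSet B := (measurable_id.add_const (-v)) hKm
  have hvA : (volume : Measure V).real (K \ A) ≤ κ * r := by rw [← hvn]; exact hκ v
  have hvB : (volume : Measure V).real (K \ B) ≤ κ * r := by
    have := hκ (-v); rw [norm_neg, hvn] at this; exact this
  set u : V → ℝ := fun x => max 0 ⟪e, S x - T x⟫ with hu
  have hum : Measurable u := measurable_const.max (measurable_const.inner (hS.sub hT))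
  have hu0 : ∀ x, 0 ≤ u x := fun x => le_max_left _ _
  have huM : ∀ x ∈ K, u x ≤ 2 * M := by
    intro x hx
    apply max_le (by linarith)
    calc ⟪e, S x - T x⟫ ≤ ‖e‖ * ‖S x - T x‖ := real_inner_le_norm _ _
      _ ≤ 1 * (‖S x‖ + ‖T x‖) := by rw [he]; gcongr; exact norm_sub_le _ _
      _ ≤ 2 * M := by linarith [hTM x hx, hSM x hx]
  set θ : V → ℝ := (K ∩ A).indicator (fun x => u x / (2 * M)) with hθ
  have hθm : Measurable θ := (hum.div_const _).indicator (hKm.inter hAm)
  have hθ0 : ∀ x, 0 ≤ θ x := fun x =>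
    indicator_nonneg (fun x _ => div_nonneg (hu0 x) (by positivity)) x
  have hθin : ∀ x, x ∈ K → x + v ∈ K → θ x = u x / (2 * M) := fun x h1 h2 =>
    indicator_of_mem (show x ∈ K ∩ A from ⟨h1, h2⟩) _
  have hθK : ∀ x, θ x ≠ 0 → x ∈ K ∧ x + v ∈ K := fun x h => by
    have := mem_of_indicator_ne_zero h
    exact this
  have hθ1 : ∀ x, θ x ≤ 1 := by
    intro x
    by_cases h : θ x = 0
    · rw [h]; exact zero_le_one
    · obtain ⟨h1, h2⟩ := hθK x h
      rw [hθin x h1 h2, div_le_one (by positivity)]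
      exact huM x h1
  have hcore := disc_core hKc hKconv hR hM hy hz ha h0 h1 hT hS hTM hSM hTc hSc hr hr3 he
    hθm hθ0 hθ1 hθK
  rw [← hv] at hcore
  -- directional components
  set FS : V → ℝ := fun x => ⟪e, S x⟫ with hFS
  set FT : V → ℝ := fun x => ⟪e, T x⟫ with hFT
  have hFSm : Measurable FS := measurable_const.inner hS
  have hFTm : Measurable FT := measurable_const.inner hT
  have hFSM : ∀ x ∈ K, |FS x| ≤ M := fun x hx => by
    calc |FS x| ≤ ‖e‖ * ‖S x‖ := abs_real_inner_le_norm _ _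
      _ ≤ M := by rw [he, one_mul]; exact hSM x hx
  have hFTM : ∀ x ∈ K, |FT x| ≤ M := fun x hx => by
    calc |FT x| ≤ ‖e‖ * ‖T x‖ := abs_real_inner_le_norm _ _
      _ ≤ M := by rw [he, one_mul]; exact hTM x hx
  have hFSi : IntegrableOn FS K := int_bdd hFSm.aestronglyMeasurable
    (by filter_upwards [ae_restrict_mem hKm] with x hx using hFSM x hx)
  have hFTi : IntegrableOn FT K := int_bdd hFTm.aestronglyMeasurable
    (by filter_upwards [ae_restrict_mem hKm] with x hx using hFTM x hx)
  -- monotonicity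
  have hmS : ∀ x ∈ K, x + v ∈ K → 0 ≤ FS (x + v) - FS x := by
    intro x hx hxv
    have := cell_mono hSc hx hxv
    rw [add_sub_cancel_left, hv, real_inner_smul_left, ← hv] at this
    simp only [hFS]
    rw [← inner_sub_right]
    exact nonneg_of_mul_nonneg_right this hr
  have hmT : ∀ x ∈ K, x + v ∈ K → 0 ≤ FT (x + v) - FT x := by
    intro x hx hxv
    have := cell_mono hTc hx hxv
    rw [add_sub_cancel_left, hv, real_inner_smul_left, ← hv] at this
    simp only [hFT]
    rw [← inner_sub_right]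
    exact nonneg_of_mul_nonneg_right this hr
  -- shift differences in direction -v
  have hnFS : ∀ x ∈ K, |(-FS) x| ≤ M := fun x hx => by
    rw [Pi.neg_apply, abs_neg]; exact hFSM x hx
  have hnFT : ∀ x ∈ K, |(-FT) x| ≤ M := fun x hx => by
    rw [Pi.neg_apply, abs_neg]; exact hFTM x hx
  obtain ⟨isS, bsS⟩ := shift_diff hKc hκ0 hκ hFSm.neg hM.le hnFS (-v)
  obtain ⟨isT, bsT⟩ := shift_diff hKc hκ0 hκ hFTm.neg hM.le hnFT (-v)
  obtain ⟨ipT, bpT⟩ := shift_diff hKc hκ0 hκ hFTm hM.le hFTM v
  rw [norm_neg, hvn] at bsS bsT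
  rw [hvn] at bpT
  -- total variation bound
  have hτ : 2 * M * ∫ x in K, |θ (x - v) - θ x| ≤ 8 * M * κ * r := by
    set g1 : V → ℝ := (K ∩ B).indicator (fun x => (-FS) (x + -v) - (-FS) x) with hg1
    set g2 : V → ℝ := (K ∩ B).indicator (fun x => (-FT) (x + -v) - (-FT) x) with hg2
    set g3 : V → ℝ := (K \ B).indicator (fun _ => 2 * M) with hg3
    set g4 : V → ℝ := (K \ A).indicator (fun _ => 2 * M) with hg4
    have hKB : MeasurableSet (K ∩ B) := hKm.inter hBm
    have ig1 : IntegrableOn g1 K := by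
      have : Integrable g1 := isS.integrable_indicator hKB
      exact this.integrableOn
    have ig2 : IntegrableOn g2 K := by
      have : Integrable g2 := isT.integrable_indicator hKB
      exact this.integrableOn
    have ic : IntegrableOn (fun _ : V => 2 * M) K := integrable_const _
    have ig3 : IntegrableOn g3 K := ic.indicator (hKm.diff hBm)
    have ig4 : IntegrableOn g4 K := ic.indicator (hKm.diff hAm)
    have e1 : ∫ x in K, g1 x = ∫ x in K ∩ B, ((-FS) (x + -v) - (-FS) x) := by
      rw [hg1, setIntegral_indicator hKB]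
      congr 2
      ext x; simp
    have e2 : ∫ x in K, g2 x = ∫ x in K ∩ B, ((-FT) (x + -v) - (-FT) x) := by
      rw [hg2, setIntegral_indicator hKB]
      congr 2
      ext x; simp
    have e3 : ∫ x in K, g3 x ≤ 2 * M * (κ * r) := by
      rw [hg3, setIntegral_indicator (hKm.diff hBm), setIntegral_const, smul_eq_mul, mul_comm]
      have : K ∩ (K \ B) = K \ B := by ext x; simp
      rw [this]
      gcongr
    have e4 : ∫ x in K, g4 x ≤ 2 * M * (κ * r) := by
      rw [hg4, setIntegral_indicator (hKm.diff hAm), setIntegral_const, smul_eq_mul, mul_comm]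
      have : K ∩ (K \ A) = K \ A := by ext x; simp
      rw [this]
      gcongr
    have hpt : ∀ x ∈ K, 2 * M * |θ (x - v) - θ x| ≤ ((g1 x + g2 x) + g3 x) + g4 x := by
      intro x hx
      have hxv : x - v + v = x := sub_add_cancel x v
      have hx' : x + -v = x - v := (sub_eq_add_neg x v).symm
      have hg40 : 0 ≤ g4 x := indicator_nonneg (fun x _ => by positivity) x
      have hg30 : 0 ≤ g3 x := indicator_nonneg (fun x _ => by positivity) x
      by_cases hxB : x - v ∈ K
      · have hxB' : x ∈ K ∩ B := ⟨hx, by show x + -v ∈ K; rw [hx']; exact hxB⟩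
        have k1 : g1 x = FS x - FS (x - v) := by
          rw [hg1, indicator_of_mem hxB', hx']; simp only [Pi.neg_apply]; ring
        have k2 : g2 x = FT x - FT (x - v) := by
          rw [hg2, indicator_of_mem hxB', hx']; simp only [Pi.neg_apply]; ring
        have m1 := hmS (x - v) hxB (by rw [hxv]; exact hx)
        have m2 := hmT (x - v) hxB (by rw [hxv]; exact hx)
        rw [hxv] at m1 m2
        have t1 : θ (x - v) = u (x - v) / (2 * M) := hθin _ hxB (by rw [hxv]; exact hx)
        by_cases hxA : x + v ∈ K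
        · have t2 : θ x = u x / (2 * M) := hθin x hx hxA
          have t3 : 2 * M * |θ (x - v) - θ x| = |u (x - v) - u x| := by
            rw [t1, t2, ← sub_div, abs_div, abs_of_pos (by positivity : 0 < 2 * M)]
            field_simp
          have t4 : |u (x - v) - u x| ≤ |⟪e, S (x - v) - T (x - v)⟫ - ⟪e, S x - T x⟫| := by
            simp only [hu]
            rw [max_comm 0, max_comm 0]
            exact abs_max_sub_max_le_abs _ _ _
          have t5 : ⟪e, S (x - v) - T (x - v)⟫ - ⟪e, S x - T x⟫ =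
              (FT x - FT (x - v)) - (FS x - FS (x - v)) := by
            simp only [hFS, hFT, inner_sub_right]; ring
          rw [t3, k1, k2]
          rw [t5] at t4
          refine t4.trans ?_
          rw [abs_le]
          constructor <;> linarith
        · have t2 : θ x = 0 := by
            by_contra hne
            exact hxA (hθK x hne).2
          have k4 : g4 x = 2 * M := indicator_of_mem (show x ∈ K \ A from ⟨hx, hxA⟩) _
          have t3 : |θ (x - v) - θ x| ≤ 1 := by
            rw [t2, sub_zero, abs_of_nonneg (hθ0 _)]; exact hθ1 _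
          rw [k1, k2, k4]
          have : 2 * M * |θ (x - v) - θ x| ≤ 2 * M * 1 := by gcongr
          linarith
      · have t1 : θ (x - v) = 0 := by
          by_contra hne
          exact hxB (hθK _ hne).1
        have hxB' : x ∉ K ∩ B := fun h => hxB (by have := h.2; rw [hB] at this; rw [← hx']; exact this)
        have k1 : g1 x = 0 := indicator_of_notMem hxB' _
        have k2 : g2 x = 0 := indicator_of_notMem hxB' _
        have k3 : g3 x = 2 * M := indicator_of_mem
          (show x ∈ K \ B from ⟨hx, fun h => hxB' ⟨hx, h⟩⟩) _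
        have t3 : |θ (x - v) - θ x| ≤ 1 := by
          rw [t1, zero_sub, abs_neg, abs_of_nonneg (hθ0 _)]; exact hθ1 _
        rw [k1, k2, k3]
        have : 2 * M * |θ (x - v) - θ x| ≤ 2 * M * 1 := by gcongr
        linarith
    have hθi : IntegrableOn (fun x => 2 * M * |θ (x - v) - θ x|) K := by
      apply int_bdd (C := 2 * M) (((hθm.comp (measurable_id.sub_const v)).sub hθm).abs.const_mul
        (2 * M)).aestronglyMeasurable
      filter_upwards with x
      show ‖2 * M * |θ (x - v) - θ x|‖ ≤ 2 * M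
      rw [Real.norm_eq_abs, abs_of_nonneg (by positivity)]
      have : |θ (x - v) - θ x| ≤ 1 := by
        rw [abs_le]
        constructor
        · linarith [hθ0 (x - v), hθ1 x]
        · linarith [hθ0 x, hθ1 (x - v)]
      calc 2 * M * |θ (x - v) - θ x| ≤ 2 * M * 1 := by gcongr
        _ = 2 * M := mul_one _
    have hI12 : IntegrableOn (fun x => g1 x + g2 x) K := ig1.add ig2
    have hI123 : IntegrableOn (fun x => (g1 x + g2 x) + g3 x) K := hI12.add ig3
    have hI : IntegrableOn (fun x => ((g1 x + g2 x) + g3 x) + g4 x) K := hI123.add ig4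
    have := setIntegral_mono_on hθi hI hKm hpt
    rw [integral_const_mul, integral_add hI123 ig4, integral_add hI12 ig3,
      integral_add ig1 ig2, e1, e2] at this
    nlinarith
  have hτ' : ∫ x in K, |θ (x - v) - θ x| ≤ 4 * κ * r := by
    have h2M : 0 < 2 * M := by positivity
    have : 2 * M * ∫ x in K, |θ (x - v) - θ x| ≤ 2 * M * (4 * κ * r) := by linarith
    exact le_of_mul_le_mul_left this h2M
  -- integrability of theta times bounded
  have hθi : ∀ g : V → ℝ, IntegrableOn g K → IntegrableOn (fun x => θ x * g x) K := by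
    intro g hg
    refine Integrable.mono' hg.norm (hθm.aestronglyMeasurable.mul hg.aestronglyMeasurable) ?_
    filter_upwards with x
    rw [norm_mul, Real.norm_eq_abs, abs_of_nonneg (hθ0 x)]
    exact mul_le_of_le_one_left (norm_nonneg _) (hθ1 x)
  have hTθi : IntegrableOn (fun x => θ x * FT (x + v)) K := by
    apply int_bdd (C := M) (hθm.mul (hFTm.comp (measurable_id.add_const v))).aestronglyMeasurable
    filter_upwards with x
    show ‖θ x * FT (x + v)‖ ≤ M
    by_cases h : θ x = 0
    · rw [h, zero_mul, norm_zero]; exact hM.le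
    · rw [norm_mul, Real.norm_eq_abs, abs_of_nonneg (hθ0 x), Real.norm_eq_abs]
      calc θ x * |FT (x + v)| ≤ 1 * M :=
            mul_le_mul (hθ1 x) (hFTM _ (hθK x h).2) (abs_nonneg _) zero_le_one
        _ = M := one_mul M
  have hbd : ∫ x in K, θ x * (FT (x + v) - FT x) ≤ 2 * M * (κ * r) := by
    refine le_trans ?_ bpT
    have e1 : ∫ x in K ∩ A, (FT (x + v) - FT x) =
        ∫ x in K, (K ∩ A).indicator (fun x => FT (x + v) - FT x) x := by
      rw [setIntegral_indicator (hKm.inter hAm)]
      congr 2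
      ext x; simp
    rw [e1]
    apply setIntegral_mono_on _ _ hKm
    · intro x hx
      by_cases h : x ∈ K ∩ A
      · rw [indicator_of_mem h]
        exact mul_le_of_le_one_left (hmT x h.1 h.2) (hθ1 x)
      · have : θ x = 0 := indicator_of_notMem h _
        rw [this, zero_mul, indicator_of_notMem h]
    · have e2 : ∀ x, θ x * (FT (x + v) - FT x) = θ x * FT (x + v) - θ x * FT x := fun x => by ring
      simp_rw [e2]
      exact hTθi.sub (hθi _ hFTi)
    · exact (ipT.integrable_indicator (hKm.inter hAm)).integrableOn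
  have hmain : ∫ x in K, θ x * (FS x - FT x) ≤ 34 * R ^ 2 * (4 * κ * r) + r + 2 * M * (κ * r) := by
    have e1 : ∀ x, θ x * (FS x - FT x) = θ x * (FS x - FT (x + v)) + θ x * (FT (x + v) - FT x) :=
      fun x => by ring
    have i1 : IntegrableOn (fun x => θ x * (FS x - FT (x + v))) K := by
      have e2 : ∀ x, θ x * (FS x - FT (x + v)) = θ x * FS x - θ x * FT (x + v) := fun x => by ring
      simp_rw [e2]
      exact (hθi _ hFSi).sub hTθi
    have i2 : IntegrableOn (fun x => θ x * (FT (x + v) - FT x)) K := by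
      have e2 : ∀ x, θ x * (FT (x + v) - FT x) = θ x * FT (x + v) - θ x * FT x := fun x => by ring
      simp_rw [e2]
      exact hTθi.sub (hθi _ hFTi)
    simp_rw [e1]
    rw [integral_add i1 i2]
    have : 34 * R ^ 2 * (∫ x in K, |θ (x - v) - θ x|) ≤ 34 * R ^ 2 * (4 * κ * r) := by gcongr
    linarith
  -- the square of u
  have husq : IntegrableOn (fun x => u x ^ 2) K := by
    apply int_bdd (C := (2 * M) ^ 2) (hum.pow_const 2).aestronglyMeasurable
    filter_upwards [ae_restrict_mem hKm] with x hx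
    rw [Real.norm_eq_abs, abs_of_nonneg (by positivity)]
    exact pow_le_pow_left₀ (hu0 x) (huM x hx) 2
  have hKA : ∫ x in K ∩ A, u x ^ 2 = 2 * M * ∫ x in K, θ x * (FS x - FT x) := by
    have e1 : ∫ x in K ∩ A, u x ^ 2 = ∫ x in K, (K ∩ A).indicator (fun x => u x ^ 2) x := by
      rw [setIntegral_indicator (hKm.inter hAm)]
      congr 2
      ext x; simp
    rw [e1, ← integral_const_mul]
    congr 1
    ext x
    by_cases h : x ∈ K ∩ A
    · rw [indicator_of_mem h, hθin x h.1 h.2]
      have e2 : FS x - FT x = ⟪e, S x - T x⟫ := by simp only [hFS, hFT, inner_sub_right]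
      rw [e2]
      simp only [hu]
      rcases le_total 0 ⟪e, S x - T x⟫ with h3 | h3
      · rw [max_eq_right h3]; field_simp
      · rw [max_eq_left h3]; simp
    · rw [indicator_of_notMem h]
      have : θ x = 0 := indicator_of_notMem h _
      rw [this]; ring
  have hKdA : ∫ x in K \ A, u x ^ 2 ≤ (2 * M) ^ 2 * (κ * r) := by
    calc ∫ x in K \ A, u x ^ 2 ≤ ∫ x in K \ A, (2 * M) ^ 2 := by
          apply setIntegral_mono_on (husq.mono_set sdiff_subset)
          · exact integrableOn_const (measure_ne_top_of_subset sdiff_subset hKfin)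
          · exact hKm.diff hAm
          · intro x hx
            exact pow_le_pow_left₀ (hu0 x) (huM x hx.1) 2
      _ = (volume : Measure V).real (K \ A) * (2 * M) ^ 2 := by
          rw [setIntegral_const, smul_eq_mul]
      _ ≤ (κ * r) * (2 * M) ^ 2 := by gcongr
      _ = (2 * M) ^ 2 * (κ * r) := by ring
  have hsplit : ∫ x in K, u x ^ 2 = (∫ x in K ∩ A, u x ^ 2) + (∫ x in K \ A, u x ^ 2) :=
    (integral_inter_add_sdiff hAm husq).symm
  show ∫ x in K, u x ^ 2 ≤ _
  rw [hsplit, hKA]
  have := mul_le_mul_of_nonneg_left hmain (by positivity : 0 ≤ 2 * M)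
  nlinarith

/-- The discrete stability statement holds. -/
theorem discStab {K : Set V} (hKc : IsCompact K) (hKconv : Convex ℝ K)
    (hKi : (interior K).Nonempty) {M : ℝ} (hM : 0 < M) : DiscStab K M := by
  obtain ⟨R, hRpos, hR⟩ := hKc.isBounded.exists_pos_norm_le
  obtain ⟨κ, hκ0, hκ⟩ := shift_vol hKc hKconv hKi
  have hKm := hKc.measurableSet
  have hfinK : IsFiniteMeasure ((volume : Measure V).restrict K) :=
    ⟨by rw [Measure.restrict_apply_univ]; exact hKc.measure_lt_top⟩
  set Ce : ℝ := 272 * M * R ^ 2 * κ + 2 * M + 8 * M ^ 2 * κ with hCe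
  have hCe0 : 0 ≤ Ce := by positivity
  refine ⟨Module.finrank ℝ V * (2 * Ce), by positivity, ?_⟩
  intro n y z hy hz hyM hzM a ha ψ φ h0 h1 T S hT hS hTc hSc r hr hr3
  have hne : Nonempty (Fin n) := by
    obtain ⟨x, hx⟩ := hKi
    obtain ⟨i, _⟩ := hTc x (interior_subset hx)
    exact ⟨i⟩
  have hTM : ∀ x ∈ K, ‖T x‖ ≤ M := by
    intro x hx
    obtain ⟨i, _, h⟩ := hTc x hx
    rw [h]; exact hyM i
  have hSM : ∀ x ∈ K, ‖S x‖ ≤ M := by
    intro x hx
    obtain ⟨i, _, h⟩ := hSc x hx
    rw [h]; exact hzM i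
  have hr3' : ∑ i, a i * ‖z i - y i‖ ^ 2 ≤ r ^ 3 := by
    refine le_trans (le_of_eq ?_) hr3
    apply Finset.sum_congr rfl
    intro i _
    rw [norm_sub_rev]
  have hdir : ∀ e : V, ‖e‖ = 1 → ∫ x in K, (max 0 ⟪e, S x - T x⟫) ^ 2 ≤ Ce * r := fun e he =>
    disc_dir hKc hKconv hR hκ0 hκ hM hy hz ha h0 h1 hT hS hTM hSM hTc hSc hr hr3' he
  have hint : ∀ e : V, ‖e‖ = 1 → IntegrableOn (fun x => (max 0 ⟪e, S x - T x⟫) ^ 2) K := by
    intro e he
    apply int_bdd (C := (2 * M) ^ 2)
      ((measurable_const.max (measurable_const.inner (hS.sub hT))).pow_const 2).aestronglyMeasurable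
    filter_upwards [ae_restrict_mem hKm] with x hx
    show ‖(max 0 ⟪e, S x - T x⟫) ^ 2‖ ≤ (2 * M) ^ 2
    rw [Real.norm_eq_abs, abs_of_nonneg (by positivity)]
    apply pow_le_pow_left₀ (le_max_left _ _)
    apply max_le (by linarith)
    calc ⟪e, S x - T x⟫ ≤ ‖e‖ * ‖S x - T x‖ := real_inner_le_norm _ _
      _ ≤ 1 * (‖S x‖ + ‖T x‖) := by rw [he]; gcongr; exact norm_sub_le _ _
      _ ≤ 2 * M := by linarith [hTM x hx, hSM x hx]
  set bs := stdOrthonormalBasis ℝ V with hbs
  have hpt : ∀ x, ‖T x - S x‖ ^ 2 = ∑ k, ((max 0 ⟪bs k, S x - T x⟫) ^ 2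
      + (max 0 ⟪-bs k, S x - T x⟫) ^ 2) := by
    intro x
    rw [norm_sub_rev, ← bs.sum_sq_inner_right (S x - T x)]
    apply Finset.sum_congr rfl
    intro k _
    rw [inner_neg_left]
    rcases le_total 0 ⟪bs k, S x - T x⟫ with h | h
    · rw [max_eq_right h, max_eq_left (by linarith)]; ring
    · rw [max_eq_left h, max_eq_right (by linarith)]; ring
  have hb1 : ∀ k, ‖bs k‖ = 1 := fun k => bs.norm_eq_one k
  have hb2 : ∀ k, ‖-bs k‖ = 1 := fun k => by rw [norm_neg]; exact hb1 k
  simp_rw [hpt]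
  have hk : ∀ k, IntegrableOn (fun x => (max 0 ⟪bs k, S x - T x⟫) ^ 2
      + (max 0 ⟪-bs k, S x - T x⟫) ^ 2) K := fun k => (hint _ (hb1 k)).add (hint _ (hb2 k))
  rw [integral_finsetSum _ (fun k _ => hk k)]
  calc ∑ k, ∫ x in K, ((max 0 ⟪bs k, S x - T x⟫) ^ 2 + (max 0 ⟪-bs k, S x - T x⟫) ^ 2)
      ≤ ∑ _k : Fin (Module.finrank ℝ V), (2 * Ce * r) := by
        apply Finset.sum_le_sum
        intro k _
        rw [integral_add (hint _ (hb1 k)) (hint _ (hb2 k))]
        linarith [hdir _ (hb1 k), hdir _ (hb2 k)]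
    _ = Module.finrank ℝ V * (2 * Ce) * r := by
        rw [Finset.sum_const, Finset.card_univ, Fintype.card_fin, nsmul_eq_mul]; ring

end Vale.Agent.H10.OT
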