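import Mathlib

open MeasureTheory Set
open scoped ENNReal NNReal

namespace Vale.Agent.H10.OT

lemma bm_compact {A B C : Set ℝ} (hA : IsCompact A) (hB : IsCompact B) (hAne : A.Nonempty)
    (hBne : B.Nonempty) (h : ∀ a ∈ A, ∀ b ∈ B, (1 / 2 : ℝ) * (a + b) ∈ C) :
    volume A + volume B ≤ 2 * volume C := by
  set a := sSup A with ha'
  set b := sInf B with hb'
  have ha : a ∈ A := hA.sSup_mem hAne
  have hb : b ∈ B := hB.sInf_mem hBne
  have hale : ∀ x ∈ A, x ≤ a := fun x hx => le_csSup hA.bddAbove hx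
  have hble : ∀ x ∈ B, b ≤ x := fun x hx => csInf_le hB.bddBelow hx
  set S : Set ℝ := (fun z => z + (-b)) ⁻¹' A with hS
  set T : Set ℝ := (fun z => z + (-a)) ⁻¹' B with hT
  have hSv : volume S = volume A := measure_preimage_add_right _ _ _
  have hTv : volume T = volume B := measure_preimage_add_right _ _ _
  have hTm : MeasurableSet T := by
    apply IsClosed.measurableSet
    exact hB.isClosed.preimage (by fun_prop)
  have hdisj : volume (S ∩ T) = 0 := by
    apply measure_mono_null (t := {a + b}) _ (measure_singleton _)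
    rintro z ⟨h1, h2⟩
    have h3 := hale _ h1
    have h4 := hble _ h2
    simp only [mem_singleton_iff]
    linarith
  have hD : volume ((fun z : ℝ => (1 / 2 : ℝ) * z) ⁻¹' C) = 2 * volume C := by
    rw [Real.volume_preimage_mul_left (by norm_num)]
    norm_num
  rw [← hSv, ← hTv, ← hD, ← measure_union₀ hTm.nullMeasurableSet hdisj]
  apply measure_mono
  rintro z (hz | hz)
  · have := h _ hz _ hb
    simp only [mem_preimage]
    convert this using 2
    ring
  · have := h _ ha _ hz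
    simp only [mem_preimage]
    convert this using 2
    ring

lemma bm_meas {A B C : Set ℝ} (hA : MeasurableSet A) (hB : MeasurableSet B) (hAne : A.Nonempty)
    (hBne : B.Nonempty) (h : ∀ a ∈ A, ∀ b ∈ B, (1 / 2 : ℝ) * (a + b) ∈ C) :
    volume A + volume B ≤ 2 * volume C := by
  obtain ⟨a0, ha0⟩ := hAne
  obtain ⟨b0, hb0⟩ := hBne
  have key : ∀ K L : Set ℝ, K ⊆ A → IsCompact K → L ⊆ B → IsCompact L →
      volume K + volume L ≤ 2 * volume C := by
    intro K L hKA hK hLB hL
    calc volume K + volume L ≤ volume (insert a0 K) + volume (insert b0 L) := by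
          gcongr <;> exact subset_insert _ _
      _ ≤ 2 * volume C := by
        apply bm_compact (hK.insert a0) (hL.insert b0) (insert_nonempty _ _) (insert_nonempty _ _)
        intro a ha b hb
        apply h
        · rcases ha with rfl | ha
          · exact ha0
          · exact hKA ha
        · rcases hb with rfl | hb
          · exact hb0
          · exact hLB hb
  have hA' : volume A = ⨆ K : {K : Set ℝ // K ⊆ A ∧ IsCompact K}, volume (K : Set ℝ) := by
    rw [hA.measure_eq_iSup_isCompact, iSup_subtype]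
    simp only [iSup_and]
  have hB' : volume B = ⨆ K : {K : Set ℝ // K ⊆ B ∧ IsCompact K}, volume (K : Set ℝ) := by
    rw [hB.measure_eq_iSup_isCompact, iSup_subtype]
    simp only [iSup_and]
  have : Nonempty {K : Set ℝ // K ⊆ A ∧ IsCompact K} := ⟨⟨∅, empty_subset _, isCompact_empty⟩⟩
  have : Nonempty {K : Set ℝ // K ⊆ B ∧ IsCompact K} := ⟨⟨∅, empty_subset _, isCompact_empty⟩⟩
  rw [hA', hB']
  exact ENNReal.iSup_add_iSup_le (fun K L => key K L K.2.1 K.2.2 L.2.1 L.2.2)

lemma pl1_norm {f g h : ℝ → ℝ} (hf : Measurable f) (hg : Measurable g) (hh : Measurable h)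
    (hf0 : ∀ x, 0 ≤ f x) (hg0 : ∀ x, 0 ≤ g x) (hh0 : ∀ x, 0 ≤ h x)
    (hf1 : ∀ x, f x ≤ 1) (hg1 : ∀ x, g x ≤ 1)
    (hfs : ∀ s < 1, ∃ x, s < f x) (hgs : ∀ s < 1, ∃ x, s < g x)
    (hfgh : ∀ x y, f x * g y ≤ h ((1 / 2 : ℝ) * (x + y)) ^ 2) :
    (∫⁻ x, ENNReal.ofReal (f x)) + (∫⁻ x, ENNReal.ofReal (g x)) ≤
      2 * ∫⁻ x, ENNReal.ofReal (h x) := by
  rw [lintegral_eq_lintegral_meas_lt volume (Filter.Eventually.of_forall hf0) hf.aemeasurable,
    lintegral_eq_lintegral_meas_lt volume (Filter.Eventually.of_forall hg0) hg.aemeasurable,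
    lintegral_eq_lintegral_meas_lt volume (Filter.Eventually.of_forall hh0) hh.aemeasurable]
  refine (le_lintegral_add _ _).trans ?_
  rw [← lintegral_const_mul' _ _ (by norm_num)]
  apply setLIntegral_mono' measurableSet_Ioi
  intro t ht
  have ht0 : 0 < t := ht
  by_cases ht1 : t < 1
  · apply bm_meas (measurableSet_lt measurable_const hf) (measurableSet_lt measurable_const hg)
      (hfs t ht1) (hgs t ht1)
    intro x hx y hy
    have hx' : t < f x := hx
    have hy' : t < g y := hy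
    show t < h _
    by_contra hcon
    push Not at hcon
    have h1 := hfgh x y
    have h2 : h ((1 / 2 : ℝ) * (x + y)) ^ 2 ≤ t ^ 2 := by
      have := hh0 ((1 / 2 : ℝ) * (x + y))
      nlinarith
    have h3 : t * t < f x * g y := mul_lt_mul'' hx' hy' ht0.le ht0.le
    nlinarith
  · push Not at ht1
    have e1 : {a | t < f a} = ∅ := by
      ext x
      simp only [mem_ofPred_eq, mem_empty_iff_false, iff_false, not_lt]
      exact (hf1 x).trans ht1
    have e2 : {a | t < g a} = ∅ := by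
      ext x
      simp only [mem_ofPred_eq, mem_empty_iff_false, iff_false, not_lt]
      exact (hg1 x).trans ht1
    rw [e1, e2]
    simp

lemma ennreal_amgm {I J K : ℝ≥0∞} (h : I + J ≤ 2 * K) : I * J ≤ K ^ 2 := by
  by_cases hK : K = ⊤
  · simp [hK]
  have h2K : 2 * K ≠ ⊤ := ENNReal.mul_ne_top (by norm_num) hK
  have hI : I ≠ ⊤ := ne_top_of_le_ne_top h2K (le_trans le_self_add h)
  have hJ : J ≠ ⊤ := ne_top_of_le_ne_top h2K (le_trans le_add_self h)
  lift K to ℝ≥0 using hK
  lift I to ℝ≥0 using hI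
  lift J to ℝ≥0 using hJ
  norm_cast at h ⊢
  have h' : (I : ℝ) + J ≤ 2 * K := by exact_mod_cast h
  have : (I : ℝ) * J ≤ (K : ℝ) ^ 2 := by
    have h1 : (0 : ℝ) ≤ I := I.2
    have h2 : (0 : ℝ) ≤ J := J.2
    nlinarith [sq_nonneg ((I : ℝ) - J)]
  exact_mod_cast this

lemma pl1 {f g h : ℝ → ℝ≥0∞} (hf : Measurable f) (hg : Measurable g) (hh : Measurable h)
    {C : ℝ≥0} (hfC : ∀ x, f x ≤ C) (hgC : ∀ x, g x ≤ C)
    (hfgh : ∀ x y, f x * g y ≤ h ((1 / 2 : ℝ) * (x + y)) ^ 2) :
    (∫⁻ x, f x) * (∫⁻ x, g x) ≤ (∫⁻ x, h x) ^ 2 := by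
  set A : ℝ≥0∞ := ⨆ x, f x with hA
  set B : ℝ≥0∞ := ⨆ x, g x with hB
  have hAC : A ≤ C := iSup_le hfC
  have hBC : B ≤ C := iSup_le hgC
  have hAt : A ≠ ⊤ := ne_top_of_le_ne_top ENNReal.coe_ne_top hAC
  have hBt : B ≠ ⊤ := ne_top_of_le_ne_top ENNReal.coe_ne_top hBC
  by_cases hA0 : A = 0
  · have : ∀ x, f x = 0 := fun x => le_antisymm (by rw [← hA0]; exact le_iSup f x) bot_le
    simp [this]
  by_cases hB0 : B = 0
  · have : ∀ x, g x = 0 := fun x => le_antisymm (by rw [← hB0]; exact le_iSup g x) bot_le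
    simp [this]
  set a : ℝ := A.toReal with ha'
  set b : ℝ := B.toReal with hb'
  have ha : 0 < a := ENNReal.toReal_pos hA0 hAt
  have hb : 0 < b := ENNReal.toReal_pos hB0 hBt
  have hft : ∀ x, f x ≠ ⊤ := fun x => ne_top_of_le_ne_top ENNReal.coe_ne_top (hfC x)
  have hgt : ∀ x, g x ≠ ⊤ := fun x => ne_top_of_le_ne_top ENNReal.coe_ne_top (hgC x)
  set k : ℝ → ℝ≥0∞ := fun x => min (h x) C with hk
  have hkt : ∀ x, k x ≠ ⊤ := fun x => ne_top_of_le_ne_top ENNReal.coe_ne_top (min_le_right _ _)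
  have hkm : Measurable k := hh.min measurable_const
  have hfgk : ∀ x y, f x * g y ≤ k ((1 / 2 : ℝ) * (x + y)) ^ 2 := by
    intro x y
    rcases le_total (h ((1 / 2 : ℝ) * (x + y))) C with hle | hle
    · simp only [hk, min_eq_left hle]; exact hfgh x y
    · simp only [hk, min_eq_right hle]
      rw [sq]
      exact mul_le_mul' (hfC x) (hgC y)
  set c : ℝ := Real.sqrt (a * b) with hc'
  have hc : 0 < c := Real.sqrt_pos.2 (mul_pos ha hb)
  have hc2 : c * c = a * b := Real.mul_self_sqrt (mul_pos ha hb).le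
  have main := pl1_norm (f := fun x => (f x).toReal / a) (g := fun x => (g x).toReal / b)
    (h := fun x => (k x).toReal / c)
    (hf.ennreal_toReal.div_const _) (hg.ennreal_toReal.div_const _)
    (hkm.ennreal_toReal.div_const _)
    (fun x => by positivity) (fun x => by positivity) (fun x => by positivity)
    (fun x => by
      rw [div_le_one ha]
      exact ENNReal.toReal_mono hAt (le_iSup f x))
    (fun x => by
      rw [div_le_one hb]
      exact ENNReal.toReal_mono hBt (le_iSup g x))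
    (fun s hs => by
      by_cases hs0 : s < 0
      · exact ⟨0, hs0.trans_le (by positivity)⟩
      push Not at hs0
      have h1 : ENNReal.ofReal (s * a) < A := by
        rw [ENNReal.ofReal_lt_iff_lt_toReal (by positivity) hAt]
        nlinarith
      obtain ⟨x, hx⟩ := lt_iSup_iff.1 h1
      refine ⟨x, ?_⟩
      rw [ENNReal.ofReal_lt_iff_lt_toReal (by positivity) (hft x)] at hx
      rwa [lt_div_iff₀ ha])
    (fun s hs => by
      by_cases hs0 : s < 0
      · exact ⟨0, hs0.trans_le (by positivity)⟩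
      push Not at hs0
      have h1 : ENNReal.ofReal (s * b) < B := by
        rw [ENNReal.ofReal_lt_iff_lt_toReal (by positivity) hBt]
        nlinarith
      obtain ⟨x, hx⟩ := lt_iSup_iff.1 h1
      refine ⟨x, ?_⟩
      rw [ENNReal.ofReal_lt_iff_lt_toReal (by positivity) (hgt x)] at hx
      rwa [lt_div_iff₀ hb])
    (fun x y => by
      have h1 := ENNReal.toReal_mono (ENNReal.pow_ne_top (hkt _)) (hfgk x y)
      rw [ENNReal.toReal_mul, ENNReal.toReal_pow] at h1
      rw [div_mul_div_comm, div_pow, ← hc2, ← sq]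
      exact div_le_div_of_nonneg_right h1 (by positivity))
  have e1 : ∫⁻ x, f x = ENNReal.ofReal a * ∫⁻ x, ENNReal.ofReal ((f x).toReal / a) := by
    rw [← lintegral_const_mul' _ _ ENNReal.ofReal_ne_top]
    apply lintegral_congr
    intro x
    rw [← ENNReal.ofReal_mul ha.le, mul_div_cancel₀ _ ha.ne', ENNReal.ofReal_toReal (hft x)]
  have e2 : ∫⁻ x, g x = ENNReal.ofReal b * ∫⁻ x, ENNReal.ofReal ((g x).toReal / b) := by
    rw [← lintegral_const_mul' _ _ ENNReal.ofReal_ne_top]
    apply lintegral_congr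
    intro x
    rw [← ENNReal.ofReal_mul hb.le, mul_div_cancel₀ _ hb.ne', ENNReal.ofReal_toReal (hgt x)]
  have e3 : ∫⁻ x, k x = ENNReal.ofReal c * ∫⁻ x, ENNReal.ofReal ((k x).toReal / c) := by
    rw [← lintegral_const_mul' _ _ ENNReal.ofReal_ne_top]
    apply lintegral_congr
    intro x
    rw [← ENNReal.ofReal_mul hc.le, mul_div_cancel₀ _ hc.ne', ENNReal.ofReal_toReal (hkt x)]
  have e4 : ∫⁻ x, k x ≤ ∫⁻ x, h x := lintegral_mono (fun x => min_le_left _ _)
  have e5 := ennreal_amgm main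
  calc (∫⁻ x, f x) * (∫⁻ x, g x)
      = ENNReal.ofReal (a * b) * ((∫⁻ x, ENNReal.ofReal ((f x).toReal / a)) *
          ∫⁻ x, ENNReal.ofReal ((g x).toReal / b)) := by
        rw [e1, e2, ENNReal.ofReal_mul ha.le]; ring
    _ ≤ ENNReal.ofReal (a * b) * (∫⁻ x, ENNReal.ofReal ((k x).toReal / c)) ^ 2 := by gcongr
    _ = (∫⁻ x, k x) ^ 2 := by
        rw [e3, ← hc2, ENNReal.ofReal_mul hc.le]; ring
    _ ≤ (∫⁻ x, h x) ^ 2 := by gcongr

/-- insertion of a first coordinate -/
noncomputable def ins (n : ℕ) : ℝ × (Fin n → ℝ) ≃ᵐ (Fin (n + 1) → ℝ) :=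
  (MeasurableEquiv.piFinSuccAbove (fun _ => ℝ) 0).symm

lemma ins_zero {n : ℕ} (t : ℝ) (x : Fin n → ℝ) : ins n (t, x) 0 = t := rfl

lemma ins_succ {n : ℕ} (t : ℝ) (x : Fin n → ℝ) (i : Fin n) : ins n (t, x) i.succ = x i := rfl

lemma ins_mid {n : ℕ} (t s : ℝ) (x y : Fin n → ℝ) :
    (1 / 2 : ℝ) • (ins n (t, x) + ins n (s, y)) =
      ins n ((1 / 2 : ℝ) * (t + s), (1 / 2 : ℝ) • (x + y)) := by
  ext i
  refine Fin.cases ?_ (fun j => ?_) i
  · simp only [Pi.smul_apply, Pi.add_apply, ins_zero, smul_eq_mul]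
  · simp only [Pi.smul_apply, Pi.add_apply, ins_succ, smul_eq_mul]

lemma lintegral_ins {n : ℕ} {f : (Fin (n + 1) → ℝ) → ℝ≥0∞} (hf : Measurable f) :
    ∫⁻ x, f x = ∫⁻ t : ℝ, ∫⁻ x : Fin n → ℝ, f (ins n (t, x)) := by
  have h1 : MeasurePreserving (ins n) (volume : Measure (ℝ × (Fin n → ℝ))) volume :=
    (volume_preserving_piFinSuccAbove (fun _ : Fin (n + 1) => ℝ) 0).symm _
  rw [← h1.lintegral_comp hf]
  exact lintegral_prod _ (hf.comp (ins n).measurable).aemeasurable

lemma pl_pi (n : ℕ) : ∀ {f g h : (Fin n → ℝ) → ℝ≥0∞}, Measurable f → Measurable g →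
    Measurable h → ∀ {R : ℝ} {C : ℝ≥0}, (∀ x, f x ≤ C) → (∀ x, g x ≤ C) →
    (∀ x i, R < |x i| → f x = 0) → (∀ x i, R < |x i| → g x = 0) →
    (∀ x y, f x * g y ≤ h ((1 / 2 : ℝ) • (x + y)) ^ 2) →
    (∫⁻ x, f x) * (∫⁻ x, g x) ≤ (∫⁻ x, h x) ^ 2 := by
  induction n with
  | zero =>
    intro f g h hf hg hh R C hfC hgC hfR hgR hfgh
    rw [Measure.volume_pi_eq_dirac (0 : Fin 0 → ℝ), lintegral_dirac' _ hf, lintegral_dirac' _ hg,
      lintegral_dirac' _ hh]
    have := hfgh 0 0
    simpa using this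
  | succ n ih =>
    intro f g h hf hg hh R C hfC hgC hfR hgR hfgh
    rw [lintegral_ins hf, lintegral_ins hg, lintegral_ins hh]
    have hcube : IsCompact (Set.pi univ (fun _ : Fin n => Icc (-R) R)) :=
      isCompact_univ_pi (fun _ => isCompact_Icc)
    set Q : Set (Fin n → ℝ) := Set.pi univ (fun _ : Fin n => Icc (-R) R) with hQ
    have hQt : volume Q ≠ ⊤ := hcube.measure_lt_top.ne
    have hbd : ∀ (u : (Fin (n + 1) → ℝ) → ℝ≥0∞), (∀ x, u x ≤ C) →
        (∀ x i, R < |x i| → u x = 0) → ∀ t, ∫⁻ x : Fin n → ℝ, u (ins n (t, x)) ≤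
          ((C * volume Q).toNNReal : ℝ≥0) := by
      intro u huC huR t
      rw [ENNReal.coe_toNNReal (ENNReal.mul_ne_top ENNReal.coe_ne_top hQt)]
      calc ∫⁻ x : Fin n → ℝ, u (ins n (t, x))
          ≤ ∫⁻ x : Fin n → ℝ, Q.indicator (fun _ => (C : ℝ≥0∞)) x := by
            apply lintegral_mono
            intro x
            by_cases hx : x ∈ Q
            · rw [indicator_of_mem hx]
              exact huC _
            · rw [indicator_of_notMem hx]
              have : ∃ i, R < |x i| := by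
                by_contra hcon
                push Not at hcon
                apply hx
                intro i _
                exact abs_le.1 (hcon i)
              obtain ⟨i, hi⟩ := this
              have := huR (ins n (t, x)) i.succ (by rw [ins_succ]; exact hi)
              simp only [this, le_refl]
        _ = C * volume Q := by
            rw [lintegral_indicator_const hcube.isClosed.measurableSet]
    have hmeas : ∀ (u : (Fin (n + 1) → ℝ) → ℝ≥0∞), Measurable u →
        Measurable (fun t : ℝ => ∫⁻ x : Fin n → ℝ, u (ins n (t, x))) := by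
      intro u hu
      exact (hu.comp (ins n).measurable).lintegral_prod_right'
    apply pl1 (hmeas f hf) (hmeas g hg) (hmeas h hh) (hbd f hfC hfR) (hbd g hgC hgR)
    intro t s
    have hsec : ∀ (u : (Fin (n + 1) → ℝ) → ℝ≥0∞) (t : ℝ), Measurable u →
        Measurable (fun x : Fin n → ℝ => u (ins n (t, x))) := by
      intro u t hu
      exact hu.comp ((ins n).measurable.comp measurable_prodMk_left)
    apply ih (hsec f t hf) (hsec g s hg) (hsec h _ hh) (C := C) (R := R)
      (fun x => hfC _) (fun x => hgC _)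
      (fun x i hi => hfR _ i.succ (by rw [ins_succ]; exact hi))
      (fun x i hi => hgR _ i.succ (by rw [ins_succ]; exact hi))
    intro x y
    rw [← ins_mid]
    exact hfgh _ _

/-- midpoint Prekopa-Leindler inequality on EuclideanSpace R (Fin n) for bounded,
boundedly supported f, g -/
theorem prekopa_leindler (n : ℕ) {f g h : EuclideanSpace ℝ (Fin n) → ℝ≥0∞}
    (hf : Measurable f) (hg : Measurable g) (hh : Measurable h) {R : ℝ} {C : ℝ≥0}
    (hfC : ∀ x, f x ≤ C) (hgC : ∀ x, g x ≤ C)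
    (hfR : ∀ x, R < ‖x‖ → f x = 0) (hgR : ∀ x, R < ‖x‖ → g x = 0)
    (hfgh : ∀ x y, f x * g y ≤ h ((1 / 2 : ℝ) • (x + y)) ^ 2) :
    (∫⁻ x, f x) * (∫⁻ x, g x) ≤ (∫⁻ x, h x) ^ 2 := by
  have hm : MeasurePreserving (@WithLp.toLp 2 (Fin n → ℝ)) volume volume :=
    PiLp.volume_preserving_toLp (Fin n)
  rw [← hm.lintegral_comp hf, ← hm.lintegral_comp hg, ← hm.lintegral_comp hh]
  have hnorm : ∀ (x : Fin n → ℝ) (i : Fin n), |x i| ≤ ‖WithLp.toLp 2 x‖ := by
    intro x i
    have := PiLp.norm_apply_le (WithLp.toLp 2 x) i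
    simpa using this
  apply pl_pi n (hf.comp hm.measurable) (hg.comp hm.measurable) (hh.comp hm.measurable)
    (R := R) (C := C) (fun x => hfC _) (fun x => hgC _)
    (fun x i hi => hfR _ (hi.trans_le (hnorm x i)))
    (fun x i hi => hgR _ (hi.trans_le (hnorm x i)))
  intro x y
  exact hfgh _ _

end Vale.Agent.H10.OT
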