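import Vale.Agent.H10.OTCellBase
import Vale.Agent.H10.PL

open MeasureTheory Set Metric
open scoped ENNReal NNReal RealInnerProductSpace

namespace Vale.Agent.H10.OT

set_option linter.unusedSectionVars false
set_option linter.unusedVariables false

variable {V : Type} [NormedAddCommGroup V] [InnerProductSpace ℝ V] [FiniteDimensional ℝ V]
  [MeasurableSpace V] [BorelSpace V]

theorem pl_V {f g h : V → ℝ≥0∞}
    (hf : Measurable f) (hg : Measurable g) (hh : Measurable h) {R : ℝ} {C : ℝ≥0}
    (hfC : ∀ x, f x ≤ C) (hgC : ∀ x, g x ≤ C)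
    (hfR : ∀ x, R < ‖x‖ → f x = 0) (hgR : ∀ x, R < ‖x‖ → g x = 0)
    (hfgh : ∀ x y, f x * g y ≤ h ((1 / 2 : ℝ) • (x + y)) ^ 2) :
    (∫⁻ x, f x) * (∫⁻ x, g x) ≤ (∫⁻ x, h x) ^ 2 := by
  set bs := stdOrthonormalBasis ℝ V with hbs
  have hmp := bs.measurePreserving_repr
  have hms : MeasurePreserving bs.repr.symm
      (volume : Measure (EuclideanSpace ℝ (Fin (Module.finrank ℝ V)))) (volume : Measure V) :=
    bs.measurePreserving_repr_symm
  have key := prekopa_leindler (Module.finrank ℝ V) (f := fun x => f (bs.repr.symm x))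
    (g := fun x => g (bs.repr.symm x)) (h := fun x => h (bs.repr.symm x))
    (hf.comp hms.measurable) (hg.comp hms.measurable) (hh.comp hms.measurable)
    (R := R) (C := C) (fun x => hfC _) (fun x => hgC _)
    (fun x hx => hfR _ (by rwa [LinearIsometryEquiv.norm_map]))
    (fun x hx => hgR _ (by rwa [LinearIsometryEquiv.norm_map]))
    (fun x y => by
      rw [map_smul, map_add]; exact hfgh _ _)
  rw [hms.lintegral_comp hf, hms.lintegral_comp hg, hms.lintegral_comp hh] at key
  exact key

/-- real-valued midpoint Prékopa–Leindler on compact sets, arithmetic mean hypothesis -/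
lemma pl_real {A B D : Set V} (hA : IsCompact A) (hB : IsCompact B) (hD : IsCompact D)
    {α β w : V → ℝ} (hα : Continuous α) (hβ : Continuous β) (hw : Continuous w)
    (hα0 : ∀ x ∈ A, 0 ≤ α x) (hβ0 : ∀ x ∈ B, 0 ≤ β x) (hw0 : ∀ x ∈ D, 0 ≤ w x)
    (h : ∀ x ∈ A, ∀ x' ∈ B, (1 / 2 : ℝ) • (x + x') ∈ D ∧
      α x + β x' ≤ 2 * w ((1 / 2 : ℝ) • (x + x'))) :
    (∫ x in A, α x) * (∫ x in B, β x) ≤ (∫ x in D, w x) ^ 2 := by
  obtain ⟨RA, hRA⟩ := hA.isBounded.exists_norm_le
  obtain ⟨RB, hRB⟩ := hB.isBounded.exists_norm_le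
  obtain ⟨CA, hCA⟩ := hA.bddAbove_image hα.continuousOn
  obtain ⟨CB, hCB⟩ := hB.bddAbove_image hβ.continuousOn
  set C : ℝ≥0 := Real.toNNReal (max CA CB) with hC
  have hAm := hA.measurableSet
  have hBm := hB.measurableSet
  have hDm := hD.measurableSet
  have key := pl_V (f := A.indicator fun x => ENNReal.ofReal (α x))
    (g := B.indicator fun x => ENNReal.ofReal (β x)) (h := D.indicator fun x => ENNReal.ofReal (w x))
    ((hα.measurable.ennreal_ofReal).indicator hAm) ((hβ.measurable.ennreal_ofReal).indicator hBm)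
    ((hw.measurable.ennreal_ofReal).indicator hDm) (R := max RA RB) (C := C) ?_ ?_ ?_ ?_ ?_
  · rw [lintegral_indicator hAm, lintegral_indicator hBm, lintegral_indicator hDm] at key
    have iA : IntegrableOn α A := hα.continuousOn.integrableOn_compact hA
    have iB : IntegrableOn β B := hβ.continuousOn.integrableOn_compact hB
    have iD : IntegrableOn w D := hw.continuousOn.integrableOn_compact hD
    have pA : 0 ≤ᵐ[volume.restrict A] α := by
      filter_upwards [ae_restrict_mem hAm] with x hx using hα0 x hx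
    have pB : 0 ≤ᵐ[volume.restrict B] β := by
      filter_upwards [ae_restrict_mem hBm] with x hx using hβ0 x hx
    have pD : 0 ≤ᵐ[volume.restrict D] w := by
      filter_upwards [ae_restrict_mem hDm] with x hx using hw0 x hx
    rw [← ofReal_integral_eq_lintegral_ofReal iA pA, ← ofReal_integral_eq_lintegral_ofReal iB pB,
      ← ofReal_integral_eq_lintegral_ofReal iD pD,
      ← ENNReal.ofReal_mul (integral_nonneg_of_ae pA),
      ← ENNReal.ofReal_pow (integral_nonneg_of_ae pD)] at key
    exact (ENNReal.ofReal_le_ofReal_iff (by positivity)).1 key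
  · intro x
    by_cases hx : x ∈ A
    · rw [indicator_of_mem hx, hC, ← ENNReal.ofReal]
      exact ENNReal.ofReal_le_ofReal ((hCA (mem_image_of_mem _ hx)).trans (le_max_left _ _))
    · rw [indicator_of_notMem hx]; exact zero_le
  · intro x
    by_cases hx : x ∈ B
    · rw [indicator_of_mem hx, hC, ← ENNReal.ofReal]
      exact ENNReal.ofReal_le_ofReal ((hCB (mem_image_of_mem _ hx)).trans (le_max_right _ _))
    · rw [indicator_of_notMem hx]; exact zero_le
  · intro x hx
    apply indicator_of_notMem
    intro hx'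
    have := (hRA x hx').trans (le_max_left RA RB)
    linarith
  · intro x hx
    apply indicator_of_notMem
    intro hx'
    have := (hRB x hx').trans (le_max_right RA RB)
    linarith
  · intro x x'
    by_cases hx : x ∈ A
    · by_cases hx' : x' ∈ B
      · obtain ⟨h1, h2⟩ := h x hx x' hx'
        rw [indicator_of_mem hx, indicator_of_mem hx', indicator_of_mem h1,
          ← ENNReal.ofReal_mul (hα0 x hx), ← ENNReal.ofReal_pow (hw0 _ h1)]
        apply ENNReal.ofReal_le_ofReal
        nlinarith [hα0 x hx, hβ0 x' hx', hw0 _ h1, sq_nonneg (α x - β x')]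
      · rw [indicator_of_notMem hx', mul_zero]; exact zero_le
    · rw [indicator_of_notMem hx, zero_mul]; exact zero_le

end Vale.Agent.H10.OT
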