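import Vale.Agent.H10.OTDefs

open MeasureTheory Set Metric
open scoped ENNReal NNReal RealInnerProductSpace

namespace Vale.Agent.H10.OT

set_option linter.unusedSectionVars false
set_option linter.unusedVariables false

variable {V : Type} [NormedAddCommGroup V] [InnerProductSpace ℝ V] [FiniteDimensional ℝ V]
  [MeasurableSpace V] [BorelSpace V]

/-- piecewise translation permuting balls -/
noncomputable def theta {m : ℕ} (c : Fin m → V) (δ : ℝ) (τ : Equiv.Perm (Fin m)) (w : V) : V :=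
  w + ∑ i, (closedBall (c i) δ).indicator (fun _ => c (τ i) - c i) w

lemma theta_meas {m : ℕ} (c : Fin m → V) (δ : ℝ) (τ : Equiv.Perm (Fin m)) :
    Measurable (theta c δ τ) := by
  unfold theta
  refine measurable_id.add (Finset.measurable_sum _ (fun i _ => ?_))
  exact measurable_const.indicator isClosed_closedBall.measurableSet

lemma theta_of_mem {m : ℕ} (c : Fin m → V) (δ : ℝ) (τ : Equiv.Perm (Fin m))
    (hd : Pairwise (Function.onFun Disjoint fun i => closedBall (c i) δ)) {i : Fin m} {w : V}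
    (hw : w ∈ closedBall (c i) δ) : theta c δ τ w = w + (c (τ i) - c i) := by
  unfold theta
  congr 1
  rw [Finset.sum_eq_single i]
  · rw [indicator_of_mem hw]
  · intro j _ hj
    rw [indicator_of_notMem]
    intro h
    exact Set.disjoint_left.1 (hd hj) h hw
  · intro h; exact absurd (Finset.mem_univ _) h

lemma theta_of_notMem {m : ℕ} (c : Fin m → V) (δ : ℝ) (τ : Equiv.Perm (Fin m)) {w : V}
    (hw : ∀ i, w ∉ closedBall (c i) δ) : theta c δ τ w = w := by
  unfold theta
  rw [Finset.sum_eq_zero, add_zero]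
  intro i _
  rw [indicator_of_notMem (hw i)]

lemma decomp {m : ℕ} (P : Fin m → Set V) (hPm : ∀ i, MeasurableSet (P i))
    (hd : Pairwise (Function.onFun Disjoint P)) (μ : Measure V) (A : Set V) :
    μ A = μ (A \ ⋃ i, P i) + ∑ i, μ (A ∩ P i) := by
  rw [← measure_inter_add_sdiff A (MeasurableSet.iUnion hPm), add_comm, inter_iUnion]
  congr 1
  have h1 : μ (⋃ i, A ∩ P i) = ∑' i, μ (A ∩ P i) := by
    have := measure_iUnion₀ (μ := μ.restrict A) (f := P)
      (fun i j hij => (hd hij).aedisjoint) (fun i => (hPm i).nullMeasurableSet)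
    rw [Measure.restrict_apply (MeasurableSet.iUnion hPm)] at this
    rw [← inter_iUnion, inter_comm, this]
    congr 1
    ext i
    rw [Measure.restrict_apply (hPm i), inter_comm]
  rw [h1, tsum_fintype]

lemma theta_map {m : ℕ} (c : Fin m → V) (δ : ℝ) (τ : Equiv.Perm (Fin m))
    (hd : Pairwise (Function.onFun Disjoint fun i => closedBall (c i) δ)) {K : Set V}
    (hK : ∀ i, closedBall (c i) δ ⊆ K) (hKm : MeasurableSet K) :
    ((volume : Measure V).restrict K).map (theta c δ τ) = volume.restrict K := by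
  ext B hB
  rw [Measure.map_apply (theta_meas c δ τ) hB, Measure.restrict_apply (theta_meas c δ τ hB),
    Measure.restrict_apply hB]
  have hPm : ∀ i, MeasurableSet (closedBall (c i) δ) := fun i => isClosed_closedBall.measurableSet
  rw [decomp (fun i => closedBall (c i) δ) hPm hd volume (theta c δ τ ⁻¹' B ∩ K),
    decomp (fun i => closedBall (c i) δ) hPm hd volume (B ∩ K)]
  have e1 : (theta c δ τ ⁻¹' B ∩ K) \ (⋃ i, closedBall (c i) δ)
      = (B ∩ K) \ (⋃ i, closedBall (c i) δ) := by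
    ext w
    simp only [mem_sdiff, mem_inter_iff, mem_preimage, mem_iUnion, not_exists]
    constructor
    · rintro ⟨⟨h1, h2⟩, h3⟩
      rw [theta_of_notMem c δ τ h3] at h1
      exact ⟨⟨h1, h2⟩, h3⟩
    · rintro ⟨⟨h1, h2⟩, h3⟩
      refine ⟨⟨?_, h2⟩, h3⟩
      rw [theta_of_notMem c δ τ h3]; exact h1
  rw [e1]
  congr 1
  have e2 : ∀ i, volume (theta c δ τ ⁻¹' B ∩ K ∩ closedBall (c i) δ)
      = volume (B ∩ K ∩ closedBall (c (τ i)) δ) := by
    intro i
    have : theta c δ τ ⁻¹' B ∩ K ∩ closedBall (c i) δ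
        = (fun w => w + (c (τ i) - c i)) ⁻¹' (B ∩ K ∩ closedBall (c (τ i)) δ) := by
      ext w
      simp only [mem_inter_iff, mem_preimage]
      have hb : w ∈ closedBall (c i) δ ↔ w + (c (τ i) - c i) ∈ closedBall (c (τ i)) δ := by
        simp only [mem_closedBall, dist_eq_norm]
        have : w + (c (τ i) - c i) - c (τ i) = w - c i := by abel
        rw [this]
      constructor
      · rintro ⟨⟨h1, h2⟩, h3⟩
        rw [theta_of_mem c δ τ hd h3] at h1
        exact ⟨⟨h1, hK _ (hb.1 h3)⟩, hb.1 h3⟩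
      · rintro ⟨⟨h1, h2⟩, h3⟩
        refine ⟨⟨?_, hK _ (hb.2 h3)⟩, hb.2 h3⟩
        rw [theta_of_mem c δ τ hd (hb.2 h3)]; exact h1
    rw [this, measure_preimage_add_right]
  rw [Finset.sum_congr rfl (fun i _ => e2 i)]
  exact Equiv.sum_comp τ (fun i => volume (B ∩ K ∩ closedBall (c i) δ))


lemma int_bdd {μ : Measure V} [IsFiniteMeasure μ] {F : Type} [NormedAddCommGroup F] {f : V → F}
    (hf : AEStronglyMeasurable f μ) {C : ℝ} (hC : ∀ᵐ x ∂μ, ‖f x‖ ≤ C) : Integrable f μ :=
  Integrable.of_bound hf C hC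

lemma enorm_sq_eq' (v : V) : ‖v‖ₑ ^ 2 = ENNReal.ofReal (‖v‖ ^ 2) := by
  rw [← ofReal_norm, ENNReal.ofReal_pow (norm_nonneg _)]

/-- Optimality in terms of real integrals of the inner product. -/
lemma opt_inner {K : Set V} (hKc : IsCompact K) (hK0 : volume K ≠ 0) {T S : V → V}
    (hT : Measurable T) (hS : Measurable S) {M : ℝ}
    (hTM : ∀ᵐ x ∂(volume : Measure V).restrict K, ‖T x‖ ≤ M)
    (hmap : ((volume : Measure V).restrict K).map S = ((volume : Measure V).restrict K).map T)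
    (hopt : IsOTMap (unif K) ((unif K).map T) T) :
    ∫ x in K, ⟪x, S x⟫ ≤ ∫ x in K, ⟪x, T x⟫ := by
  set ρ := (volume : Measure V).restrict K with hρ
  have hKfin : volume K ≠ ∞ := hKc.measure_lt_top.ne
  have hfinρ : IsFiniteMeasure ρ := ⟨by rw [hρ, Measure.restrict_apply_univ]; exact hKc.measure_lt_top⟩
  obtain ⟨R, hR⟩ := hKc.isBounded.exists_norm_le
  have hxR : ∀ᵐ x ∂ρ, ‖x‖ ≤ R := by
    filter_upwards [ae_restrict_mem hKc.measurableSet] with x hx using hR x hx
  have hSM : ∀ᵐ x ∂ρ, ‖S x‖ ≤ M := by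
    have h1 : ∀ᵐ y ∂(ρ.map T), ‖y‖ ≤ M := by
      rw [ae_map_iff hT.aemeasurable (measurableSet_le measurable_norm measurable_const)]
      exact hTM
    rw [← hmap, ae_map_iff hS.aemeasurable (measurableSet_le measurable_norm measurable_const)] at h1
    exact h1
  -- lintegral inequality
  have h1 : ∫⁻ x, ‖x - T x‖ₑ ^ 2 ∂ρ ≤ ∫⁻ x, ‖x - S x‖ₑ ^ 2 ∂ρ := by
    have h2 := hopt.2.2 S hS (by unfold unif; rw [Measure.map_smul, Measure.map_smul, hmap])
    unfold unif at h2
    rw [lintegral_smul_measure, lintegral_smul_measure, smul_eq_mul, smul_eq_mul] at h2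
    exact (ENNReal.mul_le_mul_iff_right (ENNReal.inv_ne_zero.2 hKfin)
      (ENNReal.inv_ne_top.2 hK0)).1 h2
  have mx : Measurable (fun x : V => x) := measurable_id
  have iT : Integrable (fun x => ‖x - T x‖ ^ 2) ρ := by
    apply int_bdd (C := (R + M) ^ 2) (by fun_prop)
    filter_upwards [hxR, hTM] with x h1 h2
    rw [Real.norm_eq_abs, abs_of_nonneg (by positivity)]
    have := norm_sub_le x (T x)
    have h3 := norm_nonneg (x - T x)
    nlinarith
  have iS : Integrable (fun x => ‖x - S x‖ ^ 2) ρ := by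
    apply int_bdd (C := (R + M) ^ 2) (by fun_prop)
    filter_upwards [hxR, hSM] with x h1 h2
    rw [Real.norm_eq_abs, abs_of_nonneg (by positivity)]
    have := norm_sub_le x (S x)
    have h3 := norm_nonneg (x - S x)
    nlinarith
  have h3 : ∫ x, ‖x - T x‖ ^ 2 ∂ρ ≤ ∫ x, ‖x - S x‖ ^ 2 ∂ρ := by
    simp_rw [enorm_sq_eq'] at h1
    rw [← ofReal_integral_eq_lintegral_ofReal iT (Filter.Eventually.of_forall (fun x => by positivity)),
      ← ofReal_integral_eq_lintegral_ofReal iS (Filter.Eventually.of_forall (fun x => by positivity)),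
      ENNReal.ofReal_le_ofReal_iff (integral_nonneg (fun x => by positivity))] at h1
    exact h1
  have ix : Integrable (fun x : V => ‖x‖ ^ 2) ρ := by
    apply int_bdd (C := R ^ 2) (by fun_prop)
    filter_upwards [hxR] with x h1
    rw [Real.norm_eq_abs, abs_of_nonneg (by positivity)]
    have h3 := norm_nonneg x
    nlinarith
  have iT2 : Integrable (fun x => ‖T x‖ ^ 2) ρ := by
    apply int_bdd (C := M ^ 2) (by fun_prop)
    filter_upwards [hTM] with x h1
    rw [Real.norm_eq_abs, abs_of_nonneg (by positivity)]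
    have h3 := norm_nonneg (T x)
    nlinarith
  have iS2 : Integrable (fun x => ‖S x‖ ^ 2) ρ := by
    apply int_bdd (C := M ^ 2) (by fun_prop)
    filter_upwards [hSM] with x h1
    rw [Real.norm_eq_abs, abs_of_nonneg (by positivity)]
    have h3 := norm_nonneg (S x)
    nlinarith
  have iTi : Integrable (fun x => ⟪x, T x⟫) ρ := by
    apply int_bdd (C := R * M) (by fun_prop)
    filter_upwards [hxR, hTM] with x h1 h2
    calc ‖⟪x, T x⟫‖ ≤ ‖x‖ * ‖T x‖ := norm_inner_le_norm _ _
      _ ≤ R * M := by gcongr; exact le_trans (norm_nonneg _) h1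
  have iSi : Integrable (fun x => ⟪x, S x⟫) ρ := by
    apply int_bdd (C := R * M) (by fun_prop)
    filter_upwards [hxR, hSM] with x h1 h2
    calc ‖⟪x, S x⟫‖ ≤ ‖x‖ * ‖S x‖ := norm_inner_le_norm _ _
      _ ≤ R * M := by gcongr; exact le_trans (norm_nonneg _) h1
  have e1 : ∫ x, ‖x - T x‖ ^ 2 ∂ρ = ∫ x, ‖x‖ ^ 2 ∂ρ - 2 * ∫ x, ⟪x, T x⟫ ∂ρ + ∫ x, ‖T x‖ ^ 2 ∂ρ := by
    have hh : ∀ x, ‖x - T x‖ ^ 2 = (‖x‖ ^ 2 - 2 * ⟪x, T x⟫) + ‖T x‖ ^ 2 :=
      fun x => norm_sub_sq_real _ _
    simp_rw [hh]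
    have h5 : Integrable (fun x => ‖x‖ ^ 2 - 2 * ⟪x, T x⟫) ρ := ix.sub (iTi.const_mul 2)
    rw [integral_add h5 iT2, integral_sub ix (iTi.const_mul 2), integral_const_mul]
  have e2 : ∫ x, ‖x - S x‖ ^ 2 ∂ρ = ∫ x, ‖x‖ ^ 2 ∂ρ - 2 * ∫ x, ⟪x, S x⟫ ∂ρ + ∫ x, ‖S x‖ ^ 2 ∂ρ := by
    have hh : ∀ x, ‖x - S x‖ ^ 2 = (‖x‖ ^ 2 - 2 * ⟪x, S x⟫) + ‖S x‖ ^ 2 :=
      fun x => norm_sub_sq_real _ _
    simp_rw [hh]
    have h5 : Integrable (fun x => ‖x‖ ^ 2 - 2 * ⟪x, S x⟫) ρ := ix.sub (iSi.const_mul 2)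
    rw [integral_add h5 iS2, integral_sub ix (iSi.const_mul 2), integral_const_mul]
  have e3 : ∫ x, ‖S x‖ ^ 2 ∂ρ = ∫ x, ‖T x‖ ^ 2 ∂ρ := by
    have hm : StronglyMeasurable (fun y : V => ‖y‖ ^ 2) := by
      exact (measurable_norm.pow_const 2).stronglyMeasurable
    rw [← integral_map (f := fun y : V => ‖y‖ ^ 2) hS.aemeasurable hm.aestronglyMeasurable, hmap,
      integral_map hT.aemeasurable hm.aestronglyMeasurable]
  rw [e1, e2, e3] at h3
  linarith

/-- The permutation inequality for an optimal map. -/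
lemma perm_ineq {K : Set V} (hKc : IsCompact K) (hK0 : volume K ≠ 0) {T : V → V}
    (hT : Measurable T) {M : ℝ}
    (hTM : ∀ᵐ x ∂(volume : Measure V).restrict K, ‖T x‖ ≤ M)
    (hopt : IsOTMap (unif K) ((unif K).map T) T)
    {m : ℕ} (c : Fin m → V) (δ : ℝ) (σ : Equiv.Perm (Fin m))
    (hd : Pairwise (Function.onFun Disjoint fun i => closedBall (c i) δ))
    (hK : ∀ i, closedBall (c i) δ ⊆ K) :
    ∑ j, ⟪c (σ j) - c j, ∫ x in closedBall (c j) δ, T x⟫ ≤ 0 := by
  set ρ := (volume : Measure V).restrict K with hρ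
  have hfinρ : IsFiniteMeasure ρ :=
    ⟨by rw [hρ, Measure.restrict_apply_univ]; exact hKc.measure_lt_top⟩
  set τ := σ.symm with hτ
  have hθ := theta_meas c δ τ
  have hmapθ : ρ.map (theta c δ τ) = ρ := theta_map c δ τ hd hK hKc.measurableSet
  have hSm : Measurable (fun x => T (theta c δ τ x)) := hT.comp hθ
  have hmap : ρ.map (fun x => T (theta c δ τ x)) = ρ.map T := by
    have : (fun x => T (theta c δ τ x)) = T ∘ theta c δ τ := rfl
    rw [this, ← Measure.map_map hT hθ, hmapθ]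
  have h1 := opt_inner hKc hK0 hT hSm hTM hmap hopt
  obtain ⟨R, hR⟩ := hKc.isBounded.exists_norm_le
  have hxR : ∀ᵐ x ∂ρ, ‖x‖ ≤ R := by
    filter_upwards [ae_restrict_mem hKc.measurableSet] with x hx using hR x hx
  have hθR : ∀ᵐ x ∂ρ, ‖theta c δ τ x‖ ≤ R := by
    have h1 : ∀ᵐ y ∂(ρ.map (theta c δ τ)), ‖y‖ ≤ R := by rw [hmapθ]; exact hxR
    rwa [ae_map_iff hθ.aemeasurable (measurableSet_le measurable_norm measurable_const)] at h1
  have hTθM : ∀ᵐ x ∂ρ, ‖T (theta c δ τ x)‖ ≤ M := by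
    have h1 : ∀ᵐ y ∂(ρ.map (theta c δ τ)), ‖T y‖ ≤ M := by rw [hmapθ]; exact hTM
    rwa [ae_map_iff hθ.aemeasurable (measurableSet_le hT.norm measurable_const)] at h1
  -- ∫ ⟪θx, T θx⟫ = ∫ ⟪x, T x⟫
  have e1 : ∫ x, ⟪theta c δ τ x, T (theta c δ τ x)⟫ ∂ρ = ∫ x, ⟪x, T x⟫ ∂ρ := by
    have hm : StronglyMeasurable (fun y : V => ⟪y, T y⟫) :=
      (measurable_id.inner hT).stronglyMeasurable
    rw [← integral_map (f := fun y : V => ⟪y, T y⟫) hθ.aemeasurable hm.aestronglyMeasurable,
      hmapθ]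
  have i1 : Integrable (fun x => ⟪x, T (theta c δ τ x)⟫) ρ := by
    apply int_bdd (C := R * M) (measurable_id.inner hSm).aestronglyMeasurable
    filter_upwards [hxR, hTθM] with x h1 h2
    calc ‖⟪x, T (theta c δ τ x)⟫‖ ≤ ‖x‖ * ‖T (theta c δ τ x)‖ := norm_inner_le_norm _ _
      _ ≤ R * M := by gcongr; exact le_trans (norm_nonneg _) h1
  have i2 : Integrable (fun x => ⟪theta c δ τ x, T (theta c δ τ x)⟫) ρ := by
    apply int_bdd (C := R * M) (hθ.inner hSm).aestronglyMeasurable
    filter_upwards [hθR, hTθM] with x h1 h2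
    calc ‖⟪theta c δ τ x, T (theta c δ τ x)⟫‖ ≤ ‖theta c δ τ x‖ * ‖T (theta c δ τ x)‖ :=
          norm_inner_le_norm _ _
      _ ≤ R * M := by gcongr; exact le_trans (norm_nonneg _) h1
  have h2 : 0 ≤ ∫ x, ⟪theta c δ τ x - x, T (theta c δ τ x)⟫ ∂ρ := by
    have : ∀ x, ⟪theta c δ τ x - x, T (theta c δ τ x)⟫
      = ⟪theta c δ τ x, T (theta c δ τ x)⟫ - ⟪x, T (theta c δ τ x)⟫ :=
      fun x => inner_sub_left _ _ _
    simp_rw [this]
    rw [integral_sub i2 i1, e1]
    linarith
  have hPm : ∀ i, MeasurableSet (closedBall (c i) δ) := fun i => isClosed_closedBall.measurableSet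
  have e2 : ∀ x, ⟪theta c δ τ x - x, T (theta c δ τ x)⟫
      = ∑ i, (closedBall (c i) δ).indicator
        (fun x => ⟪c (τ i) - c i, T (x + (c (τ i) - c i))⟫) x := by
    intro x
    by_cases hx : ∃ i, x ∈ closedBall (c i) δ
    · obtain ⟨i, hi⟩ := hx
      rw [Finset.sum_eq_single i, indicator_of_mem hi, theta_of_mem c δ τ hd hi]
      · congr 1; abel
      · intro j _ hj
        rw [indicator_of_notMem]
        intro h
        exact Set.disjoint_left.1 (hd hj) h hi
      · intro h; exact absurd (Finset.mem_univ _) h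
    · push Not at hx
      rw [theta_of_notMem c δ τ hx, sub_self, inner_zero_left, Finset.sum_eq_zero]
      intro i _
      rw [indicator_of_notMem (hx i)]
  -- translated set integrals
  have e3 : ∀ i, ∫ x in closedBall (c i) δ, T (x + (c (τ i) - c i))
      = ∫ x in closedBall (c (τ i)) δ, T x := by
    intro i
    have hmp := measurePreserving_add_right (volume : Measure V) (c (τ i) - c i)
    have hpre : (fun x => x + (c (τ i) - c i)) ⁻¹' (closedBall (c (τ i)) δ)
        = closedBall (c i) δ := by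
      ext w
      simp only [mem_preimage, mem_closedBall, dist_eq_norm]
      have : w + (c (τ i) - c i) - c (τ i) = w - c i := by abel
      rw [this]
    rw [← hmp.setIntegral_preimage_emb (measurableEmbedding_addRight _) T
      (closedBall (c (τ i)) δ), hpre]
  have hTM' : ∀ i, ∀ᵐ x ∂(volume : Measure V).restrict (closedBall (c i) δ), ‖T x‖ ≤ M :=
    fun i => ae_restrict_of_ae_restrict_of_subset (hK i) hTM
  have hTi : ∀ i, IntegrableOn T (closedBall (c i) δ) := by
    intro i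
    have : IsFiniteMeasure ((volume : Measure V).restrict (closedBall (c i) δ)) :=
      ⟨by rw [Measure.restrict_apply_univ]; exact measure_closedBall_lt_top⟩
    exact int_bdd hT.aestronglyMeasurable (hTM' i)
  have hTsi : ∀ i, IntegrableOn (fun x => T (x + (c (τ i) - c i))) (closedBall (c i) δ) := by
    intro i
    have hmp := measurePreserving_add_right (volume : Measure V) (c (τ i) - c i)
    have hpre : (fun x => x + (c (τ i) - c i)) ⁻¹' (closedBall (c (τ i)) δ)
        = closedBall (c i) δ := by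
      ext w
      simp only [mem_preimage, mem_closedBall, dist_eq_norm]
      have : w + (c (τ i) - c i) - c (τ i) = w - c i := by abel
      rw [this]
    have := (hmp.integrableOn_comp_preimage (measurableEmbedding_addRight _)
      (f := T) (s := closedBall (c (τ i)) δ)).2 (hTi (τ i))
    rw [hpre] at this
    exact this
  have e4 : ∫ x, ⟪theta c δ τ x - x, T (theta c δ τ x)⟫ ∂ρ
      = ∑ i, ⟪c (τ i) - c i, ∫ x in closedBall (c (τ i)) δ, T x⟫ := by
    simp_rw [e2]
    rw [integral_finsetSum]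
    · apply Finset.sum_congr rfl
      intro i _
      rw [integral_indicator (hPm i), hρ, Measure.restrict_restrict (hPm i),
        inter_eq_self_of_subset_left (hK i), ← e3 i]
      rw [← integral_inner (hTsi i)]
    · intro i _
      rw [integrable_indicator_iff (hPm i), IntegrableOn, hρ, Measure.restrict_restrict (hPm i),
        inter_eq_self_of_subset_left (hK i)]
      exact (hTsi i).const_inner _
  rw [e4] at h2
  have e5 : ∑ i, ⟪c (τ i) - c i, ∫ x in closedBall (c (τ i)) δ, T x⟫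
      = ∑ j, ⟪c j - c (σ j), ∫ x in closedBall (c j) δ, T x⟫ := by
    rw [← Equiv.sum_comp σ (fun i => ⟪c (τ i) - c i, ∫ x in closedBall (c (τ i)) δ, T x⟫)]
    apply Finset.sum_congr rfl
    intro j _
    simp [hτ]
  rw [e5] at h2
  have e6 : ∑ j, ⟪c (σ j) - c j, ∫ x in closedBall (c j) δ, T x⟫
      = - ∑ j, ⟪c j - c (σ j), ∫ x in closedBall (c j) δ, T x⟫ := by
    rw [← Finset.sum_neg_distrib]
    apply Finset.sum_congr rfl
    intro j _
    rw [← inner_neg_left]; congr 1; abel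
  rw [e6]; linarith

end Vale.Agent.H10.OT
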