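import Vale.Agent.H10.OTCyc

open MeasureTheory Set Metric Filter
open scoped ENNReal NNReal RealInnerProductSpace Topology

namespace Vale.Agent.H10.OT

set_option linter.unusedSectionVars false
set_option linter.unusedVariables false

variable {V : Type} [NormedAddCommGroup V] [InnerProductSpace ℝ V]

/-- chain value -/
noncomputable def chainVal (T : V → V) (n : ℕ) (x : ℕ → V) (y : V) : ℝ :=
  ⟪y - T (x n), x n⟫ + ∑ i ∈ Finset.range n, ⟪T (x (i + 1)) - T (x i), x i⟫

/-- Rockafellar: a permutation-monotone map on `G` with `‖x‖ ≤ R` on `G` has an `R`-Lipschitz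
potential `a` with `x ∈ ∂a(T x)`. -/
lemma rockafellar {T : V → V} {G : Set V} {R : ℝ} (hR : ∀ x ∈ G, ‖x‖ ≤ R) (x0 : V) (hx0 : x0 ∈ G)
    (hcyc : ∀ (m : ℕ) (σ : Equiv.Perm (Fin m)) (x : Fin m → V), (∀ i, x i ∈ G) →
      ∑ j, ⟪x (σ j) - x j, T (x j)⟫ ≤ 0) :
    ∃ a : V → ℝ, (∀ y z, |a y - a z| ≤ R * ‖y - z‖) ∧
      ∀ x ∈ G, ∀ y, a (T x) + ⟪y - T x, x⟫ ≤ a y := by
  -- closed chains are nonpositive
  have hclosed : ∀ (n : ℕ) (x : ℕ → V), x 0 = x0 → (∀ i, x i ∈ G) → chainVal T n x (T x0) ≤ 0 := by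
    intro n x h0 hG
    have h1 := hcyc (n + 1) (finRotate (n + 1)).symm (fun i => x i) (fun i => hG i)
    have h2 : ∑ j : Fin (n + 1), ⟪x ((finRotate (n + 1)).symm j : Fin (n+1)) - x j, T (x j)⟫
        = ∑ j : Fin (n + 1), ⟪T (x ((finRotate (n + 1)) j : Fin (n+1))) - T (x j), x j⟫ := by
      simp only [inner_sub_left, Finset.sum_sub_distrib]
      congr 1
      · rw [← Equiv.sum_comp (finRotate (n + 1))
          (fun j => ⟪x ((finRotate (n + 1)).symm j : Fin (n+1)), T (x j)⟫)]
        apply Finset.sum_congr rfl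
        intro j _
        rw [Equiv.symm_apply_apply, real_inner_comm]
      · apply Finset.sum_congr rfl
        intro j _
        rw [real_inner_comm]
    rw [h2, Fin.sum_univ_castSucc] at h1
    have h3 : ∀ i : Fin n, (finRotate (n + 1)) (Fin.castSucc i) = i.succ := by
      intro i
      rw [finRotate_apply, Fin.coeSucc_eq_succ]
    have h4 : (finRotate (n + 1)) (Fin.last n) = 0 := by
      rw [finRotate_apply, Fin.last_add_one]
    simp only [h3, h4, Fin.val_zero, Fin.val_last, Fin.val_castSucc, Fin.val_succ, h0] at h1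
    unfold chainVal
    rw [Finset.sum_range]
    linarith
  set ι := {p : ℕ × (ℕ → V) // p.2 0 = x0 ∧ ∀ i, p.2 i ∈ G} with hι
  have hne : Nonempty ι := ⟨⟨(0, fun _ => x0), rfl, fun _ => hx0⟩⟩
  have hshift : ∀ (n : ℕ) (x : ℕ → V) (y z : V),
      chainVal T n x y = chainVal T n x z + ⟪y - z, x n⟫ := by
    intro n x y z
    unfold chainVal
    have : ⟪y - T (x n), x n⟫ = ⟪z - T (x n), x n⟫ + ⟪y - z, x n⟫ := by
      rw [← inner_add_left]; congr 1; abel
    rw [this]; ring
  have hinner : ∀ (p : ι) (v : V), ⟪v, p.1.2 p.1.1⟫ ≤ R * ‖v‖ := by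
    intro p v
    calc ⟪v, p.1.2 p.1.1⟫ ≤ ‖v‖ * ‖p.1.2 p.1.1‖ := real_inner_le_norm _ _
      _ ≤ ‖v‖ * R := by gcongr; exact hR _ (p.2.2 _)
      _ = R * ‖v‖ := by ring
  have hbdd : ∀ y, BddAbove (range (fun p : ι => chainVal T p.1.1 p.1.2 y)) := by
    intro y
    refine ⟨R * ‖y - T x0‖, ?_⟩
    rintro _ ⟨p, rfl⟩
    show chainVal T p.1.1 p.1.2 y ≤ _
    rw [hshift _ _ y (T x0)]
    have h1 := hclosed p.1.1 p.1.2 p.2.1 p.2.2
    have h2 := hinner p (y - T x0)
    linarith
  refine ⟨fun y => ⨆ p : ι, chainVal T p.1.1 p.1.2 y, ?_, ?_⟩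
  · have hle : ∀ y z, (⨆ p : ι, chainVal T p.1.1 p.1.2 y) - (⨆ p : ι, chainVal T p.1.1 p.1.2 z)
        ≤ R * ‖y - z‖ := by
      intro y z
      rw [sub_le_iff_le_add]
      apply ciSup_le
      intro p
      rw [hshift _ _ y z]
      have h2 := hinner p (y - z)
      have h3 := le_ciSup (hbdd z) p
      linarith
    intro y z
    rw [abs_le]
    constructor
    · have := hle z y
      rw [norm_sub_rev] at this
      linarith
    · exact hle y z
  · intro q hq y
    rw [← le_sub_iff_add_le]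
    apply ciSup_le
    intro p
    rw [le_sub_iff_add_le]
    -- extend the chain
    set n := p.1.1 with hn
    set x := p.1.2 with hx
    set x' : ℕ → V := fun i => if i ≤ n then x i else q with hx'
    have hp' : x' 0 = x0 ∧ ∀ i, x' i ∈ G := by
      constructor
      · simp only [hx', Nat.zero_le, if_true]; exact p.2.1
      · intro i
        simp only [hx']
        split_ifs
        · exact p.2.2 i
        · exact hq
    have h1 := le_ciSup (hbdd y) (⟨(n + 1, x'), hp'⟩ : ι)
    refine le_trans (le_of_eq ?_) h1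
    show chainVal T n x (T q) + ⟪y - T q, q⟫ = chainVal T (n + 1) x' y
    unfold chainVal
    rw [Finset.sum_range_succ]
    have e1 : x' (n + 1) = q := by simp [hx']
    have e2 : x' n = x n := by simp [hx']
    have e3 : ∑ i ∈ Finset.range n, ⟪T (x' (i + 1)) - T (x' i), x' i⟫
        = ∑ i ∈ Finset.range n, ⟪T (x (i + 1)) - T (x i), x i⟫ := by
      apply Finset.sum_congr rfl
      intro i hi
      rw [Finset.mem_range] at hi
      have e4 : x' (i + 1) = x (i + 1) := by
        simp only [hx']; rw [if_pos (by omega)]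
      have e5 : x' i = x i := by
        simp only [hx']; rw [if_pos (by omega)]
      rw [e4, e5]
    rw [e1, e2, e3]
    ring

end Vale.Agent.H10.OT
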