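import Vale.Agent.H10.OTRock

open MeasureTheory Set Metric Filter
open scoped ENNReal NNReal RealInnerProductSpace Topology

namespace Vale.Agent.H10.OT

set_option linter.unusedSectionVars false
set_option linter.unusedVariables false

variable {V : Type} [NormedAddCommGroup V] [InnerProductSpace ℝ V] [FiniteDimensional ℝ V]
  [MeasurableSpace V] [BorelSpace V]

/-- shifting a convex body by `v` removes at most volume `κ ‖v‖`. -/
lemma shift_vol {K : Set V} (hKc : IsCompact K) (hKconv : Convex ℝ K)
    (hKi : (interior K).Nonempty) :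
    ∃ κ : ℝ, 0 ≤ κ ∧ ∀ v : V, (volume : Measure V).real (K \ {x | x + v ∈ K}) ≤ κ * ‖v‖ := by
  obtain ⟨x0, hx0⟩ := hKi
  obtain ⟨r0, hr0, hr0K⟩ := Metric.isOpen_iff.1 isOpen_interior _ hx0
  set r := r0 / 2 with hr
  have hrpos : 0 < r := by positivity
  have hrK : ∀ w : V, ‖w‖ ≤ r → x0 + w ∈ K := by
    intro w hw
    apply interior_subset
    apply hr0K
    rw [mem_ball, dist_eq_norm, add_sub_cancel_left]
    linarith
  set d := Module.finrank ℝ V with hd
  set vK := (volume : Measure V).real K with hvK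
  have hKfin : volume K ≠ ∞ := hKc.measure_lt_top.ne
  refine ⟨vK * (d + 1) / r, by positivity, ?_⟩
  intro v
  set t := ‖v‖ / r with ht
  have ht0 : 0 ≤ t := by positivity
  have hmeas : MeasurableSet {x | x + v ∈ K} :=
    (measurable_id.add_const v) hKc.measurableSet
  have htriv : (volume : Measure V).real (K \ {x | x + v ∈ K}) ≤ vK :=
    measureReal_mono sdiff_subset hKfin
  have hgoal : vK * (d + 1) / r * ‖v‖ = vK * (d + 1) * t := by rw [ht]; ring
  rw [hgoal]
  rcases le_or_gt t 1 with h1 | h1
  · -- homothety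
    have hsub : AffineMap.homothety x0 (1 - t) '' K ⊆ K ∩ {x | x + v ∈ K} := by
      rintro _ ⟨y, hy, rfl⟩
      rw [AffineMap.homothety_apply]
      simp only [vsub_eq_sub, vadd_eq_add]
      constructor
      · have := hKconv hy (interior_subset hx0) (by linarith : 0 ≤ 1 - t) ht0 (by ring)
        convert this using 1
        rw [smul_sub, sub_smul, sub_smul, one_smul, one_smul]; abel
      · show (1 - t) • (y - x0) + x0 + v ∈ K
        rcases eq_or_lt_of_le ht0 with h0 | h0
        · have hv : v = 0 := by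
            have : ‖v‖ = 0 := by
              have : ‖v‖ = t * r := by rw [ht]; field_simp
              rw [this, ← h0, zero_mul]
            exact norm_eq_zero.1 this
          rw [← h0, hv]; simpa using hy
        · have h2 : x0 + t⁻¹ • v ∈ K := by
            apply hrK
            rw [norm_smul, Real.norm_eq_abs, abs_of_pos (inv_pos.2 h0), ht]
            rcases eq_or_ne ‖v‖ 0 with h3 | h3
            · rw [h3]; simp [hrpos.le]
            · field_simp; exact le_refl _
          have := hKconv hy h2 (by linarith : 0 ≤ 1 - t) ht0 (by ring)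
          convert this using 1
          rw [smul_sub, sub_smul, sub_smul, one_smul, one_smul, smul_add, smul_smul,
            mul_inv_cancel₀ h0.ne', one_smul]
          abel
    have h2 : (volume : Measure V).real (AffineMap.homothety x0 (1 - t) '' K) = (1 - t) ^ d * vK := by
      unfold Measure.real
      rw [Measure.addHaar_image_homothety, ENNReal.toReal_mul, ENNReal.toReal_ofReal (abs_nonneg _),
        abs_of_nonneg (pow_nonneg (by linarith) _)]
      rfl
    have h3 : (volume : Measure V).real (K \ {x | x + v ∈ K})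
        + (volume : Measure V).real (K ∩ {x | x + v ∈ K}) = vK := by
      rw [add_comm]
      exact measureReal_inter_add_sdiff hmeas hKfin
    have h4 : (1 - t) ^ d * vK ≤ (volume : Measure V).real (K ∩ {x | x + v ∈ K}) := by
      rw [← h2]
      exact measureReal_mono hsub (measure_ne_top_of_subset inter_subset_left hKfin)
    have h5 : 1 + (d : ℝ) * (-t) ≤ (1 + (-t)) ^ d := one_add_mul_le_pow (by linarith) d
    have h6 : (1 - (d:ℝ) * t) * vK ≤ (1 - t) ^ d * vK := by
      apply mul_le_mul_of_nonneg_right _ measureReal_nonneg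
      have : (1 + (-t)) = 1 - t := by ring
      rw [this] at h5
      linarith
    have h7 : 0 ≤ vK * t := mul_nonneg measureReal_nonneg ht0
    nlinarith
  · refine htriv.trans ?_
    have h7 : 0 ≤ vK := measureReal_nonneg
    have h8 : 0 ≤ (d:ℝ) := Nat.cast_nonneg d
    have h9 : 1 ≤ ((d:ℝ) + 1) * t := by nlinarith
    nlinarith


lemma dplus {K : Set V} (hKc : IsCompact K) {κ : ℝ} (hκ0 : 0 ≤ κ)
    (hκ : ∀ v : V, (volume : Measure V).real (K \ {x | x + v ∈ K}) ≤ κ * ‖v‖)
    {T S : V → V} (hT : Measurable T) (hS : Measurable S) {M : ℝ} (hM : 0 ≤ M)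
    (hTM : ∀ᵐ x ∂(volume : Measure V).restrict K, ‖T x‖ ≤ M)
    (hSM : ∀ᵐ x ∂(volume : Measure V).restrict K, ‖S x‖ ≤ M)
    {χ : V → ℝ} (hχ : Continuous χ)
    {G : Set V} (hG : ∀ᵐ x ∂(volume : Measure V).restrict K, x ∈ G)
    (hgap : ∀ x ∈ G, ∀ x' ∈ G, ⟪S x - T x', x' - x⟫ ≤ χ (T x) - χ (S x))
    (hmono : ∀ x ∈ G, ∀ x' ∈ G, 0 ≤ ⟪T x' - T x, x' - x⟫)
    (hgi : IntegrableOn (fun x => χ (T x) - χ (S x)) K)
    {e : V} (he : ‖e‖ = 1) {h : ℝ} (hh : 0 < h) :
    ∫ x in K, max 0 ⟪e, S x - T x⟫ ≤ (∫ x in K, (χ (T x) - χ (S x))) / h + 4 * M * κ * h := by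
  have hKm := hKc.measurableSet
  have hKfin : volume K ≠ ∞ := hKc.measure_lt_top.ne
  set v : V := h • e with hv
  have hvn : ‖v‖ = h := by rw [hv, norm_smul, he, mul_one, Real.norm_eq_abs, abs_of_pos hh]
  set A : Set V := {x | x + v ∈ K} with hA
  set B : Set V := {x | x + (-v) ∈ K} with hB
  have hAm : MeasurableSet A := (measurable_id.add_const v) hKm
  have hBm : MeasurableSet B := (measurable_id.add_const (-v)) hKm
  have hvA : (volume : Measure V).real (K \ A) ≤ κ * h := by rw [← hvn]; exact hκ v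
  have hvB : (volume : Measure V).real (K \ B) ≤ κ * h := by
    have := hκ (-v); rw [norm_neg, hvn] at this; exact this
  have hfinK : IsFiniteMeasure ((volume : Measure V).restrict K) :=
    ⟨by rw [Measure.restrict_apply_univ]; exact hKc.measure_lt_top⟩
  set f : V → ℝ := fun x => ⟪e, T x⟫ with hf
  have hfm : Measurable f := measurable_const.inner hT
  have hfM : ∀ᵐ x ∂(volume : Measure V).restrict K, ‖f x‖ ≤ M := by
    filter_upwards [hTM] with x hx
    calc ‖f x‖ ≤ ‖e‖ * ‖T x‖ := norm_inner_le_norm _ _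
      _ ≤ M := by rw [he, one_mul]; exact hx
  have hfi : IntegrableOn f K := int_bdd hfm.aestronglyMeasurable hfM
  set u : V → ℝ := fun x => max 0 ⟪e, S x - T x⟫ with hu
  have hum : Measurable u := measurable_const.max (measurable_const.inner (hS.sub hT))
  have huM : ∀ᵐ x ∂(volume : Measure V).restrict K, ‖u x‖ ≤ 2 * M := by
    filter_upwards [hTM, hSM] with x h1 h2
    rw [Real.norm_eq_abs, abs_of_nonneg (le_max_left _ _)]
    apply max_le (by linarith)
    calc ⟪e, S x - T x⟫ ≤ ‖e‖ * ‖S x - T x‖ := real_inner_le_norm _ _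
      _ ≤ 1 * (‖S x‖ + ‖T x‖) := by rw [he]; gcongr; exact norm_sub_le _ _
      _ ≤ 2 * M := by linarith
  have hui : IntegrableOn u K := int_bdd hum.aestronglyMeasurable huM
  -- translation facts
  have hmp := measurePreserving_add_right (volume : Measure V) v
  have hpre : (fun x => x + v) ⁻¹' (K ∩ B) = K ∩ A := by
    ext x
    simp only [mem_preimage, mem_inter_iff, hA, hB, mem_ofPred_eq, add_neg_cancel_right]
    tauto
  have hshift : ∫ x in K ∩ A, f (x + v) = ∫ x in K ∩ B, f x := by
    rw [← hmp.setIntegral_preimage_emb (measurableEmbedding_addRight _) f (K ∩ B), hpre]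
  have hshifti : IntegrableOn (fun x => f (x + v)) (K ∩ A) := by
    have := (hmp.integrableOn_comp_preimage (measurableEmbedding_addRight _)
      (f := f) (s := K ∩ B)).2 (hfi.mono_set inter_subset_left)
    rw [hpre] at this
    exact this
  -- pointwise bound on K ∩ A
  have hGK : ∀ᵐ x ∂(volume : Measure V), x ∈ K → x ∈ G := (ae_restrict_iff' hKm).1 hG
  have hGK' : ∀ᵐ x ∂(volume : Measure V), x + v ∈ K → x + v ∈ G :=
    hmp.quasiMeasurePreserving.ae hGK
  have hpt : ∀ᵐ x ∂(volume : Measure V).restrict (K ∩ A),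
      u x ≤ (χ (T x) - χ (S x)) / h + (f (x + v) - f x) := by
    rw [ae_restrict_iff' (hKm.inter hAm)]
    filter_upwards [hGK, hGK'] with x h1 h2 hx
    have hxG := h1 hx.1
    have hxG' := h2 hx.2
    have g1 := hgap x hxG (x + v) hxG'
    have g0 := hgap x hxG x hxG
    have g2 := hmono x hxG (x + v) hxG'
    rw [sub_self, inner_zero_right] at g0
    rw [add_sub_cancel_left, hv, inner_smul_right] at g1 g2
    have g3 : 0 ≤ f (x + v) - f x := by
      simp only [hf]
      rw [← inner_sub_right, real_inner_comm]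
      rw [hv]
      exact nonneg_of_mul_nonneg_right g2 hh
    have g4 : ⟪e, S x - T (x + v)⟫ ≤ (χ (T x) - χ (S x)) / h := by
      rw [le_div_iff₀ hh, mul_comm, real_inner_comm, hv]; exact g1
    have g5 : ⟪e, S x - T x⟫ = ⟪e, S x - T (x + v)⟫ + (f (x + v) - f x) := by
      simp only [hf]
      rw [← inner_sub_right, ← inner_add_right]; congr 1; abel
    apply max_le
    · have : 0 ≤ (χ (T x) - χ (S x)) / h := div_nonneg g0 hh.le
      linarith
    · rw [g5]; linarith
  -- integrate
  have hsubA : K ∩ A ⊆ K := inter_subset_left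
  have i1 : ∫ x in K ∩ A, u x ≤ (∫ x in K ∩ A, (χ (T x) - χ (S x))) / h
      + ((∫ x in K ∩ B, f x) - (∫ x in K ∩ A, f x)) := by
    have h1 := integral_mono_ae (hui.mono_set hsubA)
      (((hgi.mono_set hsubA).div_const h).add (hshifti.sub (hfi.mono_set hsubA))) hpt
    refine h1.trans (le_of_eq ?_)
    rw [integral_add' ((hgi.mono_set hsubA).div_const h) (hshifti.sub (hfi.mono_set hsubA)),
      integral_sub' hshifti (hfi.mono_set hsubA), integral_div, hshift]
  have i2 : ∫ x in K ∩ A, (χ (T x) - χ (S x)) ≤ ∫ x in K, (χ (T x) - χ (S x)) := by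
    apply setIntegral_mono_set hgi
    · filter_upwards [hG] with x hx
      have g0 := hgap x hx x hx
      rw [sub_self, inner_zero_right] at g0
      exact g0
    · exact (Eventually.of_forall (fun x hx => hx.1))
  have i3 : ∫ x in K, f x = (∫ x in K ∩ A, f x) + (∫ x in K \ A, f x) :=
    (integral_inter_add_sdiff hAm hfi).symm
  have i4 : ∫ x in K, f x = (∫ x in K ∩ B, f x) + (∫ x in K \ B, f x) :=
    (integral_inter_add_sdiff hBm hfi).symm
  have i5 : ∫ x in K, u x = (∫ x in K ∩ A, u x) + (∫ x in K \ A, u x) :=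
    (integral_inter_add_sdiff hAm hui).symm
  have b1 : ‖∫ x in K \ A, f x‖ ≤ M * (volume : Measure V).real (K \ A) := by
    apply norm_setIntegral_le_of_norm_le_const_ae
    · exact (measure_ne_top_of_subset sdiff_subset hKfin).lt_top
    · exact ae_restrict_of_ae_restrict_of_subset sdiff_subset hfM
  have b2 : ‖∫ x in K \ B, f x‖ ≤ M * (volume : Measure V).real (K \ B) := by
    apply norm_setIntegral_le_of_norm_le_const_ae
    · exact (measure_ne_top_of_subset sdiff_subset hKfin).lt_top
    · exact ae_restrict_of_ae_restrict_of_subset sdiff_subset hfM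
  have b3 : ‖∫ x in K \ A, u x‖ ≤ (2 * M) * (volume : Measure V).real (K \ A) := by
    apply norm_setIntegral_le_of_norm_le_const_ae
    · exact (measure_ne_top_of_subset sdiff_subset hKfin).lt_top
    · exact ae_restrict_of_ae_restrict_of_subset sdiff_subset huM
  rw [Real.norm_eq_abs] at b1 b2 b3
  have c1 := (abs_le.1 b1).2
  have c2 := (abs_le.1 b2).1
  have c3 := (abs_le.1 b3).2
  have j1 : (∫ x in K ∩ A, (χ (T x) - χ (S x))) / h ≤ (∫ x in K, (χ (T x) - χ (S x))) / h := by
    gcongr
  have k1 : M * (volume : Measure V).real (K \ A) ≤ M * (κ * h) := by gcongr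
  have k2 : M * (volume : Measure V).real (K \ B) ≤ M * (κ * h) := by gcongr
  have k3 : 2 * M * (volume : Measure V).real (K \ A) ≤ 2 * M * (κ * h) := by gcongr
  rw [i5]
  nlinarith

end Vale.Agent.H10.OT
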