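import Mathlib

open Set Filter Topology

namespace Vale.Agent.H10.OT

/-- mesh refinement: the difference of two convex-like functions with close slopes -/
lemma tele {G : Set ℝ} (hG : (Icc (0:ℝ) 1 \ G).Finite) (h0 : (0:ℝ) ∈ G) (h1 : (1:ℝ) ∈ G)
    {c0 c1 s0 s1 : ℝ → ℝ} {B : ℝ}
    (hc0 : ∀ s ∈ G, ∀ t ∈ G, s ∈ Icc (0:ℝ) 1 → t ∈ Icc (0:ℝ) 1 → (s - t) * s0 t ≤ c0 s - c0 t)
    (hc1 : ∀ s ∈ G, ∀ t ∈ G, s ∈ Icc (0:ℝ) 1 → t ∈ Icc (0:ℝ) 1 → (s - t) * s1 t ≤ c1 s - c1 t)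
    (hB : ∀ t ∈ G, t ∈ Icc (0:ℝ) 1 → s1 t - s0 t ≤ B) :
    (c1 1 - c0 1) - (c1 0 - c0 0) ≤ B := by
  have hP : ∀ k : ℕ, ∀ s ∈ G, ∀ t ∈ G, s ∈ Icc (0:ℝ) 1 → t ∈ Icc (0:ℝ) 1 → s < t →
      (c1 t - c0 t - B * t) - (c1 s - c0 s - B * s) ≤ (2 / 3) ^ k * ((t - s) * (s0 t - s0 s)) := by
    intro k
    induction k with
    | zero =>
      intro s hs t ht hsI htI hst
      have e1 := hc1 s hs t ht hsI htI
      have e2 := hc0 t ht s hs htI hsI
      have e3 := hB t ht htI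
      rw [pow_zero, one_mul]
      nlinarith
    | succ k ih =>
      intro s hs t ht hsI htI hst
      have hmono : ∀ p ∈ G, ∀ q ∈ G, p ∈ Icc (0:ℝ) 1 → q ∈ Icc (0:ℝ) 1 → p < q → s0 p ≤ s0 q := by
        intro p hp q hq hpI hqI hpq
        have e1 := hc0 p hp q hq hpI hqI
        have e2 := hc0 q hq p hp hqI hpI
        nlinarith
      obtain ⟨u, hu, huG⟩ : ∃ u ∈ Ioo (s + (t - s) / 3) (t - (t - s) / 3), u ∈ G := by
        have hinf : (Ioo (s + (t - s) / 3) (t - (t - s) / 3)).Infinite :=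
          Ioo_infinite (by linarith)
        obtain ⟨u, hu, hu'⟩ := (hinf.sdiff hG).nonempty
        refine ⟨u, hu, ?_⟩
        by_contra hcon
        exact hu' ⟨⟨by linarith [hu.1, hsI.1], by linarith [hu.2, htI.2]⟩, hcon⟩
      have huI : u ∈ Icc (0:ℝ) 1 := ⟨by linarith [hu.1, hsI.1], by linarith [hu.2, htI.2]⟩
      have hsu : s < u := by linarith [hu.1]
      have hut : u < t := by linarith [hu.2]
      have i1 := ih s hs u huG hsI huI hsu
      have i2 := ih u huG t ht huI htI hut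
      have m1 := hmono s hs u huG hsI huI hsu
      have m2 := hmono u huG t ht huI htI hut
      have hk : (0:ℝ) ≤ (2 / 3) ^ k := by positivity
      have j1 : (u - s) * (s0 u - s0 s) ≤ 2 / 3 * (t - s) * (s0 u - s0 s) :=
        mul_le_mul_of_nonneg_right (by linarith [hu.2]) (by linarith)
      have j2 : (t - u) * (s0 t - s0 u) ≤ 2 / 3 * (t - s) * (s0 t - s0 u) :=
        mul_le_mul_of_nonneg_right (by linarith [hu.1]) (by linarith)
      have j3 := mul_le_mul_of_nonneg_left (add_le_add j1 j2) hk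
      rw [pow_succ]
      nlinarith
  have hlim : Tendsto (fun k : ℕ => (2 / 3 : ℝ) ^ k * ((1 - 0) * (s0 1 - s0 0))) atTop (𝓝 0) := by
    have := (tendsto_pow_atTop_nhds_zero_of_lt_one (by norm_num : (0:ℝ) ≤ 2 / 3)
      (by norm_num)).mul_const ((1 - 0) * (s0 1 - s0 0))
    simpa using this
  have := ge_of_tendsto' hlim (fun k => hP k 0 h0 1 h1 (by simp) (by simp) one_pos)
  linarith

end Vale.Agent.H10.OT
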