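import Vale.Agent.H10.OTCells
import Vale.Agent.H10.OTBarySum
import Vale.Agent.H10.OTTele

open MeasureTheory Set Metric
open scoped ENNReal NNReal RealInnerProductSpace

namespace Vale.Agent.H10.OT

set_option linter.unusedSectionVars false
set_option linter.unusedVariables false

variable {V : Type} [NormedAddCommGroup V] [InnerProductSpace ℝ V] [FiniteDimensional ℝ V]
  [MeasurableSpace V] [BorelSpace V]

variable {ι : Type} [Fintype ι] [Nonempty ι] {K : Set V} {f : V → ℝ}

/-- correlation of the sites `y'` along the cells of `(y, ψ)` -/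
noncomputable def tval (K : Set V) (y : ι → V) (ψ : ι → ℝ) (f : V → ℝ) (y' : ι → V) : ℝ :=
  ∑ i, ∫ x in cell K y ψ i, f x * ⟪x, y' i⟫

lemma cell_compact (hK : IsCompact K) (y : ι → V) (ψ : ι → ℝ) (i : ι) :
    IsCompact (cell K y ψ i) :=
  hK.of_isClosed_subset (cell_isClosed hK.isClosed y ψ i) cell_subset

lemma cell_meas (hK : IsCompact K) (y : ι → V) (ψ : ι → ℝ) (i : ι) :
    MeasurableSet (cell K y ψ i) := (cell_compact hK y ψ i).measurableSet

/-- weak duality -/
lemma tval_le (hK : IsCompact K) (hf : Measurable f) (hf0 : ∀ x, 0 ≤ f x) (hf2 : ∀ x, f x ≤ 2)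
    {y : ι → V} (hy : Function.Injective y) {ψ : ι → ℝ} {a : ι → ℝ}
    (hm : ∀ i, ∫ x in cell K y ψ i, f x = a i) (y' : ι → V) (ψ' : ι → ℝ) :
    tval K y ψ f y' ≤ (∫ x in K, f x * Phi y' ψ' x) + ∑ i, a i * ψ' i := by
  have hcK := cell_compact hK y ψ
  have h1 : ∀ i, ∫ x in cell K y ψ i, f x * ⟪x, y' i⟫ ≤
      (∫ x in cell K y ψ i, f x * Phi y' ψ' x) + a i * ψ' i := by
    intro i
    rw [← hm i, ← integral_mul_const, ← integral_add]
    · apply setIntegral_mono_on
      · exact integrable_mul_of_continuous (hcK i) hf hf0 hf2 (by fun_prop)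
      · exact (integrable_mul_of_continuous (hcK i) hf hf0 hf2 (continuous_Phi y' ψ')).add
          ((integrableOn_f (hcK i) hf hf0 hf2).mul_const _)
      · exact cell_meas hK y ψ i
      · intro x _
        have h2 := aff_le_Phi y' ψ' x i
        unfold aff at h2
        have h3 := mul_le_mul_of_nonneg_left h2 (hf0 x)
        nlinarith
    · exact integrable_mul_of_continuous (hcK i) hf hf0 hf2 (continuous_Phi y' ψ')
    · exact (integrableOn_f (hcK i) hf hf0 hf2).mul_const _
  unfold tval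
  refine (Finset.sum_le_sum fun i _ => h1 i).trans ?_
  rw [Finset.sum_add_distrib, sum_cells hK hy ψ
    (integrable_mul_of_continuous hK hf hf0 hf2 (continuous_Phi y' ψ'))]

/-- duality with equality -/
lemma tval_eq (hK : IsCompact K) (hf : Measurable f) (hf0 : ∀ x, 0 ≤ f x) (hf2 : ∀ x, f x ≤ 2)
    {y : ι → V} (hy : Function.Injective y) {ψ : ι → ℝ} {a : ι → ℝ}
    (hm : ∀ i, ∫ x in cell K y ψ i, f x = a i) :
    tval K y ψ f y = (∫ x in K, f x * Phi y ψ x) + ∑ i, a i * ψ i := by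
  have hcK := cell_compact hK y ψ
  have h1 : ∀ i, ∫ x in cell K y ψ i, f x * ⟪x, y i⟫ =
      (∫ x in cell K y ψ i, f x * Phi y ψ x) + a i * ψ i := by
    intro i
    rw [← hm i, ← integral_mul_const, ← integral_add]
    · apply setIntegral_congr_fun (cell_meas hK y ψ i)
      intro x hx
      have h2 : Phi y ψ x = ⟪x, y i⟫ - ψ i :=
        le_antisymm (Phi_le fun j => hx.2 j) (aff_le_Phi y ψ x i)
      simp only [h2]
      ring
    · exact integrable_mul_of_continuous (hcK i) hf hf0 hf2 (continuous_Phi y ψ)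
    · exact (integrableOn_f (hcK i) hf hf0 hf2).mul_const _
  unfold tval
  rw [Finset.sum_congr rfl fun i _ => h1 i, Finset.sum_add_distrib, sum_cells hK hy ψ
    (integrable_mul_of_continuous hK hf hf0 hf2 (continuous_Phi y ψ))]

/-- optimality among cells -/
lemma tval_le_tval (hK : IsCompact K) (hf : Measurable f) (hf0 : ∀ x, 0 ≤ f x)
    (hf2 : ∀ x, f x ≤ 2) {y y' : ι → V} (hy : Function.Injective y)
    (hy' : Function.Injective y') {ψ ψ' : ι → ℝ} {a : ι → ℝ}
    (hm : ∀ i, ∫ x in cell K y ψ i, f x = a i) (hm' : ∀ i, ∫ x in cell K y' ψ' i, f x = a i) :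
    tval K y ψ f y' ≤ tval K y' ψ' f y' := by
  rw [tval_eq hK hf hf0 hf2 hy' hm']
  exact tval_le hK hf hf0 hf2 hy hm y' ψ'

lemma tval_unique (hK : IsCompact K) (hf : Measurable f) (hf0 : ∀ x, 0 ≤ f x)
    (hf2 : ∀ x, f x ≤ 2) {y : ι → V} (hy : Function.Injective y) {ψ ψ' : ι → ℝ} {a : ι → ℝ}
    (hm : ∀ i, ∫ x in cell K y ψ i, f x = a i) (hm' : ∀ i, ∫ x in cell K y ψ' i, f x = a i) :
    tval K y ψ f y = tval K y ψ' f y :=
  le_antisymm (tval_le_tval hK hf hf0 hf2 hy hy hm hm') (tval_le_tval hK hf hf0 hf2 hy hy hm' hm)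

/-- the slope -/
noncomputable def slp (K : Set V) (y : ι → V) (ψ : ι → ℝ) (f : V → ℝ) (ξ : ι → V) : ℝ :=
  ∑ i, ⟪∫ x in cell K y ψ i, f x • x, ξ i⟫

lemma integrableOn_fx (hK : IsCompact K) (hf : Measurable f) (hf0 : ∀ x, 0 ≤ f x)
    (hf2 : ∀ x, f x ≤ 2) : IntegrableOn (fun x => f x • x) K := by
  have h1 : IntegrableOn (fun x : V => x) K := continuous_id.continuousOn.integrableOn_compact hK
  apply Integrable.mono' (g := fun x => 2 * ‖x‖) (h1.norm.const_mul 2)
  · exact (hf.smul measurable_id).aestronglyMeasurable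
  · filter_upwards with x
    show ‖f x • x‖ ≤ _
    rw [norm_smul, Real.norm_eq_abs, abs_of_nonneg (hf0 x)]
    exact mul_le_mul_of_nonneg_right (hf2 x) (norm_nonneg _)

lemma tval_shift (hK : IsCompact K) (hf : Measurable f) (hf0 : ∀ x, 0 ≤ f x)
    (hf2 : ∀ x, f x ≤ 2) (y : ι → V) (ψ : ι → ℝ) (y' : ι → V) (ξ : ι → V) (c : ℝ) :
    tval K y ψ f (fun i => y' i + c • ξ i) = tval K y ψ f y' + c * slp K y ψ f ξ := by
  unfold tval slp
  rw [Finset.mul_sum, ← Finset.sum_add_distrib]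
  apply Finset.sum_congr rfl
  intro i _
  have hcK := cell_compact hK y ψ i
  have e1 : ⟪∫ x in cell K y ψ i, f x • x, ξ i⟫ = ∫ x in cell K y ψ i, f x * ⟪x, ξ i⟫ := by
    rw [real_inner_comm, ← integral_inner (integrableOn_fx hcK hf hf0 hf2)]
    congr 1
    ext x
    rw [real_inner_smul_right, real_inner_comm]
  rw [e1, ← integral_const_mul, ← integral_add]
  · congr 1
    ext x
    rw [inner_add_right, real_inner_smul_right]
    ring
  · exact integrable_mul_of_continuous hcK hf hf0 hf2 (by fun_prop)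
  · exact (integrable_mul_of_continuous hcK hf hf0 hf2 (by fun_prop)).const_mul c

/-- interpolated sites -/
def yt (y z : ι → V) (t : ℝ) (i : ι) : V := y i + t • (z i - y i)

lemma yt_shift (y z : ι → V) (s t : ℝ) :
    yt y z s = fun i => yt y z t i + (s - t) • (z i - y i) := by
  ext i
  unfold yt
  rw [sub_smul]
  abel

lemma bad_finite {y z : ι → V} (hy : Function.Injective y) :
    (Icc (0:ℝ) 1 \ {t | Function.Injective (yt y z t)}).Finite := by
  have hsub : (Icc (0:ℝ) 1 \ {t | Function.Injective (yt y z t)}) ⊆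
      ⋃ i : ι, ⋃ j : ι, {t | i ≠ j ∧ yt y z t i = yt y z t j} := by
    rintro t ⟨_, ht⟩
    have ht' : ¬ Function.Injective (yt y z t) := ht
    unfold Function.Injective at ht'
    push Not at ht'
    obtain ⟨i, j, h1, h2⟩ := ht'
    exact mem_iUnion.2 ⟨i, mem_iUnion.2 ⟨j, h2, h1⟩⟩
  refine (Set.finite_iUnion fun i => Set.finite_iUnion fun j => ?_).subset hsub
  apply Set.Subsingleton.finite
  rintro t ⟨hij, ht⟩ s ⟨_, hs⟩
  by_contra hne
  apply hij
  apply hy
  unfold yt at ht hs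
  set u := (z i - y i) - (z j - y j) with hu
  have e1 : y i - y j = -(t • u) := by
    rw [hu, smul_sub]
    have : y i - y j = t • (z j - y j) - t • (z i - y i) := by
      rw [sub_eq_sub_iff_add_eq_add, add_comm (t • (z j - y j)), ← ht]
    rw [this]; abel
  have e2 : y i - y j = -(s • u) := by
    rw [hu, smul_sub]
    have : y i - y j = s • (z j - y j) - s • (z i - y i) := by
      rw [sub_eq_sub_iff_add_eq_add, add_comm (s • (z j - y j)), ← hs]
    rw [this]; abel
  have e3 : (t - s) • u = 0 := by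
    rw [sub_smul, sub_eq_zero]
    have := e1.symm.trans e2
    exact neg_injective this
  have hu0 : u = 0 := by
    rcases smul_eq_zero.1 e3 with h | h
    · exact absurd (sub_eq_zero.1 h) hne
    · exact h
  rw [hu0, smul_zero, neg_zero, sub_eq_zero] at e1
  exact e1

/-- the mixed difference is small -/
theorem mixed_le (hK : IsCompact K) (hKconv : Convex ℝ K) {R : ℝ} (hR : ∀ x ∈ K, ‖x‖ ≤ R)
    (hf : Measurable f) (hf0 : ∀ x, 0 ≤ f x) (hf2 : ∀ x, f x ≤ 2)
    {y z : ι → V} (hy : Function.Injective y) (hz : Function.Injective z)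
    {a : ι → ℝ} (ha : ∀ i, 0 < a i) {ψ φ ψf φf : ι → ℝ}
    (h0 : ∀ i, (volume : Measure V).real (cell K y ψ i) = a i)
    (h1 : ∀ i, (volume : Measure V).real (cell K z φ i) = a i)
    (h0f : ∀ i, ∫ x in cell K y ψf i, f x = a i)
    (h1f : ∀ i, ∫ x in cell K z φf i, f x = a i) {η : ℝ} (hη : 0 < η) :
    (tval K z φf f z - tval K z φ (fun _ => 1) z) - (tval K y ψf f y - tval K y ψ (fun _ => 1) y) ≤
      34 * R ^ 2 / η * (∫ x in K, |f x - 1|) + η * ∑ i, a i * ‖z i - y i‖ ^ 2 := by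
  classical
  set G : Set ℝ := {t | Function.Injective (yt y z t)} with hG
  have hsumf : ∑ i, a i = ∫ x in K, f x := by
    rw [← sum_cells hK hy ψf (integrableOn_f hK hf hf0 hf2)]
    exact Finset.sum_congr rfl fun i _ => (h0f i).symm
  have one_meas : Measurable (fun _ : V => (1:ℝ)) := measurable_const
  have one0 : ∀ x : V, (0:ℝ) ≤ (fun _ : V => (1:ℝ)) x := fun _ => zero_le_one
  have one2 : ∀ x : V, (fun _ : V => (1:ℝ)) x ≤ 2 := fun _ => by norm_num
  have h0' : ∀ i, ∫ x in cell K y ψ i, (fun _ : V => (1:ℝ)) x = a i := by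
    intro i
    rw [setIntegral_const, smul_eq_mul, mul_one]; exact h0 i
  have h1' : ∀ i, ∫ x in cell K z φ i, (fun _ : V => (1:ℝ)) x = a i := by
    intro i
    rw [setIntegral_const, smul_eq_mul, mul_one]; exact h1 i
  have hsum1 : ∑ i, a i = ∫ x in K, (fun _ : V => (1:ℝ)) x := by
    rw [← sum_cells hK hy ψ (integrableOn_f hK one_meas one0 one2)]
    exact Finset.sum_congr rfl fun i _ => (h0' i).symm
  have ex0 : ∀ t, ∃ ψ' : ι → ℝ, t ∈ G → ∀ i, ∫ x in cell K (yt y z t) ψ' i, (1:ℝ) = a i := by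
    intro t
    by_cases ht : t ∈ G
    · obtain ⟨ψ', hψ'⟩ := exists_cells hK one_meas one0 one2 (y := yt y z t) ht ha hsum1
      exact ⟨ψ', fun _ => hψ'⟩
    · exact ⟨0, fun h => absurd h ht⟩
  have ex1 : ∀ t, ∃ ψ' : ι → ℝ, t ∈ G → ∀ i, ∫ x in cell K (yt y z t) ψ' i, f x = a i := by
    intro t
    by_cases ht : t ∈ G
    · obtain ⟨ψ', hψ'⟩ := exists_cells hK hf hf0 hf2 (y := yt y z t) ht ha hsumf
      exact ⟨ψ', fun _ => hψ'⟩
    · exact ⟨0, fun h => absurd h ht⟩
  choose P0 hP0 using ex0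
  choose P1 hP1 using ex1
  have yt0 : yt y z 0 = y := by ext i; simp [yt]
  have yt1 : yt y z 1 = z := by ext i; simp [yt]
  have h0G : (0:ℝ) ∈ G := by show Function.Injective (yt y z 0); rw [yt0]; exact hy
  have h1G : (1:ℝ) ∈ G := by show Function.Injective (yt y z 1); rw [yt1]; exact hz
  set ξ : ι → V := fun i => z i - y i with hξ
  have hslope : ∀ (g : V → ℝ), Measurable g → (∀ x, 0 ≤ g x) → (∀ x, g x ≤ 2) →
      ∀ P : ℝ → ι → ℝ, (∀ t, t ∈ G → ∀ i, ∫ x in cell K (yt y z t) (P t) i, g x = a i) →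
      ∀ s ∈ G, ∀ t ∈ G, s ∈ Icc (0:ℝ) 1 → t ∈ Icc (0:ℝ) 1 →
        (s - t) * slp K (yt y z t) (P t) g ξ ≤
          tval K (yt y z s) (P s) g (yt y z s) - tval K (yt y z t) (P t) g (yt y z t) := by
    intro g hg hg0 hg2 P hP s hs t ht _ _
    have e1 := tval_le_tval hK hg hg0 hg2 ht hs (hP t ht) (hP s hs)
    have e2 := tval_shift hK hg hg0 hg2 (yt y z t) (P t) (yt y z t) ξ (s - t)
    rw [← yt_shift y z s t] at e2
    linarith
  have key := tele (G := G) (bad_finite hy) h0G h1G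
    (c0 := fun t => tval K (yt y z t) (P0 t) (fun _ => 1) (yt y z t))
    (c1 := fun t => tval K (yt y z t) (P1 t) f (yt y z t))
    (s0 := fun t => slp K (yt y z t) (P0 t) (fun _ => 1) ξ)
    (s1 := fun t => slp K (yt y z t) (P1 t) f ξ)
    (B := 34 * R ^ 2 / η * (∫ x in K, |f x - 1|) + η * ∑ i, a i * ‖z i - y i‖ ^ 2)
    (hslope _ one_meas one0 one2 P0 hP0) (hslope f hf hf0 hf2 P1 hP1) ?_
  · simp only [yt0, yt1] at key
    have u1 := tval_unique hK hf hf0 hf2 hz (by have := hP1 1 h1G; rwa [yt1] at this) h1f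
    have u2 := tval_unique hK hf hf0 hf2 hy (by have := hP1 0 h0G; rwa [yt0] at this) h0f
    have u3 := tval_unique hK one_meas one0 one2 hz (by have := hP0 1 h1G; rwa [yt1] at this) h1'
    have u4 := tval_unique hK one_meas one0 one2 hy (by have := hP0 0 h0G; rwa [yt0] at this) h0'
    rw [u1, u2, u3, u4] at key
    linarith
  · intro t ht _
    have hb := bary_sum hK hKconv hR (y := yt y z t) ht (ψ := P0 t) (ψ' := P1 t) ha hf hf0 hf2
      (fun i => by
        have := hP0 t ht i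
        rw [setIntegral_const, smul_eq_mul, mul_one] at this
        exact this) (hP1 t ht) ξ hη
    refine le_trans (le_of_eq ?_) hb
    unfold slp
    rw [← Finset.sum_sub_distrib]
    apply Finset.sum_congr rfl
    intro i _
    rw [inner_sub_left]
    simp only [one_smul]

end Vale.Agent.H10.OT
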