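import Vale.Agent.H10.OTDefs

open MeasureTheory Set
open scoped ENNReal NNReal RealInnerProductSpace

namespace Vale.Agent.H10.OT

variable {d : ℕ}

lemma enorm_sq_eq (v : EuclideanSpace ℝ (Fin d)) : ‖v‖ₑ ^ 2 = ENNReal.ofReal (‖v‖ ^ 2) := by
  rw [← ofReal_norm, ENNReal.ofReal_pow (norm_nonneg _)]

/-- Optimality from a potential. -/
lemma isOTMap_of_potential {ρ : Measure (EuclideanSpace ℝ (Fin d))}
    {T : EuclideanSpace ℝ (Fin d) → EuclideanSpace ℝ (Fin d)} (hT : Measurable T)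
    {A : Set (EuclideanSpace ℝ (Fin d))} (hA : MeasurableSet A)
    {φ : EuclideanSpace ℝ (Fin d) → ℝ} (hφm : Measurable φ) (hφ0 : ∀ x, 0 ≤ φ x)
    (hφi : ∫⁻ x, ENNReal.ofReal (2 * φ x) ∂ρ ≠ ∞)
    (hle : ∀ x, ∀ y ∈ A, ⟪x, y⟫ ≤ φ x) (hTA : ∀ x, T x ∈ A) (hTe : ∀ x, ⟪x, T x⟫ = φ x) :
    IsOTMap ρ (ρ.map T) T := by
  refine ⟨hT, rfl, ?_⟩
  intro S hS hmap
  have hSA : ∀ᵐ x ∂ρ, S x ∈ A := by
    have h1 : (ρ.map S) Aᶜ = 0 := by
      rw [hmap, Measure.map_apply hT hA.compl]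
      have : T ⁻¹' Aᶜ = ∅ := by
        ext x; simp [hTA x]
      rw [this, measure_empty]
    rw [Measure.map_apply hS hA.compl] at h1
    exact h1
  have e1 : ∀ x, ‖x - T x‖ₑ ^ 2 + ENNReal.ofReal (2 * φ x) = ‖x‖ₑ ^ 2 + ‖T x‖ₑ ^ 2 := by
    intro x
    rw [enorm_sq_eq, enorm_sq_eq, enorm_sq_eq]
    rw [← ENNReal.ofReal_add (by positivity)
      (by have := hφ0 x; positivity), ← ENNReal.ofReal_add (by positivity) (by positivity)]
    congr 1
    rw [norm_sub_sq_real, hTe x]; ring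
  have e2 : ∀ᵐ x ∂ρ, ‖x‖ₑ ^ 2 + ‖S x‖ₑ ^ 2 ≤ ‖x - S x‖ₑ ^ 2 + ENNReal.ofReal (2 * φ x) := by
    filter_upwards [hSA] with x hx
    rw [enorm_sq_eq, enorm_sq_eq, enorm_sq_eq]
    rw [← ENNReal.ofReal_add (by positivity) (by positivity), ← ENNReal.ofReal_add (by positivity)
      (by have := hφ0 x; positivity)]
    apply ENNReal.ofReal_le_ofReal
    rw [norm_sub_sq_real]
    have := hle x (S x) hx
    linarith
  have m1 : Measurable (fun x : EuclideanSpace ℝ (Fin d) => ENNReal.ofReal (2 * φ x)) :=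
    ENNReal.measurable_ofReal.comp (hφm.const_mul 2)
  have m2 : Measurable (fun x : EuclideanSpace ℝ (Fin d) => ‖x‖ₑ ^ 2) := by fun_prop
  have i1 : ∫⁻ x, ‖x - T x‖ₑ ^ 2 ∂ρ + ∫⁻ x, ENNReal.ofReal (2 * φ x) ∂ρ
      = ∫⁻ x, ‖x‖ₑ ^ 2 ∂ρ + ∫⁻ x, ‖T x‖ₑ ^ 2 ∂ρ := by
    rw [← lintegral_add_right _ m1, ← lintegral_add_left m2]
    exact lintegral_congr e1
  have i2 : ∫⁻ x, ‖x‖ₑ ^ 2 ∂ρ + ∫⁻ x, ‖S x‖ₑ ^ 2 ∂ρ
      ≤ ∫⁻ x, ‖x - S x‖ₑ ^ 2 ∂ρ + ∫⁻ x, ENNReal.ofReal (2 * φ x) ∂ρ := by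
    rw [← lintegral_add_right _ m1, ← lintegral_add_left m2]
    exact lintegral_mono_ae e2
  have i3 : ∫⁻ x, ‖T x‖ₑ ^ 2 ∂ρ = ∫⁻ x, ‖S x‖ₑ ^ 2 ∂ρ := by
    rw [← lintegral_map (f := fun y : EuclideanSpace ℝ (Fin d) => ‖y‖ₑ ^ 2) m2 hT,
      ← lintegral_map (f := fun y : EuclideanSpace ℝ (Fin d) => ‖y‖ₑ ^ 2) m2 hS, hmap]
  have i5 : ∫⁻ x, ‖x - T x‖ₑ ^ 2 ∂ρ + ∫⁻ x, ENNReal.ofReal (2 * φ x) ∂ρ
      ≤ ∫⁻ x, ‖x - S x‖ₑ ^ 2 ∂ρ + ∫⁻ x, ENNReal.ofReal (2 * φ x) ∂ρ := by
    rw [i1, i3]; exact i2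
  exact (ENNReal.add_le_add_iff_right hφi).1 i5

/-- The cube `[-1,1]^d`. -/
def cube (d : ℕ) : Set (EuclideanSpace ℝ (Fin d)) := {x | ∀ i, |x i| ≤ 1}

lemma cube_eq (d : ℕ) : cube d =
    (WithLp.ofLp : EuclideanSpace ℝ (Fin d) → (Fin d → ℝ)) ⁻¹' (Icc (-1) 1) := by
  ext x
  simp only [cube, mem_ofPred_eq, mem_preimage, mem_Icc, Pi.le_def, Pi.neg_apply, Pi.one_apply,
    abs_le]
  constructor
  · intro h; exact ⟨fun i => (h i).1, fun i => (h i).2⟩
  · intro h i; exact ⟨h.1 i, h.2 i⟩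

lemma cube_compact (d : ℕ) : IsCompact (cube d) := by
  rw [cube_eq]
  exact (PiLp.continuousLinearEquiv 2 ℝ (fun _ : Fin d => ℝ)).toHomeomorph.isClosedEmbedding.isCompact_preimage
    isCompact_Icc

lemma cube_convex (d : ℕ) : Convex ℝ (cube d) := by
  rw [cube_eq]
  exact (convex_Icc (-1 : Fin d → ℝ) 1).linear_preimage
    (PiLp.continuousLinearEquiv 2 ℝ (fun _ : Fin d => ℝ)).toLinearEquiv.toLinearMap

lemma coord_le_norm (x : EuclideanSpace ℝ (Fin d)) (i : Fin d) : |x i| ≤ ‖x‖ := by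
  have := PiLp.norm_apply_le x i
  simpa using this

lemma cube_interior (d : ℕ) : (interior (cube d)).Nonempty := by
  refine ⟨0, ?_⟩
  rw [mem_interior]
  refine ⟨Metric.ball 0 1, ?_, Metric.isOpen_ball, Metric.mem_ball_self one_pos⟩
  intro x hx i
  have h1 := coord_le_norm x i
  have h2 : ‖x‖ < 1 := by simpa using hx
  linarith

lemma vol_box (a b : Fin d → ℝ) :
    volume ((WithLp.ofLp : EuclideanSpace ℝ (Fin d) → (Fin d → ℝ)) ⁻¹' (Icc a b))
      = ∏ i, ENNReal.ofReal (b i - a i) := by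
  rw [(PiLp.volume_preserving_ofLp (Fin d)).measure_preimage measurableSet_Icc.nullMeasurableSet,
    Real.volume_Icc_pi]

lemma vol_cube_pos (d : ℕ) : volume (cube d) ≠ 0 := by
  rw [cube_eq, vol_box]
  rw [Finset.prod_ne_zero_iff]
  intro i _
  simp

lemma vol_cube_fin (d : ℕ) : volume (cube d) ≠ ∞ := (cube_compact d).measure_lt_top.ne

instance : IsProbabilityMeasure (unif (cube d)) := by
  constructor
  simp only [unif, Measure.smul_apply, Measure.restrict_apply MeasurableSet.univ, univ_inter,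
    smul_eq_mul]
  exact ENNReal.inv_mul_cancel (vol_cube_pos d) (vol_cube_fin d)


section example3

variable (i0 i1 : Fin d) (γ : ℝ)

/-- the three-atom map -/
noncomputable def Tm (x : EuclideanSpace ℝ (Fin d)) : EuclideanSpace ℝ (Fin d) :=
  if |x i1| < γ * x i0 then EuclideanSpace.single i0 γ
  else if 0 < x i1 then EuclideanSpace.single i1 1 else EuclideanSpace.single i1 (-1)

lemma Tm_meas : Measurable (Tm i0 i1 γ) := by
  unfold Tm
  refine Measurable.ite ?_ measurable_const (Measurable.ite ?_ measurable_const measurable_const)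
  · exact measurableSet_lt (by fun_prop) (by fun_prop)
  · exact measurableSet_lt (by fun_prop) (by fun_prop)

lemma Tm_opt (ρ : Measure (EuclideanSpace ℝ (Fin d))) [IsFiniteMeasure ρ]
    (hρ : ∀ᵐ x ∂ρ, ‖x‖ ≤ d) (hγ : |γ| ≤ 1) :
    IsOTMap ρ (ρ.map (Tm i0 i1 γ)) (Tm i0 i1 γ) := by
  apply isOTMap_of_potential (A := {EuclideanSpace.single i0 γ, EuclideanSpace.single i1 1,
    EuclideanSpace.single i1 (-1)}) (φ := fun x => max |x i1| (γ * x i0))
  · exact Tm_meas i0 i1 γ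
  · exact (Set.toFinite _).measurableSet
  · fun_prop
  · intro x; exact le_max_of_le_left (abs_nonneg _)
  · have h1 : ∀ᵐ x ∂ρ, ENNReal.ofReal (2 * max |x i1| (γ * x i0)) ≤ ENNReal.ofReal (2 * d) := by
      filter_upwards [hρ] with x hx
      apply ENNReal.ofReal_le_ofReal
      have a1 := coord_le_norm x i1
      have a0 := coord_le_norm x i0
      have a2 : γ * x i0 ≤ d := by
        calc γ * x i0 ≤ |γ * x i0| := le_abs_self _
          _ = |γ| * |x i0| := abs_mul _ _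
          _ ≤ 1 * |x i0| := by gcongr
          _ ≤ d := by linarith
      have : max |x i1| (γ * x i0) ≤ d := max_le (by linarith) a2
      linarith
    have h2 := lintegral_mono_ae h1
    rw [lintegral_const] at h2
    exact (lt_of_le_of_lt h2 (ENNReal.mul_lt_top ENNReal.ofReal_lt_top (measure_lt_top _ _))).ne
  · intro x y hy
    simp only [mem_insert_iff, mem_singleton_iff] at hy
    rcases hy with rfl | rfl | rfl
    · rw [EuclideanSpace.inner_single_right]
      simp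
    · rw [EuclideanSpace.inner_single_right]
      simp [le_abs_self]
    · rw [EuclideanSpace.inner_single_right]
      simp [neg_le_abs]
  · intro x
    unfold Tm
    split_ifs <;> simp
  · intro x
    unfold Tm
    split_ifs with h1 h2
    · rw [EuclideanSpace.inner_single_right]
      simp [max_eq_right h1.le]
    · rw [EuclideanSpace.inner_single_right]
      simp only [conj_trivial, one_mul]
      rw [max_eq_left (not_lt.1 h1), abs_of_pos h2]
    · rw [EuclideanSpace.inner_single_right]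
      simp only [conj_trivial]
      rw [max_eq_left (not_lt.1 h1), abs_of_nonpos (not_lt.1 h2)]
      ring

/-- reflection in the coordinate `i0` -/
noncomputable def Rf : EuclideanSpace ℝ (Fin d) ≃ₗᵢ[ℝ] EuclideanSpace ℝ (Fin d) :=
  LinearIsometryEquiv.piLpCongrRight 2
    (fun i => if i = i0 then LinearIsometryEquiv.neg ℝ else LinearIsometryEquiv.refl ℝ ℝ)

lemma Rf_apply (x : EuclideanSpace ℝ (Fin d)) (i : Fin d) :
    Rf i0 x i = if i = i0 then - x i else x i := by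
  simp only [Rf, LinearIsometryEquiv.piLpCongrRight_apply]
  split_ifs <;> simp

lemma Rf_cube : (Rf i0) ⁻¹' (cube d) = cube d := by
  ext x
  simp only [cube, mem_preimage, mem_ofPred_eq, Rf_apply]
  constructor
  · intro h i
    have := h i
    split_ifs at this <;> simpa using this
  · intro h i
    have := h i
    split_ifs <;> simpa using this

lemma map_Rf : (unif (cube d)).map (Rf i0) = unif (cube d) := by
  have h1 : MeasurePreserving (Rf i0) volume volume := (Rf i0).measurePreserving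
  have h2 : MeasurePreserving (Rf i0) (volume.restrict ((Rf i0) ⁻¹' (cube d)))
    (volume.restrict (cube d)) := h1.restrict_preimage (cube_compact d).measurableSet
  rw [Rf_cube] at h2
  unfold unif
  rw [Measure.map_smul, h2.map_eq]

/-- the wedge -/
def Wd : Set (EuclideanSpace ℝ (Fin d)) := {x | |x i1| < γ * x i0}

lemma Wd_meas : MeasurableSet (Wd i0 i1 γ) :=
  measurableSet_lt (by fun_prop) (by fun_prop)

lemma W2_le (h01 : i1 ≠ i0) :
    W2 ((unif (cube d)).map (Tm i0 i1 γ)) ((unif (cube d)).map (Tm i0 i1 (-γ)))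
      ≤ (ENNReal.ofReal ((2 * γ) ^ 2) * unif (cube d) (Wd i0 i1 γ)) ^ (1 / 2 : ℝ) := by
  set ρ := unif (cube d) with hρ
  have hTm := Tm_meas i0 i1 γ
  have hSm : Measurable (fun x => Tm i0 i1 (-γ) (Rf i0 x)) :=
    (Tm_meas i0 i1 (-γ)).comp (Rf i0).continuous.measurable
  have hc : IsCoupling (ρ.map (Tm i0 i1 γ)) (ρ.map (Tm i0 i1 (-γ)))
      (ρ.map (fun x => (Tm i0 i1 γ x, Tm i0 i1 (-γ) (Rf i0 x)))) := by
    constructor
    · rw [Measure.map_map measurable_fst (hTm.prodMk hSm)]; rfl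
    · rw [Measure.map_map measurable_snd (hTm.prodMk hSm)]
      have : (Prod.snd ∘ fun x => (Tm i0 i1 γ x, Tm i0 i1 (-γ) (Rf i0 x)))
          = Tm i0 i1 (-γ) ∘ (Rf i0) := rfl
      rw [this, ← Measure.map_map (Tm_meas i0 i1 (-γ)) (Rf i0).continuous.measurable, map_Rf]
  refine (iInf₂_le _ hc).trans ?_
  apply ENNReal.rpow_le_rpow _ (by norm_num)
  rw [lintegral_map (by fun_prop) (hTm.prodMk hSm)]
  have key : ∀ x, ‖Tm i0 i1 γ x - Tm i0 i1 (-γ) (Rf i0 x)‖ₑ ^ 2
      = (Wd i0 i1 γ).indicator (fun _ => ENNReal.ofReal ((2 * γ) ^ 2)) x := by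
    intro x
    have e0 : Rf i0 x i0 = - x i0 := by rw [Rf_apply]; simp
    have e1 : Rf i0 x i1 = x i1 := by rw [Rf_apply]; simp [h01]
    by_cases hx : |x i1| < γ * x i0
    · have hx' : x ∈ Wd i0 i1 γ := hx
      rw [indicator_of_mem hx']
      have : |Rf i0 x i1| < -γ * Rf i0 x i0 := by rw [e0, e1]; linarith
      unfold Tm
      rw [if_pos hx, if_pos this, enorm_sq_eq]
      congr 1
      have : (EuclideanSpace.single i0 γ - EuclideanSpace.single i0 (-γ) :
          EuclideanSpace ℝ (Fin d)) = EuclideanSpace.single i0 (2 * γ) := by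
        ext j
        by_cases hj : j = i0
        · subst hj; simp; ring
        · simp [hj]
      rw [this, PiLp.norm_single, Real.norm_eq_abs, sq_abs]
    · have hx' : x ∉ Wd i0 i1 γ := hx
      rw [indicator_of_notMem hx']
      have : ¬ |Rf i0 x i1| < -γ * Rf i0 x i0 := by rw [e0, e1]; intro h; apply hx; linarith
      unfold Tm
      rw [if_neg hx, if_neg this, e1]
      simp
  rw [lintegral_congr key, lintegral_indicator (Wd_meas i0 i1 γ), lintegral_const,
    Measure.restrict_apply_univ]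

lemma eLp_ge (h01 : i1 ≠ i0) (hγ : 0 < γ) :
    (unif (cube d) (Wd i0 i1 γ)) ^ (1 / 2 : ℝ) ≤
      eLpNorm (fun x => Tm i0 i1 γ x - Tm i0 i1 (-γ) x) 2 (unif (cube d)) := by
  rw [eLpNorm_eq_lintegral_rpow_enorm_toReal (by norm_num) (by norm_num)]
  simp only [ENNReal.toReal_ofNat]
  apply ENNReal.rpow_le_rpow _ (by norm_num)
  rw [← lintegral_indicator_one (Wd_meas i0 i1 γ)]
  apply lintegral_mono
  intro x
  by_cases hx : |x i1| < γ * x i0
  · have hx' : x ∈ Wd i0 i1 γ := hx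
    rw [indicator_of_mem hx']
    have h2 : ¬ |x i1| < -γ * x i0 := by
      intro h
      have := abs_nonneg (x i1)
      have h3 : -γ * x i0 = -(γ * x i0) := by ring
      linarith
    simp only [Pi.one_apply, ENNReal.rpow_ofNat]
    rw [enorm_sq_eq]
    rw [← ENNReal.ofReal_one]
    apply ENNReal.ofReal_le_ofReal
    unfold Tm
    rw [if_pos hx, if_neg h2]
    have h4 : ∀ s : ℝ, (s = 1 ∨ s = -1) →
        1 ≤ ‖(EuclideanSpace.single i0 γ - EuclideanSpace.single i1 s :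
          EuclideanSpace ℝ (Fin d))‖ ^ 2 := by
      intro s hs
      have h5 := coord_le_norm (EuclideanSpace.single i0 γ - EuclideanSpace.single i1 s :
          EuclideanSpace ℝ (Fin d)) i1
      have h6 : (EuclideanSpace.single i0 γ - EuclideanSpace.single i1 s :
          EuclideanSpace ℝ (Fin d)) i1 = - s := by
        simp [h01]
      rw [h6] at h5
      have h7 : |(-s)| = 1 := by rcases hs with rfl | rfl <;> norm_num
      rw [h7] at h5
      nlinarith
    split_ifs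
    · exact h4 1 (Or.inl rfl)
    · exact h4 (-1) (Or.inr rfl)
  · have hx' : x ∉ Wd i0 i1 γ := hx
    rw [indicator_of_notMem hx']
    exact zero_le

/-- lower bound for the mass of the wedge. -/
lemma wedge_ge (h01 : i1 ≠ i0) :
    ∃ c : ℝ, 0 < c ∧ ∀ γ : ℝ, 0 < γ → γ ≤ 1 →
      ENNReal.ofReal (c * γ) ≤ unif (cube d) (Wd i0 i1 γ) := by
  set g : Fin d → ℝ := fun i => if i = i0 then 1/2 else if i = i1 then 1/2 else 2 with hg
  have hgpos : ∀ i, 0 < g i := by
    intro i; simp only [hg]; split_ifs <;> norm_num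
  set G : ℝ := ∏ i, g i with hG
  have hGpos : 0 < G := Finset.prod_pos (fun i _ => hgpos i)
  set V : ℝ := (volume (cube d)).toReal with hV
  have hVpos : 0 < V := ENNReal.toReal_pos (vol_cube_pos d) (vol_cube_fin d)
  have hVe : volume (cube d) = ENNReal.ofReal V := (ENNReal.ofReal_toReal (vol_cube_fin d)).symm
  refine ⟨V⁻¹ * G, by positivity, ?_⟩
  intro γ hγ hγ1
  set a : Fin d → ℝ := fun i => if i = i0 then 1/2 else if i = i1 then -(γ/4) else -1 with ha
  set b : Fin d → ℝ := fun i => if i = i0 then 1 else if i = i1 then γ/4 else 1 with hb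
  have hsub : ((WithLp.ofLp : EuclideanSpace ℝ (Fin d) → (Fin d → ℝ)) ⁻¹' (Icc a b))
      ⊆ Wd i0 i1 γ ∩ cube d := by
    intro x hx
    rw [mem_preimage, mem_Icc, Pi.le_def, Pi.le_def] at hx
    have hx0a := hx.1 i0
    have hx0b := hx.2 i0
    have hx1a := hx.1 i1
    have hx1b := hx.2 i1
    simp only [ha, hb, if_true, if_neg h01] at hx0a hx0b hx1a hx1b
    constructor
    · show |x i1| < γ * x i0
      rw [abs_lt]
      constructor <;> nlinarith
    · intro i
      have h1 := hx.1 i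
      have h2 := hx.2 i
      simp only [ha, hb] at h1 h2
      rw [abs_le]
      split_ifs at h1 h2 <;> constructor <;> linarith
  have hvol : volume ((WithLp.ofLp : EuclideanSpace ℝ (Fin d) → (Fin d → ℝ)) ⁻¹' (Icc a b))
      = ENNReal.ofReal (γ * G) := by
    rw [vol_box, ← ENNReal.ofReal_prod_of_nonneg]
    · congr 1
      have : ∀ i, b i - a i = (if i = i1 then γ else 1) * g i := by
        intro i
        simp only [ha, hb, hg]
        by_cases h0 : i = i0
        · subst h0; simp [h01.symm]; norm_num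
        · by_cases h1 : i = i1
          · subst h1; simp [h0]; ring
          · simp [h0, h1]; norm_num
      rw [Finset.prod_congr rfl (fun i _ => this i), Finset.prod_mul_distrib]
      simp [hG]
    · intro i _
      simp only [ha, hb]
      split_ifs <;> linarith
  have h1 : unif (cube d) (Wd i0 i1 γ) = (volume (cube d))⁻¹ * volume (Wd i0 i1 γ ∩ cube d) := by
    unfold unif
    rw [Measure.smul_apply, Measure.restrict_apply (Wd_meas i0 i1 γ), smul_eq_mul]
  rw [h1, hVe, ← ENNReal.ofReal_inv_of_pos hVpos]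
  calc ENNReal.ofReal (V⁻¹ * G * γ) = ENNReal.ofReal V⁻¹ * ENNReal.ofReal (γ * G) := by
        rw [← ENNReal.ofReal_mul (by positivity)]; congr 1; ring
    _ ≤ ENNReal.ofReal V⁻¹ * volume (Wd i0 i1 γ ∩ cube d) := by
        rw [← hvol]; gcongr

lemma norm_le_cube {x : EuclideanSpace ℝ (Fin d)} (hx : x ∈ cube d) : ‖x‖ ≤ d := by
  have h1 : ‖x‖ ^ 2 = ∑ i, ‖x i‖ ^ 2 := by rw [EuclideanSpace.norm_sq_eq]
  have h2 : ∑ i : Fin d, ‖x i‖ ^ 2 ≤ ∑ _i : Fin d, (1:ℝ) := by
    apply Finset.sum_le_sum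
    intro i _
    have := hx i
    rw [Real.norm_eq_abs]
    have h3 := abs_nonneg (x i)
    nlinarith
  rw [Finset.sum_const, Finset.card_univ, Fintype.card_fin, nsmul_eq_mul, mul_one] at h2
  rw [← h1] at h2
  rcases Nat.eq_zero_or_pos d with hd | hd
  · subst hd
    have : ‖x‖ ^ 2 ≤ 0 := by simpa using h2
    have h4 : ‖x‖ = 0 := by nlinarith [norm_nonneg x]
    simp [h4]
  · have hd1 : (1:ℝ) ≤ d := by exact_mod_cast hd
    nlinarith [norm_nonneg x]

lemma ae_cube : ∀ᵐ x ∂(unif (cube d)), x ∈ cube d := by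
  unfold unif
  apply Measure.ae_smul_measure
  exact ae_restrict_mem (cube_compact d).measurableSet

lemma Tm_norm (hγ : |γ| ≤ 1) (x : EuclideanSpace ℝ (Fin d)) : ‖Tm i0 i1 γ x‖ ≤ 1 := by
  unfold Tm
  split_ifs
  · rw [PiLp.norm_single]; simpa using hγ
  · rw [PiLp.norm_single]; simp
  · rw [PiLp.norm_single]; simp

lemma map_supp (hγ : |γ| ≤ 1) :
    ((unif (cube d)).map (Tm i0 i1 γ)) (Metric.closedBall 0 1)ᶜ = 0 := by
  rw [Measure.map_apply (Tm_meas i0 i1 γ) Metric.isClosed_closedBall.measurableSet.compl]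
  have : Tm i0 i1 γ ⁻¹' (Metric.closedBall 0 1)ᶜ = ∅ := by
    ext x
    have := Tm_norm i0 i1 γ hγ x
    simp [this]
  rw [this, measure_empty]

lemma key_ineq (h01 : i1 ≠ i0) {α : ℝ} (h0 : 0 < α) {C : ℝ≥0} {c : ℝ} (hc : 0 < c)
    (hγ : 0 < γ) (hw : ENNReal.ofReal (c * γ) ≤ unif (cube d) (Wd i0 i1 γ)) (h1 : α ≤ 1)
    (h : eLpNorm (fun x => Tm i0 i1 γ x - Tm i0 i1 (-γ) x) 2 (unif (cube d))
      ≤ C * W2 ((unif (cube d)).map (Tm i0 i1 γ)) ((unif (cube d)).map (Tm i0 i1 (-γ))) ^ α) :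
    (c * γ) ^ ((1 - α) / 2) ≤ C * (2 * γ) ^ α := by
  have hfin : unif (cube d) (Wd i0 i1 γ) ≠ ∞ := measure_ne_top _ _
  set w : ℝ := (unif (cube d) (Wd i0 i1 γ)).toReal with hwdef
  have hwe : unif (cube d) (Wd i0 i1 γ) = ENNReal.ofReal w := (ENNReal.ofReal_toReal hfin).symm
  have hcw : c * γ ≤ w := by
    rw [hwe] at hw
    rcases lt_or_ge w 0 with h | h
    · exact absurd h (not_lt.2 ENNReal.toReal_nonneg)
    · exact (ENNReal.ofReal_le_ofReal_iff h).1 hw
  have hcγ : 0 < c * γ := by positivity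
  have hwpos : 0 < w := lt_of_lt_of_le hcγ hcw
  have h2 := (eLp_ge i0 i1 γ h01 hγ).trans (h.trans (mul_le_mul_right
    (ENNReal.rpow_le_rpow (W2_le i0 i1 γ h01) h0.le) _))
  rw [hwe, ← ENNReal.ofReal_mul (by positivity), ENNReal.ofReal_rpow_of_pos hwpos,
    ENNReal.ofReal_rpow_of_pos (by positivity), ENNReal.ofReal_rpow_of_pos (by positivity),
    ← ENNReal.ofReal_coe_nnreal, ← ENNReal.ofReal_mul (by positivity),
    ENNReal.ofReal_le_ofReal_iff (by positivity)] at h2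
  have h3 : (((2 * γ) ^ 2 * w) ^ (1 / 2 : ℝ)) ^ α = (2 * γ) ^ α * w ^ (α / 2) := by
    rw [← Real.rpow_mul (by positivity), Real.mul_rpow (by positivity) hwpos.le]
    congr 1
    · rw [← Real.rpow_natCast, ← Real.rpow_mul (by positivity)]
      congr 1; push_cast; ring
    · congr 1; ring
  rw [h3] at h2
  have h4 : w ^ ((1 - α) / 2) ≤ C * (2 * γ) ^ α := by
    have h5 : w ^ (1 / 2 : ℝ) = w ^ ((1 - α) / 2) * w ^ (α / 2) := by
      rw [← Real.rpow_add hwpos]; congr 1; ring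
    rw [h5, ← mul_assoc] at h2
    exact le_of_mul_le_mul_right h2 (Real.rpow_pos_of_pos hwpos _)
  refine le_trans ?_ h4
  apply Real.rpow_le_rpow hcγ.le hcw
  linarith

end example3

/-- No exponent above `1/3` is admissible. -/
theorem not_admissible {d : ℕ} (hd : 2 ≤ d) {α : ℝ} (hα : 1 / 3 < α) : ¬ Admissible d α := by
  rintro ⟨⟨h0, h1⟩, h⟩
  set i0 : Fin d := ⟨0, by omega⟩ with hi0
  set i1 : Fin d := ⟨1, by omega⟩ with hi1
  have h01 : i1 ≠ i0 := by simp [hi0, hi1]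
  obtain ⟨C, hC⟩ := h (cube d) (cube_compact d) (cube_convex d) (cube_interior d)
    (Metric.closedBall 0 1) (isCompact_closedBall _ _) ⟨0, by simp⟩
  obtain ⟨c, hc, hcw⟩ := wedge_ge i0 i1 h01
  have key : ∀ γ : ℝ, 0 < γ → γ ≤ 1 → (c * γ) ^ ((1 - α) / 2) ≤ C * (2 * γ) ^ α := by
    intro γ hγ hγ1
    have ha1 : |γ| ≤ 1 := by rw [abs_of_pos hγ]; exact hγ1
    have ha2 : |(-γ)| ≤ 1 := by rw [abs_neg]; exact ha1
    have hcube : ∀ᵐ x ∂(unif (cube d)), ‖x‖ ≤ d := by
      filter_upwards [ae_cube (d := d)] with x hx using norm_le_cube hx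
    apply key_ineq i0 i1 γ h01 h0 hc hγ (hcw γ hγ hγ1) h1
    apply hC _ _ (Measure.isProbabilityMeasure_map (Tm_meas i0 i1 γ).aemeasurable)
      (Measure.isProbabilityMeasure_map (Tm_meas i0 i1 (-γ)).aemeasurable)
      (map_supp i0 i1 γ ha1) (map_supp i0 i1 (-γ) ha2)
    · exact Tm_opt i0 i1 γ _ hcube ha1
    · exact Tm_opt i0 i1 (-γ) _ hcube ha2
  set s : ℝ := (3 * α - 1) / 2 with hs
  have hspos : 0 < s := by rw [hs]; linarith
  have key2 : ∀ γ : ℝ, 0 < γ → γ ≤ 1 → c ^ ((1 - α) / 2) ≤ C * 2 ^ α * γ ^ s := by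
    intro γ hγ hγ1
    have h2 := key γ hγ hγ1
    rw [Real.mul_rpow hc.le hγ.le, Real.mul_rpow (by norm_num) hγ.le] at h2
    have h3 : γ ^ α = γ ^ s * γ ^ ((1 - α) / 2) := by
      rw [← Real.rpow_add hγ]; congr 1; rw [hs]; ring
    rw [h3, ← mul_assoc, ← mul_assoc] at h2
    exact le_of_mul_le_mul_right h2 (Real.rpow_pos_of_pos hγ _)
  have hlim : Filter.Tendsto (fun γ : ℝ => (C:ℝ) * 2 ^ α * γ ^ s) (nhdsWithin 0 (Ioi 0))
      (nhds 0) := by
    have h4 : Filter.Tendsto (fun γ : ℝ => γ ^ s) (nhds 0) (nhds 0) := by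
      have := (Real.continuousAt_rpow_const 0 s (Or.inr hspos.le)).tendsto
      rwa [Real.zero_rpow hspos.ne'] at this
    have h5 := (h4.const_mul ((C:ℝ) * 2 ^ α)).mono_left
      (nhdsWithin_le_nhds (a := (0:ℝ)) (s := Ioi 0))
    simpa using h5
  have hge : c ^ ((1 - α) / 2) ≤ 0 := by
    apply ge_of_tendsto hlim
    have : Ioc (0:ℝ) 1 ∈ nhdsWithin (0:ℝ) (Ioi 0) := Ioc_mem_nhdsGT one_pos
    filter_upwards [this] with γ hγ
    exact key2 γ hγ.1 hγ.2
  exact absurd hge (not_le.2 (Real.rpow_pos_of_pos hc _))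

end Vale.Agent.H10.OT
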