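import Vale.Agent.H10.WRDefs

/-! Compactness facts on positive stoichiometric classes (P072, row C). -/

namespace Vale.Agent.H10.WR

open scoped BigOperators

theorem term_bound (cl cu A : ℝ) (hcl : 0 < cl) (hcu : cl ≤ cu) :
    ∃ m M0 w : ℝ, 0 ≤ m ∧ 0 ≤ M0 ∧ 0 < w ∧ ∀ ρ x c : ℝ, 0 < x → cl ≤ c → c ≤ cu →
      |ρ - Real.log x| ≤ A → -m ≤ ρ * (x - c) ∧ (M0 ≤ |ρ| → w * |ρ| ≤ ρ * (x - c)) := by
  set S0 := max 0 (max (A + cu) (A + Real.log (2 / cl))) with hS0
  have h0 : 0 ≤ S0 := le_max_left _ _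
  have h1 : A + cu ≤ S0 := (le_max_left _ _).trans (le_max_right _ _)
  have h2 : A + Real.log (2 / cl) ≤ S0 := (le_max_right _ _).trans (le_max_right _ _)
  have hcu0 : 0 < cu := hcl.trans_le hcu
  set w := min 1 (cl / 2) with hw
  have hw0 : 0 < w := lt_min one_pos (by positivity)
  have hw1 : w ≤ 1 := min_le_left _ _
  have hw2 : w ≤ cl / 2 := min_le_right _ _
  refine ⟨S0 * (cu + Real.exp A), S0, w, by positivity, h0, hw0, ?_⟩
  intro ρ x c hx hc1 hc2 hρ
  rw [abs_le] at hρ
  rcases le_or_gt 0 ρ with hp | hn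
  · have hbig : S0 ≤ |ρ| → w * |ρ| ≤ ρ * (x - c) := by
      intro hS
      rw [abs_of_nonneg hp] at hS ⊢
      have hx1 : ρ - A + 1 ≤ x := by
        calc ρ - A + 1 ≤ Real.exp (ρ - A) := Real.add_one_le_exp _
          _ ≤ Real.exp (Real.log x) := Real.exp_le_exp.2 (by linarith)
          _ = x := Real.exp_log hx
      have : 1 ≤ x - c := by linarith
      nlinarith
    refine ⟨?_, hbig⟩
    rcases le_or_gt S0 ρ with hS | hS
    · have h := hbig (by rw [abs_of_nonneg hp]; exact hS)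
      have h3 : 0 ≤ w * |ρ| := by positivity
      have h4 : 0 ≤ S0 * (cu + Real.exp A) := by positivity
      linarith
    · have h3 : -(S0 * cu) ≤ ρ * (x - c) := by
        have : ρ * c ≤ S0 * cu := by
          calc ρ * c ≤ ρ * cu := mul_le_mul_of_nonneg_left hc2 hp
            _ ≤ S0 * cu := mul_le_mul_of_nonneg_right hS.le hcu0.le
        have h5 : 0 ≤ ρ * x := by positivity
        nlinarith
      have h4 : 0 ≤ S0 * Real.exp A := by positivity
      nlinarith
  · have hs : 0 < -ρ := by linarith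
    have hxle : x ≤ Real.exp (A + ρ) := by
      calc x = Real.exp (Real.log x) := (Real.exp_log hx).symm
        _ ≤ Real.exp (A + ρ) := Real.exp_le_exp.2 (by linarith)
    have hbig : S0 ≤ |ρ| → w * |ρ| ≤ ρ * (x - c) := by
      intro hS
      rw [abs_of_neg hn] at hS ⊢
      have hx1 : x ≤ cl / 2 := by
        have hlog : Real.log (2 / cl) = - Real.log (cl / 2) := by
          rw [← Real.log_inv, inv_div]
        calc x ≤ Real.exp (A + ρ) := hxle
          _ ≤ Real.exp (Real.log (cl / 2)) := Real.exp_le_exp.2 (by rw [hlog] at h2; linarith)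
          _ = cl / 2 := Real.exp_log (by positivity)
      have h3 : cl / 2 ≤ c - x := by linarith
      have h4 : w ≤ c - x := hw2.trans h3
      nlinarith
    refine ⟨?_, hbig⟩
    rcases le_or_gt S0 (-ρ) with hS | hS
    · have h := hbig (by rw [abs_of_neg hn]; exact hS)
      have h3 : 0 ≤ w * |ρ| := by positivity
      have h4 : 0 ≤ S0 * (cu + Real.exp A) := by positivity
      linarith
    · have h3 : x ≤ Real.exp A := hxle.trans (Real.exp_le_exp.2 (by linarith))
      have h5 : (-ρ) * x ≤ S0 * Real.exp A := by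
        calc (-ρ) * x ≤ (-ρ) * Real.exp A := mul_le_mul_of_nonneg_left h3 hs.le
          _ ≤ S0 * Real.exp A := mul_le_mul_of_nonneg_right hS.le (Real.exp_pos _).le
      have h6 : 0 ≤ (-ρ) * c := mul_nonneg hs.le (hcl.le.trans hc1)
      have h7 : 0 ≤ S0 * cu := by positivity
      nlinarith

theorem dot_orth {d : ℕ} (R : Finset (Rxn d)) (ρ : Fin d → ℝ)
    (hρ : ∀ e ∈ R, dot ρ (rvec e) = 0) {v : Fin d → ℝ} (hv : v ∈ stoich R) : dot ρ v = 0 := by
  unfold stoich at hv
  induction hv using Submodule.span_induction with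
  | mem x hx =>
    obtain ⟨e, he, rfl⟩ := hx
    exact hρ e he
  | zero => simp [dot]
  | add x y _ _ hx hy =>
    have : dot ρ (x + y) = dot ρ x + dot ρ y := by
      simp [dot, mul_add, Finset.sum_add_distrib]
    rw [this, hx, hy, add_zero]
  | smul a x _ hx =>
    have : dot ρ (a • x) = a * dot ρ x := by
      simp only [dot, Pi.smul_apply, smul_eq_mul, Finset.mul_sum]
      exact Finset.sum_congr rfl fun i _ => by ring
    rw [this, hx, mul_zero]

theorem class_bound {d : ℕ} (R : Finset (Rxn d)) (c : Fin d → ℝ) (hc : ∀ i, 0 < c i) (A : ℝ) :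
    ∃ M : ℝ, 0 ≤ M ∧ ∀ x ∈ posClass R c, ∀ ρ : Fin d → ℝ, (∀ e ∈ R, dot ρ (rvec e) = 0) →
      (∀ i, |ρ i - Real.log (x i)| ≤ A) → ∀ i, |Real.log (x i)| ≤ M := by
  rcases Nat.eq_zero_or_pos d with hd | hd
  · subst hd
    exact ⟨0, le_rfl, fun x _ ρ _ _ i => i.elim0⟩
  have : Nonempty (Fin d) := ⟨⟨0, hd⟩⟩
  obtain ⟨il, -, hil⟩ := Finset.exists_min_image Finset.univ c Finset.univ_nonempty
  obtain ⟨iu, -, hiu⟩ := Finset.exists_max_image Finset.univ c Finset.univ_nonempty
  obtain ⟨m, M0, w, hm, hM0, hw, hterm⟩ :=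
    term_bound (c il) (c iu) A (hc il) (hil iu (Finset.mem_univ _))
  set M1 := max M0 ((d * m + 1) / w) with hM1
  refine ⟨M1 + |A|, by positivity, ?_⟩
  intro x hx ρ hρ hclose i
  have hsum : ∑ j, ρ j * (x j - c j) = 0 := by
    have := dot_orth R ρ hρ hx.2
    simpa [dot] using this
  have ht : ∀ j, -m ≤ ρ j * (x j - c j) ∧ (M0 ≤ |ρ j| → w * |ρ j| ≤ ρ j * (x j - c j)) :=
    fun j => hterm (ρ j) (x j) (c j) (hx.1 j) (hil j (Finset.mem_univ _))
      (hiu j (Finset.mem_univ _)) (hclose j)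
  have hρi : |ρ i| ≤ M1 := by
    by_contra hcon
    rw [not_le] at hcon
    have h1 := (ht i).2 ((le_max_left _ _).trans hcon.le)
    have h2 : (d * m + 1) / w < |ρ i| := (le_max_right _ _).trans_lt hcon
    rw [div_lt_iff₀ hw] at h2
    have h3 : ∑ j, ρ j * (x j - c j) = ρ i * (x i - c i)
        + ∑ j ∈ Finset.univ.erase i, ρ j * (x j - c j) :=
      (Finset.add_sum_erase _ _ (Finset.mem_univ i)).symm
    have h4 : ∑ j ∈ Finset.univ.erase i, (-m) ≤ ∑ j ∈ Finset.univ.erase i, ρ j * (x j - c j) :=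
      Finset.sum_le_sum fun j _ => (ht j).1
    rw [Finset.sum_const, Finset.card_erase_of_mem (Finset.mem_univ i), Finset.card_univ,
      Fintype.card_fin, nsmul_eq_mul] at h4
    have h5 : (((d - 1 : ℕ)) : ℝ) ≤ d := by exact_mod_cast Nat.sub_le _ _
    have h6 : ((d - 1 : ℕ) : ℝ) * m ≤ d * m := mul_le_mul_of_nonneg_right h5 hm
    nlinarith
  have h1 := hclose i
  have h2 : |Real.log (x i)| ≤ |ρ i| + |ρ i - Real.log (x i)| := by
    have : Real.log (x i) = ρ i - (ρ i - Real.log (x i)) := by ring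
    calc |Real.log (x i)| = |ρ i - (ρ i - Real.log (x i))| := by rw [← this]
      _ ≤ |ρ i| + |ρ i - Real.log (x i)| := abs_sub _ _
  have h3 := le_abs_self A
  linarith

theorem box_compact {d : ℕ} (R : Finset (Rxn d)) (c : Fin d → ℝ) (M : ℝ) :
    IsCompact {x : Fin d → ℝ | x ∈ posClass R c ∧ ∀ i, |Real.log (x i)| ≤ M} := by
  have heq : {x : Fin d → ℝ | x ∈ posClass R c ∧ ∀ i, |Real.log (x i)| ≤ M}
      = (fun x : Fin d → ℝ => x - c) ⁻¹' (stoich R : Set (Fin d → ℝ))
        ∩ Set.Icc (fun _ => Real.exp (-M)) (fun _ => Real.exp M) := by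
    ext x
    constructor
    · rintro ⟨⟨hpos, hmem⟩, hlog⟩
      refine ⟨hmem, ?_, ?_⟩
      · intro i
        have := (abs_le.1 (hlog i)).1
        show Real.exp (-M) ≤ x i
        rw [← Real.exp_log (hpos i)]
        exact Real.exp_le_exp.2 this
      · intro i
        have := (abs_le.1 (hlog i)).2
        show x i ≤ Real.exp M
        rw [← Real.exp_log (hpos i)]
        exact Real.exp_le_exp.2 this
    · rintro ⟨hmem, hlo, hhi⟩
      have hpos : ∀ i, 0 < x i := fun i => (Real.exp_pos _).trans_le (hlo i)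
      refine ⟨⟨hpos, hmem⟩, fun i => abs_le.2 ⟨?_, ?_⟩⟩
      · rw [Real.le_log_iff_exp_le (hpos i)]
        exact hlo i
      · rw [Real.log_le_iff_le_exp (hpos i)]
        exact hhi i
  rw [heq]
  refine IsCompact.inter_left isCompact_Icc ?_
  refine IsClosed.preimage (by fun_prop) ?_
  exact (stoich R).closed_of_finiteDimensional

end Vale.Agent.H10.WR
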