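import Mathlib

/-!
# Mass-action systems of finite reaction networks (P072)

Definitions used by the permanence theorem for weakly reversible mass-action systems.
-/

namespace Vale.Agent.H10.WR

open scoped BigOperators

/-- A reaction `y → y'`, given by its source complex `e.1` and target complex `e.2`,
both vectors of nonnegative integers. -/
abbrev Rxn (d : ℕ) := (Fin d → ℕ) × (Fin d → ℕ)

/-- The monomial `x ^ y = ∏ x_i ^ y_i`. -/
noncomputable def mono {d : ℕ} (y : Fin d → ℕ) (x : Fin d → ℝ) : ℝ := ∏ i, x i ^ y i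

/-- The reaction vector `y' - y` of a reaction, as a real vector. -/
def rvec {d : ℕ} (e : Rxn d) : Fin d → ℝ := fun i => (e.2 i : ℝ) - (e.1 i : ℝ)

/-- The mass-action vector field with reaction set `R` and rate constants `k`. -/
noncomputable def field {d : ℕ} (R : Finset (Rxn d)) (k : Rxn d → ℝ) (x : Fin d → ℝ) :
    Fin d → ℝ := ∑ e ∈ R, (k e * mono e.1 x) • rvec e

/-- Weak reversibility: for every reaction `y → y'` there is a directed path from `y'` to `y`. -/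
def WeaklyReversible {d : ℕ} (R : Finset (Rxn d)) : Prop :=
  ∀ e ∈ R, Relation.ReflTransGen (fun a b : Fin d → ℕ => (a, b) ∈ R) e.2 e.1

/-- The stoichiometric subspace. -/
def stoich {d : ℕ} (R : Finset (Rxn d)) : Submodule ℝ (Fin d → ℝ) :=
  Submodule.span ℝ {v | ∃ e ∈ R, v = rvec e}

/-- The positive stoichiometric class of `c`. -/
def posClass {d : ℕ} (R : Finset (Rxn d)) (c : Fin d → ℝ) : Set (Fin d → ℝ) :=
  {x | (∀ i, 0 < x i) ∧ x - c ∈ stoich R}

/-- `ρ · x`. -/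
def dot {d : ℕ} (ρ x : Fin d → ℝ) : ℝ := ∑ i, ρ i * x i

/-- The sign property of `ρ` at `x`: integer vectors of size at most `B` with positive
product with `ρ` have product at least `1` with `ρ` and product larger than `κ`
with `log x`. -/
def SignProp {d : ℕ} (B : ℕ) (κ : ℝ) (ρ x : Fin d → ℝ) : Prop :=
  ∀ z : Fin d → ℤ, (∀ i, |z i| ≤ (B : ℤ)) → 0 < ∑ i, (z i : ℝ) * ρ i →
    1 ≤ ∑ i, (z i : ℝ) * ρ i ∧ κ < ∑ i, (z i : ℝ) * Real.log (x i)

/-- A rounding family: a set `V` of pairs `(ρ, e)` whose supremum of `ρ · x - e`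
has near-maximisers close to `log x` with the sign property. -/
structure Rounding (d : ℕ) (B : ℕ) (κ CΩ Rmax : ℝ) (V : Set ((Fin d → ℝ) × ℝ)) : Prop where
  bdd : ∀ x : Fin d → ℝ, (∀ i, 0 < x i) → ∃ M : ℝ, ∀ p ∈ V, dot p.1 x - p.2 ≤ M
  proper : ∃ A : ℝ, 0 < A ∧ ∃ D : ℝ, ∀ x : Fin d → ℝ, (∀ i, 0 < x i) →
    ∃ p ∈ V, A * ∑ i, x i - D ≤ dot p.1 x - p.2
  near : ∀ x : Fin d → ℝ, (∀ i, 0 < x i) → ∀ η : ℝ, 0 < η → ∃ p ∈ V,
    (∀ q ∈ V, dot q.1 x - q.2 ≤ dot p.1 x - p.2 + η) ∧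
    SignProp B κ p.1 x ∧
    (∀ i, |p.1 i - Real.log (x i)| ≤ Rmax) ∧
    (∀ i, (∀ j, x i ≤ x j → |Real.log (x j)| ≤ CΩ) → p.1 i = 0)

/-- `x` is a solution of the mass-action system on `[0, T)` with positive values. -/
def PosSolOn {d : ℕ} (R : Finset (Rxn d)) (k : Rxn d → ℝ) (x : ℝ → Fin d → ℝ) (T : ℝ) : Prop :=
  ∀ t : ℝ, 0 ≤ t → t < T → (∀ i, 0 < x t i) ∧ HasDerivWithinAt x (field R k (x t)) (Set.Ici 0) t

/-- `x` is a positive solution of the mass-action system on `[0, ∞)`. -/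
def PosSol {d : ℕ} (R : Finset (Rxn d)) (k : Rxn d → ℝ) (x : ℝ → Fin d → ℝ) : Prop :=
  ∀ t : ℝ, 0 ≤ t → (∀ i, 0 < x t i) ∧ HasDerivWithinAt x (field R k (x t)) (Set.Ici 0) t

end Vale.Agent.H10.WR
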