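import Vale.Agent.H10.WRDefs

/-!
# P072, row A: the drift inequality
-/

namespace Vale.Agent.H10.WR

open scoped BigOperators
open MeasureTheory

/-- `ρ · y` for a complex `y` -/
noncomputable def gam {d : ℕ} (ρ : Fin d → ℝ) (y : Fin d → ℕ) : ℝ := ∑ i, (y i : ℝ) * ρ i

theorem dot_rvec {d : ℕ} (ρ : Fin d → ℝ) (e : Rxn d) :
    dot ρ (rvec e) = gam ρ e.2 - gam ρ e.1 := by
  unfold dot rvec gam
  rw [← Finset.sum_sub_distrib]
  exact Finset.sum_congr rfl fun i _ => by ring

theorem dot_field {d : ℕ} (R : Finset (Rxn d)) (k : Rxn d → ℝ) (ρ x : Fin d → ℝ) :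
    dot ρ (field R k x) = ∑ e ∈ R, k e * mono e.1 x * (gam ρ e.2 - gam ρ e.1) := by
  have h1 : dot ρ (field R k x) = ∑ e ∈ R, k e * mono e.1 x * dot ρ (rvec e) := by
    unfold dot field
    simp only [Finset.sum_apply, Pi.smul_apply, smul_eq_mul, Finset.mul_sum]
    rw [Finset.sum_comm]
    refine Finset.sum_congr rfl fun e _ => Finset.sum_congr rfl fun i _ => ?_
    ring
  rw [h1]
  exact Finset.sum_congr rfl fun e _ => by rw [dot_rvec]

theorem mono_pos {d : ℕ} (y : Fin d → ℕ) {x : Fin d → ℝ} (hx : ∀ i, 0 < x i) : 0 < mono y x :=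
  Finset.prod_pos fun i _ => pow_pos (hx i) _

theorem mono_eq_exp {d : ℕ} (y : Fin d → ℕ) {x : Fin d → ℝ} (hx : ∀ i, 0 < x i) :
    mono y x = Real.exp (∑ i, (y i : ℝ) * Real.log (x i)) := by
  unfold mono
  rw [Real.exp_sum]
  refine Finset.prod_congr rfl fun i _ => ?_
  rw [mul_comm, Real.exp_mul, Real.exp_log (hx i), Real.rpow_natCast]

/-- coverage of the levels between the two ends of a path -/
theorem path_cover {d : ℕ} (R : Finset (Rxn d)) (ρ : Fin d → ℝ) {a b : Fin d → ℕ}
    (h : Relation.ReflTransGen (fun a b : Fin d → ℕ => (a, b) ∈ R) a b) (s : ℝ)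
    (hs : gam ρ b ≤ s) (hs2 : s < gam ρ a) :
    ∃ e ∈ R, gam ρ e.2 ≤ s ∧ s < gam ρ e.1 := by
  induction h using Relation.ReflTransGen.head_induction_on with
  | refl => linarith
  | @head a c hac hcb ih =>
    rcases lt_or_ge s (gam ρ c) with h1 | h1
    · exact ih h1
    · exact ⟨(a, c), hac, h1, hs2⟩

/-- the height of an up edge is at most the total height of the down edges starting above its
source -/
theorem up_le {d : ℕ} (R : Finset (Rxn d)) (hwr : WeaklyReversible R) (ρ : Fin d → ℝ)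
    {e0 : Rxn d} (he0 : e0 ∈ R) (hup : gam ρ e0.1 < gam ρ e0.2) :
    gam ρ e0.2 - gam ρ e0.1 ≤ ∑ e ∈ R.filter (fun e => gam ρ e.2 < gam ρ e.1 ∧
      gam ρ e0.1 < gam ρ e.1), (gam ρ e.1 - gam ρ e.2) := by
  set D := R.filter (fun e => gam ρ e.2 < gam ρ e.1 ∧ gam ρ e0.1 < gam ρ e.1) with hD
  have hcov : Set.Ico (gam ρ e0.1) (gam ρ e0.2) ⊆
      ⋃ e ∈ D, Set.Ico (gam ρ e.2) (gam ρ e.1) := by
    intro s hs
    obtain ⟨e, he, h1, h2⟩ := path_cover R ρ (hwr e0 he0) s hs.1 hs.2
    refine Set.mem_iUnion₂.2 ⟨e, ?_, h1, h2⟩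
    rw [hD, Finset.mem_filter]
    exact ⟨he, lt_of_le_of_lt h1 h2, lt_of_le_of_lt hs.1 h2⟩
  have h1 := (measure_mono (μ := volume) hcov).trans (measure_biUnion_finset_le D _)
  simp only [Real.volume_Ico] at h1
  rw [← ENNReal.ofReal_sum_of_nonneg (fun e he => by
    rw [hD, Finset.mem_filter] at he
    linarith [he.2.1])] at h1
  rwa [ENNReal.ofReal_le_ofReal_iff (Finset.sum_nonneg fun e he => by
    rw [hD, Finset.mem_filter] at he
    linarith [he.2.1])] at h1

theorem drift {d : ℕ} (R : Finset (Rxn d)) (k : Rxn d → ℝ) (hk : ∀ e ∈ R, 0 < k e)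
    (hwr : WeaklyReversible R) :
    ∃ (B : ℕ) (κ : ℝ) (c0 : ℝ), 1 ≤ B ∧ 0 < κ ∧ 0 < c0 ∧
      ∀ (x ρ : Fin d → ℝ), (∀ i, 0 < x i) → SignProp B κ ρ x →
      dot ρ (field R k x) ≤ 0 ∧
      ((∃ e ∈ R, dot ρ (rvec e) ≠ 0) → ∀ m : ℝ, 0 ≤ m → (∀ e ∈ R, m ≤ mono e.1 x) →
        dot ρ (field R k x) ≤ - (c0 * m)) := by
  classical
  -- constants
  set Q : ℝ := ∑ e0 ∈ R, ∑ e ∈ R, k e0 / k e with hQ
  have hQ0 : 0 ≤ Q := Finset.sum_nonneg fun e0 h0 => Finset.sum_nonneg fun e he => by
    have := hk e0 h0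
    have := hk e he
    positivity
  have hQk : ∀ e0 ∈ R, ∀ e ∈ R, k e0 ≤ Q * k e := by
    intro e0 h0 e he
    have h1 : k e0 / k e ≤ Q := by
      calc k e0 / k e ≤ ∑ e ∈ R, k e0 / k e :=
            Finset.single_le_sum (f := fun e => k e0 / k e)
              (fun e he => by have := hk e0 h0; have := hk e he; positivity) he
        _ ≤ Q := Finset.single_le_sum (f := fun e0 => ∑ e ∈ R, k e0 / k e)
              (fun e0 h0 => Finset.sum_nonneg fun e he => by
                have := hk e0 h0; have := hk e he; positivity) h0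
    rwa [div_le_iff₀ (hk e he)] at h1
  obtain ⟨kmin, hkmin0, hkmin⟩ : ∃ kmin : ℝ, 0 < kmin ∧ ∀ e ∈ R, kmin ≤ k e := by
    rcases R.eq_empty_or_nonempty with h | h
    · exact ⟨1, one_pos, by simp [h]⟩
    · obtain ⟨e, he, hmin⟩ := Finset.exists_min_image R k h
      exact ⟨k e, hk e he, hmin⟩
  set B : ℕ := 1 + ∑ e ∈ R, ∑ i, (e.1 i + e.2 i) with hB
  have hBe : ∀ e ∈ R, ∀ i, e.1 i + e.2 i ≤ B := by
    intro e he i
    have h1 : e.1 i + e.2 i ≤ ∑ i, (e.1 i + e.2 i) :=
      Finset.single_le_sum (f := fun i => e.1 i + e.2 i) (fun _ _ => Nat.zero_le _)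
        (Finset.mem_univ i)
    have h2 : ∑ i, (e.1 i + e.2 i) ≤ ∑ e ∈ R, ∑ i, (e.1 i + e.2 i) :=
      Finset.single_le_sum (f := fun e : Rxn d => ∑ i, (e.1 i + e.2 i))
        (fun _ _ => Nat.zero_le _) he
    omega
  set N : ℝ := 2 * (R.card * Q + 1) with hN
  have hN1 : 2 ≤ N := by
    have : 0 ≤ (R.card : ℝ) * Q := by positivity
    rw [hN]; linarith
  set κ : ℝ := Real.log N with hκ
  have hκ0 : 0 < κ := Real.log_pos (by linarith)
  have hexp : Real.exp κ = N := Real.exp_log (by linarith)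
  refine ⟨B, κ, kmin / 2, by omega, hκ0, by positivity, fun x ρ hx hS => ?_⟩
  set w : Rxn d → ℝ := fun e => k e * mono e.1 x with hw
  have hw0 : ∀ e ∈ R, 0 < w e := fun e he => mul_pos (hk e he) (mono_pos _ hx)
  set Dn := R.filter (fun e => gam ρ e.2 < gam ρ e.1) with hDn
  set Up := R.filter (fun e => gam ρ e.1 < gam ρ e.2) with hUp
  set Down : ℝ := ∑ e ∈ Dn, w e * (gam ρ e.1 - gam ρ e.2) with hDown
  have hDown0 : 0 ≤ Down := Finset.sum_nonneg fun e he => by
    rw [hDn, Finset.mem_filter] at he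
    have := hw0 e he.1
    exact mul_nonneg this.le (by linarith [he.2])
  -- comparison of monomials
  have hmono : ∀ e0 ∈ R, ∀ e ∈ R, gam ρ e0.1 < gam ρ e.1 →
      N * mono e0.1 x ≤ mono e.1 x := by
    intro e0 h0 e he hlt
    have hz := hS (fun i => (e.1 i : ℤ) - (e0.1 i : ℤ)) (fun i => by
      have h1 := hBe e0 h0 i
      have h2 := hBe e he i
      rw [abs_le]
      constructor <;> omega) (by
      have : ∑ i, (((e.1 i : ℤ) - (e0.1 i : ℤ) : ℤ) : ℝ) * ρ i = gam ρ e.1 - gam ρ e0.1 := by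
        unfold gam
        rw [← Finset.sum_sub_distrib]
        refine Finset.sum_congr rfl fun i _ => ?_
        push_cast; ring
      rw [this]; linarith)
    have h3 : ∑ i, (((e.1 i : ℤ) - (e0.1 i : ℤ) : ℤ) : ℝ) * Real.log (x i)
        = ∑ i, (e.1 i : ℝ) * Real.log (x i) - ∑ i, (e0.1 i : ℝ) * Real.log (x i) := by
      rw [← Finset.sum_sub_distrib]
      refine Finset.sum_congr rfl fun i _ => ?_
      push_cast; ring
    rw [h3] at hz
    rw [mono_eq_exp e0.1 hx, mono_eq_exp e.1 hx, ← hexp, ← Real.exp_add]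
    exact Real.exp_le_exp.2 (by linarith [hz.2])
  -- the up part
  have hup1 : ∀ e0 ∈ Up, w e0 * (gam ρ e0.2 - gam ρ e0.1) ≤ Q / N * Down := by
    intro e0 h0
    rw [hUp, Finset.mem_filter] at h0
    have h1 := up_le R hwr ρ h0.1 h0.2
    set D := R.filter (fun e => gam ρ e.2 < gam ρ e.1 ∧ gam ρ e0.1 < gam ρ e.1) with hD
    calc w e0 * (gam ρ e0.2 - gam ρ e0.1)
        ≤ w e0 * ∑ e ∈ D, (gam ρ e.1 - gam ρ e.2) :=
          mul_le_mul_of_nonneg_left h1 (hw0 e0 h0.1).le
      _ = ∑ e ∈ D, w e0 * (gam ρ e.1 - gam ρ e.2) := by rw [Finset.mul_sum]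
      _ ≤ ∑ e ∈ D, Q / N * (w e * (gam ρ e.1 - gam ρ e.2)) := by
          refine Finset.sum_le_sum fun e he => ?_
          rw [hD, Finset.mem_filter] at he
          have h2 : w e0 ≤ Q / N * w e := by
            have h3 := hmono e0 h0.1 e he.1 he.2.2
            have h4 := hQk e0 h0.1 e he.1
            have h5 := mono_pos e0.1 hx
            have h6 := hk e he.1
            calc k e0 * mono e0.1 x ≤ (Q * k e) * mono e0.1 x :=
                  mul_le_mul_of_nonneg_right h4 h5.le
              _ = (Q / N * k e) * (N * mono e0.1 x) := by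
                  have : N ≠ 0 := by linarith
                  field_simp
              _ ≤ (Q / N * k e) * mono e.1 x :=
                  mul_le_mul_of_nonneg_left h3 (by
                    have : 0 < N := by linarith
                    positivity)
              _ = Q / N * (k e * mono e.1 x) := by ring
          calc w e0 * (gam ρ e.1 - gam ρ e.2) ≤ (Q / N * w e) * (gam ρ e.1 - gam ρ e.2) :=
                mul_le_mul_of_nonneg_right h2 (by linarith [he.2.1])
            _ = _ := by ring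
      _ = Q / N * ∑ e ∈ D, w e * (gam ρ e.1 - gam ρ e.2) := by rw [Finset.mul_sum]
      _ ≤ Q / N * Down := by
          refine mul_le_mul_of_nonneg_left ?_ (by
            have : 0 < N := by linarith
            positivity)
          refine Finset.sum_le_sum_of_subset_of_nonneg (fun e he => ?_) (fun e he _ => ?_)
          · rw [hD, Finset.mem_filter] at he
            rw [hDn, Finset.mem_filter]
            exact ⟨he.1, he.2.1⟩
          · rw [hDn, Finset.mem_filter] at he
            exact mul_nonneg (hw0 e he.1).le (by linarith [he.2])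
  have hup2 : ∑ e ∈ Up, w e * (gam ρ e.2 - gam ρ e.1) ≤ Down / 2 := by
    calc ∑ e ∈ Up, w e * (gam ρ e.2 - gam ρ e.1) ≤ ∑ _e ∈ Up, Q / N * Down :=
          Finset.sum_le_sum hup1
      _ = Up.card * (Q / N * Down) := by rw [Finset.sum_const, nsmul_eq_mul]
      _ ≤ R.card * (Q / N * Down) := by
          have h7 : (Up.card : ℝ) ≤ R.card := by
            exact_mod_cast Finset.card_filter_le _ _
          refine mul_le_mul_of_nonneg_right h7 ?_
          have : 0 < N := by linarith
          positivity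
      _ ≤ Down / 2 := by
          have h8 : (R.card : ℝ) * (Q / N) ≤ 1 / 2 := by
            rw [← mul_div_assoc, div_le_iff₀ (by linarith)]
            rw [hN]; linarith
          calc (R.card : ℝ) * (Q / N * Down) = ((R.card : ℝ) * (Q / N)) * Down := by ring
            _ ≤ 1 / 2 * Down := mul_le_mul_of_nonneg_right h8 hDown0
            _ = _ := by ring
  -- the splitting
  have hsplit : dot ρ (field R k x) = ∑ e ∈ Up, w e * (gam ρ e.2 - gam ρ e.1) - Down := by
    rw [dot_field, hDown, hUp, hDn, Finset.sum_filter, Finset.sum_filter,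
      ← Finset.sum_sub_distrib]
    refine Finset.sum_congr rfl fun e _ => ?_
    rcases lt_trichotomy (gam ρ e.1) (gam ρ e.2) with h | h | h
    · rw [if_pos h, if_neg (not_lt.2 h.le), sub_zero]
    · rw [if_neg (by rw [h]; exact lt_irrefl _), if_neg (by rw [h]; exact lt_irrefl _), h]
      simp
    · rw [if_neg (not_lt.2 h.le), if_pos h]
      ring
  have hmain : dot ρ (field R k x) ≤ - (Down / 2) := by rw [hsplit]; linarith
  refine ⟨by linarith, ?_⟩
  rintro ⟨e1, he1, hne⟩ m hm hmle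
  -- there is a down edge
  obtain ⟨e, he, hdown⟩ : ∃ e ∈ R, gam ρ e.2 < gam ρ e.1 := by
    rw [dot_rvec] at hne
    rcases lt_or_gt_of_ne (sub_ne_zero.1 hne) with h | h
    · exact ⟨e1, he1, h⟩
    · have h1 := up_le R hwr ρ he1 h
      by_contra hcon
      push Not at hcon
      have h2 : R.filter (fun e => gam ρ e.2 < gam ρ e.1 ∧ gam ρ e1.1 < gam ρ e.1) = ∅ := by
        rw [Finset.filter_eq_empty_iff]
        intro e he hh
        exact absurd hh.1 (not_lt.2 (hcon e he))
      rw [h2, Finset.sum_empty] at h1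
      linarith
  have hz := hS (fun i => (e.1 i : ℤ) - (e.2 i : ℤ)) (fun i => by
    have h2 := hBe e he i
    rw [abs_le]
    constructor <;> omega) (by
    have : ∑ i, (((e.1 i : ℤ) - (e.2 i : ℤ) : ℤ) : ℝ) * ρ i = gam ρ e.1 - gam ρ e.2 := by
      unfold gam
      rw [← Finset.sum_sub_distrib]
      refine Finset.sum_congr rfl fun i _ => ?_
      push_cast; ring
    rw [this]; linarith)
  have hge1 : 1 ≤ gam ρ e.1 - gam ρ e.2 := by
    have : ∑ i, (((e.1 i : ℤ) - (e.2 i : ℤ) : ℤ) : ℝ) * ρ i = gam ρ e.1 - gam ρ e.2 := by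
      unfold gam
      rw [← Finset.sum_sub_distrib]
      refine Finset.sum_congr rfl fun i _ => ?_
      push_cast; ring
    rw [← this]; exact hz.1
  have hDownm : kmin * m ≤ Down := by
    calc kmin * m ≤ k e * mono e.1 x :=
          mul_le_mul (hkmin e he) (hmle e he) hm (hk e he).le
      _ = w e * 1 := by rw [mul_one]
      _ ≤ w e * (gam ρ e.1 - gam ρ e.2) := mul_le_mul_of_nonneg_left hge1 (hw0 e he).le
      _ ≤ Down := Finset.single_le_sum (f := fun e => w e * (gam ρ e.1 - gam ρ e.2))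
          (fun e he => by
            rw [hDn, Finset.mem_filter] at he
            exact mul_nonneg (hw0 e he.1).le (by linarith [he.2]))
          (by rw [hDn, Finset.mem_filter]; exact ⟨he, hdown⟩)
  linarith

end Vale.Agent.H10.WR
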