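import Vale.Agent.H10.WRDefs

/-!
# Statement of the rounding theorem (P072)
-/

namespace Vale.Agent.H10.WR

/-- The rounding theorem in dimension `d`. -/
def RoundingThm (d : ℕ) : Prop := ∀ (B : ℕ) (κ CΩ : ℝ), 0 ≤ κ →
  ∃ (Rmax : ℝ) (V : Set ((Fin d → ℝ) × ℝ)), Rounding d B κ CΩ Rmax V

end Vale.Agent.H10.WR
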