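import Vale.Agent.H10.WRMono
import Vale.Agent.H10.WRThm
import Vale.Agent.H10.WRDrift

/-!
# P072, row G1: a-priori bound and persistence from the rounding theorem
-/

namespace Vale.Agent.H10.WR

open scoped BigOperators Topology
open Set Filter

theorem PosSol.posSolOn {d : ℕ} {R : Finset (Rxn d)} {k : Rxn d → ℝ} {x : ℝ → Fin d → ℝ}
    (hx : PosSol R k x) (T : ℝ) : PosSolOn R k x T := fun t ht _ => hx t ht

/-- `W` does not increase along positive solutions. -/
theorem W_antitone {d B : ℕ} {κ CΩ Rmax : ℝ} {V : Set ((Fin d → ℝ) × ℝ)}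
    (hV : Rounding d B κ CΩ Rmax V) (R : Finset (Rxn d)) (k : Rxn d → ℝ)
    (hdr : ∀ (x ρ : Fin d → ℝ), (∀ i, 0 < x i) → SignProp B κ ρ x → dot ρ (field R k x) ≤ 0)
    (x : ℝ → Fin d → ℝ) (T : ℝ) (hx : PosSolOn R k x T) (s t : ℝ) (hs : 0 ≤ s) (hst : s ≤ t)
    (ht : t < T) : W V (x t) ≤ W V (x s) := by
  have h := W_decrease hV R k x s t 0 hst
    (fun τ h1 h2 => (hx τ (hs.trans h1) (h2.trans_lt ht)).1)
    (fun τ h1 h2 => (hx τ (hs.trans h1) (h2.trans_lt ht)).2.mono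
      fun y hy => hs.trans hy.1)
    (fun τ h1 h2 ρ h3 _ => by
      have := hdr (x τ) ρ (hx τ (hs.trans h1) (h2.trans_lt ht)).1 h3
      simpa using this)
  simpa using h

theorem apriori_bound {d : ℕ} (HR : RoundingThm d) (R : Finset (Rxn d)) (k : Rxn d → ℝ)
    (hk : ∀ e ∈ R, 0 < k e) (hwr : WeaklyReversible R)
    (x0 : Fin d → ℝ) (_hx0 : ∀ i, 0 < x0 i) :
    ∃ M : ℝ, ∀ T : ℝ, 0 < T → ∀ x : ℝ → Fin d → ℝ, x 0 = x0 → PosSolOn R k x T →
      ∀ t, 0 ≤ t → t < T → ∀ i, x t i ≤ M := by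
  obtain ⟨B, κ, c0, _, hκ, _, hdr⟩ := drift R k hk hwr
  obtain ⟨Rmax, V, hV⟩ := HR B κ 0 hκ.le
  obtain ⟨A, hA, D, hAD⟩ := hV.proper
  refine ⟨(W V x0 + D) / A, fun T _ x hx0' hx t ht htT i => ?_⟩
  have h1 := W_antitone hV R k (fun x ρ hx hs => (hdr x ρ hx hs).1) x T hx 0 t le_rfl ht htT
  have hpos := (hx t ht htT).1
  obtain ⟨p, hp, h2⟩ := hAD (x t) hpos
  have h3 := le_W hV hpos hp
  have h4 : x t i ≤ ∑ j, x t j :=
    Finset.single_le_sum (f := fun j => x t j) (fun j _ => (hpos j).le) (Finset.mem_univ i)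
  rw [le_div_iff₀ hA]
  rw [hx0'] at h1
  nlinarith

theorem persistent {d : ℕ} (HR : RoundingThm d) (R : Finset (Rxn d)) (k : Rxn d → ℝ)
    (hk : ∀ e ∈ R, 0 < k e) (hwr : WeaklyReversible R)
    (x : ℝ → Fin d → ℝ) (hx : PosSol R k x) :
    ∃ m M : ℝ, 0 < m ∧ ∀ t, 0 ≤ t → ∀ i, m ≤ x t i ∧ x t i ≤ M := by
  obtain ⟨M, hM⟩ := apriori_bound HR R k hk hwr (x 0) (hx 0 le_rfl).1
  have hM' : ∀ t, 0 ≤ t → ∀ i, x t i ≤ M := fun t ht i =>
    hM (t + 1) (by linarith) x rfl (hx.posSolOn _) t ht (by linarith) i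
  by_contra hcon
  push Not at hcon
  -- positive lower bounds on compact time intervals
  have hcont : ContinuousOn x (Ici 0) := fun t ht => (hx t ht).2.continuousWithinAt
  have hlow : ∀ n : ℕ, ∃ δ : ℝ, 0 < δ ∧ ∀ t : ℝ, 0 ≤ t → t ≤ n → ∀ i, δ ≤ x t i := by
    intro n
    have h1 : ∀ i, ∃ δ : ℝ, 0 < δ ∧ ∀ t : ℝ, 0 ≤ t → t ≤ n → δ ≤ x t i := by
      intro i
      have hc : ContinuousOn (fun t => x t i) (Icc 0 (n : ℝ)) := fun t ht =>
        ((continuous_apply i).continuousAt.comp_continuousWithinAt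
          ((hcont t ht.1).mono Icc_subset_Ici_self))
      obtain ⟨t0, ht0, hmin⟩ := isCompact_Icc.exists_isMinOn
        ⟨0, ⟨le_rfl, Nat.cast_nonneg n⟩⟩ hc
      exact ⟨x t0 i, (hx t0 ht0.1).1 i, fun t h1 h2 => hmin ⟨h1, h2⟩⟩
    choose δ hδ0 hδ using h1
    rcases isEmpty_or_nonempty (Fin d) with hE | hE
    · exact ⟨1, one_pos, fun t _ _ i => (hE.false i).elim⟩
    · refine ⟨Finset.univ.inf' Finset.univ_nonempty δ, ?_, fun t h1 h2 i => ?_⟩
      · rw [Finset.lt_inf'_iff]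
        exact fun i _ => hδ0 i
      · exact (Finset.inf'_le _ (Finset.mem_univ i)).trans (hδ i t h1 h2)
  -- a sequence of late times with a small coordinate
  have hseq : ∀ n : ℕ, ∃ t : ℝ, (n : ℝ) < t ∧ ∃ i, x t i < 1 / ((n : ℝ) + 1) := by
    intro n
    obtain ⟨δ, hδ0, hδ⟩ := hlow n
    obtain ⟨t, ht, i, hi⟩ := hcon (min δ (1 / ((n : ℝ) + 1))) M (by positivity)
    have hi' : x t i < min δ (1 / ((n : ℝ) + 1)) := by
      by_contra hle
      have := hi (not_lt.1 hle)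
      exact absurd (hM' t ht i) (not_le.2 this)
    refine ⟨t, ?_, i, hi'.trans_le (min_le_right _ _)⟩
    by_contra hle
    exact absurd (hδ t ht (not_lt.1 hle) i) (not_le.2 (hi'.trans_le (min_le_left _ _)))
  choose τ hτ ι hι using hseq
  have hτ0 : ∀ n, 0 ≤ τ n := fun n => (Nat.cast_nonneg n).trans (hτ n).le
  -- a limit point
  have hcomp : IsCompact (Set.pi univ fun _ : Fin d => Icc (0 : ℝ) M) :=
    isCompact_univ_pi fun _ => isCompact_Icc
  obtain ⟨xs, hxs, φ, hφ, hlim⟩ := hcomp.tendsto_subseq (x := fun n => x (τ n))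
    (fun n i _ => ⟨((hx _ (hτ0 n)).1 i).le, hM' _ (hτ0 n) i⟩)
  have hlimi : ∀ i, Tendsto (fun n => x (τ (φ n)) i) atTop (𝓝 (xs i)) := fun i =>
    ((continuous_apply i).tendsto xs).comp hlim
  have hxs0 : ∀ i, 0 ≤ xs i := fun i => (hxs i (mem_univ i)).1
  -- some coordinate of the limit vanishes
  obtain ⟨i0, hi0⟩ : ∃ i, xs i = 0 := by
    by_contra hne
    push Not at hne
    have hpos : ∀ i, 0 < xs i := fun i => lt_of_le_of_ne (hxs0 i) (hne i).symm
    have h1 : ∀ᶠ n in atTop, ∀ i, xs i / 2 < x (τ (φ n)) i := by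
      rw [eventually_all]
      intro i
      exact (hlimi i).eventually (lt_mem_nhds (by linarith [hpos i]))
    have h2 : ∀ᶠ n : ℕ in atTop, ∀ i, 1 / ((φ n : ℝ) + 1) < xs i / 2 := by
      rw [eventually_all]
      intro i
      have h3 : Tendsto (fun n : ℕ => 1 / ((φ n : ℝ) + 1)) atTop (𝓝 0) :=
        tendsto_one_div_add_atTop_nhds_zero_nat.comp hφ.tendsto_atTop
      exact h3.eventually (gt_mem_nhds (by linarith [hpos i]))
    obtain ⟨n, h3, h4⟩ := (h1.and h2).exists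
    have h5 := hι (φ n)
    have h6 := h3 (ι (φ n))
    have h7 := h4 (ι (φ n))
    linarith
  -- the rounding
  obtain ⟨B, κ, c0, _, hκ, _, hdr⟩ := drift R k hk hwr
  set CΩ : ℝ := 1 + ∑ i, |Real.log (xs i)| with hCΩ
  obtain ⟨Rmax, V, hV⟩ := HR B κ CΩ hκ.le
  have E1 : ∀ᶠ n in atTop, ∀ i, xs i ≠ 0 → |Real.log (x (τ (φ n)) i)| ≤ CΩ := by
    rw [eventually_all]
    intro i
    by_cases hi : xs i = 0
    · exact Eventually.of_forall fun n h => absurd hi h
    · have h1 : Tendsto (fun n => |Real.log (x (τ (φ n)) i)|) atTop (𝓝 |Real.log (xs i)|) :=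
        ((hlimi i).log hi).abs
      have h2 : |Real.log (xs i)| < CΩ := by
        have h3 : |Real.log (xs i)| ≤ ∑ i, |Real.log (xs i)| :=
          Finset.single_le_sum (f := fun i => |Real.log (xs i)|) (fun _ _ => abs_nonneg _)
            (Finset.mem_univ i)
        rw [hCΩ]; linarith
      filter_upwards [h1.eventually (gt_mem_nhds h2)] with n hn _
      exact hn.le
  have E2 : ∀ᶠ n in atTop, ∀ i, xs i = 0 → x (τ (φ n)) i < Real.exp (-Rmax - 1) := by
    rw [eventually_all]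
    intro i
    by_cases hi : xs i = 0
    · have h1 := hlimi i
      rw [hi] at h1
      filter_upwards [h1.eventually (gt_mem_nhds (Real.exp_pos (-Rmax - 1)))] with n hn _
      exact hn
    · exact Eventually.of_forall fun n h => absurd h hi
  have E3 : ∀ᶠ n in atTop, ∀ i j, xs i = 0 → xs j ≠ 0 → x (τ (φ n)) i < x (τ (φ n)) j := by
    rw [eventually_all]
    intro i
    rw [eventually_all]
    intro j
    by_cases hi : xs i = 0
    · by_cases hj : xs j = 0
      · exact Eventually.of_forall fun n _ h => absurd hj h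
      · have hj' : 0 < xs j := lt_of_le_of_ne (hxs0 j) (Ne.symm hj)
        have h1 := (hlimi i).eventually (gt_mem_nhds (show xs i < xs j / 2 by rw [hi]; linarith))
        have h2 := (hlimi j).eventually (lt_mem_nhds (show xs j / 2 < xs j by linarith))
        filter_upwards [h1, h2] with n h3 h4 _ _
        exact h3.trans h4
    · exact Eventually.of_forall fun n h => absurd h hi
  obtain ⟨N, hN1, hN2, hN3⟩ := (E1.and (E2.and E3)).exists
  set s : ℝ := τ (φ N) with hs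
  have hs0 : 0 ≤ s := hτ0 _
  have hxpos := (hx s hs0).1
  obtain ⟨p, hp, hp1, _, hp3, hp4⟩ := W_near hV hxpos (x s i0 / 2) (by linarith [hxpos i0])
  have hZ : ∀ i, xs i = 0 → p.1 i ≤ -1 := by
    intro i hi
    have h1 := hN2 i hi
    have h2 : Real.log (x s i) < -Rmax - 1 := by
      rw [Real.log_lt_iff_lt_exp (hxpos i)]
      exact h1
    have h3 := (abs_le.1 (hp3 i)).2
    linarith
  have hnZ : ∀ j, xs j ≠ 0 → p.1 j = 0 := by
    intro j hj
    refine hp4 j fun l hl => ?_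
    refine hN1 l fun hl0 => ?_
    exact absurd (hN3 l j hl0 hj) (not_lt.2 hl)
  have hdot : dot p.1 (x s) ≤ - x s i0 := by
    unfold dot
    have h1 : ∀ i, p.1 i * x s i ≤ 0 := by
      intro i
      by_cases hi : xs i = 0
      · have := hZ i hi
        nlinarith [hxpos i]
      · rw [hnZ i hi]; simp
    have h2 : ∑ i, p.1 i * x s i ≤ p.1 i0 * x s i0 := by
      rw [← Finset.add_sum_erase _ _ (Finset.mem_univ i0)]
      have : ∑ i ∈ Finset.univ.erase i0, p.1 i * x s i ≤ 0 :=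
        Finset.sum_nonpos fun i _ => h1 i
      linarith
    have h3 := hZ i0 hi0
    nlinarith [hxpos i0]
  have hW : W V (x s) ≤ -p.2 - x s i0 / 2 := by linarith
  have hlimdot : Tendsto (fun n => dot p.1 (x (τ (φ n))) - p.2) atTop (𝓝 (dot p.1 xs - p.2)) := by
    refine Tendsto.sub_const ?_ _
    unfold dot
    exact tendsto_finsetSum _ fun i _ => (hlimi i).const_mul _
  have hev : ∀ᶠ n in atTop, dot p.1 (x (τ (φ n))) - p.2 ≤ -p.2 - x s i0 / 2 := by
    obtain ⟨n0, hn0⟩ := exists_nat_ge s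
    filter_upwards [eventually_ge_atTop n0] with n hn
    have h1 : s ≤ τ (φ n) := by
      have h2 : (n0 : ℝ) ≤ n := by exact_mod_cast hn
      have h3 : (n : ℝ) ≤ φ n := by exact_mod_cast hφ.id_le n
      exact hn0.trans (h2.trans (h3.trans (hτ _).le))
    have h2 := W_antitone hV R k (fun x ρ hx hs => (hdr x ρ hx hs).1) x (τ (φ n) + 1)
      (hx.posSolOn _) s (τ (φ n)) hs0 h1 (by linarith)
    have h3 := le_W hV (hx _ (hτ0 (φ n))).1 hp
    linarith
  have h1 := le_of_tendsto hlimdot hev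
  have h2 : dot p.1 xs = 0 := by
    unfold dot
    refine Finset.sum_eq_zero fun i _ => ?_
    by_cases hi : xs i = 0
    · rw [hi, mul_zero]
    · rw [hnZ i hi, zero_mul]
  rw [h2] at h1
  linarith [hxpos i0]

end Vale.Agent.H10.WR
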