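import Vale.Agent.H10.WRDefs

/-!
# P072, row D: the Lyapunov function and its decrease along solutions
-/

namespace Vale.Agent.H10.WR

open scoped BigOperators Topology
open Set Filter

/-- The convex piecewise affine function attached to a family of pairs. -/
noncomputable def W {d : ℕ} (V : Set ((Fin d → ℝ) × ℝ)) (x : Fin d → ℝ) : ℝ :=
  sSup ((fun p : (Fin d → ℝ) × ℝ => dot p.1 x - p.2) '' V)

theorem le_W {d B : ℕ} {κ CΩ Rmax : ℝ} {V : Set ((Fin d → ℝ) × ℝ)}
    (hV : Rounding d B κ CΩ Rmax V) {x : Fin d → ℝ} (hx : ∀ i, 0 < x i)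
    {p : (Fin d → ℝ) × ℝ} (hp : p ∈ V) : dot p.1 x - p.2 ≤ W V x := by
  obtain ⟨M, hM⟩ := hV.bdd x hx
  refine le_csSup ⟨M, ?_⟩ ⟨p, hp, rfl⟩
  rintro _ ⟨q, hq, rfl⟩
  exact hM q hq

theorem W_near {d B : ℕ} {κ CΩ Rmax : ℝ} {V : Set ((Fin d → ℝ) × ℝ)}
    (hV : Rounding d B κ CΩ Rmax V) {x : Fin d → ℝ} (hx : ∀ i, 0 < x i) (η : ℝ) (hη : 0 < η) :
    ∃ p ∈ V, W V x ≤ dot p.1 x - p.2 + η ∧ SignProp B κ p.1 x ∧
      (∀ i, |p.1 i - Real.log (x i)| ≤ Rmax) ∧
      (∀ i, (∀ j, x i ≤ x j → |Real.log (x j)| ≤ CΩ) → p.1 i = 0) := by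
  obtain ⟨p, hp, h1, h2⟩ := hV.near x hx η hη
  refine ⟨p, hp, csSup_le ⟨_, ⟨p, hp, rfl⟩⟩ ?_, h2⟩
  rintro _ ⟨q, hq, rfl⟩
  exact h1 q hq

theorem dot_sub {d : ℕ} (ρ x y : Fin d → ℝ) : dot ρ x - dot ρ y = dot ρ (x - y) := by
  unfold dot
  rw [← Finset.sum_sub_distrib]
  exact Finset.sum_congr rfl fun i _ => by simp only [Pi.sub_apply]; ring

theorem dot_le {d : ℕ} (ρ v : Fin d → ℝ) (L : ℝ) (hL : ∀ i, |ρ i| ≤ L) :
    dot ρ v ≤ (d * L) * ‖v‖ := by
  unfold dot
  calc ∑ i, ρ i * v i ≤ ∑ _i : Fin d, L * ‖v‖ := by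
        refine Finset.sum_le_sum fun i _ => ?_
        calc ρ i * v i ≤ |ρ i * v i| := le_abs_self _
          _ = |ρ i| * ‖v i‖ := by rw [abs_mul, Real.norm_eq_abs]
          _ ≤ L * ‖v‖ := mul_le_mul (hL i) (norm_le_pi_norm v i) (norm_nonneg _)
              ((abs_nonneg _).trans (hL i))
    _ = _ := by rw [Finset.sum_const, Finset.card_univ, Fintype.card_fin, nsmul_eq_mul]; ring

/-- one-sided Lipschitz estimate at a point -/
theorem W_sub_le {d B : ℕ} {κ CΩ Rmax : ℝ} {V : Set ((Fin d → ℝ) × ℝ)}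
    (hV : Rounding d B κ CΩ Rmax V) {x y : Fin d → ℝ} (hx : ∀ i, 0 < x i) (hy : ∀ i, 0 < y i)
    (L : ℝ) (hL : ∀ i, |Real.log (x i)| + Rmax ≤ L) :
    W V x - W V y ≤ (d * L) * ‖x - y‖ := by
  refine le_of_forall_pos_le_add fun η hη => ?_
  obtain ⟨p, hp, h1, _, h3, _⟩ := W_near hV hx η hη
  have h4 := le_W hV hy hp
  have h5 : ∀ i, |p.1 i| ≤ L := by
    intro i
    calc |p.1 i| = |Real.log (x i) + (p.1 i - Real.log (x i))| := by congr 1; ring
      _ ≤ |Real.log (x i)| + |p.1 i - Real.log (x i)| := abs_add_le _ _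
      _ ≤ L := by linarith [h3 i, hL i]
  have h6 := dot_le p.1 (x - y) L h5
  rw [← dot_sub] at h6
  linarith

theorem continuousAt_W {d B : ℕ} {κ CΩ Rmax : ℝ} {V : Set ((Fin d → ℝ) × ℝ)}
    (hV : Rounding d B κ CΩ Rmax V) {x : Fin d → ℝ} (hx : ∀ i, 0 < x i) :
    ContinuousAt (W V) x := by
  set L : ℝ := ∑ i, |Real.log (x i)| + 1 + |Rmax| with hL
  have hL1 : ∀ i, |Real.log (x i)| + Rmax ≤ L := by
    intro i
    have h1 : |Real.log (x i)| ≤ ∑ i, |Real.log (x i)| :=
      Finset.single_le_sum (f := fun i => |Real.log (x i)|) (fun _ _ => abs_nonneg _)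
        (Finset.mem_univ i)
    have h2 := le_abs_self Rmax
    rw [hL]; linarith
  have hpos : ∀ᶠ y in 𝓝 x, ∀ i, 0 < y i := by
    rw [eventually_all]
    intro i
    exact ((continuous_apply i).tendsto x).eventually (lt_mem_nhds (hx i))
  have hlog : ∀ᶠ y in 𝓝 x, ∀ i, |Real.log (y i)| + Rmax ≤ L := by
    rw [eventually_all]
    intro i
    have h0 : ContinuousAt (fun y : Fin d → ℝ => y i) x := (continuous_apply i).continuousAt
    have h1 : ContinuousAt (fun y : Fin d → ℝ => |Real.log (y i)|) x :=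
      (h0.log (hx i).ne').abs
    have h2 : ∀ᶠ y in 𝓝 x, |Real.log (y i)| < |Real.log (x i)| + 1 :=
      h1.eventually (gt_mem_nhds (by linarith))
    filter_upwards [h2] with y hy
    have h3 : |Real.log (x i)| ≤ ∑ i, |Real.log (x i)| :=
      Finset.single_le_sum (f := fun i => |Real.log (x i)|) (fun _ _ => abs_nonneg _)
        (Finset.mem_univ i)
    have h4 := le_abs_self Rmax
    rw [hL]; linarith
  rw [ContinuousAt, tendsto_iff_norm_sub_tendsto_zero]
  have hlim : Tendsto (fun y => (d * L) * ‖y - x‖) (𝓝 x) (𝓝 0) := by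
    have h1 : Tendsto (fun y => ‖y - x‖) (𝓝 x) (𝓝 0) := by
      have := (continuous_id.sub (continuous_const (y := x))).norm.tendsto x
      simpa using this
    simpa using h1.const_mul (d * L)
  refine squeeze_zero' (Eventually.of_forall fun y => norm_nonneg _) ?_ hlim
  filter_upwards [hpos, hlog] with y hy1 hy2
  rw [Real.norm_eq_abs, abs_le]
  have h1 := W_sub_le hV hy1 hx L hy2
  have h2 := W_sub_le hV hx hy1 L hL1
  rw [norm_sub_rev x y] at h2
  constructor <;> linarith

/-- decrease of `W` along solutions -/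
theorem W_decrease {d B : ℕ} {κ CΩ Rmax : ℝ} {V : Set ((Fin d → ℝ) × ℝ)}
    (hV : Rounding d B κ CΩ Rmax V)
    (R : Finset (Rxn d)) (k : Rxn d → ℝ) (x : ℝ → Fin d → ℝ) (a b c : ℝ) (hab : a ≤ b)
    (hpos : ∀ t, a ≤ t → t ≤ b → ∀ i, 0 < x t i)
    (hder : ∀ t, a ≤ t → t ≤ b → HasDerivWithinAt x (field R k (x t)) (Set.Icc a b) t)
    (hdrift : ∀ t, a ≤ t → t ≤ b → ∀ ρ : Fin d → ℝ, SignProp B κ ρ (x t) →
      (∀ i, |ρ i - Real.log (x t i)| ≤ Rmax) → dot ρ (field R k (x t)) ≤ -c) :
    W V (x b) ≤ W V (x a) - c * (b - a) := by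
  set f : ℝ → ℝ := fun τ => -(W V (x (b - τ)) + c * (b - τ)) with hf
  have hcont : ContinuousOn f (Icc 0 (b - a)) := by
    intro τ hτ
    have hmem : b - τ ∈ Icc a b := ⟨by linarith [hτ.2], by linarith [hτ.1]⟩
    have h1 : ContinuousWithinAt x (Icc a b) (b - τ) :=
      (hder _ hmem.1 hmem.2).continuousWithinAt
    have h2 : ContinuousWithinAt (fun τ => b - τ) (Icc 0 (b - a)) τ :=
      (continuous_const.sub continuous_id).continuousWithinAt
    have h3 : ContinuousWithinAt (fun τ => x (b - τ)) (Icc 0 (b - a)) τ :=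
      h1.comp h2 fun σ hσ => ⟨by linarith [hσ.2], by linarith [hσ.1]⟩
    have h4 : ContinuousWithinAt (fun τ => W V (x (b - τ))) (Icc 0 (b - a)) τ :=
      ContinuousAt.comp_continuousWithinAt (f := fun τ => x (b - τ)) (g := W V)
        (continuousAt_W hV (hpos _ hmem.1 hmem.2)) h3
    exact (h4.add (continuous_const.mul (continuous_const.sub
      continuous_id)).continuousWithinAt).neg
  have key := image_le_of_liminf_slope_right_le_deriv_boundary hcont (B := fun _ => f 0)
    (B' := fun _ => 0) le_rfl continuousOn_const (fun τ _ => hasDerivWithinAt_const _ _ _) ?_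
    (x := b - a) ⟨by linarith, le_rfl⟩
  · simp only [hf, sub_zero, sub_sub_cancel] at key
    linarith
  · intro τ hτ r hr
    have hmem : b - τ ∈ Icc a b := ⟨by linarith [hτ.2], by linarith [hτ.1]⟩
    set t := b - τ with ht
    have hxt := hpos t hmem.1 hmem.2
    -- a bound for the near-maximisers at time `t`
    set L : ℝ := ∑ i, |Real.log (x t i)| + |Rmax| with hL
    have hL0 : 0 ≤ L := by positivity
    have hL1 : ∀ i, |Real.log (x t i)| + Rmax ≤ L := by
      intro i
      have h1 : |Real.log (x t i)| ≤ ∑ i, |Real.log (x t i)| :=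
        Finset.single_le_sum (f := fun i => |Real.log (x t i)|) (fun _ _ => abs_nonneg _)
          (Finset.mem_univ i)
      have h2 := le_abs_self Rmax
      rw [hL]; linarith
    set ε : ℝ := r / (2 * (d * L + 1)) with hε
    have hdL : 0 ≤ (d : ℝ) * L := by positivity
    have hε0 : 0 < ε := by positivity
    have hlo := (hasDerivWithinAt_iff_isLittleO.1 (hder t hmem.1 hmem.2)).def hε0
    have hmap : Tendsto (fun z => b - z) (𝓝[>] τ) (𝓝[Icc a b] t) := by
      rw [tendsto_nhdsWithin_iff]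
      refine ⟨((continuous_const.sub continuous_id).tendsto τ).mono_left nhdsWithin_le_nhds, ?_⟩
      have h1 : Ioo τ (b - a) ∈ 𝓝[>] τ := Ioo_mem_nhdsGT hτ.2
      filter_upwards [h1] with z hz
      exact ⟨by linarith [hz.2], by linarith [hz.1, hτ.1]⟩
    have hev : ∀ᶠ z in 𝓝[>] τ, slope f τ z < r := by
      have h1 : Ioo τ (b - a) ∈ 𝓝[>] τ := Ioo_mem_nhdsGT hτ.2
      filter_upwards [hmap.eventually hlo, h1] with z hz1 hz2
      have hs : b - z ∈ Icc a b := ⟨by linarith [hz2.2], by linarith [hz2.1, hτ.1]⟩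
      set s := b - z with hsd
      have hst : 0 < t - s := by rw [ht, hsd]; linarith [hz2.1]
      have hxs := hpos s hs.1 hs.2
      -- main estimate
      have hmain : W V (x t) - W V (x s) ≤ (t - s) * (-c) + (d * L) * (ε * (t - s)) := by
        refine le_of_forall_pos_le_add fun η hη => ?_
        obtain ⟨p, hp, h1, h2, h3, _⟩ := W_near hV hxt η hη
        have h4 := le_W hV hxs hp
        have h5 : ∀ i, |p.1 i| ≤ L := by
          intro i
          calc |p.1 i| = |Real.log (x t i) + (p.1 i - Real.log (x t i))| := by congr 1; ring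
            _ ≤ |Real.log (x t i)| + |p.1 i - Real.log (x t i)| := abs_add_le _ _
            _ ≤ L := by linarith [h3 i, hL1 i]
        have h6 := hdrift t hmem.1 hmem.2 p.1 h2 h3
        have h7 : dot p.1 (x t) - dot p.1 (x s)
            = (t - s) * dot p.1 (field R k (x t))
              + dot p.1 (-(x s - x t - (s - t) • field R k (x t))) := by
          unfold dot
          rw [Finset.mul_sum, ← Finset.sum_sub_distrib, ← Finset.sum_add_distrib]
          refine Finset.sum_congr rfl fun i _ => ?_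
          simp only [Pi.neg_apply, Pi.sub_apply, Pi.smul_apply, smul_eq_mul]
          ring
        have h8 := dot_le p.1 (-(x s - x t - (s - t) • field R k (x t))) L h5
        rw [norm_neg] at h8
        have h9 : ‖x s - x t - (s - t) • field R k (x t)‖ ≤ ε * (t - s) := by
          refine hz1.trans (le_of_eq ?_)
          rw [Real.norm_eq_abs, abs_sub_comm, abs_of_pos hst]
        have h10 : (d * L) * ‖x s - x t - (s - t) • field R k (x t)‖
            ≤ (d * L) * (ε * (t - s)) := mul_le_mul_of_nonneg_left h9 hdL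
        have h11 : (t - s) * dot p.1 (field R k (x t)) ≤ (t - s) * (-c) :=
          mul_le_mul_of_nonneg_left h6 hst.le
        linarith
      have h12 : f z - f τ = (W V (x t) - W V (x s)) + c * (t - s) := by
        simp only [hf]
        rw [← ht, ← hsd]; ring
      have h13 : z - τ = t - s := by rw [ht, hsd]; ring
      have h14 : d * L * ε < r := by
        rw [hε, mul_div_assoc', div_lt_iff₀ (by positivity)]
        nlinarith
      rw [slope_def_field, h12, h13, div_lt_iff₀ hst]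
      nlinarith
    exact hev.frequently

end Vale.Agent.H10.WR
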