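import Vale.Agent.H10.WRDefs

/-!
# P072, row B: global existence, uniqueness, invariance of stoichiometric classes
-/

namespace Vale.Agent.H10.WR

open Set Filter Topology
open scoped NNReal BigOperators

section General

variable {E : Type*} [NormedAddCommGroup E] [NormedSpace ℝ E]

theorem ode_unique_Icc (F : E → E) (K : ℝ≥0) (hK : LipschitzWith K F) (x y : ℝ → E)
    (S T : ℝ) (hTS : T ≤ S)
    (hx : ∀ t ∈ Icc (0 : ℝ) S, HasDerivWithinAt x (F (x t)) (Icc 0 S) t)
    (hy : ∀ t ∈ Icc (0 : ℝ) T, HasDerivWithinAt y (F (y t)) (Icc 0 T) t) (h0 : x 0 = y 0) :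
    EqOn x y (Icc 0 T) := by
  have hx' : ∀ t ∈ Icc (0 : ℝ) T, HasDerivWithinAt x (F (x t)) (Icc 0 T) t := fun t ht =>
    (hx t ⟨ht.1, ht.2.trans hTS⟩).mono (Icc_subset_Icc_right hTS)
  refine ODE_solution_unique_of_mem_Icc_right (v := fun _ => F) (s := fun _ => univ) (K := K)
    (fun t _ => hK.lipschitzOnWith) (fun t ht => (hx' t ht).continuousWithinAt) ?_
    (fun t _ => mem_univ _) (fun t ht => (hy t ht).continuousWithinAt) ?_
    (fun t _ => mem_univ _) h0
  · intro t ht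
    exact (hx' t ⟨ht.1, ht.2.le⟩).mono_of_mem_nhdsWithin (Icc_mem_nhdsGE_of_mem ht)
  · intro t ht
    exact (hy t ⟨ht.1, ht.2.le⟩).mono_of_mem_nhdsWithin (Icc_mem_nhdsGE_of_mem ht)

variable [CompleteSpace E]

/-- local existence on `[0, T]` for a bounded Lipschitz field -/
theorem ode_exists_Icc (F : E → E) (K L : ℝ≥0) (hK : LipschitzWith K F) (hL : ∀ x, ‖F x‖ ≤ L)
    (x0 : E) (T : ℝ) (hT : 0 ≤ T) :
    ∃ x : ℝ → E, x 0 = x0 ∧ ∀ t ∈ Icc (0 : ℝ) T, HasDerivWithinAt x (F (x t)) (Icc 0 T) t := by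
  have hpl : IsPicardLindelof (fun _ => F) (⟨0, ⟨le_rfl, hT⟩⟩ : Icc (0 : ℝ) T) x0
      (L * T.toNNReal) 0 L K := by
    refine IsPicardLindelof.of_time_independent (fun x _ => hL x) hK.lipschitzOnWith ?_
    simp only [sub_zero, sub_self, NNReal.coe_mul, Real.coe_toNNReal T hT, NNReal.coe_zero]
    rw [max_eq_left hT]
  obtain ⟨α, h0, h1⟩ := hpl.exists_eq_forall_mem_Icc_hasDerivWithinAt₀
  exact ⟨α, h0, h1⟩

/-- global existence for a bounded Lipschitz field -/
theorem ode_global (F : E → E) (K L : ℝ≥0) (hK : LipschitzWith K F) (hL : ∀ x, ‖F x‖ ≤ L)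
    (x0 : E) :
    ∃ x : ℝ → E, x 0 = x0 ∧ ∀ t, 0 ≤ t → HasDerivWithinAt x (F (x t)) (Ici 0) t := by
  have h := fun n : ℕ => ode_exists_Icc F K L hK hL x0 (n : ℝ) (Nat.cast_nonneg n)
  choose α h0 h1 using h
  have heq : ∀ n m : ℕ, n ≤ m → EqOn (α m) (α n) (Icc 0 (n : ℝ)) := by
    intro n m hnm
    exact ode_unique_Icc F K hK (α m) (α n) m n (by exact_mod_cast hnm) (h1 m) (h1 n)
      (by rw [h0, h0])
  let x : ℝ → E := fun t => α ⌈t⌉₊ t
  have hx : ∀ n : ℕ, EqOn x (α n) (Icc 0 (n : ℝ)) := by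
    intro n t ht
    have h2 : ⌈t⌉₊ ≤ n := Nat.ceil_le.2 ht.2
    exact (heq _ _ h2 ⟨ht.1, Nat.le_ceil t⟩).symm
  refine ⟨x, ?_, fun t ht => ?_⟩
  · have := hx 0 (x := 0) (by simp)
    rw [this, h0]
  · obtain ⟨n, hn⟩ := exists_nat_gt t
    have hmem : t ∈ Icc (0 : ℝ) n := ⟨ht, hn.le⟩
    have h2 : HasDerivWithinAt x (F (x t)) (Icc 0 (n : ℝ)) t := by
      rw [hx n hmem]
      exact (h1 n t hmem).congr (hx n) (hx n hmem)
    refine h2.mono_of_mem_nhdsWithin ?_
    have : Iio (n : ℝ) ∈ 𝓝 t := Iio_mem_nhds hn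
    filter_upwards [self_mem_nhdsWithin, mem_nhdsWithin_of_mem_nhds this] with s hs hs'
    exact ⟨hs, le_of_lt hs'⟩

end General

section MassAction

variable {d : ℕ} (R : Finset (Rxn d)) (k : Rxn d → ℝ)

theorem contDiff_field : ContDiff ℝ 1 (field R k) := by
  have h : ∀ e : Rxn d, ContDiff ℝ 1 (fun x : Fin d → ℝ => k e * mono e.1 x) := by
    intro e
    unfold mono
    exact contDiff_const.mul (contDiff_prod fun i _ => (contDiff_apply ℝ ℝ i).pow _)
  have : field R k = fun x => ∑ e ∈ R, (k e * mono e.1 x) • rvec e := rfl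
  rw [this]
  exact ContDiff.sum fun e _ => (h e).smul contDiff_const

theorem field_lip {s : Set (Fin d → ℝ)} (hs : IsCompact s) :
    ∃ K : ℝ≥0, LipschitzOnWith K (field R k) s :=
  ((contDiff_field R k).locallyLipschitz.locallyLipschitzOn).exists_lipschitzOnWith_of_compact hs

theorem sol_continuousOn {x : ℝ → Fin d → ℝ} {T : ℝ} (hx : PosSolOn R k x T) {t : ℝ}
    (ht : t < T) : ContinuousOn x (Icc 0 t) := fun s hs =>
  ((hx s hs.1 (hs.2.trans_lt ht)).2.continuousWithinAt).mono Icc_subset_Ici_self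

theorem sol_unique {d : ℕ} (R : Finset (Rxn d)) (k : Rxn d → ℝ) (x y : ℝ → Fin d → ℝ) (T : ℝ)
    (hx : PosSolOn R k x T) (hy : PosSolOn R k y T) (h0 : x 0 = y 0) :
    ∀ t, 0 ≤ t → t < T → x t = y t := by
  intro t ht htT
  have cx := sol_continuousOn R k hx htT
  have cy := sol_continuousOn R k hy htT
  obtain ⟨K, hK⟩ := field_lip R k ((isCompact_Icc.image_of_continuousOn cx).union
    (isCompact_Icc.image_of_continuousOn cy))
  refine ODE_solution_unique_of_mem_Icc_right (v := fun _ => field R k)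
    (s := fun _ => x '' Icc 0 t ∪ y '' Icc 0 t) (K := K) (fun s _ => hK) cx ?_ ?_ cy ?_ ?_ h0
    ⟨ht, le_rfl⟩
  · intro s hs
    exact (hx s hs.1 (hs.2.trans htT)).2.mono (Ici_subset_Ici.2 hs.1)
  · intro s hs
    exact Or.inl ⟨s, ⟨hs.1, hs.2.le⟩, rfl⟩
  · intro s hs
    exact (hy s hs.1 (hs.2.trans htT)).2.mono (Ici_subset_Ici.2 hs.1)
  · intro s hs
    exact Or.inr ⟨s, ⟨hs.1, hs.2.le⟩, rfl⟩

theorem field_mem_stoich (x : Fin d → ℝ) : field R k x ∈ stoich R := by
  unfold field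
  refine Submodule.sum_mem _ fun e he => Submodule.smul_mem _ _ ?_
  exact Submodule.subset_span ⟨e, he, rfl⟩

theorem sol_mem_class {d : ℕ} (R : Finset (Rxn d)) (k : Rxn d → ℝ) (x : ℝ → Fin d → ℝ) (T : ℝ)
    (hx : PosSolOn R k x T) : ∀ t, 0 ≤ t → t < T → x t - x 0 ∈ stoich R := by
  intro t ht htT
  by_contra hne
  obtain ⟨f, hf, hker⟩ := Submodule.exists_le_ker_of_notMem hne
  have hfc : Continuous f := f.continuous_of_finiteDimensional
  let g : (Fin d → ℝ) →L[ℝ] ℝ := ⟨f, hfc⟩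
  have cx := sol_continuousOn R k hx htT
  have h1 : ∀ s ∈ Icc (0 : ℝ) t, g (x s) = g (x 0) := by
    refine constant_of_has_deriv_right_zero (f := fun s => g (x s))
      (hfc.comp_continuousOn cx) fun s hs => ?_
    have h2 := (hx s hs.1 (hs.2.trans htT)).2.mono (Ici_subset_Ici.2 hs.1)
    have h3 := g.hasFDerivAt.comp_hasDerivWithinAt s h2
    have h4 : g (field R k (x s)) = 0 := hker (field_mem_stoich R k (x s))
    rw [h4] at h3
    exact h3
  apply hf
  have := h1 t ⟨ht, le_rfl⟩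
  change f (x t) = f (x 0) at this
  rw [map_sub, this, sub_self]


/-- clamp to the box `[0, b]^d` -/
noncomputable def clampB {d : ℕ} (b : ℝ) (x : Fin d → ℝ) : Fin d → ℝ :=
  fun i => max 0 (min b (x i))

theorem clampB_lip {d : ℕ} (b : ℝ) : LipschitzWith 1 (clampB b : (Fin d → ℝ) → Fin d → ℝ) := by
  refine LipschitzWith.of_dist_le_mul fun x y => ?_
  rw [NNReal.coe_one, one_mul, dist_pi_le_iff dist_nonneg]
  intro i
  have h : LipschitzWith 1 fun z : ℝ => max 0 (min b z) :=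
    (LipschitzWith.id.const_min b).const_max 0
  have h1 := h.dist_le_mul (x i) (y i)
  rw [NNReal.coe_one, one_mul] at h1
  exact h1.trans (dist_le_pi_dist x y i)

theorem clampB_nonneg {d : ℕ} (b : ℝ) (x : Fin d → ℝ) (i : Fin d) : 0 ≤ clampB b x i :=
  le_max_left _ _

theorem clampB_le {d : ℕ} {b : ℝ} (hb : 0 ≤ b) (x : Fin d → ℝ) (i : Fin d) :
    clampB b x i ≤ b := max_le hb (min_le_left _ _)

theorem clampB_eq {d : ℕ} {b : ℝ} {x : Fin d → ℝ} (h : ∀ i, 0 ≤ x i ∧ x i ≤ b) :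
    clampB b x = x := by
  funext i
  simp only [clampB]
  rw [min_eq_right (h i).2, max_eq_right (h i).1]

theorem clampB_le_self {d : ℕ} {b : ℝ} {x : Fin d → ℝ} {i : Fin d} (h : 0 ≤ x i) :
    clampB b x i ≤ x i := max_le h (min_le_right _ _)

theorem mono_le {d : ℕ} {b : ℝ} (hb : 1 ≤ b) {c : Fin d → ℝ} (hc : ∀ i, 0 ≤ c i ∧ c i ≤ b)
    (a : Fin d → ℕ) (i : Fin d) (hi : a i ≠ 0) : mono a c ≤ c i * b ^ (∑ j, a j) := by
  unfold mono
  rw [← Finset.mul_prod_erase Finset.univ (fun j => c j ^ a j) (Finset.mem_univ i),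
    ← Finset.prod_pow_eq_pow_sum,
    ← Finset.mul_prod_erase Finset.univ (fun j => b ^ a j) (Finset.mem_univ i), ← mul_assoc]
  refine mul_le_mul ?_ ?_ ?_ ?_
  · obtain ⟨m, hm⟩ := Nat.exists_eq_succ_of_ne_zero hi
    rw [hm, pow_succ', pow_succ]
    refine mul_le_mul_of_nonneg_left ?_ (hc i).1
    calc c i ^ m ≤ b ^ m := pow_le_pow_left₀ (hc i).1 (hc i).2 m
      _ ≤ b ^ m * b := le_mul_of_one_le_right (by positivity) hb
  · exact Finset.prod_le_prod (fun j _ => pow_nonneg (hc j).1 _)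
      fun j _ => pow_le_pow_left₀ (hc j).1 (hc j).2 _
  · exact Finset.prod_nonneg fun j _ => pow_nonneg (hc j).1 _
  · exact mul_nonneg (hc i).1 (by positivity)

theorem field_lower {d : ℕ} (R : Finset (Rxn d)) (k : Rxn d → ℝ) (hk : ∀ e ∈ R, 0 < k e) {b : ℝ}
    (hb : 1 ≤ b) :
    ∃ Λ : ℝ, 0 ≤ Λ ∧ ∀ c : Fin d → ℝ, (∀ i, 0 ≤ c i ∧ c i ≤ b) → ∀ i,
      -(Λ * c i) ≤ field R k c i := by
  refine ⟨∑ e ∈ R, k e * b ^ (∑ j, e.1 j) * (∑ j, (e.1 j : ℝ)), ?_, fun c hc i => ?_⟩
  · exact Finset.sum_nonneg fun e he => by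
      have := hk e he
      positivity
  · unfold field
    rw [Finset.sum_apply, Finset.sum_mul, ← Finset.sum_neg_distrib]
    refine Finset.sum_le_sum fun e he => ?_
    have hke := hk e he
    simp only [Pi.smul_apply, rvec, smul_eq_mul]
    have hm0 : 0 ≤ mono e.1 c := Finset.prod_nonneg fun j _ => pow_nonneg (hc j).1 _
    have h1 : mono e.1 c * (e.1 i : ℝ) ≤ c i * b ^ (∑ j, e.1 j) * (∑ j, (e.1 j : ℝ)) := by
      by_cases hi : e.1 i = 0
      · rw [hi, Nat.cast_zero, mul_zero]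
        have := (hc i).1
        positivity
      · refine mul_le_mul (mono_le hb hc e.1 i hi) ?_ (Nat.cast_nonneg _) ?_
        · exact Finset.single_le_sum (f := fun j => (e.1 j : ℝ)) (fun j _ => Nat.cast_nonneg _)
            (Finset.mem_univ i)
        · exact mul_nonneg (hc i).1 (by positivity)
    have h2 : 0 ≤ k e * mono e.1 c * (e.2 i : ℝ) := by positivity
    have h3 := mul_le_mul_of_nonneg_left h1 hke.le
    nlinarith

theorem exists_global {d : ℕ} (R : Finset (Rxn d)) (k : Rxn d → ℝ) (hk : ∀ e ∈ R, 0 < k e)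
    (x0 : Fin d → ℝ) (hx0 : ∀ i, 0 < x0 i)
    (M : ℝ) (hM : ∀ T : ℝ, 0 < T → ∀ x : ℝ → Fin d → ℝ, x 0 = x0 → PosSolOn R k x T →
      ∀ t, 0 ≤ t → t < T → ∀ i, x t i ≤ M) :
    ∃ x : ℝ → Fin d → ℝ, x 0 = x0 ∧ PosSol R k x := by
  set b : ℝ := max M (∑ i, x0 i) + 1 + 1 with hbdef
  have hsum : 0 ≤ ∑ i, x0 i := Finset.sum_nonneg fun i _ => (hx0 i).le
  have hb1 : 1 ≤ b := by
    have := le_max_right M (∑ i, x0 i)
    linarith
  have hb0 : 0 ≤ b := by linarith
  have hMb : M < b := by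
    have := le_max_left M (∑ i, x0 i)
    linarith
  have hx0b : ∀ i, x0 i < b := by
    intro i
    have h1 : x0 i ≤ ∑ i, x0 i :=
      Finset.single_le_sum (f := x0) (fun j _ => (hx0 j).le) (Finset.mem_univ i)
    have := le_max_right M (∑ i, x0 i)
    linarith
  -- the clamped field
  have hbox : IsCompact (Icc (0 : Fin d → ℝ) (fun _ => b)) := isCompact_Icc
  obtain ⟨K, hK⟩ := field_lip R k hbox
  have hmem : ∀ x : Fin d → ℝ, clampB b x ∈ Icc (0 : Fin d → ℝ) (fun _ => b) := fun x =>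
    ⟨fun i => clampB_nonneg b x i, fun i => clampB_le hb0 x i⟩
  have hFlip : LipschitzWith (K * 1) (fun x => field R k (clampB b x)) := by
    rw [← lipschitzOnWith_univ]
    exact hK.comp (clampB_lip b).lipschitzOnWith fun x _ => hmem x
  obtain ⟨L, hL⟩ := (hbox.image_of_continuousOn
    (contDiff_field R k).continuous.continuousOn).isBounded.exists_norm_le
  have hFb : ∀ x, ‖field R k (clampB b x)‖ ≤ L.toNNReal := fun x => by
    refine (hL _ ⟨_, hmem x, rfl⟩).trans (Real.le_coe_toNNReal L)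
  obtain ⟨Λ, hΛ0, hΛ⟩ := field_lower R k hk hb1
  obtain ⟨y, hy0, hy⟩ := ode_global (fun x => field R k (clampB b x)) (K * 1) L.toNNReal hFlip hFb x0
  have hcont : ContinuousOn y (Ici 0) := fun t ht => (hy t ht).continuousWithinAt
  -- everything is good
  have good : ∀ t, 0 ≤ t → ∀ i, 0 < y t i ∧ y t i < b := by
    by_contra hne
    push Not at hne
    obtain ⟨t1, ht1, i1, hi1⟩ := hne
    set S : Set ℝ := {t | 0 ≤ t ∧ ∃ i, ¬ (0 < y t i ∧ y t i < b)} with hS
    have hSne : S.Nonempty := ⟨t1, ht1, i1, by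
      intro h
      exact absurd h.2 (not_lt.2 (hi1 h.1))⟩
    have hSb : BddBelow S := ⟨0, fun t ht => ht.1⟩
    have hScl : IsClosed S := by
      have h1 : S = ⋃ i : Fin d, (Ici 0 ∩ (fun t => y t i) ⁻¹' {z | ¬ (0 < z ∧ z < b)}) := by
        ext t
        simp only [hS, mem_ofPred_eq, mem_iUnion, mem_inter_iff, mem_Ici, mem_preimage]
        constructor
        · rintro ⟨h, i, hi⟩; exact ⟨i, h, hi⟩
        · rintro ⟨i, h, hi⟩; exact ⟨h, i, hi⟩
      rw [h1]
      refine isClosed_iUnion_of_finite fun i => ?_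
      refine ContinuousOn.preimage_isClosed_of_isClosed ?_ isClosed_Ici ?_
      · exact (continuous_apply i).comp_continuousOn hcont
      · have : {z : ℝ | ¬ (0 < z ∧ z < b)} = (Ioo 0 b)ᶜ := rfl
        rw [this]
        exact isOpen_Ioo.isClosed_compl
    set T := sInf S with hT
    have hTS : T ∈ S := hScl.csInf_mem hSne hSb
    have hTnn : 0 ≤ T := hTS.1
    have hbefore : ∀ t, 0 ≤ t → t < T → ∀ i, 0 < y t i ∧ y t i < b := by
      intro t ht htT
      by_contra hc
      push Not at hc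
      obtain ⟨i, hi⟩ := hc
      have : t ∈ S := ⟨ht, i, fun h => absurd h.2 (not_lt.2 (hi h.1))⟩
      exact absurd (csInf_le hSb this) (not_le.2 htT)
    have hTpos : 0 < T := by
      rcases hTnn.eq_or_lt with h | h
      · exfalso
        obtain ⟨_, i, hi⟩ := hTS
        apply hi
        rw [← h, hy0]
        exact ⟨hx0 i, hx0b i⟩
      · exact h
    have hsol : PosSolOn R k y T := by
      intro t ht htT
      refine ⟨fun i => (hbefore t ht htT i).1, ?_⟩
      have h1 := hy t ht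
      have h2 : clampB b (y t) = y t := clampB_eq fun i =>
        ⟨(hbefore t ht htT i).1.le, (hbefore t ht htT i).2.le⟩
      simp only [h2] at h1
      exact h1
    obtain ⟨_, i, hi⟩ := hTS
    apply hi
    have hci : ContinuousOn (fun t => y t i) (Icc 0 T) :=
      (continuous_apply i).comp_continuousOn (hcont.mono Icc_subset_Ici_self)
    constructor
    · -- positivity
      have hmono : MonotoneOn (fun t => y t i * Real.exp (Λ * t)) (Icc 0 T) := by
        refine monotoneOn_of_deriv_nonneg (convex_Icc 0 T) ?_ ?_ ?_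
        · exact hci.mul (by fun_prop)
        · intro t ht
          rw [interior_Icc] at ht
          have h1 : HasDerivAt y (field R k (clampB b (y t))) t :=
            (hy t ht.1.le).hasDerivAt (Ici_mem_nhds ht.1)
          have h2 := hasDerivAt_pi.1 h1 i
          exact (h2.mul (((hasDerivAt_id t).const_mul Λ).exp)).differentiableAt.differentiableWithinAt
        · intro t ht
          rw [interior_Icc] at ht
          have h1 : HasDerivAt y (field R k (clampB b (y t))) t :=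
            (hy t ht.1.le).hasDerivAt (Ici_mem_nhds ht.1)
          have h2 := hasDerivAt_pi.1 h1 i
          have h3 : HasDerivAt (fun t => y t i * Real.exp (Λ * t))
              (field R k (clampB b (y t)) i * Real.exp (Λ * id t) +
                y t i * (Real.exp (Λ * id t) * (Λ * 1))) t :=
            h2.mul (((hasDerivAt_id t).const_mul Λ).exp)
          rw [h3.deriv]
          have h4 := hΛ (clampB b (y t)) (fun j => ⟨clampB_nonneg b _ j, clampB_le hb0 _ j⟩) i
          have h5 : clampB b (y t) i ≤ y t i := clampB_le_self (hbefore t ht.1.le ht.2 i).1.le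
          have h6 : 0 ≤ field R k (clampB b (y t)) i + Λ * y t i := by
            nlinarith
          have h7 := Real.exp_pos (Λ * id t)
          have h8 : 0 ≤ (field R k (clampB b (y t)) i + Λ * y t i) * Real.exp (Λ * id t) :=
            mul_nonneg h6 h7.le
          simp only [id] at h8 ⊢
          linarith [h8]
      have h1 := hmono (left_mem_Icc.2 hTnn) (right_mem_Icc.2 hTnn) hTnn
      simp only [mul_zero, Real.exp_zero, mul_one, hy0] at h1
      have h2 := hx0 i
      by_contra hc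
      have h3 : y T i * Real.exp (Λ * T) ≤ 0 :=
        mul_nonpos_of_nonpos_of_nonneg (not_lt.1 hc) (Real.exp_pos _).le
      linarith
    · -- upper bound
      refine lt_of_le_of_lt ?_ hMb
      have hle := hM T hTpos y hy0 hsol
      have hcl : T ∈ closure (Ico 0 T) := by
        rw [closure_Ico hTpos.ne]
        exact right_mem_Icc.2 hTnn
      have h1 : ContinuousWithinAt (fun t => y t i) (Ico 0 T) T :=
        (hci T (right_mem_Icc.2 hTnn)).mono Ico_subset_Icc_self
      have h2 : (𝓝[Ico 0 T] T).NeBot := mem_closure_iff_nhdsWithin_neBot.1 hcl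
      refine le_of_tendsto h1 ?_
      filter_upwards [self_mem_nhdsWithin] with t ht
      exact hle t ht.1 ht.2 i
  refine ⟨y, hy0, fun t ht => ⟨fun i => (good t ht i).1, ?_⟩⟩
  have h1 := hy t ht
  have h2 : clampB b (y t) = y t := clampB_eq fun i => ⟨(good t ht i).1.le, (good t ht i).2.le⟩
  simp only [h2] at h1
  exact h1

end MassAction

end Vale.Agent.H10.WR
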