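import Vale.Agent.H10.WRThm
import Vale.Agent.H10.WRDrift
import Vale.Agent.H10.WRMono
import Vale.Agent.H10.WRODE

/-!
# P072, row G3: every positive solution that stays in a compact box is eventually close
(in logarithmic coordinates) to the orthogonal complement of the stoichiometric subspace
-/

namespace Vale.Agent.H10.WR

open Set Filter Topology
open scoped BigOperators

theorem g3_exists_le {α : Type*} (s : Finset α) (f : α → ℝ) (hf : ∀ a ∈ s, 0 < f a) :
    ∃ δ : ℝ, 0 < δ ∧ ∀ a ∈ s, δ ≤ f a := by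
  classical
  induction s using Finset.induction_on with
  | empty => exact ⟨1, one_pos, by simp⟩
  | insert a s ha ih =>
    obtain ⟨δ, hδ, h⟩ := ih fun b hb => hf b (Finset.mem_insert_of_mem hb)
    refine ⟨min δ (f a), lt_min hδ (hf a (Finset.mem_insert_self _ _)), fun b hb => ?_⟩
    rcases Finset.mem_insert.1 hb with rfl | hb
    · exact min_le_right _ _
    · exact (min_le_left _ _).trans (h b hb)

theorem eventual {d : ℕ} (HR : RoundingThm d) (R : Finset (Rxn d)) (k : Rxn d → ℝ)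
    (hk : ∀ e ∈ R, 0 < k e) (hwr : WeaklyReversible R) :
    ∃ A : ℝ, ∀ x : ℝ → Fin d → ℝ, PosSol R k x →
      (∃ m M : ℝ, 0 < m ∧ ∀ t, 0 ≤ t → ∀ i, m ≤ x t i ∧ x t i ≤ M) →
      ∃ T : ℝ, ∀ t, T ≤ t → ∃ ρ : Fin d → ℝ, (∀ e ∈ R, dot ρ (rvec e) = 0) ∧
        ∀ i, |ρ i - Real.log (x t i)| ≤ A := by
  obtain ⟨B, κ, c0, hB, hκ, hc0, hdr⟩ := drift R k hk hwr
  obtain ⟨Rmax, V, hV⟩ := HR B κ 0 hκ.le
  refine ⟨Rmax + 1, fun x hx ⟨m, M, hm, hb⟩ => ?_⟩
  -- lower bound for the monomials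
  obtain ⟨mu, hmu, hmu'⟩ := g3_exists_le R (fun e => ∏ i, m ^ e.1 i)
    (fun e _ => Finset.prod_pos fun i _ => pow_pos hm _)
  have hmono : ∀ t, 0 ≤ t → ∀ e ∈ R, mu ≤ mono e.1 (x t) := by
    intro t ht e he
    refine (hmu' e he).trans ?_
    exact Finset.prod_le_prod (fun i _ => by positivity)
      fun i _ => pow_le_pow_left₀ hm.le (hb t ht i).1 _
  -- bound for the field
  have hbox : IsCompact (Icc (fun _ => m : Fin d → ℝ) (fun _ => M)) := isCompact_Icc
  obtain ⟨L1, hL1⟩ := (hbox.image_of_continuousOn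
    (contDiff_field R k).continuous.continuousOn).isBounded.exists_norm_le
  have hfield : ∀ t, 0 ≤ t → ‖field R k (x t)‖ ≤ L1 := fun t ht =>
    hL1 _ ⟨x t, ⟨fun i => (hb t ht i).1, fun i => (hb t ht i).2⟩, rfl⟩
  have hL10 : 0 ≤ L1 := (norm_nonneg _).trans (hfield 0 le_rfl)
  set L : ℝ := L1 / m with hL
  have hL0 : 0 ≤ L := div_nonneg hL10 hm.le
  have hlog : ∀ i, ∀ s, 0 ≤ s → ∀ t, 0 ≤ t →
      |Real.log (x t i) - Real.log (x s i)| ≤ L * |t - s| := by
    intro i s hs t ht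
    have h1 : ∀ r ∈ Ici (0 : ℝ), HasDerivWithinAt (fun r => Real.log (x r i))
        (field R k (x r) i / x r i) (Ici 0) r := by
      intro r hr
      have h2 := hasDerivWithinAt_pi.1 (hx r hr).2 i
      exact h2.log (((hx r hr).1 i).ne')
    have h2 : ∀ r ∈ Ici (0 : ℝ), ‖field R k (x r) i / x r i‖ ≤ L := by
      intro r hr
      rw [norm_div, hL]
      have h3 : ‖field R k (x r) i‖ ≤ L1 := (norm_le_pi_norm _ i).trans (hfield r hr)
      have h4 : m ≤ ‖x r i‖ := by
        rw [Real.norm_eq_abs, abs_of_pos ((hx r hr).1 i)]; exact (hb r hr i).1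
      exact div_le_div₀ hL10 h3 hm h4
    exact (convex_Ici 0).norm_image_sub_le_of_norm_hasDerivWithin_le h1 h2 hs ht
  set τ : ℝ := 1 / (L + 1) with hτ
  have hτ0 : 0 < τ := by positivity
  have hLτ : L * τ ≤ 1 := by
    rw [hτ, mul_one_div, div_le_one (by positivity)]; linarith
  -- the derivative on subintervals
  have hder : ∀ a b : ℝ, 0 ≤ a → ∀ t, a ≤ t → t ≤ b →
      HasDerivWithinAt x (field R k (x t)) (Set.Icc a b) t := by
    intro a b ha t hat htb
    exact (hx t (ha.trans hat)).2.mono fun s hs => ha.trans hs.1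
  -- W is nonincreasing
  have hanti : ∀ a b : ℝ, 0 ≤ a → a ≤ b → W V (x b) ≤ W V (x a) := by
    intro a b ha hab
    have := W_decrease hV R k x a b 0 hab (fun t h1 _ => (hx t (ha.trans h1)).1)
      (hder a b ha) (fun t h1 _ ρ h3 _ => by
        rw [neg_zero]; exact (hdr (x t) ρ (hx t (ha.trans h1)).1 h3).1)
    linarith
  -- W is bounded below
  obtain ⟨A', hA', D, hD⟩ := hV.proper
  have hbelow : ∀ t, 0 ≤ t → -D ≤ W V (x t) := by
    intro t ht
    obtain ⟨p, hp, h1⟩ := hD (x t) (hx t ht).1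
    have h2 := le_W hV (hx t ht).1 hp
    have h3 : 0 ≤ A' * ∑ i, x t i :=
      mul_nonneg hA'.le (Finset.sum_nonneg fun i _ => ((hx t ht).1 i).le)
    linarith
  set S : Set ℝ := (fun t => W V (x t)) '' Ici 0 with hS
  have hSne : S.Nonempty := ⟨_, ⟨0, mem_Ici.2 le_rfl, rfl⟩⟩
  have hSb : BddBelow S := ⟨-D, by rintro _ ⟨t, ht, rfl⟩; exact hbelow t ht⟩
  set c : ℝ := c0 * mu with hc
  have hc' : 0 < c := mul_pos hc0 hmu
  obtain ⟨_, ⟨T0, hT0, rfl⟩, hT0'⟩ := exists_lt_of_csInf_lt hSne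
    (lt_add_of_pos_right (sInf S) (mul_pos hc' hτ0))
  refine ⟨T0 + τ, fun t ht => ?_⟩
  by_contra hbad
  push Not at hbad
  have hT0n : (0 : ℝ) ≤ T0 := hT0
  have ht0 : 0 ≤ t - τ := by linarith
  have hdec := W_decrease hV R k x (t - τ) t c (by linarith)
    (fun s h1 _ => (hx s (ht0.trans h1)).1) (hder (t - τ) t ht0) (fun s h1 h2 ρ h3 h4 => by
      have hs0 : 0 ≤ s := ht0.trans h1
      refine (hdr (x s) ρ (hx s hs0).1 h3).2 ?_ mu hmu.le (hmono s hs0)
      by_contra hne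
      push Not at hne
      obtain ⟨i, hi⟩ := hbad ρ hne
      have h5 := hlog i s hs0 t (by linarith)
      have h6 := h4 i
      have h7 : |t - s| ≤ τ := by rw [abs_le]; constructor <;> linarith
      have h8 : |ρ i - Real.log (x t i)| ≤ |ρ i - Real.log (x s i)| +
          |Real.log (x t i) - Real.log (x s i)| := by
        have : ρ i - Real.log (x t i) = (ρ i - Real.log (x s i)) -
          (Real.log (x t i) - Real.log (x s i)) := by ring
        rw [this]; exact abs_sub _ _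
      have h9 : L * |t - s| ≤ L * τ := mul_le_mul_of_nonneg_left h7 hL0
      linarith)
  have h1 := hanti T0 (t - τ) hT0n (by linarith)
  have h2 : sInf S ≤ W V (x t) := csInf_le hSb ⟨t, mem_Ici.2 (by linarith), rfl⟩
  have h3 : c * (t - (t - τ)) = c * τ := by ring
  rw [h3] at hdec
  simp only at hT0'
  linarith

end Vale.Agent.H10.WR
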