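import Vale.Agent.H10.WRRound1

/-!
# Existence of parameters (P072)
-/

namespace Vale.Agent.H10.WR

open Filter Topology

lemma exists_C1 (d : ℕ) (hd : 0 < d) (L : ℝ) (hL : 0 < L) :
    ∀ᶠ g : ℝ in atTop, Real.log (4 * d * (g + 1)) + 4 ≤ g / (2 * L) := by
  have hd' : (0 : ℝ) < d := by exact_mod_cast hd
  have ha : (1 / (8 * d * L) : ℝ) ≠ 0 := by positivity
  have h := Real.tendsto_pow_log_div_mul_add_atTop (1 / (8 * d * L)) (-(1 / (2 * L)) - 4) 1 ha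
  have h1 : ∀ᶠ y : ℝ in atTop,
      Real.log y ^ 1 / ((1 / (8 * d * L)) * y + (-(1 / (2 * L)) - 4)) < 1 :=
    h.eventually (gt_mem_nhds (by norm_num))
  have h2 : ∀ᶠ y : ℝ in atTop, 0 < (1 / (8 * d * L)) * y + (-(1 / (2 * L)) - 4) := by
    have : Tendsto (fun y : ℝ => (1 / (8 * d * L)) * y + (-(1 / (2 * L)) - 4)) atTop atTop := by
      apply Filter.tendsto_atTop_add_const_right
      exact Filter.Tendsto.const_mul_atTop (by positivity) tendsto_id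
    exact this.eventually_gt_atTop 0
  have h3 : Tendsto (fun g : ℝ => 4 * d * (g + 1)) atTop atTop := by
    apply Filter.Tendsto.const_mul_atTop (by positivity)
    exact Filter.tendsto_atTop_add_const_right _ _ tendsto_id
  filter_upwards [h3.eventually h1, h3.eventually h2] with g hg1 hg2
  rw [pow_one, div_lt_one hg2] at hg1
  have e : (1 / (8 * d * L)) * (4 * d * (g + 1)) + (-(1 / (2 * L)) - 4) = g / (2 * L) - 4 := by
    field_simp
    ring
  rw [e] at hg1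
  linarith

lemma exists_C2 (d : ℕ) (hd : 0 < d) :
    ∀ᶠ g : ℝ in atTop, Real.exp (-(g / 2)) * (1 + 3 * d * g) ≤ 1 / (8 * d) := by
  have hd' : (0 : ℝ) < d := by exact_mod_cast hd
  have h0 : Tendsto (fun x : ℝ => Real.exp (-x)) atTop (𝓝 0) :=
    Real.tendsto_exp_neg_atTop_nhds_zero
  have h1 : Tendsto (fun x : ℝ => x * Real.exp (-x)) atTop (𝓝 0) := by
    have := Real.tendsto_pow_mul_exp_neg_atTop_nhds_zero 1
    simpa using this
  have h2 : Tendsto (fun x : ℝ => Real.exp (-x) + (6 * d : ℝ) * (x * Real.exp (-x)))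
      atTop (𝓝 (0 + (6 * d : ℝ) * 0)) := h0.add (h1.const_mul _)
  have h3 : Tendsto (fun g : ℝ => g / 2) atTop atTop :=
    Filter.Tendsto.atTop_div_const (by norm_num) tendsto_id
  have h4 := h2.comp h3
  have h6 : (0 + (6 * d : ℝ) * 0) < 1 / (8 * d) := by
    simp only [mul_zero, add_zero]
    positivity
  have h5 := h4.eventually (gt_mem_nhds h6)
  filter_upwards [h5] with g hg
  simp only [Function.comp] at hg
  have e : Real.exp (-(g / 2)) * (1 + 3 * d * g)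
      = Real.exp (-(g / 2)) + 6 * d * (g / 2 * Real.exp (-(g / 2))) := by ring
  rw [e]
  exact hg.le

lemma exists_C (d : ℕ) (hd : 0 < d) (CΩ : ℝ) (L : ℝ) (hL : 0 < L) :
    ∃ C : ℝ, 4 ≤ C ∧ 2 * L ≤ C ∧ 2 * CΩ + 1 ≤ C ∧
      (∀ g, C ≤ g → Real.log (4 * d * (g + 1)) + 4 ≤ g / (2 * L)) ∧
      (∀ g, C ≤ g → Real.exp (-(g / 2)) * (1 + 3 * d * g) ≤ 1 / (8 * d)) := by
  obtain ⟨a, ha⟩ := Filter.eventually_atTop.1 (exists_C1 d hd L hL)
  obtain ⟨b, hb⟩ := Filter.eventually_atTop.1 (exists_C2 d hd)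
  refine ⟨max 4 (max (2 * L) (max (2 * CΩ + 1) (max a b))), le_max_left _ _, ?_, ?_, ?_, ?_⟩
  · exact (le_max_left _ _).trans (le_max_right _ _)
  · exact (le_max_left _ _).trans ((le_max_right _ _).trans (le_max_right _ _))
  · intro g hg
    apply ha
    refine le_trans ?_ hg
    exact (le_max_left _ _).trans ((le_max_right _ _).trans
      ((le_max_right _ _).trans (le_max_right _ _)))
  · intro g hg
    apply hb
    refine le_trans ?_ hg
    exact (le_max_right _ _).trans ((le_max_right _ _).trans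
      ((le_max_right _ _).trans (le_max_right _ _)))

/-- The chosen threshold `C` for a given `L`. -/
noncomputable def Cf (d : ℕ) (CΩ L : ℝ) : ℝ :=
  if h : 0 < d ∧ 0 < L then Classical.choose (exists_C d h.1 CΩ L h.2) else 0

lemma Cf_spec (d : ℕ) (hd : 0 < d) (CΩ L : ℝ) (hL : 0 < L) :
    4 ≤ Cf d CΩ L ∧ 2 * L ≤ Cf d CΩ L ∧ 2 * CΩ + 1 ≤ Cf d CΩ L ∧
      (∀ g, Cf d CΩ L ≤ g → Real.log (4 * d * (g + 1)) + 4 ≤ g / (2 * L)) ∧
      (∀ g, Cf d CΩ L ≤ g → Real.exp (-(g / 2)) * (1 + 3 * d * g) ≤ 1 / (8 * d)) := by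
  unfold Cf
  rw [dif_pos ⟨hd, hL⟩]
  exact Classical.choose_spec (exists_C d hd CΩ L hL)

/-- The backward recursion for `(b, L)`. -/
noncomputable def rec2 (d : ℕ) (B : ℕ) (κ CΩ : ℝ) : ℕ → ℕ × ℝ
  | 0 => (B + 1, B + κ + 2)
  | n + 1 => (2 * (rec2 d B κ CΩ n).1 ^ 2,
      ((rec2 d B κ CΩ n).1 : ℝ) ^ 2 * (rec2 d B κ CΩ n).2
        * (4 * Cf d CΩ (rec2 d B κ CΩ n).2 + 4))

lemma rec2_spec (d : ℕ) (hd : 0 < d) (B : ℕ) (κ CΩ : ℝ) (hκ : 0 ≤ κ) (n : ℕ) :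
    1 ≤ (rec2 d B κ CΩ n).1 ∧ 2 ≤ (rec2 d B κ CΩ n).2 := by
  induction n with
  | zero =>
    constructor
    · simp [rec2]
    · simp only [rec2]
      have : (0:ℝ) ≤ B := by positivity
      linarith
  | succ n ih =>
    obtain ⟨h1, h2⟩ := ih
    have h3 := (Cf_spec d hd CΩ (rec2 d B κ CΩ n).2 (by linarith)).1
    have h1' : (1:ℝ) ≤ ((rec2 d B κ CΩ n).1 : ℝ) := by exact_mod_cast h1
    constructor
    · simp only [rec2]
      nlinarith
    · simp only [rec2]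
      have h4 : (1:ℝ) ≤ ((rec2 d B κ CΩ n).1 : ℝ) ^ 2 := by nlinarith
      have h5 : (2:ℝ) ≤ ((rec2 d B κ CΩ n).1 : ℝ) ^ 2 * (rec2 d B κ CΩ n).2 := by nlinarith
      nlinarith

theorem exists_params (d : ℕ) (hd : 0 < d) (B : ℕ) (κ CΩ : ℝ) (hκ : 0 ≤ κ) :
    ∃ P : Par, Good d P ∧ B ≤ P.b (d - 1) ∧ (B : ℝ) + κ + 2 ≤ P.L (d - 1) ∧
      ∀ k, 2 * CΩ + 1 ≤ P.C k := by
  refine ⟨⟨fun k => (rec2 d B κ CΩ (d - 1 - k)).1, fun k => (rec2 d B κ CΩ (d - 1 - k)).2,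
    fun k => Cf d CΩ (rec2 d B κ CΩ (d - 1 - k)).2⟩, ?_, ?_, ?_, ?_⟩
  · have hs := fun k => rec2_spec d hd B κ CΩ hκ (d - 1 - k)
    have hC := fun k => Cf_spec d hd CΩ (rec2 d B κ CΩ (d - 1 - k)).2
      (by have := (hs k).2; linarith)
    constructor
    · intro k; exact (hs k).1
    · intro k hk
      have e : d - 1 - k = (d - 1 - (k + 1)) + 1 := by omega
      change 2 * (rec2 d B κ CΩ (d - 1 - (k + 1))).1 ^ 2 ≤ (rec2 d B κ CΩ (d - 1 - k)).1
      rw [e]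
      simp [rec2]
    · intro k; exact (hs k).2
    · intro k; exact (hC k).1
    · intro k; exact (hC k).2.1
    · intro k g hg; exact (hC k).2.2.2.1 g hg
    · intro k g hg; exact (hC k).2.2.2.2 g hg
    · intro k hk
      have e : d - 1 - k = (d - 1 - (k + 1)) + 1 := by omega
      change ((rec2 d B κ CΩ (d - 1 - (k + 1))).1 : ℝ) ^ 2 * (rec2 d B κ CΩ (d - 1 - (k + 1))).2
        * (4 * Cf d CΩ (rec2 d B κ CΩ (d - 1 - (k + 1))).2 + 4) ≤ (rec2 d B κ CΩ (d - 1 - k)).2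
      rw [e]
      simp [rec2]
  · simp [rec2]
  · simp [rec2]
  · intro k
    exact (Cf_spec d hd CΩ (rec2 d B κ CΩ (d - 1 - k)).2
      (by have := (rec2_spec d hd B κ CΩ hκ (d - 1 - k)).2; linarith)).2.2.1

end Vale.Agent.H10.WR
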