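import Vale.Agent.H10.WRDefs

/-!
# The rounding structure: critical values, separation, the Whitney property (P072)
-/

namespace Vale.Agent.H10.WR

open scoped BigOperators
open Finset

/-- Parameters of the rounding. -/
structure Par where
  b : ℕ → ℕ
  L : ℕ → ℝ
  C : ℕ → ℝ

/-- The inequalities between the parameters. -/
structure Good (d : ℕ) (P : Par) : Prop where
  b1 : ∀ k, 1 ≤ P.b k
  bstep : ∀ k, k + 1 < d → 2 * P.b (k + 1) ^ 2 ≤ P.b k
  L2 : ∀ k, 2 ≤ P.L k
  C4 : ∀ k, 4 ≤ P.C k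
  CL : ∀ k, 2 * P.L k ≤ P.C k
  hlog : ∀ k, ∀ g, P.C k ≤ g → Real.log (4 * d * (g + 1)) + 4 ≤ g / (2 * P.L k)
  hexp : ∀ k, ∀ g, P.C k ≤ g → Real.exp (-(g / 2)) * (1 + 3 * d * g) ≤ 1 / (8 * d)
  Lstep : ∀ k, k + 1 < d →
    (P.b (k + 1) : ℝ) ^ 2 * P.L (k + 1) * (4 * P.C (k + 1) + 4) ≤ P.L k

/-- `c` is a critical value at level `k`. -/
def CV (P : Par) (r : ℕ → ℝ) (k : ℕ) (c : ℝ) : Prop :=
  ∃ u : ℕ → ℤ, (∀ j, |u j| ≤ (P.b k : ℤ)) ∧ u k ≠ 0 ∧
    (u k : ℝ) * c + ∑ j ∈ range k, (u j : ℝ) * r j = 0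

open Classical in
/-- Accumulated radii. -/
noncomputable def Rs (P : Par) (r : ℕ → ℝ) : ℕ → ℝ
  | 0 => 0
  | k + 1 => Rs P r k + (if CV P r k (r k) then P.C k * (Rs P r k + 1)
      else P.C k * (Rs P r k + 1) / (2 * P.L k))

/-- The gap at level `k`. -/
noncomputable def gs (P : Par) (r : ℕ → ℝ) (k : ℕ) : ℝ := P.C k * (Rs P r k + 1)

open Classical in
/-- The radius at level `k`. -/
noncomputable def rad (P : Par) (r : ℕ → ℝ) (k : ℕ) : ℝ :=
  if CV P r k (r k) then gs P r k else gs P r k / (2 * P.L k)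

lemma Rs_zero (P : Par) (r : ℕ → ℝ) : Rs P r 0 = 0 := rfl

lemma Rs_succ (P : Par) (r : ℕ → ℝ) (k : ℕ) : Rs P r (k + 1) = Rs P r k + rad P r k := rfl

/-- `v` is an admissible value at level `k`. -/
def Node (P : Par) (r : ℕ → ℝ) (k : ℕ) (v : ℝ) : Prop :=
  CV P r k v ∨ ∀ c, CV P r k c → gs P r k ≤ |v - c|

/-- Valid sequences. -/
structure Valid (d : ℕ) (P : Par) (r : ℕ → ℝ) : Prop where
  node : ∀ k, k < d → Node P r k (r k)
  anti : ∀ k, k + 1 < d → r (k + 1) ≤ r k

lemma CV_congr (P : Par) {r r' : ℕ → ℝ} {k : ℕ} (h : ∀ j < k, r j = r' j) (c : ℝ) :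
    CV P r k c ↔ CV P r' k c := by
  unfold CV
  have : ∀ u : ℕ → ℤ, ∑ j ∈ range k, (u j : ℝ) * r j = ∑ j ∈ range k, (u j : ℝ) * r' j :=
    fun u => Finset.sum_congr rfl (fun j hj => by rw [h j (Finset.mem_range.1 hj)])
  constructor
  · rintro ⟨u, h1, h2, h3⟩
    exact ⟨u, h1, h2, by rw [← this]; exact h3⟩
  · rintro ⟨u, h1, h2, h3⟩
    exact ⟨u, h1, h2, by rw [this]; exact h3⟩

lemma Rs_congr (P : Par) {r r' : ℕ → ℝ} : ∀ {k : ℕ}, (∀ j < k, r j = r' j) →
    Rs P r k = Rs P r' k := by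
  intro k
  induction k with
  | zero => intro _; rfl
  | succ k ih =>
    intro h
    have h1 : Rs P r k = Rs P r' k := ih (fun j hj => h j (by omega))
    have h2 : CV P r k (r k) ↔ CV P r' k (r' k) := by
      rw [CV_congr P (fun j hj => h j (by omega)) (r k), h k (by omega)]
    rw [Rs_succ, Rs_succ, h1]
    unfold rad gs
    rw [h1]
    by_cases hc : CV P r k (r k)
    · rw [if_pos hc, if_pos (h2.1 hc)]
    · rw [if_neg hc, if_neg (fun hh => hc (h2.2 hh))]

lemma gs_congr (P : Par) {r r' : ℕ → ℝ} {k : ℕ} (h : ∀ j < k, r j = r' j) :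
    gs P r k = gs P r' k := by
  unfold gs; rw [Rs_congr P h]

lemma rad_congr (P : Par) {r r' : ℕ → ℝ} {k : ℕ} (h : ∀ j ≤ k, r j = r' j) :
    rad P r k = rad P r' k := by
  have h2 : CV P r k (r k) ↔ CV P r' k (r' k) := by
    rw [CV_congr P (fun j hj => h j (by omega)) (r k), h k le_rfl]
  unfold rad
  rw [gs_congr P (fun j hj => h j (by omega))]
  by_cases hc : CV P r k (r k)
  · rw [if_pos hc, if_pos (h2.1 hc)]
  · rw [if_neg hc, if_neg (fun hh => hc (h2.2 hh))]

section basic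

variable {d : ℕ} {P : Par}

lemma Rs_nonneg (hP : Good d P) (r : ℕ → ℝ) (k : ℕ) : 0 ≤ Rs P r k := by
  induction k with
  | zero => exact le_rfl
  | succ k ih =>
    rw [Rs_succ]
    have h4 := hP.C4 k
    have hL := hP.L2 k
    have hg : 0 ≤ gs P r k := by unfold gs; positivity
    have : 0 ≤ rad P r k := by
      unfold rad
      split_ifs
      · exact hg
      · exact div_nonneg hg (by linarith)
    linarith

lemma C_le_gs (hP : Good d P) (r : ℕ → ℝ) (k : ℕ) : P.C k ≤ gs P r k := by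
  have h4 := hP.C4 k
  have := Rs_nonneg hP r k
  unfold gs
  nlinarith

lemma gs_ge (hP : Good d P) (r : ℕ → ℝ) (k : ℕ) : 4 * (Rs P r k + 1) ≤ gs P r k := by
  have h4 := hP.C4 k
  have := Rs_nonneg hP r k
  unfold gs
  nlinarith

lemma four_le_gs (hP : Good d P) (r : ℕ → ℝ) (k : ℕ) : 4 ≤ gs P r k :=
  (hP.C4 k).trans (C_le_gs hP r k)

lemma rad_le_gs (hP : Good d P) (r : ℕ → ℝ) (k : ℕ) : rad P r k ≤ gs P r k := by
  have h := four_le_gs hP r k
  have hL := hP.L2 k
  unfold rad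
  split_ifs
  · exact le_rfl
  · rw [div_le_iff₀ (by linarith)]
    nlinarith

lemma rad_nonneg (hP : Good d P) (r : ℕ → ℝ) (k : ℕ) : 0 ≤ rad P r k := by
  have h := four_le_gs hP r k
  have hL := hP.L2 k
  unfold rad
  split_ifs
  · linarith
  · exact div_nonneg (by linarith) (by linarith)

lemma Rs_mono (hP : Good d P) (r : ℕ → ℝ) {j k : ℕ} (h : j ≤ k) : Rs P r j ≤ Rs P r k := by
  induction k, h using Nat.le_induction with
  | base => exact le_rfl
  | succ k _ ih =>
    rw [Rs_succ]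
    have := rad_nonneg hP r k
    linarith

/-- The previous value is always critical. -/
lemma CV_prev (hP : Good d P) (r : ℕ → ℝ) {k j : ℕ} (hj : j < k) : CV P r k (r j) := by
  classical
  refine ⟨fun i => if i = k then 1 else if i = j then -1 else 0, ?_, ?_, ?_⟩
  · intro i
    have := hP.b1 k
    have h1 : (1 : ℤ) ≤ (P.b k : ℤ) := by exact_mod_cast this
    by_cases h : i = k
    · simp [h, h1]
    · by_cases h' : i = j
      · simp only [h, h', if_true]
        split_ifs <;> simp [h1]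
      · simp [h, h']
  · simp
  · have hjk : j ≠ k := by omega
    have : ∑ i ∈ range k, ((if i = k then 1 else if i = j then -1 else 0 : ℤ) : ℝ) * r i
        = ∑ i ∈ range k, (if i = j then - r j else 0) := by
      refine Finset.sum_congr rfl (fun i hi => ?_)
      have hik : i ≠ k := by have := Finset.mem_range.1 hi; omega
      by_cases h' : i = j
      · simp [h', hjk]
      · simp [hik, h']
    rw [this, Finset.sum_ite_eq' (range k) j]
    simp [hj]

lemma CV_zero_val (hP : Good d P) (r : ℕ → ℝ) (k : ℕ) : CV P r k 0 := by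
  classical
  refine ⟨fun i => if i = k then 1 else 0, ?_, ?_, ?_⟩
  · intro i
    have := hP.b1 k
    have h1 : (1 : ℤ) ≤ (P.b k : ℤ) := by exact_mod_cast this
    by_cases h : i = k
    · simp [h, h1]
    · simp [h]
  · simp
  · have : ∑ i ∈ range k, ((if i = k then 1 else 0 : ℤ) : ℝ) * r i = 0 := by
      refine Finset.sum_eq_zero (fun i hi => ?_)
      have hik : i ≠ k := by have := Finset.mem_range.1 hi; omega
      simp [hik]
    rw [this]; simp

lemma CV_level_zero {r : ℕ → ℝ} {c : ℝ} (h : CV P r 0 c) : c = 0 := by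
  obtain ⟨u, _, h2, h3⟩ := h
  simp only [Finset.range_zero, Finset.sum_empty, add_zero] at h3
  rcases mul_eq_zero.1 h3 with h | h
  · exact absurd (by exact_mod_cast h) h2
  · exact h

/-- Whitney property at level `k`. -/
def Whit (P : Par) (r : ℕ → ℝ) (k : ℕ) : Prop :=
  ∀ y : ℕ → ℤ, (∀ j, |y j| ≤ (P.b k : ℤ)) → ∑ j ∈ range (k + 1), (y j : ℝ) * r j ≠ 0 →
    P.L k * (Rs P r (k + 1) + 1) ≤ |∑ j ∈ range (k + 1), (y j : ℝ) * r j|

/-- Separation at level `k`. -/
def Sep (P : Par) (r : ℕ → ℝ) (k : ℕ) : Prop :=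
  ∀ c c', CV P r k c → CV P r k c' → c ≠ c' →
    P.L k * (4 * P.C k + 4) * (Rs P r k + 1) ≤ |c - c'|

lemma sep_zero (P : Par) (r : ℕ → ℝ) : Sep P r 0 := by
  intro c c' h h' hne
  exact absurd ((CV_level_zero h).trans (CV_level_zero h').symm) hne

lemma sep_succ (hP : Good d P) {r : ℕ → ℝ} {k : ℕ} (hk : k + 1 < d) (hW : Whit P r k) :
    Sep P r (k + 1) := by
  intro c c' hc hc' hne
  obtain ⟨u, hu1, hu2, hu3⟩ := hc
  obtain ⟨w, hw1, hw2, hw3⟩ := hc'
  set K := k + 1 with hK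
  set y : ℕ → ℤ := fun j => u K * w j - w K * u j with hy
  have hb := hP.bstep k hk
  have hbK : (0 : ℤ) ≤ (P.b K : ℤ) := by positivity
  have hyb : ∀ j, |y j| ≤ (P.b k : ℤ) := by
    intro j
    have h1 : |u K * w j| ≤ (P.b K : ℤ) * (P.b K : ℤ) := by
      rw [abs_mul]; exact mul_le_mul (hu1 K) (hw1 j) (abs_nonneg _) hbK
    have h2 : |w K * u j| ≤ (P.b K : ℤ) * (P.b K : ℤ) := by
      rw [abs_mul]; exact mul_le_mul (hw1 K) (hu1 j) (abs_nonneg _) hbK
    have h3 : |y j| ≤ |u K * w j| + |w K * u j| := abs_sub _ _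
    have h4 : (2 * (P.b K : ℤ) ^ 2) ≤ (P.b k : ℤ) := by exact_mod_cast hb
    nlinarith
  have hsum : ∑ j ∈ range K, (y j : ℝ) * r j = (u K : ℝ) * (w K : ℝ) * (c - c') := by
    have e1 : ∑ j ∈ range K, (y j : ℝ) * r j
        = (u K : ℝ) * ∑ j ∈ range K, (w j : ℝ) * r j
          - (w K : ℝ) * ∑ j ∈ range K, (u j : ℝ) * r j := by
      rw [Finset.mul_sum, Finset.mul_sum, ← Finset.sum_sub_distrib]
      refine Finset.sum_congr rfl (fun j _ => ?_)
      simp only [hy]; push_cast; ring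
    have e2 : ∑ j ∈ range K, (w j : ℝ) * r j = - ((w K : ℝ) * c') := by linarith
    have e3 : ∑ j ∈ range K, (u j : ℝ) * r j = - ((u K : ℝ) * c) := by linarith
    rw [e1, e2, e3]; ring
  have huK : (u K : ℝ) ≠ 0 := by exact_mod_cast hu2
  have hwK : (w K : ℝ) ≠ 0 := by exact_mod_cast hw2
  have hne' : ∑ j ∈ range K, (y j : ℝ) * r j ≠ 0 := by
    rw [hsum]
    exact mul_ne_zero (mul_ne_zero huK hwK) (sub_ne_zero.2 hne)
  have hmain := hW y hyb hne'
  rw [hsum, abs_mul, abs_mul] at hmain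
  have hu' : |(u K : ℝ)| ≤ (P.b K : ℝ) := by exact_mod_cast hu1 K
  have hw' : |(w K : ℝ)| ≤ (P.b K : ℝ) := by exact_mod_cast hw1 K
  have hbpos : (1 : ℝ) ≤ (P.b K : ℝ) := by exact_mod_cast hP.b1 K
  have hstep := hP.Lstep k hk
  have hprod : |(u K : ℝ)| * |(w K : ℝ)| * |c - c'| ≤ (P.b K : ℝ) ^ 2 * |c - c'| := by
    have : |(u K : ℝ)| * |(w K : ℝ)| ≤ (P.b K : ℝ) * (P.b K : ℝ) :=
      mul_le_mul hu' hw' (abs_nonneg _) (by linarith)
    have h0 := abs_nonneg (c - c')
    nlinarith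
  have hR := Rs_nonneg hP r K
  have h1 : (P.b K : ℝ) ^ 2 * (P.L K * (4 * P.C K + 4) * (Rs P r K + 1))
      ≤ (P.b K : ℝ) ^ 2 * |c - c'| := by
    have : (P.b K : ℝ) ^ 2 * (P.L K * (4 * P.C K + 4) * (Rs P r K + 1))
        = ((P.b K : ℝ) ^ 2 * P.L K * (4 * P.C K + 4)) * (Rs P r K + 1) := by ring
    rw [this]
    calc ((P.b K : ℝ) ^ 2 * P.L K * (4 * P.C K + 4)) * (Rs P r K + 1)
        ≤ P.L k * (Rs P r K + 1) := by
          apply mul_le_mul_of_nonneg_right hstep (by linarith)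
      _ ≤ _ := hmain
      _ ≤ _ := hprod
  exact le_of_mul_le_mul_left h1 (by positivity)

lemma whit_of_sep (hP : Good d P) {r : ℕ → ℝ} (hr : Valid d P r) {k : ℕ} (hk : k < d)
    (hS : Sep P r k) (hprev : ∀ j, j + 1 = k → Whit P r j) : Whit P r k := by
  intro y hy hne
  rw [Finset.sum_range_succ] at hne ⊢
  have hR0 := Rs_nonneg hP r k
  have hC := hP.C4 k
  have hL := hP.L2 k
  have hCL := hP.CL k
  by_cases hyk : y k = 0
  · simp only [hyk, Int.cast_zero, zero_mul, add_zero] at hne ⊢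
    rcases k with _ | j
    · simp at hne
    · have hW := hprev j rfl
      have hbm : (P.b (j + 1) : ℤ) ≤ (P.b j : ℤ) := by
        have h1 := hP.bstep j hk
        have h2 := hP.b1 (j + 1)
        have : P.b (j + 1) ≤ P.b j := by nlinarith
        exact_mod_cast this
      have h := hW y (fun i => (hy i).trans hbm) hne
      have hstep := hP.Lstep j hk
      have hb1 : (1 : ℝ) ≤ (P.b (j + 1) : ℝ) := by exact_mod_cast hP.b1 (j + 1)
      have hrad := rad_le_gs hP r (j + 1)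
      have hRs := Rs_succ P r (j + 1)
      have hb2 : (1 : ℝ) ≤ (P.b (j + 1) : ℝ) ^ 2 := by nlinarith
      have h1 : P.L (j + 1) * (4 * P.C (j + 1) + 4) ≤ P.L j := by
        have : P.L (j + 1) * (4 * P.C (j + 1) + 4)
            ≤ (P.b (j + 1) : ℝ) ^ 2 * (P.L (j + 1) * (4 * P.C (j + 1) + 4)) := by
          have h0 : 0 ≤ P.L (j + 1) * (4 * P.C (j + 1) + 4) := by
            apply mul_nonneg <;> linarith
          nlinarith
        linarith
      have h2 : Rs P r (j + 1 + 1) + 1 ≤ (4 * P.C (j + 1) + 4) * (Rs P r (j + 1) + 1) := by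
        rw [hRs]
        unfold gs at hrad
        nlinarith
      calc P.L (j + 1) * (Rs P r (j + 1 + 1) + 1)
          ≤ P.L (j + 1) * ((4 * P.C (j + 1) + 4) * (Rs P r (j + 1) + 1)) :=
            mul_le_mul_of_nonneg_left h2 (by linarith)
        _ = (P.L (j + 1) * (4 * P.C (j + 1) + 4)) * (Rs P r (j + 1) + 1) := by ring
        _ ≤ P.L j * (Rs P r (j + 1) + 1) := mul_le_mul_of_nonneg_right h1 (by linarith)
        _ ≤ _ := h
  · have hykR : (y k : ℝ) ≠ 0 := by exact_mod_cast hyk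
    set c : ℝ := - (∑ j ∈ range k, (y j : ℝ) * r j) / (y k : ℝ) with hc
    have hcv : CV P r k c := by
      refine ⟨y, hy, hyk, ?_⟩
      rw [hc]; field_simp; ring
    have hval : ∑ j ∈ range k, (y j : ℝ) * r j + (y k : ℝ) * r k = (y k : ℝ) * (r k - c) := by
      rw [hc]; field_simp; ring
    rw [hval] at hne ⊢
    have hrc : r k ≠ c := by
      intro h; apply hne; rw [h]; simp
    have hy1 : (1 : ℝ) ≤ |(y k : ℝ)| := by
      have : (1 : ℤ) ≤ |y k| := Int.one_le_abs hyk
      exact_mod_cast this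
    rw [abs_mul]
    have hle : |r k - c| ≤ |(y k : ℝ)| * |r k - c| := by
      have := abs_nonneg (r k - c)
      nlinarith
    refine le_trans ?_ hle
    rw [Rs_succ]
    by_cases hcr : CV P r k (r k)
    · have hsep := hS (r k) c hcr hcv hrc
      have hrad := rad_le_gs hP r k
      unfold gs at hrad
      refine le_trans ?_ hsep
      rw [mul_assoc]
      apply mul_le_mul_of_nonneg_left _ (by linarith)
      nlinarith
    · have hnode := hr.node k hk
      rcases hnode with h | h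
      · exact absurd h hcr
      · have hg := h c hcv
        refine le_trans ?_ hg
        have hrad : rad P r k = gs P r k / (2 * P.L k) := by
          unfold rad; rw [if_neg hcr]
        rw [hrad]
        have hLpos : 0 < P.L k := by linarith
        have e1 : P.L k * (Rs P r k + gs P r k / (2 * P.L k) + 1)
            = P.L k * (Rs P r k + 1) + gs P r k / 2 := by
          field_simp; ring
        rw [e1]
        have : P.L k * (Rs P r k + 1) ≤ gs P r k / 2 := by
          unfold gs; nlinarith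
        linarith

theorem sep_whit (hP : Good d P) {r : ℕ → ℝ} (hr : Valid d P r) :
    ∀ k, k < d → Sep P r k ∧ Whit P r k := by
  intro k
  induction k with
  | zero =>
    intro hk
    exact ⟨sep_zero P r, whit_of_sep hP hr hk (sep_zero P r) (fun j hj => by omega)⟩
  | succ k ih =>
    intro hk
    have hW := (ih (by omega)).2
    have hS := sep_succ hP hk hW
    refine ⟨hS, whit_of_sep hP hr hk hS (fun j hj => ?_)⟩
    have : j = k := by omega
    rw [this]; exact hW

/-- Distinct critical values are at distance at least `4 g_k`. -/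
lemma sep_four (hP : Good d P) {r : ℕ → ℝ} (hr : Valid d P r) {k : ℕ} (hk : k < d)
    {c c' : ℝ} (hc : CV P r k c) (hc' : CV P r k c') (hne : c ≠ c') :
    4 * gs P r k ≤ |c - c'| := by
  have h := (sep_whit hP hr k hk).1 c c' hc hc' hne
  refine le_trans ?_ h
  have hR0 := Rs_nonneg hP r k
  have hC := hP.C4 k
  have hL := hP.L2 k
  unfold gs
  have h1 : 4 * (P.C k * (Rs P r k + 1)) ≤ (4 * P.C k + 4) * (Rs P r k + 1) := by nlinarith
  have h2 : (4 * P.C k + 4) * (Rs P r k + 1)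
      ≤ P.L k * ((4 * P.C k + 4) * (Rs P r k + 1)) := by
    have h0 : 0 ≤ (4 * P.C k + 4) * (Rs P r k + 1) := by apply mul_nonneg <;> linarith
    nlinarith
  linarith

end basic

end Vale.Agent.H10.WR
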