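import Vale.Agent.H10.WRRound1

/-!
# The strip lemma (P072)

Near-maximisers `r` of `∑ r_k x_k - E(r)` over valid sequences are within the radii of `log x`.
-/

namespace Vale.Agent.H10.WR

open scoped BigOperators
open Finset

/-- The cost factor of a critical value. -/
noncomputable def om (d : ℕ) (g : ℝ) : ℝ := Real.exp (-g) * (1 + 3 * d * g)

open Classical in
/-- The cost at level `k`. -/
noncomputable def eps (d : ℕ) (P : Par) (r : ℕ → ℝ) (k : ℕ) : ℝ :=
  if CV P r k (r k) then om d (gs P r k) * Real.exp (r k) else Real.exp (r k)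

/-- The objective. -/
noncomputable def obj (d : ℕ) (P : Par) (x r : ℕ → ℝ) : ℝ :=
  ∑ k ∈ range d, r k * x k - ∑ k ∈ range d, eps d P r k

/-- The alternative sequence: keep `r` below level `k`, and put `v` from level `k` on. -/
noncomputable def alt (r : ℕ → ℝ) (k : ℕ) (v : ℝ) : ℕ → ℝ := fun j => if j < k then r j else v

section strip

variable {d : ℕ} {P : Par}

lemma alt_lt {r : ℕ → ℝ} {k : ℕ} {v : ℝ} {j : ℕ} (h : j < k) : alt r k v j = r j := by
  unfold alt; rw [if_pos h]

lemma alt_ge {r : ℕ → ℝ} {k : ℕ} {v : ℝ} {j : ℕ} (h : k ≤ j) : alt r k v j = v := by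
  unfold alt; rw [if_neg (by omega)]

lemma alt_valid (hP : Good d P) {r : ℕ → ℝ} (hr : Valid d P r) {k : ℕ} {v : ℝ}
    (hv : Node P r k v) (hprev : ∀ j, j + 1 = k → v ≤ r j) : Valid d P (alt r k v) := by
  have hpre : ∀ {j : ℕ}, j ≤ k → ∀ i < j, r i = alt r k v i :=
    fun {j} hj i hi => (alt_lt (by omega)).symm
  constructor
  · intro j hj
    rcases lt_trichotomy j k with h | h | h
    · rcases hr.node j hj with hn | hn
      · left
        rw [alt_lt h]
        exact (CV_congr P (hpre h.le) _).1 hn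
      · right
        intro c hc
        rw [alt_lt h, ← gs_congr P (hpre h.le)]
        exact hn c ((CV_congr P (hpre h.le) _).2 hc)
    · subst h
      rcases hv with hn | hn
      · left
        rw [alt_ge le_rfl]
        exact (CV_congr P (hpre le_rfl) _).1 hn
      · right
        intro c hc
        rw [alt_ge le_rfl, ← gs_congr P (hpre le_rfl)]
        exact hn c ((CV_congr P (hpre le_rfl) _).2 hc)
    · left
      have h1 : alt r k v j = alt r k v k := by rw [alt_ge h.le, alt_ge le_rfl]
      rw [h1]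
      exact CV_prev hP _ h
  · intro j hj
    rcases lt_trichotomy (j + 1) k with h | h | h
    · rw [alt_lt h, alt_lt (by omega)]
      exact hr.anti j hj
    · rw [alt_ge h.ge, alt_lt (by omega)]
      exact hprev j h
    · rw [alt_ge h.le, alt_ge (by omega)]

lemma eps_nonneg (hP : Good d P) (r : ℕ → ℝ) (k : ℕ) : 0 ≤ eps d P r k := by
  have := four_le_gs hP r k
  unfold eps om
  split_ifs <;> positivity

lemma eps_congr (P : Par) {r r' : ℕ → ℝ} {k : ℕ} (h : ∀ j ≤ k, r j = r' j) :
    eps d P r k = eps d P r' k := by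
  have h2 : CV P r k (r k) ↔ CV P r' k (r' k) := by
    rw [CV_congr P (fun j hj => h j (by omega)) (r k), h k le_rfl]
  unfold eps
  rw [gs_congr P (fun j hj => h j (by omega)), h k le_rfl]
  by_cases hc : CV P r k (r k)
  · rw [if_pos (by rw [← h k le_rfl]; exact hc), if_pos (h2.1 hc)]
  · rw [if_neg (by rw [← h k le_rfl]; exact hc), if_neg (fun hh => hc (h2.2 hh))]

lemma om_le (hP : Good d P) (k : ℕ) {g : ℝ} (hg : P.C k ≤ g) :
    om d g ≤ Real.exp (-(g / 2)) * (1 / (8 * d)) := by
  have h := hP.hexp k g hg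
  unfold om
  have e : Real.exp (-g) = Real.exp (-(g / 2)) * Real.exp (-(g / 2)) := by
    rw [← Real.exp_add]; congr 1; ring
  rw [e, mul_assoc]
  exact mul_le_mul_of_nonneg_left h (Real.exp_pos _).le

lemma alt_eps_tail (hP : Good d P) {r : ℕ → ℝ} {k j : ℕ} {v : ℝ} (hj : k < j) :
    eps d P (alt r k v) j ≤ Real.exp (v - 2 * rad P (alt r k v) k) * (1 / (8 * d)) := by
  set r' := alt r k v with hr'
  have h1 : r' j = r' k := by rw [hr', alt_ge hj.le, alt_ge le_rfl]
  have hcv : CV P r' j (r' j) := by rw [h1]; exact CV_prev hP _ hj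
  have hvv : r' j = v := by rw [hr', alt_ge hj.le]
  unfold eps
  rw [if_pos hcv, hvv]
  have h2 := om_le hP j (C_le_gs hP r' j)
  have h3 : 4 * (rad P r' k + 1) ≤ gs P r' j := by
    have := gs_ge hP r' j
    have h4 : Rs P r' (k + 1) ≤ Rs P r' j := Rs_mono hP r' hj
    rw [Rs_succ] at h4
    have h5 := Rs_nonneg hP r' k
    linarith
  have h4 : Real.exp (-(gs P r' j / 2)) ≤ Real.exp (-(2 * rad P r' k)) := by
    apply Real.exp_le_exp.2; linarith
  have e : Real.exp (v - 2 * rad P r' k) = Real.exp (-(2 * rad P r' k)) * Real.exp v := by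
    rw [← Real.exp_add]; congr 1; ring
  rw [e]
  have h5 : (0:ℝ) ≤ 1 / (8 * d) := by positivity
  calc om d (gs P r' j) * Real.exp v
      ≤ (Real.exp (-(gs P r' j / 2)) * (1 / (8 * d))) * Real.exp v :=
        mul_le_mul_of_nonneg_right h2 (Real.exp_pos _).le
    _ ≤ (Real.exp (-(2 * rad P r' k)) * (1 / (8 * d))) * Real.exp v := by
        apply mul_le_mul_of_nonneg_right _ (Real.exp_pos _).le
        exact mul_le_mul_of_nonneg_right h4 h5
    _ = _ := by ring

lemma alt_tail_sum (hP : Good d P) {r : ℕ → ℝ} {k : ℕ} {v : ℝ} (hk : k < d) :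
    ∑ j ∈ Ico (k + 1) d, eps d P (alt r k v) j
      ≤ Real.exp (v - 2 * rad P (alt r k v) k) / 8 := by
  have hd : (0 : ℝ) < d := by
    have : 0 < d := by omega
    exact_mod_cast this
  have h1 : ∑ j ∈ Ico (k + 1) d, eps d P (alt r k v) j
      ≤ ∑ _j ∈ Ico (k + 1) d, Real.exp (v - 2 * rad P (alt r k v) k) * (1 / (8 * d)) := by
    refine Finset.sum_le_sum (fun j hj => ?_)
    have := Finset.mem_Ico.1 hj
    exact alt_eps_tail hP (by omega)
  refine h1.trans ?_
  rw [Finset.sum_const, Nat.card_Ico, nsmul_eq_mul]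
  have h2 : ((d - (k + 1) : ℕ) : ℝ) ≤ d := by exact_mod_cast Nat.sub_le _ _
  have h3 : 0 ≤ Real.exp (v - 2 * rad P (alt r k v) k) * (1 / (8 * d)) := by positivity
  calc ((d - (k + 1) : ℕ) : ℝ) * (Real.exp (v - 2 * rad P (alt r k v) k) * (1 / (8 * d)))
      ≤ d * (Real.exp (v - 2 * rad P (alt r k v) k) * (1 / (8 * d))) :=
        mul_le_mul_of_nonneg_right h2 h3
    _ = _ := by field_simp

/-- The comparison of the objective at `r` and at an alternative. -/
lemma compare (hP : Good d P) {r x : ℕ → ℝ} {k : ℕ} (hk : k < d) {v δ : ℝ}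
    (hmax : obj d P x (alt r k v) ≤ obj d P x r + δ) :
    ∑ j ∈ Ico k d, (v - r j) * x j + eps d P r k
      ≤ eps d P (alt r k v) k + Real.exp (v - 2 * rad P (alt r k v) k) / 8 + δ := by
  have htail := alt_tail_sum hP (r := r) (v := v) hk
  have hsplit : ∀ f : ℕ → ℝ, ∑ j ∈ range d, f j = ∑ j ∈ range k, f j + ∑ j ∈ Ico k d, f j :=
    fun f => by rw [Finset.sum_range_add_sum_Ico _ hk.le]
  unfold obj at hmax
  rw [hsplit (fun j => alt r k v j * x j), hsplit (fun j => r j * x j),
    hsplit (fun j => eps d P (alt r k v) j), hsplit (fun j => eps d P r j)] at hmax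
  have e1 : ∑ j ∈ range k, alt r k v j * x j = ∑ j ∈ range k, r j * x j :=
    Finset.sum_congr rfl (fun j hj => by rw [alt_lt (Finset.mem_range.1 hj)])
  have e2 : ∑ j ∈ range k, eps d P (alt r k v) j = ∑ j ∈ range k, eps d P r j := by
    refine Finset.sum_congr rfl (fun j hj => ?_)
    have := Finset.mem_range.1 hj
    exact eps_congr P (fun i hi => alt_lt (by omega))
  have e3 : ∑ j ∈ Ico k d, alt r k v j * x j = ∑ j ∈ Ico k d, v * x j :=
    Finset.sum_congr rfl (fun j hj => by rw [alt_ge (Finset.mem_Ico.1 hj).1])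
  have e4 : ∑ j ∈ Ico k d, eps d P (alt r k v) j
      = eps d P (alt r k v) k + ∑ j ∈ Ico (k + 1) d, eps d P (alt r k v) j := by
    rw [Finset.sum_eq_sum_Ico_succ_bot hk]
  have e5 : ∑ j ∈ Ico k d, eps d P r j
      = eps d P r k + ∑ j ∈ Ico (k + 1) d, eps d P r j := by
    rw [Finset.sum_eq_sum_Ico_succ_bot hk]
  have e6 : 0 ≤ ∑ j ∈ Ico (k + 1) d, eps d P r j :=
    Finset.sum_nonneg (fun j _ => eps_nonneg hP r j)
  have e7 : ∑ j ∈ Ico k d, (v - r j) * x j
      = ∑ j ∈ Ico k d, v * x j - ∑ j ∈ Ico k d, r j * x j := by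
    rw [← Finset.sum_sub_distrib]
    exact Finset.sum_congr rfl (fun j _ => by ring)
  rw [e1, e2, e3, e4, e5] at hmax
  rw [e7]
  linarith

lemma anti_le {r : ℕ → ℝ} (hr : Valid d P r) {k : ℕ} : ∀ {j : ℕ}, k ≤ j → j < d → r j ≤ r k := by
  intro j hj
  induction j, hj using Nat.le_induction with
  | base => intro _; exact le_rfl
  | succ j _ ih => intro h; exact (hr.anti j h).trans (ih (by omega))

lemma compare_up (hP : Good d P) {r x : ℕ → ℝ} (hr : Valid d P r) {k : ℕ} (hk : k < d)
    (hx : ∀ j < d, 0 ≤ x j) {v δ : ℝ} (hv : r k ≤ v)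
    (hmax : obj d P x (alt r k v) ≤ obj d P x r + δ) :
    (v - r k) * x k ≤ eps d P (alt r k v) k + Real.exp (v - 2 * rad P (alt r k v) k) / 8 + δ := by
  have h := compare hP hk hmax
  have h1 : (v - r k) * x k ≤ ∑ j ∈ Ico k d, (v - r j) * x j := by
    rw [Finset.sum_eq_sum_Ico_succ_bot hk]
    have : 0 ≤ ∑ j ∈ Ico (k + 1) d, (v - r j) * x j := by
      refine Finset.sum_nonneg (fun j hj => ?_)
      have hj' := Finset.mem_Ico.1 hj
      have := anti_le hr (k := k) (j := j) (by omega) hj'.2
      exact mul_nonneg (by linarith) (hx j hj'.2)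
    linarith
  have h2 := eps_nonneg hP r k
  linarith

lemma compare_down (hP : Good d P) {r x : ℕ → ℝ} (hr : Valid d P r) {k : ℕ} (hk : k < d)
    (hx : ∀ j < d, 0 ≤ x j) (hanti : ∀ j, k ≤ j → j < d → x j ≤ x k) {v δ : ℝ} (hv : v ≤ r k)
    (hmax : obj d P x (alt r k v) ≤ obj d P x r + δ) :
    eps d P r k ≤ eps d P (alt r k v) k + Real.exp (v - 2 * rad P (alt r k v) k) / 8
      + d * ((r k - v) * x k) + δ := by
  have h := compare hP hk hmax
  have h1 : - (d * ((r k - v) * x k)) ≤ ∑ j ∈ Ico k d, (v - r j) * x j := by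
    have h0 : 0 ≤ (r k - v) * x k := mul_nonneg (by linarith) (hx k hk)
    have h2 : ∑ j ∈ Ico k d, - ((r k - v) * x k) ≤ ∑ j ∈ Ico k d, (v - r j) * x j := by
      refine Finset.sum_le_sum (fun j hj => ?_)
      have hj' := Finset.mem_Ico.1 hj
      have h3 := anti_le hr (k := k) (j := j) (by omega) hj'.2
      have h4 := hanti j hj'.1 hj'.2
      have h5 := hx j hj'.2
      by_cases hvj : r j ≤ v
      · have : 0 ≤ (v - r j) * x j := mul_nonneg (by linarith) h5
        linarith
      · push Not at hvj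
        have : (r j - v) * x j ≤ (r k - v) * x k :=
          mul_le_mul (by linarith) h4 h5 (by linarith)
        linarith
    refine le_trans ?_ h2
    rw [Finset.sum_const, Nat.card_Ico, nsmul_eq_mul]
    have h2 : ((d - k : ℕ) : ℝ) ≤ d := by exact_mod_cast Nat.sub_le _ _
    nlinarith
  linarith

lemma eps_alt_crit {r : ℕ → ℝ} {k : ℕ} {v : ℝ} (h : CV P r k v) :
    eps d P (alt r k v) k = om d (gs P r k) * Real.exp v ∧ rad P (alt r k v) k = gs P r k := by
  have hpre : ∀ i < k, r i = alt r k v i := fun i hi => (alt_lt hi).symm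
  have hcv : CV P (alt r k v) k (alt r k v k) := by
    rw [alt_ge le_rfl]; exact (CV_congr P hpre _).1 h
  unfold eps rad
  rw [if_pos hcv, if_pos hcv, alt_ge le_rfl, gs_congr P hpre]
  exact ⟨rfl, rfl⟩

lemma eps_alt_non {r : ℕ → ℝ} {k : ℕ} {v : ℝ} (h : ¬ CV P r k v) :
    eps d P (alt r k v) k = Real.exp v ∧
      rad P (alt r k v) k = gs P r k / (2 * P.L k) := by
  have hpre : ∀ i < k, r i = alt r k v i := fun i hi => (alt_lt hi).symm
  have hcv : ¬ CV P (alt r k v) k (alt r k v k) := by
    rw [alt_ge le_rfl]; exact fun hh => h ((CV_congr P hpre _).2 hh)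
  unfold eps rad
  rw [if_neg hcv, if_neg hcv, alt_ge le_rfl, gs_congr P hpre]
  exact ⟨rfl, rfl⟩

lemma rad_non_ge (hP : Good d P) (hd : 0 < d) {r : ℕ → ℝ} {k : ℕ} (h : ¬ CV P r k (r k)) :
    Real.log (4 * d * (gs P r k + 1)) + 4 ≤ rad P r k := by
  have := hP.hlog k _ (C_le_gs hP r k)
  unfold rad
  rw [if_neg h]
  exact this

lemma log_arg_ge (hP : Good d P) (hd : 0 < d) (r : ℕ → ℝ) (k : ℕ) :
    1 ≤ 4 * d * (gs P r k + 1) := by
  have h4 := four_le_gs hP r k
  have : (1 : ℝ) ≤ d := by exact_mod_cast hd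
  nlinarith

/-- Upper bound at a critical value which is not a tie. -/
lemma up_crit (hP : Good d P) {r x : ℕ → ℝ} (hr : Valid d P r) {δ : ℝ}
    (hx : ∀ j < d, 0 < x j) (hδ : ∀ j < d, 4 * δ ≤ x j)
    (hmax : ∀ r', Valid d P r' → obj d P x r' ≤ obj d P x r + δ) {k : ℕ} (hk : k < d)
    (hc : CV P r k (r k)) (hgap : ∀ j, j + 1 = k → r k < r j) :
    x k ≤ Real.exp (r k + gs P r k) := by
  have h4 := four_le_gs hP r k
  set g := gs P r k with hg
  have hprev : ∀ j, j + 1 = k → r k + g ≤ r j := by
    intro j hj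
    have h1 := hgap j hj
    have h2 : CV P r k (r j) := CV_prev hP r (by omega)
    have h3 := sep_four hP hr hk h2 hc (ne_of_gt h1)
    rw [abs_of_pos (by linarith), ← hg] at h3
    linarith
  have hfar : ∀ c, CV P r k c → gs P r k ≤ |r k + g - c| := by
    intro c hcc
    by_cases hcr : c = r k
    · rw [hcr, ← hg]
      have : r k + g - r k = g := by ring
      rw [this, abs_of_pos (by linarith)]
    · have h3 := sep_four hP hr hk hcc hc hcr
      rw [← hg] at h3 ⊢
      have h5 : |c - r k| ≤ |r k + g - c| + |g| := by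
        have : c - r k = -(r k + g - c) + g := by ring
        rw [this]
        exact (abs_add_le _ _).trans (by rw [abs_neg])
      rw [abs_of_pos (show (0:ℝ) < g by linarith)] at h5
      linarith
  have hnc : ¬ CV P r k (r k + g) := by
    intro h
    have := hfar _ h
    rw [sub_self, abs_zero, ← hg] at this
    linarith
  have hval := alt_valid hP hr (Or.inr hfar) hprev
  have hcmp := compare_up hP hr hk (fun j hj => (hx j hj).le) (v := r k + g) (by linarith)
    (hmax _ hval)
  obtain ⟨he, _⟩ := eps_alt_non (d := d) hnc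
  rw [he] at hcmp
  have hrad := rad_nonneg hP (alt r k (r k + g)) k
  have h5 : Real.exp (r k + g - 2 * rad P (alt r k (r k + g)) k) ≤ Real.exp (r k + g) := by
    apply Real.exp_le_exp.2; linarith
  have h6 := hδ k hk
  have h7 := hx k hk
  have h8 := Real.exp_pos (r k + g)
  have h9 : r k + g - r k = g := by ring
  rw [h9] at hcmp
  nlinarith

/-- Upper bound at a noncritical value. -/
lemma up_non (hP : Good d P) {r x : ℕ → ℝ} (hr : Valid d P r) {δ : ℝ}
    (hx : ∀ j < d, 0 < x j) (hδ : ∀ j < d, 4 * δ ≤ x j)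
    (hmax : ∀ r', Valid d P r' → obj d P x r' ≤ obj d P x r + δ) {k : ℕ} (hk : k < d)
    (hc : ¬ CV P r k (r k)) :
    x k ≤ Real.exp (r k + rad P r k) := by
  have hd : 0 < d := by omega
  have hd1 : (1 : ℝ) ≤ d := by exact_mod_cast hd
  have h4 := four_le_gs hP r k
  have hradge := rad_non_ge hP hd hc
  have harg := log_arg_ge hP hd r k
  have hlog0 : 0 ≤ Real.log (4 * d * (gs P r k + 1)) := Real.log_nonneg harg
  have hnode : ∀ c, CV P r k c → gs P r k ≤ |r k - c| := by
    rcases hr.node k hk with h | h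
    · exact absurd h hc
    · exact h
  set g := gs P r k with hg
  have h6 := hδ k hk
  have h7 := hx k hk
  have he1 : (2:ℝ) ≤ Real.exp 1 := by have := Real.add_one_le_exp (1:ℝ); linarith
  by_cases hfar : ∀ c, CV P r k c → gs P r k ≤ |r k + 1 - c|
  · have hprev : ∀ j, j + 1 = k → r k + 1 ≤ r j := by
      intro j hj
      have h2 : CV P r k (r j) := CV_prev hP r (by omega)
      have h3 := hnode _ h2
      have h1 : r k ≤ r j := anti_le hr (by omega) hk
      rw [abs_of_nonpos (by linarith)] at h3
      linarith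
    have hnc : ¬ CV P r k (r k + 1) := by
      intro h
      have := hfar _ h
      rw [sub_self, abs_zero, ← hg] at this
      linarith
    have hval := alt_valid hP hr (Or.inr hfar) hprev
    have hcmp := compare_up hP hr hk (fun j hj => (hx j hj).le) (v := r k + 1) (by linarith)
      (hmax _ hval)
    obtain ⟨he, _⟩ := eps_alt_non (d := d) hnc
    rw [he] at hcmp
    have hrad := rad_nonneg hP (alt r k (r k + 1)) k
    have h5 : Real.exp (r k + 1 - 2 * rad P (alt r k (r k + 1)) k) ≤ Real.exp (r k + 1) := by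
      apply Real.exp_le_exp.2; linarith
    have h9 : r k + 1 - r k = 1 := by ring
    rw [h9, one_mul] at hcmp
    have h10 : Real.exp (r k + 1) * Real.exp 1 ≤ Real.exp (r k + rad P r k) := by
      rw [← Real.exp_add]; apply Real.exp_le_exp.2; linarith
    have h11 := Real.exp_pos (r k + 1)
    nlinarith
  · push Not at hfar
    obtain ⟨c, hcc, hcl⟩ := hfar
    rw [← hg] at hcl
    have hcn := hnode c hcc
    have hcl' := abs_lt.1 hcl
    have hcge : r k + g ≤ c := by
      by_contra hlt
      push Not at hlt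
      have : |r k - c| = r k - c := by
        rcases le_or_gt c (r k) with h | h
        · exact abs_of_nonneg (by linarith)
        · exfalso
          rw [abs_of_neg (by linarith)] at hcn
          linarith
      rw [this] at hcn
      linarith [hcl'.2]
    have hprev : ∀ j, j + 1 = k → c ≤ r j := by
      intro j hj
      by_contra hlt
      push Not at hlt
      have h2 : CV P r k (r j) := CV_prev hP r (by omega)
      have h3 := sep_four hP hr hk hcc h2 (ne_of_gt hlt)
      have h1 : r k ≤ r j := anti_le hr (by omega) hk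
      rw [abs_of_pos (by linarith), ← hg] at h3
      linarith [hcl'.1]
    have hval := alt_valid hP hr (Or.inl hcc) hprev
    have hcmp := compare_up hP hr hk (fun j hj => (hx j hj).le) (v := c) (by linarith)
      (hmax _ hval)
    obtain ⟨he, hrad⟩ := eps_alt_crit (d := d) hcc
    rw [he, hrad, ← hg] at hcmp
    have h5 : Real.exp (c - 2 * g) ≤ Real.exp (r k + 1) := by
      apply Real.exp_le_exp.2; linarith [hcl'.1]
    have h8 : om d g * Real.exp c ≤ (1 + 3 * d * g) * Real.exp (r k + 1) := by
      unfold om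
      have e1 : Real.exp (-g) * (1 + 3 * d * g) * Real.exp c
          = (1 + 3 * d * g) * Real.exp (c - g) := by
        have : Real.exp (c - g) = Real.exp (-g) * Real.exp c := by
          rw [← Real.exp_add]; congr 1; ring
        rw [this]; ring
      rw [e1]
      apply mul_le_mul_of_nonneg_left _ (by positivity)
      apply Real.exp_le_exp.2; linarith [hcl'.1]
    have h9 : g * x k ≤ (c - r k) * x k := mul_le_mul_of_nonneg_right (by linarith) h7.le
    have h11 := Real.exp_pos (r k + 1)
    -- (g - 1/4) x ≤ (9/8 + 3 d g) E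
    have h12 : (g - 1 / 4) * x k ≤ (9 / 8 + 3 * d * g) * Real.exp (r k + 1) := by nlinarith
    have h13 : g * x k ≤ g * (4 * d * Real.exp (r k + 1)) := by
      have h14 : (15 / 16) * (g * x k) ≤ (g - 1 / 4) * x k := by nlinarith
      have h15 : (9 / 8 + 3 * d * g) ≤ (15 / 16) * (g * (4 * d)) := by nlinarith
      have h16 : (9 / 8 + 3 * d * g) * Real.exp (r k + 1)
          ≤ (15 / 16) * (g * (4 * d)) * Real.exp (r k + 1) :=
        mul_le_mul_of_nonneg_right h15 h11.le
      nlinarith
    have h17 : x k ≤ 4 * d * Real.exp (r k + 1) := le_of_mul_le_mul_left h13 (by linarith)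
    have h18 : 4 * d * Real.exp (r k + 1) ≤ Real.exp (r k + rad P r k) := by
      have e1 : (4 * d * (g + 1) : ℝ) = Real.exp (Real.log (4 * d * (g + 1))) :=
        (Real.exp_log (by linarith)).symm
      have e2 : 4 * d * Real.exp (r k + 1) ≤ (4 * d * (g + 1)) * Real.exp (r k + 1) := by
        apply mul_le_mul_of_nonneg_right _ h11.le
        nlinarith
      refine e2.trans ?_
      rw [e1, ← Real.exp_add]
      apply Real.exp_le_exp.2; linarith
    exact h17.trans h18

/-- Upper bound of the strip lemma. -/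
lemma strip_up (hP : Good d P) {r x : ℕ → ℝ} (hr : Valid d P r) {δ : ℝ}
    (hx : ∀ j < d, 0 < x j) (hanti : ∀ j, j + 1 < d → x (j + 1) ≤ x j)
    (hδ : ∀ j < d, 4 * δ ≤ x j)
    (hmax : ∀ r', Valid d P r' → obj d P x r' ≤ obj d P x r + δ) :
    ∀ k, k < d → x k ≤ Real.exp (r k + rad P r k) := by
  intro k
  induction k with
  | zero =>
    intro hk
    by_cases hc : CV P r 0 (r 0)
    · have : rad P r 0 = gs P r 0 := by unfold rad; rw [if_pos hc]
      rw [this]
      exact up_crit hP hr hx hδ hmax hk hc (fun j hj => by omega)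
    · exact up_non hP hr hx hδ hmax hk hc
  | succ k ih =>
    intro hk
    by_cases hc : CV P r (k + 1) (r (k + 1))
    · have hrad : rad P r (k + 1) = gs P r (k + 1) := by unfold rad; rw [if_pos hc]
      by_cases hlt : r (k + 1) < r k
      · rw [hrad]
        refine up_crit hP hr hx hδ hmax hk hc (fun j hj => ?_)
        have : j = k := by omega
        rw [this]; exact hlt
      · have heq : r (k + 1) = r k := le_antisymm (hr.anti k hk) (not_lt.1 hlt)
        have h1 := ih (by omega)
        have h2 := hanti k hk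
        have h3 := gs_ge hP r (k + 1)
        rw [Rs_succ] at h3
        have h4 := Rs_nonneg hP r k
        have h5 := rad_nonneg hP r k
        refine (h2.trans h1).trans ?_
        apply Real.exp_le_exp.2
        rw [hrad, heq]
        linarith
    · exact up_non hP hr hx hδ hmax hk hc

/-- Lower bound at a critical value. -/
lemma down_crit (hP : Good d P) {r x : ℕ → ℝ} (hr : Valid d P r) {δ : ℝ}
    (hx : ∀ j < d, 0 < x j) (hδ : ∀ j < d, 4 * δ ≤ x j)
    (hmax : ∀ r', Valid d P r' → obj d P x r' ≤ obj d P x r + δ) {k : ℕ} (hk : k < d)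
    (hanti : ∀ j, k ≤ j → j < d → x j ≤ x k)
    (hc : CV P r k (r k)) :
    Real.exp (r k - gs P r k) ≤ x k := by
  have hd : 0 < d := by omega
  have hd1 : (1 : ℝ) ≤ d := by exact_mod_cast hd
  have h4 := four_le_gs hP r k
  set g := gs P r k with hg
  by_contra hlt
  push Not at hlt
  have hprev : ∀ j, j + 1 = k → r k - g ≤ r j := by
    intro j hj
    have h1 : r k ≤ r j := anti_le hr (by omega) hk
    linarith
  have hfar : ∀ c, CV P r k c → gs P r k ≤ |r k - g - c| := by
    intro c hcc
    by_cases hcr : c = r k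
    · rw [hcr, ← hg]
      have : r k - g - r k = -g := by ring
      rw [this, abs_neg, abs_of_pos (by linarith)]
    · have h3 := sep_four hP hr hk hcc hc hcr
      rw [← hg] at h3 ⊢
      have h5 : |c - r k| ≤ |r k - g - c| + |g| := by
        have : c - r k = -(r k - g - c) + -g := by ring
        rw [this]
        exact (abs_add_le _ _).trans (by rw [abs_neg, abs_neg])
      rw [abs_of_pos (show (0:ℝ) < g by linarith)] at h5
      linarith
  have hnc : ¬ CV P r k (r k - g) := by
    intro h
    have := hfar _ h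
    rw [sub_self, abs_zero, ← hg] at this
    linarith
  have hval := alt_valid hP hr (Or.inr hfar) hprev
  have hcmp := compare_down hP hr hk (fun j hj => (hx j hj).le) hanti (v := r k - g)
    (by linarith) (hmax _ hval)
  obtain ⟨he, _⟩ := eps_alt_non (d := d) hnc
  rw [he] at hcmp
  have heps : eps d P r k = Real.exp (r k - g) * (1 + 3 * d * g) := by
    unfold eps om
    rw [if_pos hc, ← hg]
    have : Real.exp (r k - g) = Real.exp (-g) * Real.exp (r k) := by
      rw [← Real.exp_add]; congr 1; ring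
    rw [this]; ring
  rw [heps] at hcmp
  have hrad := rad_nonneg hP (alt r k (r k - g)) k
  have h5 : Real.exp (r k - g - 2 * rad P (alt r k (r k - g)) k) ≤ Real.exp (r k - g) := by
    apply Real.exp_le_exp.2; linarith
  have h6 := hδ k hk
  have h7 := hx k hk
  have h9 : r k - (r k - g) = g := by ring
  rw [h9] at hcmp
  have hdg : 4 ≤ (d : ℝ) * g := by nlinarith
  have h10 : d * (g * x k) ≤ d * g * Real.exp (r k - g) := by
    rw [← mul_assoc]
    exact mul_le_mul_of_nonneg_left hlt.le (by positivity)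
  have h11 := Real.exp_pos (r k - g)
  nlinarith

/-- Lower bound at a noncritical value. -/
lemma down_non (hP : Good d P) {r x : ℕ → ℝ} (hr : Valid d P r) {δ : ℝ}
    (hx : ∀ j < d, 0 < x j) (hδ : ∀ j < d, 4 * δ ≤ x j)
    (hmax : ∀ r', Valid d P r' → obj d P x r' ≤ obj d P x r + δ) {k : ℕ} (hk : k < d)
    (hanti : ∀ j, k ≤ j → j < d → x j ≤ x k)
    (hc : ¬ CV P r k (r k)) :
    Real.exp (r k - rad P r k) ≤ x k := by
  have hd : 0 < d := by omega
  have hd1 : (1 : ℝ) ≤ d := by exact_mod_cast hd
  have h4 := four_le_gs hP r k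
  have hradge := rad_non_ge hP hd hc
  have harg := log_arg_ge hP hd r k
  have hlog0 : 0 ≤ Real.log (4 * d * (gs P r k + 1)) := Real.log_nonneg harg
  have hnode : ∀ c, CV P r k c → gs P r k ≤ |r k - c| := by
    rcases hr.node k hk with h | h
    · exact absurd h hc
    · exact h
  set g := gs P r k with hg
  have h6 := hδ k hk
  have h7 := hx k hk
  have he1 : (2:ℝ) ≤ Real.exp 1 := by have := Real.add_one_le_exp (1:ℝ); linarith
  by_contra hlt
  push Not at hlt
  -- 4 d (g+1) x_k ≤ exp (r k) * exp (-4)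
  have hsmall : (4 * d * (g + 1)) * x k ≤ Real.exp (r k) * Real.exp (-4) := by
    have e1 : (4 * d * (g + 1) : ℝ) = Real.exp (Real.log (4 * d * (g + 1))) :=
      (Real.exp_log (by linarith)).symm
    rw [e1]
    calc Real.exp (Real.log (4 * d * (g + 1))) * x k
        ≤ Real.exp (Real.log (4 * d * (g + 1))) * Real.exp (r k - rad P r k) :=
          mul_le_mul_of_nonneg_left hlt.le (Real.exp_pos _).le
      _ ≤ _ := by
          rw [← Real.exp_add, ← Real.exp_add]
          apply Real.exp_le_exp.2; linarith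
  have he4 : Real.exp (-4) ≤ 1 / 2 := by
    have h1 : Real.exp (-4) ≤ Real.exp (-1) := Real.exp_le_exp.2 (by norm_num)
    have h2 : Real.exp (-1) * Real.exp 1 = 1 := by rw [← Real.exp_add]; norm_num
    have h3 := Real.exp_pos (-1)
    nlinarith
  have hE := Real.exp_pos (r k)
  have hsmall2 : (4 * d * (g + 1)) * x k ≤ Real.exp (r k) / 2 := by
    have := mul_le_mul_of_nonneg_left he4 hE.le
    linarith
  by_cases hfar : ∀ c, CV P r k c → gs P r k ≤ |r k - 1 - c|
  · have hprev : ∀ j, j + 1 = k → r k - 1 ≤ r j := by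
      intro j hj
      have h1 : r k ≤ r j := anti_le hr (by omega) hk
      linarith
    have hnc : ¬ CV P r k (r k - 1) := by
      intro h
      have := hfar _ h
      rw [sub_self, abs_zero, ← hg] at this
      linarith
    have hval := alt_valid hP hr (Or.inr hfar) hprev
    have hcmp := compare_down hP hr hk (fun j hj => (hx j hj).le) hanti (v := r k - 1)
      (by linarith) (hmax _ hval)
    obtain ⟨he, _⟩ := eps_alt_non (d := d) hnc
    rw [he] at hcmp
    have heps : eps d P r k = Real.exp (r k) := by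
      unfold eps; rw [if_neg hc]
    rw [heps] at hcmp
    have hrad := rad_nonneg hP (alt r k (r k - 1)) k
    have h5 : Real.exp (r k - 1 - 2 * rad P (alt r k (r k - 1)) k) ≤ Real.exp (r k - 1) := by
      apply Real.exp_le_exp.2; linarith
    have h9 : r k - (r k - 1) = 1 := by ring
    rw [h9, one_mul] at hcmp
    have h10 : Real.exp (r k - 1) * Real.exp 1 = Real.exp (r k) := by
      rw [← Real.exp_add]; congr 1; ring
    have h11 := Real.exp_pos (r k - 1)
    have h12 : Real.exp (r k - 1) ≤ Real.exp (r k) / 2 := by nlinarith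
    have h13 : 5 * (d * x k) ≤ (d * (g + 1)) * x k := by
      have : 0 ≤ (d : ℝ) * x k := by positivity
      nlinarith
    have h14 : x k ≤ d * x k := by nlinarith
    nlinarith
  · push Not at hfar
    obtain ⟨c, hcc, hcl⟩ := hfar
    rw [← hg] at hcl
    have hcn := hnode c hcc
    have hcl' := abs_lt.1 hcl
    have hcge : c ≤ r k - g := by
      by_contra hlt'
      push Not at hlt'
      have : |r k - c| = -(r k - c) := by
        rcases le_or_gt c (r k) with h | h
        · exfalso
          rw [abs_of_nonneg (by linarith)] at hcn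
          linarith
        · exact abs_of_neg (by linarith)
      rw [this] at hcn
      linarith [hcl'.1]
    have hprev : ∀ j, j + 1 = k → c ≤ r j := by
      intro j hj
      have h1 : r k ≤ r j := anti_le hr (by omega) hk
      linarith
    have hval := alt_valid hP hr (Or.inl hcc) hprev
    have hcmp := compare_down hP hr hk (fun j hj => (hx j hj).le) hanti (v := c) (by linarith)
      (hmax _ hval)
    obtain ⟨he, hrad⟩ := eps_alt_crit (d := d) hcc
    rw [he, hrad, ← hg] at hcmp
    have heps : eps d P r k = Real.exp (r k) := by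
      unfold eps; rw [if_neg hc]
    rw [heps] at hcmp
    have h5 : Real.exp (c - 2 * g) ≤ Real.exp (r k) := by
      apply Real.exp_le_exp.2; linarith
    have hom : om d g ≤ 1 / 8 := by
      have h1 := om_le hP k (C_le_gs hP r k)
      rw [← hg] at h1
      have h2 : Real.exp (-(g / 2)) ≤ 1 := by
        rw [← Real.exp_zero]; apply Real.exp_le_exp.2; linarith
      have h3 : (1 / (8 * d) : ℝ) ≤ 1 / 8 := by
        apply one_div_le_one_div_of_le (by norm_num); linarith
      have h4 : (0:ℝ) ≤ 1 / (8 * d) := by positivity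
      nlinarith [Real.exp_pos (-(g/2))]
    have h8 : om d g * Real.exp c ≤ 1 / 8 * Real.exp (r k) := by
      apply mul_le_mul hom _ (Real.exp_pos _).le (by norm_num)
      apply Real.exp_le_exp.2; linarith
    have h9 : d * ((r k - c) * x k) ≤ (d * (g + 1)) * x k := by
      rw [← mul_assoc]
      apply mul_le_mul_of_nonneg_right _ h7.le
      apply mul_le_mul_of_nonneg_left _ (by linarith)
      linarith [hcl'.2]
    have h10 : x k ≤ (d * (g + 1)) * x k := by
      have : 1 ≤ (d:ℝ) * (g + 1) := by nlinarith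
      nlinarith
    nlinarith

/-- Lower bound of the strip lemma. -/
lemma strip_down (hP : Good d P) {r x : ℕ → ℝ} (hr : Valid d P r) {δ : ℝ}
    (hx : ∀ j < d, 0 < x j) (hanti : ∀ j, j + 1 < d → x (j + 1) ≤ x j)
    (hδ : ∀ j < d, 4 * δ ≤ x j)
    (hmax : ∀ r', Valid d P r' → obj d P x r' ≤ obj d P x r + δ) :
    ∀ k, k < d → Real.exp (r k - rad P r k) ≤ x k := by
  intro k hk
  have hanti' : ∀ j, k ≤ j → j < d → x j ≤ x k := by
    intro j hj
    induction j, hj using Nat.le_induction with
    | base => intro _; exact le_rfl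
    | succ j _ ih => intro h; exact (hanti j h).trans (ih (by omega))
  by_cases hc : CV P r k (r k)
  · have : rad P r k = gs P r k := by unfold rad; rw [if_pos hc]
    rw [this]
    exact down_crit hP hr hx hδ hmax hk hanti' hc
  · exact down_non hP hr hx hδ hmax hk hanti' hc

/-- The strip lemma. -/
theorem strip (hP : Good d P) {r x : ℕ → ℝ} (hr : Valid d P r) {δ : ℝ}
    (hx : ∀ j < d, 0 < x j) (hanti : ∀ j, j + 1 < d → x (j + 1) ≤ x j)
    (hδ : ∀ j < d, 4 * δ ≤ x j)
    (hmax : ∀ r', Valid d P r' → obj d P x r' ≤ obj d P x r + δ) :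
    ∀ k, k < d → |Real.log (x k) - r k| ≤ rad P r k := by
  intro k hk
  have h1 := strip_up hP hr hx hanti hδ hmax k hk
  have h2 := strip_down hP hr hx hanti hδ hmax k hk
  have h3 := hx k hk
  rw [← Real.log_le_iff_le_exp h3] at h1
  have h4 := (Real.le_log_iff_exp_le h3).2 h2
  rw [abs_le]
  constructor <;> linarith

end strip

end Vale.Agent.H10.WR
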