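import Vale.Agent.H10.WRRound2
import Vale.Agent.H10.WRParams
import Vale.Agent.H10.WRThm

/-!
# The rounding theorem (P072)
-/

namespace Vale.Agent.H10.WR

open scoped BigOperators
open Finset

section main

variable {d : ℕ} {P : Par}

/-- The total cost. -/
noncomputable def Ecost (d : ℕ) (P : Par) (r : ℕ → ℝ) : ℝ := ∑ k ∈ range d, eps d P r k

/-- The rounding family. -/
def fam (d : ℕ) (P : Par) : Set ((Fin d → ℝ) × ℝ) :=
  {p | ∃ (σ : Equiv.Perm (Fin d)) (r : ℕ → ℝ), Valid d P r ∧
    p = (fun i => r (σ.symm i), Ecost d P r)}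

/-- The sorted vector as a sequence. -/
noncomputable def srt (σ : Equiv.Perm (Fin d)) (x : Fin d → ℝ) : ℕ → ℝ :=
  fun k => if h : k < d then x (σ ⟨k, h⟩) else 0

lemma srt_lt (σ : Equiv.Perm (Fin d)) (x : Fin d → ℝ) {k : ℕ} (h : k < d) :
    srt σ x k = x (σ ⟨k, h⟩) := by unfold srt; rw [dif_pos h]

lemma dot_perm (σ : Equiv.Perm (Fin d)) (r : ℕ → ℝ) (x : Fin d → ℝ) :
    dot (fun i => r (σ.symm i)) x = ∑ k ∈ range d, r k * srt σ x k := by
  rw [Finset.sum_range]
  unfold dot
  rw [← Equiv.sum_comp σ]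
  refine Finset.sum_congr rfl (fun i _ => ?_)
  rw [srt_lt σ x i.2]
  simp

lemma obj_eq (σ : Equiv.Perm (Fin d)) (r : ℕ → ℝ) (x : Fin d → ℝ) :
    dot (fun i => r (σ.symm i)) x - Ecost d P r = obj d P (srt σ x) r := by
  rw [dot_perm]; rfl

/-- Deterministic bound for the accumulated radii. -/
noncomputable def Rm (P : Par) : ℕ → ℝ
  | 0 => 0
  | k + 1 => Rm P k + P.C k * (Rm P k + 1)

lemma Rm_nonneg (hP : Good d P) (k : ℕ) : 0 ≤ Rm P k := by
  induction k with
  | zero => exact le_rfl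
  | succ k ih =>
    have := hP.C4 k
    simp only [Rm]
    nlinarith

lemma Rs_le_Rm (hP : Good d P) (r : ℕ → ℝ) (k : ℕ) : Rs P r k ≤ Rm P k := by
  induction k with
  | zero => exact le_rfl
  | succ k ih =>
    rw [Rs_succ]
    have h1 := rad_le_gs hP r k
    have h2 := hP.C4 k
    unfold gs at h1
    simp only [Rm]
    nlinarith

lemma Rm_mono (hP : Good d P) {j k : ℕ} (h : j ≤ k) : Rm P j ≤ Rm P k := by
  induction k, h using Nat.le_induction with
  | base => exact le_rfl
  | succ k _ ih =>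
    have := hP.C4 k
    have h0 := Rm_nonneg hP k
    simp only [Rm]
    nlinarith

lemma gs_le_Rm (hP : Good d P) (r : ℕ → ℝ) {k : ℕ} (hk : k < d) : gs P r k ≤ Rm P d := by
  have h1 := Rs_le_Rm hP r k
  have h2 := Rm_mono hP (show k + 1 ≤ d by omega)
  have h3 := hP.C4 k
  have h4 := Rm_nonneg hP k
  simp only [Rm] at h2
  unfold gs
  nlinarith

lemma eps_ge (hP : Good d P) (r : ℕ → ℝ) {k : ℕ} (hk : k < d) :
    Real.exp (-(Rm P d)) * Real.exp (r k) ≤ eps d P r k := by
  have h1 := gs_le_Rm hP r hk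
  have h2 := four_le_gs hP r k
  have h3 := Rm_nonneg hP d
  unfold eps om
  split_ifs
  · apply mul_le_mul_of_nonneg_right _ (Real.exp_pos _).le
    have h4 : Real.exp (-(Rm P d)) ≤ Real.exp (-(gs P r k)) := by
      apply Real.exp_le_exp.2; linarith
    have h5 : (1:ℝ) ≤ 1 + 3 * d * gs P r k := by
      have : 0 ≤ 3 * (d:ℝ) * gs P r k := by positivity
      linarith
    have h6 := Real.exp_pos (-(gs P r k))
    nlinarith
  · have : Real.exp (-(Rm P d)) ≤ 1 := by
      rw [← Real.exp_zero]; apply Real.exp_le_exp.2; linarith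
    have h6 := Real.exp_pos (r k)
    nlinarith

lemma coord_bound {w r x : ℝ} (hw : 0 < w) (hx : 0 ≤ x) :
    r * x - w * Real.exp r ≤ x ^ 2 / (2 * w) := by
  rcases le_or_gt r 0 with h | h
  · have h1 : r * x ≤ 0 := mul_nonpos_of_nonpos_of_nonneg h hx
    have h2 := mul_pos hw (Real.exp_pos r)
    have h3 : 0 ≤ x ^ 2 / (2 * w) := by positivity
    linarith
  · have h1 := Real.quadratic_le_exp_of_nonneg h.le
    have h2 : w * (r ^ 2 / 2) ≤ w * Real.exp r :=
      mul_le_mul_of_nonneg_left (by linarith) hw.le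
    rw [le_div_iff₀ (by positivity)]
    nlinarith [sq_nonneg (x - w * r)]

lemma fam_bdd (hP : Good d P) (x : Fin d → ℝ) (hx : ∀ i, 0 < x i) :
    ∃ M : ℝ, ∀ p ∈ fam d P, dot p.1 x - p.2 ≤ M := by
  refine ⟨∑ i, x i ^ 2 / (2 * Real.exp (-(Rm P d))), ?_⟩
  rintro p ⟨σ, r, hr, rfl⟩
  have e1 : Ecost d P r = ∑ i : Fin d, eps d P r i := by
    unfold Ecost; rw [Finset.sum_range]
  have e2 : dot (fun i => r (σ.symm i)) x = ∑ i : Fin d, r i * x (σ i) := by
    unfold dot
    rw [← Equiv.sum_comp σ]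
    simp
  have e3 : ∑ i, x i ^ 2 / (2 * Real.exp (-(Rm P d)))
      = ∑ i, x (σ i) ^ 2 / (2 * Real.exp (-(Rm P d))) := by
    rw [← Equiv.sum_comp σ]
  simp only
  rw [e1, e2, e3, ← Finset.sum_sub_distrib]
  refine Finset.sum_le_sum (fun i _ => ?_)
  have h1 := eps_ge hP r i.2
  have h2 := coord_bound (r := r i) (Real.exp_pos (-(Rm P d))) (hx (σ i)).le
  linarith

lemma valid_const (hP : Good d P) : Valid d P (fun _ => P.C 0) := by
  constructor
  · intro k hk
    rcases k with _ | k
    · right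
      intro c hc
      rw [CV_level_zero hc]
      have h4 := hP.C4 0
      unfold gs
      rw [Rs_zero]
      simp only [zero_add, mul_one, sub_zero]
      exact le_abs_self _
    · left
      exact CV_prev hP (fun _ => P.C 0) (Nat.lt_succ_self k)
  · intro k _; exact le_rfl

lemma fam_proper (hP : Good d P) : ∃ A : ℝ, 0 < A ∧ ∃ D : ℝ, ∀ x : Fin d → ℝ,
    (∀ i, 0 < x i) → ∃ p ∈ fam d P, A * ∑ i, x i - D ≤ dot p.1 x - p.2 := by
  refine ⟨P.C 0, by have := hP.C4 0; linarith, Ecost d P (fun _ => P.C 0), fun x _ => ?_⟩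
  refine ⟨(fun _ => P.C 0, Ecost d P (fun _ => P.C 0)), ⟨1, fun _ => P.C 0, valid_const hP, rfl⟩, ?_⟩
  apply le_of_eq
  unfold dot
  rw [Finset.mul_sum]

lemma exists_sort (x : Fin d → ℝ) : ∃ σ : Equiv.Perm (Fin d), Antitone (fun k => x (σ k)) := by
  refine ⟨Tuple.sort (fun i => - x i), ?_⟩
  have h := Tuple.monotone_sort (fun i => - x i)
  intro a b hab
  have := h hab
  simp only [Function.comp] at this
  linarith

lemma dot_le_sorted {r : ℕ → ℝ} (hr : Valid d P r) (x : Fin d → ℝ)
    (σ τ : Equiv.Perm (Fin d)) (hτ : Antitone (fun k => x (τ k))) :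
    dot (fun i => r (σ.symm i)) x ≤ dot (fun i => r (τ.symm i)) x := by
  have e : ∀ σ : Equiv.Perm (Fin d), dot (fun i => r (σ.symm i)) x = ∑ i : Fin d, r i * x (σ i) := by
    intro σ
    unfold dot
    rw [← Equiv.sum_comp σ]
    simp
  rw [e, e]
  have hmono : Monovary (fun i : Fin d => r i) (fun i => x (τ i)) := by
    intro a b hab
    have h1 : b ≤ a := by
      by_contra hlt
      push Not at hlt
      exact absurd (hτ hlt.le) (not_le.2 hab)
    exact anti_le hr h1 a.2
  have h := hmono.sum_mul_comp_perm_le_sum_mul (σ := σ.trans τ.symm)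
  simpa using h

lemma fam_near (hP : Good d P) (hd : 0 < d) {B : ℕ} {κ CΩ : ℝ} (hκ : 0 ≤ κ)
    (hB : B ≤ P.b (d - 1)) (hL : (B : ℝ) + κ + 2 ≤ P.L (d - 1))
    (hC : ∀ k, 2 * CΩ + 1 ≤ P.C k) (x : Fin d → ℝ) (hx : ∀ i, 0 < x i) (η : ℝ) (hη : 0 < η) :
    ∃ p ∈ fam d P,
      (∀ q ∈ fam d P, dot q.1 x - q.2 ≤ dot p.1 x - p.2 + η) ∧
      SignProp B κ p.1 x ∧
      (∀ i, |p.1 i - Real.log (x i)| ≤ Rm P d) ∧
      (∀ i, (∀ j, x i ≤ x j → |Real.log (x j)| ≤ CΩ) → p.1 i = 0) := by
  classical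
  haveI : Nonempty (Fin d) := ⟨⟨0, hd⟩⟩
  -- minimum of x
  obtain ⟨i0, hi0⟩ := Finite.exists_min x
  set δ := min η (x i0 / 4) with hδdef
  have hδ : 0 < δ := lt_min hη (by have := hx i0; linarith)
  obtain ⟨M, hM⟩ := fam_bdd hP x hx
  set S := (fun p : (Fin d → ℝ) × ℝ => dot p.1 x - p.2) '' fam d P with hS
  have hSb : BddAbove S := ⟨M, by rintro _ ⟨p, hp, rfl⟩; exact hM p hp⟩
  have hSne : S.Nonempty := ⟨_, ⟨_, ⟨1, fun _ => P.C 0, valid_const hP, rfl⟩, rfl⟩⟩
  obtain ⟨_, ⟨q0, ⟨σ0, r, hr, rfl⟩, rfl⟩, hq0⟩ :=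
    exists_lt_of_lt_csSup hSne (show sSup S - δ < sSup S by linarith)
  obtain ⟨σ, hσ⟩ := exists_sort x
  have hmem : ∀ r', Valid d P r' →
      ((fun i => r' (σ.symm i), Ecost d P r') : (Fin d → ℝ) × ℝ) ∈ fam d P :=
    fun r' hr' => ⟨σ, r', hr', rfl⟩
  have hsup : sSup S - δ < dot (fun i => r (σ.symm i)) x - Ecost d P r := by
    have := dot_le_sorted hr x σ0 σ hσ
    simp only at hq0
    linarith
  have hmaxall : ∀ q ∈ fam d P, dot q.1 x - q.2
      ≤ dot (fun i => r (σ.symm i)) x - Ecost d P r + δ := by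
    intro q hq
    have : dot q.1 x - q.2 ≤ sSup S := le_csSup hSb ⟨q, hq, rfl⟩
    linarith
  have hmax : ∀ r', Valid d P r' → obj d P (srt σ x) r' ≤ obj d P (srt σ x) r + δ := by
    intro r' hr'
    rw [← obj_eq, ← obj_eq]
    exact hmaxall _ (hmem r' hr')
  have hxs : ∀ j < d, 0 < srt σ x j := fun j hj => by rw [srt_lt σ x hj]; exact hx _
  have hanti : ∀ j, j + 1 < d → srt σ x (j + 1) ≤ srt σ x j := by
    intro j hj
    rw [srt_lt σ x hj, srt_lt σ x (show j < d by omega)]
    apply hσ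
    simp [Fin.le_def]
  have hδx : ∀ j < d, 4 * δ ≤ srt σ x j := by
    intro j hj
    rw [srt_lt σ x hj]
    have h1 := hi0 (σ ⟨j, hj⟩)
    have h2 : δ ≤ x i0 / 4 := min_le_right _ _
    linarith
  have hstrip := strip hP hr hxs hanti hδx hmax
  refine ⟨_, hmem r hr, ?_, ?_, ?_, ?_⟩
  · intro q hq
    have h1 := hmaxall q hq
    have h2 : δ ≤ η := min_le_left _ _
    simp only
    linarith
  · -- sign property
    intro z hz hpos
    simp only at hpos ⊢
    set y : ℕ → ℤ := fun k => if h : k < d then z (σ ⟨k, h⟩) else 0 with hy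
    have hylt : ∀ {k : ℕ} (h : k < d), y k = z (σ ⟨k, h⟩) := by
      intro k h; simp only [hy]; rw [dif_pos h]
    have hyb : ∀ j, |y j| ≤ (P.b (d - 1) : ℤ) := by
      intro j
      by_cases h : j < d
      · rw [hylt h]
        exact (hz _).trans (by exact_mod_cast hB)
      · simp only [hy]; rw [dif_neg h, abs_zero]; positivity
    have hyB : ∀ j, |(y j : ℝ)| ≤ (B : ℝ) := by
      intro j
      by_cases h : j < d
      · rw [hylt h]
        exact_mod_cast hz (σ ⟨j, h⟩)
      · simp only [hy]; rw [dif_neg h]; simp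
    have hsum1 : ∑ i, (z i : ℝ) * r (σ.symm i) = ∑ j ∈ range d, (y j : ℝ) * r j := by
      rw [Finset.sum_range, ← Equiv.sum_comp σ]
      refine Finset.sum_congr rfl (fun i _ => ?_)
      rw [hylt i.2]; simp
    have hsum2 : ∑ i, (z i : ℝ) * Real.log (x i)
        = ∑ j ∈ range d, (y j : ℝ) * Real.log (srt σ x j) := by
      rw [Finset.sum_range, ← Equiv.sum_comp σ]
      refine Finset.sum_congr rfl (fun i _ => ?_)
      rw [hylt i.2, srt_lt σ x i.2]
    rw [hsum1] at hpos ⊢
    rw [hsum2]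
    have hd1 : d - 1 + 1 = d := by omega
    have hW := (sep_whit hP hr (d - 1) (by omega)).2 y hyb (by rw [hd1]; exact hpos.ne')
    rw [hd1, abs_of_pos hpos] at hW
    have hR := Rs_nonneg hP r d
    have hB0 : (0:ℝ) ≤ B := by positivity
    have hW2 : ((B:ℝ) + κ + 2) * (Rs P r d + 1) ≤ ∑ j ∈ range d, (y j : ℝ) * r j :=
      (mul_le_mul_of_nonneg_right hL (by linarith)).trans hW
    constructor
    · nlinarith
    · have hdiff : ∑ j ∈ range d, (y j : ℝ) * r j
          - ∑ j ∈ range d, (y j : ℝ) * Real.log (srt σ x j) ≤ B * Rs P r d := by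
        rw [← Finset.sum_sub_distrib]
        have hRs : ∀ n, Rs P r n = ∑ j ∈ range n, rad P r j := by
          intro n
          induction n with
          | zero => simp [Rs_zero]
          | succ n ih => rw [Rs_succ, ih, Finset.sum_range_succ]
        rw [hRs d, Finset.mul_sum]
        refine Finset.sum_le_sum (fun j hj => ?_)
        have hj' := Finset.mem_range.1 hj
        have h1 := hstrip j hj'
        have h2 : (y j : ℝ) * r j - (y j : ℝ) * Real.log (srt σ x j)
            = - ((y j : ℝ) * (Real.log (srt σ x j) - r j)) := by ring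
        rw [h2]
        refine (neg_le_abs _).trans ?_
        rw [abs_mul]
        exact mul_le_mul (hyB j) h1 (abs_nonneg _) hB0
      nlinarith
  · -- closeness
    intro i
    simp only
    have h1 := hstrip (σ.symm i) (σ.symm i).2
    rw [srt_lt σ x (σ.symm i).2] at h1
    simp only [Fin.eta, Equiv.apply_symm_apply] at h1
    rw [abs_sub_comm]
    exact h1.trans ((rad_le_gs hP r _).trans (gs_le_Rm hP r (σ.symm i).2))
  · -- zero clause
    intro i hi
    simp only
    have key : ∀ j : ℕ, j ≤ (σ.symm i : ℕ) → r j = 0 := by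
      intro j
      induction j using Nat.strong_induction_on with
      | _ j ih =>
        intro hj
        have hjd : j < d := lt_of_le_of_lt hj (σ.symm i).2
        have hcv0 : ∀ c, CV P r j c → c = 0 := by
          rintro c ⟨u, _, hu2, hu3⟩
          have : ∑ i ∈ range j, (u i : ℝ) * r i = 0 := by
            refine Finset.sum_eq_zero (fun l hl => ?_)
            have hl' := Finset.mem_range.1 hl
            rw [ih l hl' (by omega), mul_zero]
          rw [this, add_zero] at hu3
          rcases mul_eq_zero.1 hu3 with h | h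
          · exact absurd (by exact_mod_cast h) hu2
          · exact h
        by_contra hne
        have hnc : ¬ CV P r j (r j) := fun h => hne (hcv0 _ h)
        have hg : gs P r j ≤ |r j - 0| := by
          rcases hr.node j hjd with h | h
          · exact absurd h hnc
          · exact h 0 (CV_zero_val hP r j)
        rw [sub_zero] at hg
        have hrad : rad P r j = gs P r j / (2 * P.L j) := by unfold rad; rw [if_neg hnc]
        have hrad4 : rad P r j ≤ gs P r j / 4 := by
          rw [hrad]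
          apply div_le_div_of_nonneg_left _ (by norm_num)
          · have := hP.L2 j; linarith
          · have := four_le_gs hP r j; linarith
        have hst := hstrip j hjd
        have hle : x i ≤ x (σ ⟨j, hjd⟩) := by
          have h1 : (⟨j, hjd⟩ : Fin d) ≤ σ.symm i := by
            rw [Fin.le_def]; exact hj
          have := hσ h1
          simpa using this
        have hlog := hi _ hle
        rw [srt_lt σ x hjd] at hst
        have habs : |r j| ≤ |Real.log (x (σ ⟨j, hjd⟩))| + |Real.log (x (σ ⟨j, hjd⟩)) - r j| := by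
          have : r j = Real.log (x (σ ⟨j, hjd⟩)) - (Real.log (x (σ ⟨j, hjd⟩)) - r j) := by ring
          calc |r j| = |Real.log (x (σ ⟨j, hjd⟩)) - (Real.log (x (σ ⟨j, hjd⟩)) - r j)| := by
                rw [← this]
            _ ≤ _ := abs_sub _ _
        have hCg := C_le_gs hP r j
        have hCC := hC j
        have h4 := hP.C4 j
        linarith
    exact key _ le_rfl

end main

/-- **Rounding theorem.** -/
theorem roundingThm (d : ℕ) (hd : 0 < d) : RoundingThm d := by
  intro B κ CΩ hκ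
  obtain ⟨P, hP, hB, hL, hC⟩ := exists_params d hd B κ CΩ hκ
  exact ⟨Rm P d, fam d P, fam_bdd hP, fam_proper hP, fam_near hP hd hκ hB hL hC⟩

end Vale.Agent.H10.WR
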