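import Vale.Agent.H10.WRDefs

/-!
# Mass-action systems with measurable time-dependent rates (P072)
-/

namespace Vale.Agent.H10.WR

open scoped BigOperators
open MeasureTheory

/-- Admissible time-dependent rates: measurable in time, with values in `[ε, ε⁻¹]`. -/
def RatesIn {d : ℕ} (R : Finset (Rxn d)) (ε : ℝ) (k : ℝ → Rxn d → ℝ) : Prop :=
  ∀ e ∈ R, Measurable (fun t => k t e) ∧ ∀ t : ℝ, ε ≤ k t e ∧ k t e ≤ ε⁻¹

/-- `x` is a positive (Carathéodory) solution on `[0, T)` of the mass-action system with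
time-dependent rates: `x` is continuous and positive on `[0, T)` and satisfies
`x t = x 0 + ∫₀ᵗ f(s, x s) ds` there. -/
def TSolOn {d : ℕ} (R : Finset (Rxn d)) (k : ℝ → Rxn d → ℝ) (x : ℝ → Fin d → ℝ) (T : ℝ) : Prop :=
  ContinuousOn x (Set.Ico 0 T) ∧ ∀ t : ℝ, 0 ≤ t → t < T →
    (∀ i, 0 < x t i) ∧ x t = x 0 + ∫ s in (0 : ℝ)..t, field R (k s) (x s)

/-- `x` is a positive (Carathéodory) solution on `[0, ∞)`. -/
def TSol {d : ℕ} (R : Finset (Rxn d)) (k : ℝ → Rxn d → ℝ) (x : ℝ → Fin d → ℝ) : Prop :=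
  ContinuousOn x (Set.Ici 0) ∧ ∀ t : ℝ, 0 ≤ t →
    (∀ i, 0 < x t i) ∧ x t = x 0 + ∫ s in (0 : ℝ)..t, field R (k s) (x s)

end Vale.Agent.H10.WR
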