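import Vale.Agent.H10.WRDrift

/-!
# P072, row TA: the drift inequality, uniformly over the rate constants in `[ε, ε⁻¹]`
-/

namespace Vale.Agent.H10.WR

open scoped BigOperators
open MeasureTheory

theorem drift_unif {d : ℕ} (R : Finset (Rxn d)) (hwr : WeaklyReversible R) (ε : ℝ)
    (hε : 0 < ε) :
    ∃ (B : ℕ) (κ : ℝ) (c0 : ℝ), 1 ≤ B ∧ 0 < κ ∧ 0 < c0 ∧
      ∀ (k : Rxn d → ℝ), (∀ e ∈ R, ε ≤ k e ∧ k e ≤ ε⁻¹) →
      ∀ (x ρ : Fin d → ℝ), (∀ i, 0 < x i) → SignProp B κ ρ x →
      dot ρ (field R k x) ≤ 0 ∧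
      ((∃ e ∈ R, dot ρ (rvec e) ≠ 0) → ∀ m : ℝ, 0 ≤ m → (∀ e ∈ R, m ≤ mono e.1 x) →
        dot ρ (field R k x) ≤ - (c0 * m)) := by
  classical
  -- constants
  set Q : ℝ := ε⁻¹ * ε⁻¹ with hQ
  have hQ0 : 0 ≤ Q := by positivity
  set kmin : ℝ := ε with hkm
  have hkmin0 : 0 < kmin := hε
  set B : ℕ := 1 + ∑ e ∈ R, ∑ i, (e.1 i + e.2 i) with hB
  have hBe : ∀ e ∈ R, ∀ i, e.1 i + e.2 i ≤ B := by
    intro e he i
    have h1 : e.1 i + e.2 i ≤ ∑ i, (e.1 i + e.2 i) :=
      Finset.single_le_sum (f := fun i => e.1 i + e.2 i) (fun _ _ => Nat.zero_le _)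
        (Finset.mem_univ i)
    have h2 : ∑ i, (e.1 i + e.2 i) ≤ ∑ e ∈ R, ∑ i, (e.1 i + e.2 i) :=
      Finset.single_le_sum (f := fun e : Rxn d => ∑ i, (e.1 i + e.2 i))
        (fun _ _ => Nat.zero_le _) he
    omega
  set N : ℝ := 2 * (R.card * Q + 1) with hN
  have hN1 : 2 ≤ N := by
    have : 0 ≤ (R.card : ℝ) * Q := by positivity
    rw [hN]; linarith
  set κ : ℝ := Real.log N with hκ
  have hκ0 : 0 < κ := Real.log_pos (by linarith)
  have hexp : Real.exp κ = N := Real.exp_log (by linarith)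
  refine ⟨B, κ, kmin / 2, by omega, hκ0, by positivity, fun k hkb x ρ hx hS => ?_⟩
  have hk : ∀ e ∈ R, 0 < k e := fun e he => lt_of_lt_of_le hε (hkb e he).1
  have hkmin : ∀ e ∈ R, kmin ≤ k e := fun e he => (hkb e he).1
  have hQk : ∀ e0 ∈ R, ∀ e ∈ R, k e0 ≤ Q * k e := by
    intro e0 h0 e he
    calc k e0 ≤ ε⁻¹ := (hkb e0 h0).2
      _ = ε⁻¹ * ε⁻¹ * ε := by field_simp
      _ ≤ ε⁻¹ * ε⁻¹ * k e := mul_le_mul_of_nonneg_left (hkb e he).1 (by positivity)
  set w : Rxn d → ℝ := fun e => k e * mono e.1 x with hw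
  have hw0 : ∀ e ∈ R, 0 < w e := fun e he => mul_pos (hk e he) (mono_pos _ hx)
  set Dn := R.filter (fun e => gam ρ e.2 < gam ρ e.1) with hDn
  set Up := R.filter (fun e => gam ρ e.1 < gam ρ e.2) with hUp
  set Down : ℝ := ∑ e ∈ Dn, w e * (gam ρ e.1 - gam ρ e.2) with hDown
  have hDown0 : 0 ≤ Down := Finset.sum_nonneg fun e he => by
    rw [hDn, Finset.mem_filter] at he
    have := hw0 e he.1
    exact mul_nonneg this.le (by linarith [he.2])
  -- comparison of monomials
  have hmono : ∀ e0 ∈ R, ∀ e ∈ R, gam ρ e0.1 < gam ρ e.1 →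
      N * mono e0.1 x ≤ mono e.1 x := by
    intro e0 h0 e he hlt
    have hz := hS (fun i => (e.1 i : ℤ) - (e0.1 i : ℤ)) (fun i => by
      have h1 := hBe e0 h0 i
      have h2 := hBe e he i
      rw [abs_le]
      constructor <;> omega) (by
      have : ∑ i, (((e.1 i : ℤ) - (e0.1 i : ℤ) : ℤ) : ℝ) * ρ i = gam ρ e.1 - gam ρ e0.1 := by
        unfold gam
        rw [← Finset.sum_sub_distrib]
        refine Finset.sum_congr rfl fun i _ => ?_
        push_cast; ring
      rw [this]; linarith)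
    have h3 : ∑ i, (((e.1 i : ℤ) - (e0.1 i : ℤ) : ℤ) : ℝ) * Real.log (x i)
        = ∑ i, (e.1 i : ℝ) * Real.log (x i) - ∑ i, (e0.1 i : ℝ) * Real.log (x i) := by
      rw [← Finset.sum_sub_distrib]
      refine Finset.sum_congr rfl fun i _ => ?_
      push_cast; ring
    rw [h3] at hz
    rw [mono_eq_exp e0.1 hx, mono_eq_exp e.1 hx, ← hexp, ← Real.exp_add]
    exact Real.exp_le_exp.2 (by linarith [hz.2])
  -- the up part
  have hup1 : ∀ e0 ∈ Up, w e0 * (gam ρ e0.2 - gam ρ e0.1) ≤ Q / N * Down := by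
    intro e0 h0
    rw [hUp, Finset.mem_filter] at h0
    have h1 := up_le R hwr ρ h0.1 h0.2
    set D := R.filter (fun e => gam ρ e.2 < gam ρ e.1 ∧ gam ρ e0.1 < gam ρ e.1) with hD
    calc w e0 * (gam ρ e0.2 - gam ρ e0.1)
        ≤ w e0 * ∑ e ∈ D, (gam ρ e.1 - gam ρ e.2) :=
          mul_le_mul_of_nonneg_left h1 (hw0 e0 h0.1).le
      _ = ∑ e ∈ D, w e0 * (gam ρ e.1 - gam ρ e.2) := by rw [Finset.mul_sum]
      _ ≤ ∑ e ∈ D, Q / N * (w e * (gam ρ e.1 - gam ρ e.2)) := by
          refine Finset.sum_le_sum fun e he => ?_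
          rw [hD, Finset.mem_filter] at he
          have h2 : w e0 ≤ Q / N * w e := by
            have h3 := hmono e0 h0.1 e he.1 he.2.2
            have h4 := hQk e0 h0.1 e he.1
            have h5 := mono_pos e0.1 hx
            have h6 := hk e he.1
            calc k e0 * mono e0.1 x ≤ (Q * k e) * mono e0.1 x :=
                  mul_le_mul_of_nonneg_right h4 h5.le
              _ = (Q / N * k e) * (N * mono e0.1 x) := by
                  have : N ≠ 0 := by linarith
                  field_simp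
              _ ≤ (Q / N * k e) * mono e.1 x :=
                  mul_le_mul_of_nonneg_left h3 (by
                    have : 0 < N := by linarith
                    positivity)
              _ = Q / N * (k e * mono e.1 x) := by ring
          calc w e0 * (gam ρ e.1 - gam ρ e.2) ≤ (Q / N * w e) * (gam ρ e.1 - gam ρ e.2) :=
                mul_le_mul_of_nonneg_right h2 (by linarith [he.2.1])
            _ = _ := by ring
      _ = Q / N * ∑ e ∈ D, w e * (gam ρ e.1 - gam ρ e.2) := by rw [Finset.mul_sum]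
      _ ≤ Q / N * Down := by
          refine mul_le_mul_of_nonneg_left ?_ (by
            have : 0 < N := by linarith
            positivity)
          refine Finset.sum_le_sum_of_subset_of_nonneg (fun e he => ?_) (fun e he _ => ?_)
          · rw [hD, Finset.mem_filter] at he
            rw [hDn, Finset.mem_filter]
            exact ⟨he.1, he.2.1⟩
          · rw [hDn, Finset.mem_filter] at he
            exact mul_nonneg (hw0 e he.1).le (by linarith [he.2])
  have hup2 : ∑ e ∈ Up, w e * (gam ρ e.2 - gam ρ e.1) ≤ Down / 2 := by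
    calc ∑ e ∈ Up, w e * (gam ρ e.2 - gam ρ e.1) ≤ ∑ _e ∈ Up, Q / N * Down :=
          Finset.sum_le_sum hup1
      _ = Up.card * (Q / N * Down) := by rw [Finset.sum_const, nsmul_eq_mul]
      _ ≤ R.card * (Q / N * Down) := by
          have h7 : (Up.card : ℝ) ≤ R.card := by
            exact_mod_cast Finset.card_filter_le _ _
          refine mul_le_mul_of_nonneg_right h7 ?_
          have : 0 < N := by linarith
          positivity
      _ ≤ Down / 2 := by
          have h8 : (R.card : ℝ) * (Q / N) ≤ 1 / 2 := by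
            rw [← mul_div_assoc, div_le_iff₀ (by linarith)]
            rw [hN]; linarith
          calc (R.card : ℝ) * (Q / N * Down) = ((R.card : ℝ) * (Q / N)) * Down := by ring
            _ ≤ 1 / 2 * Down := mul_le_mul_of_nonneg_right h8 hDown0
            _ = _ := by ring
  -- the splitting
  have hsplit : dot ρ (field R k x) = ∑ e ∈ Up, w e * (gam ρ e.2 - gam ρ e.1) - Down := by
    rw [dot_field, hDown, hUp, hDn, Finset.sum_filter, Finset.sum_filter,
      ← Finset.sum_sub_distrib]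
    refine Finset.sum_congr rfl fun e _ => ?_
    rcases lt_trichotomy (gam ρ e.1) (gam ρ e.2) with h | h | h
    · rw [if_pos h, if_neg (not_lt.2 h.le), sub_zero]
    · rw [if_neg (by rw [h]; exact lt_irrefl _), if_neg (by rw [h]; exact lt_irrefl _), h]
      simp
    · rw [if_neg (not_lt.2 h.le), if_pos h]
      ring
  have hmain : dot ρ (field R k x) ≤ - (Down / 2) := by rw [hsplit]; linarith
  refine ⟨by linarith, ?_⟩
  rintro ⟨e1, he1, hne⟩ m hm hmle
  -- there is a down edge
  obtain ⟨e, he, hdown⟩ : ∃ e ∈ R, gam ρ e.2 < gam ρ e.1 := by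
    rw [dot_rvec] at hne
    rcases lt_or_gt_of_ne (sub_ne_zero.1 hne) with h | h
    · exact ⟨e1, he1, h⟩
    · have h1 := up_le R hwr ρ he1 h
      by_contra hcon
      push Not at hcon
      have h2 : R.filter (fun e => gam ρ e.2 < gam ρ e.1 ∧ gam ρ e1.1 < gam ρ e.1) = ∅ := by
        rw [Finset.filter_eq_empty_iff]
        intro e he hh
        exact absurd hh.1 (not_lt.2 (hcon e he))
      rw [h2, Finset.sum_empty] at h1
      linarith
  have hz := hS (fun i => (e.1 i : ℤ) - (e.2 i : ℤ)) (fun i => by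
    have h2 := hBe e he i
    rw [abs_le]
    constructor <;> omega) (by
    have : ∑ i, (((e.1 i : ℤ) - (e.2 i : ℤ) : ℤ) : ℝ) * ρ i = gam ρ e.1 - gam ρ e.2 := by
      unfold gam
      rw [← Finset.sum_sub_distrib]
      refine Finset.sum_congr rfl fun i _ => ?_
      push_cast; ring
    rw [this]; linarith)
  have hge1 : 1 ≤ gam ρ e.1 - gam ρ e.2 := by
    have : ∑ i, (((e.1 i : ℤ) - (e.2 i : ℤ) : ℤ) : ℝ) * ρ i = gam ρ e.1 - gam ρ e.2 := by
      unfold gam
      rw [← Finset.sum_sub_distrib]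
      refine Finset.sum_congr rfl fun i _ => ?_
      push_cast; ring
    rw [← this]; exact hz.1
  have hDownm : kmin * m ≤ Down := by
    calc kmin * m ≤ k e * mono e.1 x :=
          mul_le_mul (hkmin e he) (hmle e he) hm (hk e he).le
      _ = w e * 1 := by rw [mul_one]
      _ ≤ w e * (gam ρ e.1 - gam ρ e.2) := mul_le_mul_of_nonneg_left hge1 (hw0 e he).le
      _ ≤ Down := Finset.single_le_sum (f := fun e => w e * (gam ρ e.1 - gam ρ e.2))
          (fun e he => by
            rw [hDn, Finset.mem_filter] at he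
            exact mul_nonneg (hw0 e he.1).le (by linarith [he.2]))
          (by rw [hDn, Finset.mem_filter]; exact ⟨he, hdown⟩)
  linarith

end Vale.Agent.H10.WR
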