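import Vale.Agent.H10.WRMono
import Vale.Agent.H10.WRTDefs

/-!
# P072, row TD: decrease of the Lyapunov function for time-dependent rates
-/

namespace Vale.Agent.H10.WR

open scoped BigOperators Topology
open Set Filter MeasureTheory

/-- `dot ρ` as a continuous linear functional -/
noncomputable def dotL {d : ℕ} (ρ : Fin d → ℝ) : (Fin d → ℝ) →L[ℝ] ℝ :=
  ∑ i, ρ i • ContinuousLinearMap.proj (R := ℝ) (φ := fun _ : Fin d => ℝ) i

theorem dotL_apply {d : ℕ} (ρ v : Fin d → ℝ) : dotL ρ v = dot ρ v := by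
  unfold dotL dot
  simp

theorem continuous_mono' {d : ℕ} (y : Fin d → ℕ) : Continuous (mono y) := by
  unfold mono
  fun_prop

/-- modulus of continuity of the fields, uniform over the rate constants -/
noncomputable def fmod {d : ℕ} (R : Finset (Rxn d)) (ε : ℝ) (z y : Fin d → ℝ) : ℝ :=
  ∑ e ∈ R, ε⁻¹ * |mono e.1 y - mono e.1 z| * ‖rvec e‖

theorem norm_field_sub_le {d : ℕ} (R : Finset (Rxn d)) {ε : ℝ} (hε : 0 < ε) (k : Rxn d → ℝ)
    (hk : ∀ e ∈ R, ε ≤ k e ∧ k e ≤ ε⁻¹) (y z : Fin d → ℝ) :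
    ‖field R k y - field R k z‖ ≤ fmod R ε z y := by
  unfold field fmod
  rw [← Finset.sum_sub_distrib]
  refine (norm_sum_le _ _).trans (Finset.sum_le_sum fun e he => ?_)
  rw [← sub_smul, norm_smul, ← mul_sub, norm_mul]
  have h1 : ‖k e‖ ≤ ε⁻¹ := by
    rw [Real.norm_of_nonneg (hε.le.trans (hk e he).1)]
    exact (hk e he).2
  rw [Real.norm_eq_abs (mono e.1 y - mono e.1 z)]
  gcongr

theorem fmod_self {d : ℕ} (R : Finset (Rxn d)) (ε : ℝ) (z : Fin d → ℝ) : fmod R ε z z = 0 := by
  simp [fmod]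

theorem continuous_fmod {d : ℕ} (R : Finset (Rxn d)) (ε : ℝ) (z : Fin d → ℝ) :
    Continuous (fmod R ε z) := by
  unfold fmod
  have := fun y : Fin d → ℕ => continuous_mono' y
  fun_prop

theorem intervalIntegrable_field {d : ℕ} {R : Finset (Rxn d)} {ε : ℝ} (hε : 0 < ε)
    {k : ℝ → Rxn d → ℝ} (hk : RatesIn R ε k) {x : ℝ → Fin d → ℝ} {T a b : ℝ}
    (hx : ContinuousOn x (Ico 0 T)) (ha : 0 ≤ a) (hab : a ≤ b) (hb : b < T) :
    IntervalIntegrable (fun s => field R (k s) (x s)) volume a b := by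
  rw [intervalIntegrable_iff_integrableOn_Icc_of_le hab]
  have hsub : Icc a b ⊆ Ico 0 T := fun t ht => ⟨ha.trans ht.1, lt_of_le_of_lt ht.2 hb⟩
  unfold field
  refine integrable_finsetSum _ fun e he => ?_
  have h1 : IntegrableOn (fun s => mono e.1 (x s)) (Icc a b) :=
    (((continuous_mono' e.1).comp_continuousOn hx).mono hsub).integrableOn_Icc
  have h2 : Integrable (fun s => k s e * mono e.1 (x s)) (volume.restrict (Icc a b)) := by
    refine h1.bdd_mul (c := ε⁻¹) (hk e he).1.aestronglyMeasurable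
      (Eventually.of_forall fun s => ?_)
    rw [Real.norm_of_nonneg (hε.le.trans ((hk e he).2 s).1)]
    exact ((hk e he).2 s).2
  exact h2.smul_const (rvec e)

/-- increments of solutions -/
theorem tsol_sub {d : ℕ} {R : Finset (Rxn d)} {ε : ℝ} (hε : 0 < ε)
    {k : ℝ → Rxn d → ℝ} (hk : RatesIn R ε k) {x : ℝ → Fin d → ℝ} {T : ℝ}
    (hx : TSolOn R k x T) {s t : ℝ} (hs : 0 ≤ s) (hst : s ≤ t) (ht : t < T) :
    x t - x s = ∫ τ in s..t, field R (k τ) (x τ) := by
  have h1 := (hx.2 t (hs.trans hst) ht).2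
  have h2 := (hx.2 s hs (lt_of_le_of_lt hst ht)).2
  have i1 := intervalIntegrable_field hε hk hx.1 le_rfl hs (lt_of_le_of_lt hst ht)
  have i2 := intervalIntegrable_field hε hk hx.1 hs hst ht
  rw [h1, h2, ← intervalIntegral.integral_add_adjacent_intervals i1 i2]
  abel

theorem TSol.tsolOn {d : ℕ} {R : Finset (Rxn d)} {k : ℝ → Rxn d → ℝ} {x : ℝ → Fin d → ℝ}
    (hx : TSol R k x) (T : ℝ) : TSolOn R k x T :=
  ⟨hx.1.mono fun _ ht => ht.1, fun t h0 _ => hx.2 t h0⟩

/-- decrease of `W` along solutions with time-dependent rates -/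
theorem W_decreaseT_on {d B : ℕ} {κ CΩ Rmax : ℝ} {V : Set ((Fin d → ℝ) × ℝ)}
    (hV : Rounding d B κ CΩ Rmax V)
    (R : Finset (Rxn d)) (ε : ℝ) (hε : 0 < ε) (k : ℝ → Rxn d → ℝ) (hk : RatesIn R ε k)
    (x : ℝ → Fin d → ℝ) (T a b c : ℝ) (ha : 0 ≤ a) (hab : a ≤ b) (hbT : b < T)
    (hx : TSolOn R k x T)
    (hdrift : ∀ t, a ≤ t → t ≤ b → ∀ ρ : Fin d → ℝ, SignProp B κ ρ (x t) →
      (∀ i, |ρ i - Real.log (x t i)| ≤ Rmax) →
      ∀ k' : Rxn d → ℝ, (∀ e ∈ R, ε ≤ k' e ∧ k' e ≤ ε⁻¹) → dot ρ (field R k' (x t)) ≤ -c) :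
    W V (x b) ≤ W V (x a) - c * (b - a) := by
  have hsub : Icc a b ⊆ Ico 0 T := fun t ht => ⟨ha.trans ht.1, lt_of_le_of_lt ht.2 hbT⟩
  have hcx : ContinuousOn x (Icc a b) := hx.1.mono hsub
  have hpos : ∀ t, a ≤ t → t ≤ b → ∀ i, 0 < x t i := fun t h1 h2 =>
    (hx.2 t (ha.trans h1) (lt_of_le_of_lt h2 hbT)).1
  set f : ℝ → ℝ := fun τ => -(W V (x (b - τ)) + c * (b - τ)) with hf
  have hcont : ContinuousOn f (Icc 0 (b - a)) := by
    intro τ hτ
    have hmem : b - τ ∈ Icc a b := ⟨by linarith [hτ.2], by linarith [hτ.1]⟩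
    have h1 : ContinuousWithinAt x (Icc a b) (b - τ) := hcx _ hmem
    have h2 : ContinuousWithinAt (fun τ => b - τ) (Icc 0 (b - a)) τ :=
      (continuous_const.sub continuous_id).continuousWithinAt
    have h3 : ContinuousWithinAt (fun τ => x (b - τ)) (Icc 0 (b - a)) τ :=
      h1.comp h2 fun σ hσ => ⟨by linarith [hσ.2], by linarith [hσ.1]⟩
    have h4 : ContinuousWithinAt (fun τ => W V (x (b - τ))) (Icc 0 (b - a)) τ :=
      ContinuousAt.comp_continuousWithinAt (f := fun τ => x (b - τ)) (g := W V)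
        (continuousAt_W hV (hpos _ hmem.1 hmem.2)) h3
    exact (h4.add (continuous_const.mul (continuous_const.sub
      continuous_id)).continuousWithinAt).neg
  have key := image_le_of_liminf_slope_right_le_deriv_boundary hcont (B := fun _ => f 0)
    (B' := fun _ => 0) le_rfl continuousOn_const (fun τ _ => hasDerivWithinAt_const _ _ _) ?_
    (x := b - a) ⟨by linarith, le_rfl⟩
  · simp only [hf, sub_zero, sub_sub_cancel] at key
    linarith
  · intro τ hτ r hr
    have hmem : b - τ ∈ Icc a b := ⟨by linarith [hτ.2], by linarith [hτ.1]⟩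
    set t := b - τ with ht
    have hxt := hpos t hmem.1 hmem.2
    set L : ℝ := ∑ i, |Real.log (x t i)| + |Rmax| with hL
    have hL0 : 0 ≤ L := by positivity
    have hL1 : ∀ i, |Real.log (x t i)| + Rmax ≤ L := by
      intro i
      have h1 : |Real.log (x t i)| ≤ ∑ i, |Real.log (x t i)| :=
        Finset.single_le_sum (f := fun i => |Real.log (x t i)|) (fun _ _ => abs_nonneg _)
          (Finset.mem_univ i)
      have h2 := le_abs_self Rmax
      rw [hL]; linarith
    set δ : ℝ := r / (2 * (d * L + 1)) with hδ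
    have hdL : 0 ≤ (d : ℝ) * L := by positivity
    have hδ0 : 0 < δ := by positivity
    -- continuity of the modulus along the solution
    have hω : ∀ᶠ σ in 𝓝[Icc a b] t, fmod R ε (x t) (x σ) < δ := by
      have h1 : ContinuousWithinAt (fun σ => fmod R ε (x t) (x σ)) (Icc a b) t :=
        (continuous_fmod R ε (x t)).continuousAt.comp_continuousWithinAt (hcx t hmem)
      have h2 := h1.tendsto
      simp only [fmod_self] at h2
      exact h2.eventually (gt_mem_nhds hδ0)
    rw [Filter.Eventually, Metric.mem_nhdsWithin_iff] at hω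
    obtain ⟨η0, hη0, hω⟩ := hω
    have hev : ∀ᶠ z in 𝓝[>] τ, slope f τ z < r := by
      have h1 : Ioo τ (b - a) ∈ 𝓝[>] τ := Ioo_mem_nhdsGT hτ.2
      have h1' : Ioo τ (τ + η0) ∈ 𝓝[>] τ := Ioo_mem_nhdsGT (by linarith)
      filter_upwards [h1', h1] with z hz1 hz2
      have hs : b - z ∈ Icc a b := ⟨by linarith [hz2.2], by linarith [hz2.1, hτ.1]⟩
      set s := b - z with hsd
      have hst : 0 < t - s := by rw [ht, hsd]; linarith [hz2.1]
      have hxs := hpos s hs.1 hs.2
      have hωs : ∀ σ ∈ Icc s t, fmod R ε (x t) (x σ) < δ := by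
        intro σ hσ
        refine hω ⟨?_, ⟨hs.1.trans hσ.1, hσ.2.trans hmem.2⟩⟩
        rw [Metric.mem_ball, Real.dist_eq, abs_sub_comm, abs_of_nonneg (by linarith [hσ.2])]
        have : t - s < η0 := by rw [ht, hsd]; linarith [hz1.2]
        linarith [hσ.1]
      -- main estimate
      have hmain : W V (x t) - W V (x s) ≤ (t - s) * (-c + (d * L) * δ) := by
        refine le_of_forall_pos_le_add fun η hη => ?_
        obtain ⟨p, hp, h1, h2, h3, _⟩ := W_near hV hxt η hη
        have h4 := le_W hV hxs hp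
        have h5 : ∀ i, |p.1 i| ≤ L := by
          intro i
          calc |p.1 i| = |Real.log (x t i) + (p.1 i - Real.log (x t i))| := by congr 1; ring
            _ ≤ |Real.log (x t i)| + |p.1 i - Real.log (x t i)| := abs_add_le _ _
            _ ≤ L := by linarith [h3 i, hL1 i]
        have hint := intervalIntegrable_field hε hk hx.1 (ha.trans hs.1) (by linarith : s ≤ t)
          (lt_of_le_of_lt hmem.2 hbT)
        have h7 : dot p.1 (x t) - dot p.1 (x s)
            = ∫ σ in s..t, dot p.1 (field R (k σ) (x σ)) := by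
          rw [dot_sub, tsol_sub hε hk hx (ha.trans hs.1) (by linarith : s ≤ t)
            (lt_of_le_of_lt hmem.2 hbT), ← dotL_apply,
            ← (dotL p.1).intervalIntegral_comp_comm hint]
          simp only [dotL_apply]
        have hint2 : IntervalIntegrable (fun σ => dot p.1 (field R (k σ) (x σ))) volume s t := by
          have h21 := (dotL p.1).integrable_comp hint.1
          have h22 := (dotL p.1).integrable_comp hint.2
          simp only [dotL_apply] at h21 h22
          exact ⟨h21, h22⟩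
        have h8 : ∫ σ in s..t, dot p.1 (field R (k σ) (x σ))
            ≤ ∫ _σ in s..t, (-c + (d * L) * δ) := by
          refine intervalIntegral.integral_mono_on (by linarith) hint2
            intervalIntegrable_const (fun σ hσ => ?_)
          have hkσ : ∀ e ∈ R, ε ≤ k σ e ∧ k σ e ≤ ε⁻¹ := fun e he => (hk e he).2 σ
          have h9 := hdrift t hmem.1 hmem.2 p.1 h2 h3 (k σ) hkσ
          have h10 := dot_le p.1 (field R (k σ) (x σ) - field R (k σ) (x t)) L h5
          rw [← dot_sub] at h10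
          have h11 := norm_field_sub_le R hε (k σ) hkσ (x σ) (x t)
          have h12 := (h11.trans_lt (hωs σ hσ)).le
          have h13 := mul_le_mul_of_nonneg_left h12 hdL
          linarith
        rw [intervalIntegral.integral_const, smul_eq_mul] at h8
        linarith
      have h12 : f z - f τ = (W V (x t) - W V (x s)) + c * (t - s) := by
        simp only [hf]
        rw [← ht, ← hsd]; ring
      have h13 : z - τ = t - s := by rw [ht, hsd]; ring
      have h14 : d * L * δ < r := by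
        rw [hδ, mul_div_assoc', div_lt_iff₀ (by positivity)]
        nlinarith
      rw [slope_def_field, h12, h13, div_lt_iff₀ hst]
      nlinarith
    exact hev.frequently

/-- decrease of `W` along global solutions with time-dependent rates -/
theorem W_decreaseT {d B : ℕ} {κ CΩ Rmax : ℝ} {V : Set ((Fin d → ℝ) × ℝ)}
    (hV : Rounding d B κ CΩ Rmax V)
    (R : Finset (Rxn d)) (ε : ℝ) (hε : 0 < ε) (k : ℝ → Rxn d → ℝ) (hk : RatesIn R ε k)
    (x : ℝ → Fin d → ℝ) (a b c : ℝ) (ha : 0 ≤ a) (hab : a ≤ b) (hx : TSol R k x)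
    (hdrift : ∀ t, a ≤ t → t ≤ b → ∀ ρ : Fin d → ℝ, SignProp B κ ρ (x t) →
      (∀ i, |ρ i - Real.log (x t i)| ≤ Rmax) →
      ∀ k' : Rxn d → ℝ, (∀ e ∈ R, ε ≤ k' e ∧ k' e ≤ ε⁻¹) → dot ρ (field R k' (x t)) ≤ -c) :
    W V (x b) ≤ W V (x a) - c * (b - a) :=
  W_decreaseT_on hV R ε hε k hk x (b + 1) a b c ha hab (by linarith) (hx.tsolOn _) hdrift

end Vale.Agent.H10.WR
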