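import Vale.Agent.H10.WRTDefs
import Vale.Agent.H10.WRODE

/-!
# P072, row TB: Caratheodory solutions with measurable time-dependent rates
-/

namespace Vale.Agent.H10.WR

open Set Filter Topology MeasureTheory
open scoped NNReal BigOperators

section Carath

variable {E : Type*} [NormedAddCommGroup E] [NormedSpace ℝ E]

omit [NormedSpace ℝ E] in
theorem tb_ii (F : ℝ → E → E) (L : ℝ) (hb : ∀ t x, ‖F t x‖ ≤ L)
    (hmeas : ∀ y : ℝ → E, Continuous y → AEStronglyMeasurable (fun s => F s (y s)) volume)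
    (y : ℝ → E) (hy : Continuous y) (a b : ℝ) :
    IntervalIntegrable (fun s => F s (y s)) volume a b :=
  (intervalIntegrable_const (c := L)).mono_fun' (hmeas y hy).restrict
    (Eventually.of_forall fun s => hb s _)

theorem tb_exp_bound (K t : ℝ) (hK : 0 < K) (_ht : 0 ≤ t) :
    Real.exp (-(2 * K * t)) * t ≤ 1 / (2 * K) := by
  have h1 : 2 * K * t ≤ Real.exp (2 * K * t) := by
    have := Real.add_one_le_exp (2 * K * t)
    linarith
  have h2 : Real.exp (-(2 * K * t)) * Real.exp (2 * K * t) = 1 := by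
    rw [← Real.exp_add]; simp
  have h3 := Real.exp_pos (-(2 * K * t))
  rw [le_div_iff₀ (by positivity)]
  nlinarith

theorem tb_exp_int (K t : ℝ) (_hK : 0 < K) :
    ∫ s in (0 : ℝ)..t, K * Real.exp (2 * K * s) = (Real.exp (2 * K * t) - 1) / 2 := by
  have h1 : ∀ s ∈ uIcc 0 t, HasDerivAt (fun s => Real.exp (2 * K * s) / 2)
      (K * Real.exp (2 * K * s)) s := by
    intro s _
    have h2 := (((hasDerivAt_id s).const_mul (2 * K)).exp).div_const 2
    refine h2.congr_deriv ?_
    simp only [id]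
    ring
  rw [intervalIntegral.integral_eq_sub_of_hasDerivAt h1 (by
    apply Continuous.intervalIntegrable
    fun_prop)]
  simp
  ring

/-- the Picard operator in the exponentially weighted space -/
noncomputable def tbPsi (F : ℝ → E → E) (K L : ℝ) (hK : 0 < K)
    (hb : ∀ t x, ‖F t x‖ ≤ L)
    (hmeas : ∀ y : ℝ → E, Continuous y → AEStronglyMeasurable (fun s => F s (y s)) volume)
    (x0 : E) (z : BoundedContinuousFunction ℝ E) : BoundedContinuousFunction ℝ E :=
  BoundedContinuousFunction.ofNormedAddCommGroup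
    (fun t => Real.exp (-(2 * K * max t 0)) •
      (x0 + ∫ s in (0 : ℝ)..(max t 0), F s (Real.exp (2 * K * max s 0) • z s)))
    (by
      have h1 : Continuous fun s : ℝ => Real.exp (2 * K * max s 0) • z s := by fun_prop
      have h2 := intervalIntegral.continuous_primitive (fun a b => tb_ii F L hb hmeas _ h1 a b) 0
      have h3 : Continuous fun t : ℝ => max t 0 := by fun_prop
      have h4 := h2.comp h3
      have h5 : Continuous fun t : ℝ => Real.exp (-(2 * K * max t 0)) := by fun_prop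
      exact h5.smul (continuous_const.add h4))
    (‖x0‖ + L * (1 / (2 * K)))
    (by
      intro t
      have ht : 0 ≤ max t 0 := le_max_right _ _
      have hL : 0 ≤ L := (norm_nonneg _).trans (hb 0 0)
      rw [norm_smul, Real.norm_eq_abs, abs_of_pos (Real.exp_pos _)]
      have h1 : ‖∫ s in (0 : ℝ)..(max t 0), F s (Real.exp (2 * K * max s 0) • z s)‖ ≤
          L * |max t 0 - 0| :=
        intervalIntegral.norm_integral_le_of_norm_le_const fun s _ => hb s _
      rw [sub_zero, abs_of_nonneg ht] at h1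
      have h2 := norm_add_le x0 (∫ s in (0 : ℝ)..(max t 0), F s (Real.exp (2 * K * max s 0) • z s))
      have h3 : Real.exp (-(2 * K * max t 0)) ≤ 1 := by
        rw [Real.exp_le_one_iff]
        have := mul_nonneg hK.le ht
        linarith
      have h4 := tb_exp_bound K (max t 0) hK ht
      have h5 := Real.exp_pos (-(2 * K * max t 0))
      calc _ ≤ Real.exp (-(2 * K * max t 0)) * (‖x0‖ + L * max t 0) :=
            mul_le_mul_of_nonneg_left (h2.trans (by linarith)) h5.le
        _ = Real.exp (-(2 * K * max t 0)) * ‖x0‖ + L * (Real.exp (-(2 * K * max t 0)) * max t 0) := by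
            ring
        _ ≤ 1 * ‖x0‖ + L * (1 / (2 * K)) := add_le_add
            (mul_le_mul_of_nonneg_right h3 (norm_nonneg _)) (mul_le_mul_of_nonneg_left h4 hL)
        _ = _ := by rw [one_mul])

theorem carath [CompleteSpace E] (F : ℝ → E → E) (K L : ℝ) (hK : 0 < K)
    (hLip : ∀ t x y, ‖F t x - F t y‖ ≤ K * ‖x - y‖) (hb : ∀ t x, ‖F t x‖ ≤ L)
    (hmeas : ∀ y : ℝ → E, Continuous y → AEStronglyMeasurable (fun s => F s (y s)) volume)
    (x0 : E) :
    ∃ x : ℝ → E, Continuous x ∧ ∀ t, 0 ≤ t → x t = x0 + ∫ s in (0 : ℝ)..t, F s (x s) := by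
  have hcontr : ContractingWith (1 / 2 : ℝ≥0) (tbPsi F K L hK hb hmeas x0) := by
    refine ⟨by
      rw [← NNReal.coe_lt_coe]; norm_num, ?_⟩
    refine LipschitzWith.of_dist_le_mul fun z z' => ?_
    have hc : ((1 / 2 : ℝ≥0) : ℝ) = 1 / 2 := by norm_num
    rw [hc, BoundedContinuousFunction.dist_le (by positivity)]
    intro t
    have ht : 0 ≤ max t 0 := le_max_right _ _
    change dist (Real.exp (-(2 * K * max t 0)) •
      (x0 + ∫ s in (0 : ℝ)..(max t 0), F s (Real.exp (2 * K * max s 0) • z s)))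
      (Real.exp (-(2 * K * max t 0)) •
      (x0 + ∫ s in (0 : ℝ)..(max t 0), F s (Real.exp (2 * K * max s 0) • z' s))) ≤ _
    rw [dist_eq_norm, ← smul_sub, norm_smul, Real.norm_eq_abs, abs_of_pos (Real.exp_pos _),
      add_sub_add_left_eq_sub]
    have h1 : Continuous fun s : ℝ => Real.exp (2 * K * max s 0) • z s := by fun_prop
    have h1' : Continuous fun s : ℝ => Real.exp (2 * K * max s 0) • z' s := by fun_prop
    rw [← intervalIntegral.integral_sub (tb_ii F L hb hmeas _ h1 _ _)
      (tb_ii F L hb hmeas _ h1' _ _)]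
    have h2 : ‖∫ s in (0 : ℝ)..(max t 0), (F s (Real.exp (2 * K * max s 0) • z s) -
        F s (Real.exp (2 * K * max s 0) • z' s))‖ ≤
        ∫ s in (0 : ℝ)..(max t 0), dist z z' * (K * Real.exp (2 * K * s)) := by
      refine intervalIntegral.norm_integral_le_of_norm_le ht ?_ ?_
      · refine Eventually.of_forall fun s hs => ?_
        have hs0 : max s 0 = s := max_eq_left hs.1.le
        refine (hLip _ _ _).trans ?_
        rw [hs0, ← smul_sub, norm_smul, Real.norm_eq_abs, abs_of_pos (Real.exp_pos _)]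
        have h3 : ‖z s - z' s‖ ≤ dist z z' := by
          rw [← dist_eq_norm]
          exact BoundedContinuousFunction.dist_coe_le_dist s
        have h4 := mul_le_mul_of_nonneg_left h3
          (mul_nonneg hK.le (Real.exp_pos (2 * K * s)).le)
        linarith
      · apply Continuous.intervalIntegrable
        fun_prop
    rw [intervalIntegral.integral_const_mul, tb_exp_int K _ hK] at h2
    have h5 := Real.exp_pos (-(2 * K * max t 0))
    have h6 : Real.exp (-(2 * K * max t 0)) * Real.exp (2 * K * max t 0) = 1 := by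
      rw [← Real.exp_add]; simp
    have h7 : 0 ≤ dist z z' := dist_nonneg
    calc _ ≤ Real.exp (-(2 * K * max t 0)) *
          (dist z z' * ((Real.exp (2 * K * max t 0) - 1) / 2)) :=
          mul_le_mul_of_nonneg_left h2 h5.le
      _ = dist z z' * ((Real.exp (-(2 * K * max t 0)) * Real.exp (2 * K * max t 0)) -
          Real.exp (-(2 * K * max t 0))) / 2 := by ring
      _ ≤ _ := by
          rw [h6]
          nlinarith [mul_nonneg h7 h5.le]
  set z := hcontr.fixedPoint _ with hz
  have hfix : tbPsi F K L hK hb hmeas x0 z = z := hcontr.fixedPoint_isFixedPt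
  refine ⟨fun t => Real.exp (2 * K * max t 0) • z t, by fun_prop, fun t ht => ?_⟩
  have h1 : z t = Real.exp (-(2 * K * max t 0)) •
      (x0 + ∫ s in (0 : ℝ)..(max t 0), F s (Real.exp (2 * K * max s 0) • z s)) := by
    conv_lhs => rw [← hfix]
    rfl
  have h2 : max t 0 = t := max_eq_left ht
  change Real.exp (2 * K * max t 0) • z t =
    x0 + ∫ s in (0 : ℝ)..t, F s (Real.exp (2 * K * max s 0) • z s)
  rw [h1, h2, smul_smul, ← Real.exp_add, add_neg_cancel, Real.exp_zero, one_smul]

end Carath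

section Field

variable {d : ℕ} {R : Finset (Rxn d)} {ε : ℝ} {k : ℝ → Rxn d → ℝ}

theorem continuous_mono (a : Fin d → ℕ) : Continuous (mono a : (Fin d → ℝ) → ℝ) := by
  unfold mono
  exact continuous_finsetProd _ fun i _ => (continuous_apply i).pow _

/-- bound and Lipschitz constant on a compact set, uniform in the rates -/
theorem field_unif (R : Finset (Rxn d)) (ε : ℝ) (hε : 0 < ε) {s : Set (Fin d → ℝ)}
    (hs : IsCompact s) :
    ∃ K L : ℝ, 0 < K ∧ 0 < L ∧ ∀ k : Rxn d → ℝ, (∀ e ∈ R, ε ≤ k e ∧ k e ≤ ε⁻¹) →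
      (∀ x ∈ s, ‖field R k x‖ ≤ L) ∧
      ∀ x ∈ s, ∀ y ∈ s, ‖field R k x - field R k y‖ ≤ K * ‖x - y‖ := by
  classical
  have h1 : ∀ e : Rxn d, ∃ K : ℝ≥0, ∃ L : ℝ, 0 ≤ L ∧
      LipschitzOnWith K (fun x => mono e.1 x • rvec e) s ∧ ∀ x ∈ s, ‖mono e.1 x • rvec e‖ ≤ L := by
    intro e
    have hc : ContDiff ℝ 1 (fun x : Fin d → ℝ => mono e.1 x • rvec e) := by
      unfold mono
      exact (contDiff_prod fun i _ => (contDiff_apply ℝ ℝ i).pow _).smul contDiff_const
    obtain ⟨K, hK⟩ := (hc.locallyLipschitz.locallyLipschitzOn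
      (s := s)).exists_lipschitzOnWith_of_compact hs
    obtain ⟨L, hL⟩ := (hs.image_of_continuousOn hc.continuous.continuousOn).isBounded.exists_norm_le
    exact ⟨K, max L 0, le_max_right _ _, hK, fun x hx => (hL _ ⟨x, hx, rfl⟩).trans
      (le_max_left _ _)⟩
  choose K L hL0 hK hL using h1
  have hε' : 0 < ε⁻¹ := inv_pos.2 hε
  refine ⟨∑ e ∈ R, ε⁻¹ * K e + 1, ∑ e ∈ R, ε⁻¹ * L e + 1, ?_, ?_, fun k hk => ⟨?_, ?_⟩⟩
  · have : 0 ≤ ∑ e ∈ R, ε⁻¹ * (K e : ℝ) := Finset.sum_nonneg fun e _ => by positivity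
    linarith
  · have : 0 ≤ ∑ e ∈ R, ε⁻¹ * L e := Finset.sum_nonneg fun e _ => mul_nonneg hε'.le (hL0 e)
    linarith
  · intro x hx
    unfold field
    refine (norm_sum_le _ _).trans ?_
    refine (Finset.sum_le_sum (g := fun e => ε⁻¹ * L e) fun e he => ?_).trans (by linarith)
    rw [mul_smul, norm_smul, Real.norm_eq_abs, abs_of_pos (hε.trans_le (hk e he).1)]
    exact mul_le_mul (hk e he).2 (hL e x hx) (norm_nonneg _) hε'.le
  · intro x hx y hy
    have h2 : field R k x - field R k y =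
        ∑ e ∈ R, k e • (mono e.1 x • rvec e - mono e.1 y • rvec e) := by
      unfold field
      rw [← Finset.sum_sub_distrib]
      refine Finset.sum_congr rfl fun e _ => ?_
      rw [mul_smul, mul_smul, smul_sub]
    rw [h2]
    refine (norm_sum_le _ _).trans ?_
    rw [add_mul, Finset.sum_mul, one_mul]
    refine (Finset.sum_le_sum (g := fun e => ε⁻¹ * K e * ‖x - y‖) fun e he => ?_).trans
      (by linarith [norm_nonneg (x - y)])
    rw [norm_smul, Real.norm_eq_abs, abs_of_pos (hε.trans_le (hk e he).1), mul_assoc]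
    refine mul_le_mul (hk e he).2 ?_ (norm_nonneg _) hε'.le
    have := (hK e).dist_le_mul x hx y hy
    rwa [dist_eq_norm, dist_eq_norm] at this

theorem field_lower_unif (R : Finset (Rxn d)) (ε : ℝ) (hε : 0 < ε) {b : ℝ} (hb : 1 ≤ b) :
    ∃ Λ : ℝ, 0 ≤ Λ ∧ ∀ k : Rxn d → ℝ, (∀ e ∈ R, ε ≤ k e ∧ k e ≤ ε⁻¹) →
      ∀ c : Fin d → ℝ, (∀ i, 0 ≤ c i ∧ c i ≤ b) → ∀ i, -(Λ * c i) ≤ field R k c i := by
  have hε' : 0 < ε⁻¹ := inv_pos.2 hε
  refine ⟨∑ e ∈ R, ε⁻¹ * b ^ (∑ j, e.1 j) * (∑ j, (e.1 j : ℝ)), ?_, fun k hk c hc i => ?_⟩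
  · exact Finset.sum_nonneg fun e he => by positivity
  · unfold field
    rw [Finset.sum_apply, Finset.sum_mul, ← Finset.sum_neg_distrib]
    refine Finset.sum_le_sum fun e he => ?_
    have hke : 0 < k e := hε.trans_le (hk e he).1
    have hke2 := (hk e he).2
    simp only [Pi.smul_apply, rvec, smul_eq_mul]
    have hm0 : 0 ≤ mono e.1 c := Finset.prod_nonneg fun j _ => pow_nonneg (hc j).1 _
    have h1 : mono e.1 c * (e.1 i : ℝ) ≤ c i * b ^ (∑ j, e.1 j) * (∑ j, (e.1 j : ℝ)) := by
      by_cases hi : e.1 i = 0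
      · rw [hi, Nat.cast_zero, mul_zero]
        have := (hc i).1
        positivity
      · refine mul_le_mul (mono_le hb hc e.1 i hi) ?_ (Nat.cast_nonneg _) ?_
        · exact Finset.single_le_sum (f := fun j => (e.1 j : ℝ)) (fun j _ => Nat.cast_nonneg _)
            (Finset.mem_univ i)
        · exact mul_nonneg (hc i).1 (by positivity)
    have h2 : 0 ≤ k e * mono e.1 c * (e.2 i : ℝ) := by positivity
    have h0 : 0 ≤ mono e.1 c * (e.1 i : ℝ) := by positivity
    have h3 : k e * (mono e.1 c * (e.1 i : ℝ)) ≤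
        ε⁻¹ * (c i * b ^ (∑ j, e.1 j) * (∑ j, (e.1 j : ℝ))) :=
      mul_le_mul hke2 h1 h0 hε'.le
    nlinarith

theorem field_aesm (hk : RatesIn R ε k) {x : ℝ → Fin d → ℝ} {s : Set ℝ} (hs : MeasurableSet s)
    (hx : ContinuousOn x s) :
    AEStronglyMeasurable (fun t => field R (k t) (x t)) (volume.restrict s) := by
  unfold field
  refine Finset.aestronglyMeasurable_fun_sum _ fun e he => ?_
  refine AEStronglyMeasurable.smul_const ?_ _
  refine (hk e he).1.aestronglyMeasurable.mul ?_
  exact ((continuous_mono e.1).comp_continuousOn hx).aestronglyMeasurable hs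

theorem field_ii (hε : 0 < ε) (hk : RatesIn R ε k) {x : ℝ → Fin d → ℝ} {a b : ℝ}
    (hx : ContinuousOn x (uIcc a b)) :
    IntervalIntegrable (fun t => field R (k t) (x t)) volume a b := by
  obtain ⟨K, L, _, _, h⟩ := field_unif R ε hε (isCompact_uIcc.image_of_continuousOn hx)
  refine (intervalIntegrable_const (c := L)).mono_fun' ?_ ?_
  · exact field_aesm hk measurableSet_uIoc (hx.mono uIoc_subset_uIcc)
  · rw [EventuallyLE, ae_restrict_iff' measurableSet_uIoc]
    refine Eventually.of_forall fun t ht => ?_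
    exact (h (k t) fun e he => (hk e he).2 t).1 _ ⟨t, uIoc_subset_uIcc ht, rfl⟩

end Field

section Main

variable {d : ℕ}

theorem tb_rates {R : Finset (Rxn d)} {ε : ℝ} {k : ℝ → Rxn d → ℝ} (hk : RatesIn R ε k) (t : ℝ) :
    ∀ e ∈ R, ε ≤ k t e ∧ k t e ≤ ε⁻¹ := fun e he => (hk e he).2 t

theorem tsol_continuousOn {R : Finset (Rxn d)} {k : ℝ → Rxn d → ℝ} {x : ℝ → Fin d → ℝ} {T : ℝ}
    (hx : TSolOn R k x T) {t : ℝ} (ht : t < T) : ContinuousOn x (Icc 0 t) :=
  hx.1.mono fun _ hs => ⟨hs.1, hs.2.trans_lt ht⟩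

theorem tsol_sub {R : Finset (Rxn d)} {ε : ℝ} (hε : 0 < ε) {k : ℝ → Rxn d → ℝ}
    (hk : RatesIn R ε k) {x : ℝ → Fin d → ℝ} {T : ℝ}
    (hx : TSolOn R k x T) {s t : ℝ} (hs : 0 ≤ s) (hst : s ≤ t) (ht : t < T) :
    x t - x s = ∫ r in s..t, field R (k r) (x r) := by
  have h1 := (hx.2 t (hs.trans hst) ht).2
  have h2 := (hx.2 s hs (hst.trans_lt ht)).2
  have hc := tsol_continuousOn hx ht
  have i1 : IntervalIntegrable (fun r => field R (k r) (x r)) volume 0 s := by
    refine field_ii hε hk ?_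
    rw [uIcc_of_le hs]
    exact hc.mono (Icc_subset_Icc_right hst)
  have i2 : IntervalIntegrable (fun r => field R (k r) (x r)) volume s t := by
    refine field_ii hε hk ?_
    rw [uIcc_of_le hst]
    exact hc.mono (Icc_subset_Icc_left hs)
  have h3 := intervalIntegral.integral_add_adjacent_intervals i1 i2
  rw [h1, h2, ← h3]
  abel

theorem sol_mem_classT {d : ℕ} (R : Finset (Rxn d)) (ε : ℝ) (hε : 0 < ε) (k : ℝ → Rxn d → ℝ)
    (hk : RatesIn R ε k) (x : ℝ → Fin d → ℝ) (T : ℝ) (hx : TSolOn R k x T) :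
    ∀ t, 0 ≤ t → t < T → x t - x 0 ∈ stoich R := by
  intro t ht htT
  by_contra hne
  obtain ⟨f, hf, hker⟩ := Submodule.exists_le_ker_of_notMem hne
  have hfc : Continuous f := f.continuous_of_finiteDimensional
  let g : (Fin d → ℝ) →L[ℝ] ℝ := ⟨f, hfc⟩
  have h1 := tsol_sub hε hk hx le_rfl ht htT
  have i1 : IntervalIntegrable (fun r => field R (k r) (x r)) volume 0 t := by
    refine field_ii hε hk ?_
    rw [uIcc_of_le ht]
    exact tsol_continuousOn hx htT
  apply hf
  have h2 : g (∫ r in (0 : ℝ)..t, field R (k r) (x r)) =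
      ∫ r in (0 : ℝ)..t, g (field R (k r) (x r)) :=
    (g.intervalIntegral_comp_comm i1).symm
  have h3 : ∀ r, g (field R (k r) (x r)) = 0 := fun r => hker (field_mem_stoich R (k r) (x r))
  simp only [h3, intervalIntegral.integral_zero] at h2
  rw [h1]
  exact h2

theorem sol_uniqueT {d : ℕ} (R : Finset (Rxn d)) (ε : ℝ) (hε : 0 < ε) (k : ℝ → Rxn d → ℝ)
    (hk : RatesIn R ε k) (x y : ℝ → Fin d → ℝ) (T : ℝ) (hx : TSolOn R k x T)
    (hy : TSolOn R k y T) (h0 : x 0 = y 0) :
    ∀ t, 0 ≤ t → t < T → x t = y t := by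
  intro t ht htT
  have cx := tsol_continuousOn hx htT
  have cy := tsol_continuousOn hy htT
  obtain ⟨K, L, hK, _, hKL⟩ := field_unif R ε hε ((isCompact_Icc.image_of_continuousOn cx).union
    (isCompact_Icc.image_of_continuousOn cy))
  -- the distance, extended continuously
  set u : ℝ → ℝ := fun s => ‖x (max 0 (min s t)) - y (max 0 (min s t))‖ with hu
  have hproj : ∀ s, max 0 (min s t) ∈ Icc 0 t := fun s =>
    ⟨le_max_left _ _, max_le ht (min_le_right _ _)⟩
  have hpc : Continuous fun s : ℝ => max 0 (min s t) := by fun_prop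
  have huc : Continuous u := by
    refine Continuous.norm (Continuous.sub ?_ ?_)
    · exact cx.comp_continuous hpc hproj
    · exact cy.comp_continuous hpc hproj
  have hpe : ∀ s ∈ Icc 0 t, max 0 (min s t) = s := fun s hs => by
    rw [min_eq_left hs.2, max_eq_right hs.1]
  have hu0 : ∀ s, 0 ≤ u s := fun s => norm_nonneg _
  have hbound : ∀ s ∈ Icc 0 t, u s ≤ K * ∫ r in (0 : ℝ)..s, u r := by
    intro s hs
    have h1 := tsol_sub hε hk hx le_rfl hs.1 (hs.2.trans_lt htT)
    have h2 := tsol_sub hε hk hy le_rfl hs.1 (hs.2.trans_lt htT)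
    have i1 : IntervalIntegrable (fun r => field R (k r) (x r)) volume 0 s := by
      refine field_ii hε hk ?_
      rw [uIcc_of_le hs.1]
      exact cx.mono (Icc_subset_Icc_right hs.2)
    have i2 : IntervalIntegrable (fun r => field R (k r) (y r)) volume 0 s := by
      refine field_ii hε hk ?_
      rw [uIcc_of_le hs.1]
      exact cy.mono (Icc_subset_Icc_right hs.2)
    have h3 : x s - y s = ∫ r in (0 : ℝ)..s, (field R (k r) (x r) - field R (k r) (y r)) := by
      rw [intervalIntegral.integral_sub i1 i2, ← h1, ← h2, h0]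
      abel
    have h4 : u s = ‖x s - y s‖ := by
      rw [hu]
      dsimp only
      rw [hpe s hs]
    rw [h4, h3, ← intervalIntegral.integral_const_mul]
    refine intervalIntegral.norm_integral_le_of_norm_le hs.1 ?_ ?_
    · refine Eventually.of_forall fun r hr => ?_
      have hr' : r ∈ Icc 0 t := ⟨hr.1.le, hr.2.trans hs.2⟩
      have h5 := (hKL (k r) (tb_rates hk r)).2 _ (Or.inl ⟨r, hr', rfl⟩) _ (Or.inr ⟨r, hr', rfl⟩)
      have h6 : u r = ‖x r - y r‖ := by
        rw [hu]
        dsimp only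
        rw [hpe r hr']
      rw [h6]
      exact h5
    · exact (continuous_const.mul huc).intervalIntegrable _ _
  have hv : ∀ s ∈ Icc 0 t, ‖∫ r in (0 : ℝ)..s, u r‖ ≤ gronwallBound 0 K 0 (s - 0) := by
    refine norm_le_gronwallBound_of_norm_deriv_right_le (f' := u) ?_ ?_ ?_ ?_
    · exact (intervalIntegral.continuous_primitive
        (fun a b => huc.intervalIntegrable a b) 0).continuousOn
    · intro s hs
      exact (intervalIntegral.integral_hasDerivAt_right (huc.intervalIntegrable _ _)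
        (huc.stronglyMeasurableAtFilter _ _) huc.continuousAt).hasDerivWithinAt
    · simp
    · intro s hs
      have h7 : 0 ≤ ∫ r in (0 : ℝ)..s, u r :=
        intervalIntegral.integral_nonneg hs.1 fun r _ => hu0 r
      rw [Real.norm_eq_abs, abs_of_nonneg (hu0 s), Real.norm_eq_abs, abs_of_nonneg h7, add_zero]
      exact hbound s ⟨hs.1, hs.2.le⟩
  have h8 := hv t ⟨ht, le_rfl⟩
  rw [gronwallBound_ε0_δ0] at h8
  have h9 : ∫ r in (0 : ℝ)..t, u r = 0 := norm_le_zero_iff.1 h8
  have h10 := hbound t ⟨ht, le_rfl⟩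
  rw [h9, mul_zero] at h10
  have h11 : u t = ‖x t - y t‖ := by
    rw [hu]
    dsimp only
    rw [hpe t ⟨ht, le_rfl⟩]
  rw [h11] at h10
  exact sub_eq_zero.1 (norm_le_zero_iff.1 h10)

theorem exists_globalT {d : ℕ} (R : Finset (Rxn d)) (ε : ℝ) (hε : 0 < ε) (k : ℝ → Rxn d → ℝ)
    (hk : RatesIn R ε k) (x0 : Fin d → ℝ) (hx0 : ∀ i, 0 < x0 i)
    (M : ℝ) (hM : ∀ T : ℝ, 0 < T → ∀ x : ℝ → Fin d → ℝ, x 0 = x0 → TSolOn R k x T →
      ∀ t, 0 ≤ t → t < T → ∀ i, x t i ≤ M) :
    ∃ x : ℝ → Fin d → ℝ, x 0 = x0 ∧ TSol R k x := by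
  set b : ℝ := max M (∑ i, x0 i) + 1 + 1 with hbdef
  have hsum : 0 ≤ ∑ i, x0 i := Finset.sum_nonneg fun i _ => (hx0 i).le
  have hb1 : 1 ≤ b := by
    have := le_max_right M (∑ i, x0 i)
    linarith
  have hb0 : 0 ≤ b := by linarith
  have hMb : M < b := by
    have := le_max_left M (∑ i, x0 i)
    linarith
  have hx0b : ∀ i, x0 i < b := by
    intro i
    have h1 : x0 i ≤ ∑ i, x0 i :=
      Finset.single_le_sum (f := x0) (fun j _ => (hx0 j).le) (Finset.mem_univ i)
    have := le_max_right M (∑ i, x0 i)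
    linarith
  -- the clamped field
  have hbox : IsCompact (Icc (0 : Fin d → ℝ) (fun _ => b)) := isCompact_Icc
  obtain ⟨K, L, hK, hL, hKL⟩ := field_unif R ε hε hbox
  have hmem : ∀ x : Fin d → ℝ, clampB b x ∈ Icc (0 : Fin d → ℝ) (fun _ => b) := fun x =>
    ⟨fun i => clampB_nonneg b x i, fun i => clampB_le hb0 x i⟩
  have hFlip : ∀ t x y, ‖field R (k t) (clampB b x) - field R (k t) (clampB b y)‖ ≤
      K * ‖x - y‖ := by
    intro t x y
    refine ((hKL (k t) (tb_rates hk t)).2 _ (hmem x) _ (hmem y)).trans ?_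
    have h1 := (clampB_lip b (d := d)).dist_le_mul x y
    rw [NNReal.coe_one, one_mul, dist_eq_norm, dist_eq_norm] at h1
    exact mul_le_mul_of_nonneg_left h1 hK.le
  have hFb : ∀ t x, ‖field R (k t) (clampB b x)‖ ≤ L := fun t x =>
    (hKL (k t) (tb_rates hk t)).1 _ (hmem x)
  have hFm : ∀ y : ℝ → Fin d → ℝ, Continuous y →
      AEStronglyMeasurable (fun s => field R (k s) (clampB b (y s))) volume := by
    intro y hy
    have h1 := field_aesm hk MeasurableSet.univ
      ((((clampB_lip b (d := d)).continuous).comp hy).continuousOn (s := univ))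
    rwa [Measure.restrict_univ] at h1
  obtain ⟨Λ, hΛ0, hΛ⟩ := field_lower_unif R ε hε hb1
  obtain ⟨y, hyc, hy⟩ := carath (fun t x => field R (k t) (clampB b x)) K L hK hFlip hFb hFm x0
  have hy0 : y 0 = x0 := by
    have := hy 0 le_rfl
    rwa [intervalIntegral.integral_same, add_zero] at this
  have hii : ∀ s t, IntervalIntegrable (fun r => field R (k r) (clampB b (y r))) volume s t :=
    fun s t => tb_ii (fun t x => field R (k t) (clampB b x)) L hFb hFm y hyc s t
  have hsub : ∀ s t, 0 ≤ s → s ≤ t →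
      y t - y s = ∫ r in s..t, field R (k r) (clampB b (y r)) := by
    intro s t hs hst
    rw [hy t (hs.trans hst), hy s hs, ← intervalIntegral.integral_add_adjacent_intervals
      (hii 0 s) (hii s t)]
    abel
  -- everything is good
  have good : ∀ t, 0 ≤ t → ∀ i, 0 < y t i ∧ y t i < b := by
    by_contra hne
    push Not at hne
    obtain ⟨t1, ht1, i1, hi1⟩ := hne
    set S : Set ℝ := {t | 0 ≤ t ∧ ∃ i, ¬ (0 < y t i ∧ y t i < b)} with hS
    have hSne : S.Nonempty := ⟨t1, ht1, i1, by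
      intro h
      exact absurd h.2 (not_lt.2 (hi1 h.1))⟩
    have hSb : BddBelow S := ⟨0, fun t ht => ht.1⟩
    have hScl : IsClosed S := by
      have h1 : S = ⋃ i : Fin d, (Ici 0 ∩ (fun t => y t i) ⁻¹' {z | ¬ (0 < z ∧ z < b)}) := by
        ext t
        simp only [hS, mem_ofPred_eq, mem_iUnion, mem_inter_iff, mem_Ici, mem_preimage]
        constructor
        · rintro ⟨h, i, hi⟩; exact ⟨i, h, hi⟩
        · rintro ⟨i, h, hi⟩; exact ⟨h, i, hi⟩
      rw [h1]
      refine isClosed_iUnion_of_finite fun i => ?_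
      refine isClosed_Ici.inter (IsClosed.preimage ((continuous_apply i).comp hyc) ?_)
      have : {z : ℝ | ¬ (0 < z ∧ z < b)} = (Ioo 0 b)ᶜ := rfl
      rw [this]
      exact isOpen_Ioo.isClosed_compl
    set T := sInf S with hT
    have hTS : T ∈ S := hScl.csInf_mem hSne hSb
    have hTnn : 0 ≤ T := hTS.1
    have hbefore : ∀ t, 0 ≤ t → t < T → ∀ i, 0 < y t i ∧ y t i < b := by
      intro t ht htT
      by_contra hc
      push Not at hc
      obtain ⟨i, hi⟩ := hc
      have : t ∈ S := ⟨ht, i, fun h => absurd h.2 (not_lt.2 (hi h.1))⟩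
      exact absurd (csInf_le hSb this) (not_le.2 htT)
    have hTpos : 0 < T := by
      rcases hTnn.eq_or_lt with h | h
      · exfalso
        obtain ⟨_, i, hi⟩ := hTS
        apply hi
        rw [← h, hy0]
        exact ⟨hx0 i, hx0b i⟩
      · exact h
    have hsol : TSolOn R k y T := by
      refine ⟨hyc.continuousOn, fun t ht htT => ⟨fun i => (hbefore t ht htT i).1, ?_⟩⟩
      rw [hy0, hy t ht]
      congr 1
      refine intervalIntegral.integral_congr fun r hr => ?_
      rw [uIcc_of_le ht] at hr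
      have h2 : clampB b (y r) = y r := clampB_eq fun i =>
        ⟨(hbefore r hr.1 (hr.2.trans_lt htT) i).1.le, (hbefore r hr.1 (hr.2.trans_lt htT) i).2.le⟩
      simp only [h2]
    obtain ⟨_, i, hi⟩ := hTS
    apply hi
    have hci : Continuous fun t => y t i := (continuous_apply i).comp hyc
    constructor
    · -- positivity
      set a : ℝ := max 0 (T - 1 / (2 * (Λ + 1))) with ha
      have hΛ1 : 0 < 2 * (Λ + 1) := by linarith
      have haT : a < T := by
        rw [ha]
        refine max_lt hTpos ?_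
        have : 0 < 1 / (2 * (Λ + 1)) := by positivity
        linarith
      have ha0 : 0 ≤ a := le_max_left _ _
      obtain ⟨s, hs, hsmax⟩ := isCompact_Icc.exists_isMaxOn (nonempty_Icc.2 haT.le)
        (hci.continuousOn (s := Icc a T))
      set m : ℝ := y s i with hm
      have hle : ∀ r ∈ Icc a T, y r i ≤ m := fun r hr => hsmax hr
      have hm0 : 0 < m := lt_of_lt_of_le (hbefore a ha0 haT i).1 (hle a ⟨le_rfl, haT.le⟩)
      by_contra hc
      have hyT : y T i ≤ 0 := not_lt.1 hc
      have hsT : s ≤ T := hs.2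
      have hs0 : 0 ≤ s := ha0.trans hs.1
      have h1 := hsub s T hs0 hsT
      have h2 : (∫ r in s..T, field R (k r) (clampB b (y r))) i =
          ∫ r in s..T, field R (k r) (clampB b (y r)) i :=
        ((ContinuousLinearMap.proj (R := ℝ) (φ := fun _ : Fin d => ℝ) i).intervalIntegral_comp_comm
          (hii s T)).symm
      have h3 : IntervalIntegrable (fun r => field R (k r) (clampB b (y r)) i) volume s T :=
        ⟨(ContinuousLinearMap.proj (R := ℝ) (φ := fun _ : Fin d => ℝ) i).integrable_comp (hii s T).1,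
          (ContinuousLinearMap.proj (R := ℝ) (φ := fun _ : Fin d => ℝ) i).integrable_comp
            (hii s T).2⟩
      have h4 : ∫ _ in s..T, (-(Λ * m)) ≤ ∫ r in s..T, field R (k r) (clampB b (y r)) i := by
        refine intervalIntegral.integral_mono_on hsT intervalIntegrable_const h3 fun r hr => ?_
        have h5 := hΛ (k r) (tb_rates hk r) (clampB b (y r))
          (fun j => ⟨clampB_nonneg b _ j, clampB_le hb0 _ j⟩) i
        have h6 : clampB b (y r) i ≤ m :=
          max_le hm0.le ((min_le_right _ _).trans (hle r ⟨hs.1.trans hr.1, hr.2⟩))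
        have h7 := mul_le_mul_of_nonneg_left h6 hΛ0
        linarith
      rw [intervalIntegral.integral_const, smul_eq_mul] at h4
      have h8 : y T i - y s i = ∫ r in s..T, field R (k r) (clampB b (y r)) i := by
        rw [← h2, ← h1]
        rfl
      have h9 : T - s ≤ 1 / (2 * (Λ + 1)) := by
        have : T - 1 / (2 * (Λ + 1)) ≤ a := le_max_right _ _
        linarith [hs.1]
      have h10 : (T - s) * Λ ≤ 1 / 2 := by
        have h11 : (T - s) * Λ ≤ 1 / (2 * (Λ + 1)) * Λ := mul_le_mul_of_nonneg_right h9 hΛ0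
        have h12 : 1 / (2 * (Λ + 1)) * Λ ≤ 1 / 2 := by
          rw [div_mul_eq_mul_div, one_mul, div_le_div_iff₀ hΛ1 (by norm_num)]
          linarith
        exact h11.trans h12
      have h13 : (T - s) * (-(Λ * m)) = -((T - s) * Λ * m) := by ring
      have h14 : (T - s) * Λ * m ≤ 1 / 2 * m := mul_le_mul_of_nonneg_right h10 hm0.le
      linarith
    · -- upper bound
      refine lt_of_le_of_lt ?_ hMb
      have hle := hM T hTpos y hy0 hsol
      have hcl : T ∈ closure (Ico 0 T) := by
        rw [closure_Ico hTpos.ne]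
        exact right_mem_Icc.2 hTnn
      have h1 : ContinuousWithinAt (fun t => y t i) (Ico 0 T) T := hci.continuousWithinAt
      have h2 : (𝓝[Ico 0 T] T).NeBot := mem_closure_iff_nhdsWithin_neBot.1 hcl
      refine le_of_tendsto h1 ?_
      filter_upwards [self_mem_nhdsWithin] with t ht
      exact hle t ht.1 ht.2 i
  refine ⟨y, hy0, hyc.continuousOn, fun t ht => ⟨fun i => (good t ht i).1, ?_⟩⟩
  rw [hy0, hy t ht]
  congr 1
  refine intervalIntegral.integral_congr fun r hr => ?_
  rw [uIcc_of_le ht] at hr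
  have h2 : clampB b (y r) = y r := clampB_eq fun i =>
    ⟨(good r hr.1 i).1.le, (good r hr.1 i).2.le⟩
  simp only [h2]

end Main

end Vale.Agent.H10.WR
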