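import Vale.Agent.H10.WRThm
import Vale.Agent.H10.WRTDrift
import Vale.Agent.H10.WRTMono
import Vale.Agent.H10.WRTODE
import Vale.Agent.H10.WRDyn3

/-!
# P072, row TG3: time-dependent version of `eventual`
-/

namespace Vale.Agent.H10.WR

open Set Filter Topology MeasureTheory
open scoped BigOperators

theorem tg3_log_le {a b m : ℝ} (hm : 0 < m) (ha : m ≤ a) (hb : m ≤ b) :
    Real.log a - Real.log b ≤ |a - b| / m := by
  have ha0 : 0 < a := hm.trans_le ha
  have hb0 : 0 < b := hm.trans_le hb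
  rw [← Real.log_div ha0.ne' hb0.ne']
  have h1 := Real.log_le_sub_one_of_pos (div_pos ha0 hb0)
  have h2 : a / b - 1 = (a - b) / b := by field_simp
  rw [h2] at h1
  refine h1.trans ?_
  exact div_le_div₀ (abs_nonneg _) (le_abs_self _) hm hb

theorem tg3_log {a b m : ℝ} (hm : 0 < m) (ha : m ≤ a) (hb : m ≤ b) :
    |Real.log a - Real.log b| ≤ |a - b| / m := by
  rw [abs_le]
  constructor
  · have := tg3_log_le hm hb ha
    rw [abs_sub_comm] at this
    linarith
  · exact tg3_log_le hm ha hb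

theorem eventualT {d : ℕ} (HR : RoundingThm d) (R : Finset (Rxn d)) (hwr : WeaklyReversible R)
    (ε : ℝ) (hε : 0 < ε) :
    ∃ A : ℝ, ∀ k : ℝ → Rxn d → ℝ, RatesIn R ε k → ∀ x : ℝ → Fin d → ℝ, TSol R k x →
      (∃ m M : ℝ, 0 < m ∧ ∀ t, 0 ≤ t → ∀ i, m ≤ x t i ∧ x t i ≤ M) →
      ∃ T : ℝ, ∀ t, T ≤ t → ∃ ρ : Fin d → ℝ, (∀ e ∈ R, dot ρ (rvec e) = 0) ∧
        ∀ i, |ρ i - Real.log (x t i)| ≤ A := by
  obtain ⟨B, κ, c0, hB, hκ, hc0, hdr⟩ := drift_unif R hwr ε hε
  obtain ⟨Rmax, V, hV⟩ := HR B κ 0 hκ.le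
  refine ⟨Rmax + 1, fun k hk x hx ⟨m, M, hm, hb⟩ => ?_⟩
  have hpos : ∀ t, 0 ≤ t → ∀ i, 0 < x t i := fun t ht => (hx.2 t ht).1
  -- lower bound for the monomials
  obtain ⟨mu, hmu, hmu'⟩ := g3_exists_le R (fun e => ∏ i, m ^ e.1 i)
    (fun e _ => Finset.prod_pos fun i _ => pow_pos hm _)
  have hmono : ∀ t, 0 ≤ t → ∀ e ∈ R, mu ≤ mono e.1 (x t) := by
    intro t ht e he
    refine (hmu' e he).trans ?_
    exact Finset.prod_le_prod (fun i _ => by positivity)
      fun i _ => pow_le_pow_left₀ hm.le (hb t ht i).1 _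
  -- bound for the field
  have hbox : IsCompact (Icc (fun _ => m : Fin d → ℝ) (fun _ => M)) := isCompact_Icc
  obtain ⟨_, L1, _, hL10', hL1⟩ := field_unif R ε hε hbox
  have hfield : ∀ t, 0 ≤ t → ‖field R (k t) (x t)‖ ≤ L1 := fun t ht =>
    (hL1 (k t) (tb_rates hk t)).1 (x t) ⟨fun i => (hb t ht i).1, fun i => (hb t ht i).2⟩
  have hL10 : 0 ≤ L1 := hL10'.le
  set L : ℝ := L1 / m with hL
  have hL0 : 0 ≤ L := div_nonneg hL10 hm.le
  have hlip : ∀ s, 0 ≤ s → ∀ t, s ≤ t → ‖x t - x s‖ ≤ L1 * (t - s) := by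
    intro s hs t hst
    have hx1 : TSolOn R k x (t + 1) :=
      ⟨hx.1.mono fun r hr => hr.1, fun r hr _ => hx.2 r hr⟩
    rw [tsol_sub hε hk hx1 hs hst (by linarith)]
    have h2 : ‖∫ r in s..t, field R (k r) (x r)‖ ≤ L1 * |t - s| := by
      refine intervalIntegral.norm_integral_le_of_norm_le_const fun r hr => ?_
      rw [uIoc_of_le hst] at hr
      exact hfield r (hs.trans hr.1.le)
    rwa [abs_of_nonneg (by linarith)] at h2
  have hlip' : ∀ s, 0 ≤ s → ∀ t, 0 ≤ t → ‖x t - x s‖ ≤ L1 * |t - s| := by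
    intro s hs t ht
    rcases le_total s t with h | h
    · rw [abs_of_nonneg (by linarith)]
      exact hlip s hs t h
    · rw [abs_sub_comm, norm_sub_rev, abs_of_nonneg (by linarith)]
      exact hlip t ht s h
  have hlog : ∀ i, ∀ s, 0 ≤ s → ∀ t, 0 ≤ t →
      |Real.log (x t i) - Real.log (x s i)| ≤ L * |t - s| := by
    intro i s hs t ht
    refine (tg3_log hm (hb t ht i).1 (hb s hs i).1).trans ?_
    have h1 : |x t i - x s i| ≤ ‖x t - x s‖ := norm_le_pi_norm (x t - x s) i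
    rw [hL, div_mul_eq_mul_div]
    exact div_le_div_of_nonneg_right (h1.trans (hlip' s hs t ht)) hm.le
  set τ : ℝ := 1 / (L + 1) with hτ
  have hτ0 : 0 < τ := by positivity
  have hLτ : L * τ ≤ 1 := by
    rw [hτ, mul_one_div, div_le_one (by positivity)]; linarith
  -- W is nonincreasing
  have hanti : ∀ a b : ℝ, 0 ≤ a → a ≤ b → W V (x b) ≤ W V (x a) := by
    intro a b ha hab
    have := W_decreaseT hV R ε hε k hk x a b 0 ha hab hx
      (fun t h1 _ ρ h3 _ k' hk' => by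
        rw [neg_zero]; exact (hdr k' hk' (x t) ρ (hpos t (ha.trans h1)) h3).1)
    linarith
  -- W is bounded below
  obtain ⟨A', hA', D, hD⟩ := hV.proper
  have hbelow : ∀ t, 0 ≤ t → -D ≤ W V (x t) := by
    intro t ht
    obtain ⟨p, hp, h1⟩ := hD (x t) (hpos t ht)
    have h2 := le_W hV (hpos t ht) hp
    have h3 : 0 ≤ A' * ∑ i, x t i :=
      mul_nonneg hA'.le (Finset.sum_nonneg fun i _ => (hpos t ht i).le)
    linarith
  set S : Set ℝ := (fun t => W V (x t)) '' Ici 0 with hS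
  have hSne : S.Nonempty := ⟨_, ⟨0, mem_Ici.2 le_rfl, rfl⟩⟩
  have hSb : BddBelow S := ⟨-D, by rintro _ ⟨t, ht, rfl⟩; exact hbelow t ht⟩
  set c : ℝ := c0 * mu with hc
  have hc' : 0 < c := mul_pos hc0 hmu
  obtain ⟨_, ⟨T0, hT0, rfl⟩, hT0'⟩ := exists_lt_of_csInf_lt hSne
    (lt_add_of_pos_right (sInf S) (mul_pos hc' hτ0))
  refine ⟨T0 + τ, fun t ht => ?_⟩
  by_contra hbad
  push Not at hbad
  have hT0n : (0 : ℝ) ≤ T0 := hT0
  have ht0 : 0 ≤ t - τ := by linarith
  have hdec := W_decreaseT hV R ε hε k hk x (t - τ) t c ht0 (by linarith) hx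
    (fun s h1 h2 ρ h3 h4 k' hk' => by
      have hs0 : 0 ≤ s := ht0.trans h1
      refine (hdr k' hk' (x s) ρ (hpos s hs0) h3).2 ?_ mu hmu.le (hmono s hs0)
      by_contra hne
      push Not at hne
      obtain ⟨i, hi⟩ := hbad ρ hne
      have h5 := hlog i s hs0 t (by linarith)
      have h6 := h4 i
      have h7 : |t - s| ≤ τ := by rw [abs_le]; constructor <;> linarith
      have h8 : |ρ i - Real.log (x t i)| ≤ |ρ i - Real.log (x s i)| +
          |Real.log (x t i) - Real.log (x s i)| := by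
        have : ρ i - Real.log (x t i) = (ρ i - Real.log (x s i)) -
          (Real.log (x t i) - Real.log (x s i)) := by ring
        rw [this]; exact abs_sub _ _
      have h9 : L * |t - s| ≤ L * τ := mul_le_mul_of_nonneg_left h7 hL0
      linarith)
  have h1 := hanti T0 (t - τ) hT0n (by linarith)
  have h2 : sInf S ≤ W V (x t) := csInf_le hSb ⟨t, mem_Ici.2 (by linarith), rfl⟩
  have h3 : c * (t - (t - τ)) = c * τ := by ring
  rw [h3] at hdec
  simp only at hT0'
  linarith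

end Vale.Agent.H10.WR
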